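import Vale.Agent.P154.RotSum

/-!
# P154 (all d): the harmonic functional

For a posterior deviation `e` (sum zero, entries `> -1`) put `al = al3 e = |z|^2`, `A = cu3 e = Re z^3`,
`Q = 1 - al = ((1+e0)(1+e1) + (1+e1)(1+e2) + (1+e2)(1+e0)) / 3`, `P = (1+e0)(1+e1)(1+e2) = 1 - 3 al + 2 A`.
* `ph3 e = P / Q` is three times the harmonic mean of the posterior probabilities.
* `ah3 e = (A - al^2) / (1 - al)`, and `ph3 = 2 ah3 + 1 - 2 al3`.
* `p03` is the weight in the upper bound for the second moment of a merged experiment.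
All proofs: substitute `z = -x - y`, unfold, `field_simp`, `ring` / `nlinarith`.
`two_ah3_le`: `2 (A - al^2) ≤ al (1 - al)` iff `2 A ≤ al + al^2`, and `(al + al^2)^2 - 4 al^3 = al^2 (1 - al)^2 ≥ 0`
together with `cu3_sq_le` (`A^2 ≤ al^3`) gives `2 |A| ≤ al + al^2` (`abs_le_of_sq_le_sq` as in `Dom.A_le`).
-/

namespace Vale.Agent.P154

noncomputable def ah3 (x y z : ℝ) : ℝ := (cu3 x y z - al3 x y z ^ 2) / (1 - al3 x y z)

noncomputable def ph3 (x y z : ℝ) : ℝ := (1 + x) * (1 + y) * (1 + z) / (1 - al3 x y z)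

noncomputable def p03 (s : ℝ) : ℝ := s * (3 / 5 + 3 / 4 * (1 - s))

theorem prod_eq (x y z : ℝ) (h : x + y + z = 0) :
    (1 + x) * (1 + y) * (1 + z) = 1 - 3 * al3 x y z + 2 * cu3 x y z := by
  obtain rfl : z = -x - y := by linarith
  unfold al3 cu3
  ring

theorem one_sub_al3 (x y z : ℝ) (h : x + y + z = 0) :
    1 - al3 x y z = ((1 + x) * (1 + y) + (1 + y) * (1 + z) + (1 + z) * (1 + x)) / 3 := by
  obtain rfl : z = -x - y := by linarith
  unfold al3
  ring

theorem al3_lt_one (x y z : ℝ) (h : x + y + z = 0) (hx : -1 < x) (hy : -1 < y) (hz : -1 < z) :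
    al3 x y z < 1 := by
  have h1 := one_sub_al3 x y z h
  have p1 : 0 < (1 + x) * (1 + y) := mul_pos (by linarith) (by linarith)
  have p2 : 0 < (1 + y) * (1 + z) := mul_pos (by linarith) (by linarith)
  have p3 : 0 < (1 + z) * (1 + x) := mul_pos (by linarith) (by linarith)
  linarith

theorem ph3_eq (x y z : ℝ) (h : x + y + z = 0) (hlt : al3 x y z < 1) :
    ph3 x y z = 2 * ah3 x y z + 1 - 2 * al3 x y z := by
  have hne : 1 - al3 x y z ≠ 0 := by
    intro h0
    linarith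
  unfold ph3 ah3
  rw [prod_eq x y z h]
  field_simp
  ring

theorem ph3_nonneg (x y z : ℝ) (h : x + y + z = 0) (hx : -1 < x) (hy : -1 < y) (hz : -1 < z) :
    0 ≤ ph3 x y z := by
  have h1 := al3_lt_one x y z h hx hy hz
  unfold ph3
  apply div_nonneg
  · exact mul_nonneg (mul_nonneg (by linarith) (by linarith)) (by linarith)
  · linarith

theorem two_ah3_le (x y z : ℝ) (h : x + y + z = 0) (hlt : al3 x y z < 1) :
    2 * ah3 x y z ≤ al3 x y z := by
  have hpos : 0 < 1 - al3 x y z := by linarith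
  have hal0 : 0 ≤ al3 x y z := al3_nonneg x y z
  have hcu : cu3 x y z ^ 2 ≤ al3 x y z ^ 3 := cu3_sq_le x y z h
  have hA : 2 * cu3 x y z ≤ al3 x y z + al3 x y z ^ 2 := by
    have hnn : 0 ≤ al3 x y z + al3 x y z ^ 2 := by positivity
    have hsq : (2 * cu3 x y z) ^ 2 ≤ (al3 x y z + al3 x y z ^ 2) ^ 2 := by
      nlinarith [mul_nonneg (mul_nonneg hal0 hal0) (sq_nonneg (1 - al3 x y z))]
    exact (abs_le.mp (abs_le_of_sq_le_sq hsq hnn)).2
  unfold ah3
  rw [← mul_div_assoc, div_le_iff₀ hpos]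
  nlinarith

theorem p03_nonneg (s : ℝ) (h0 : 0 ≤ s) (h1 : s ≤ 1) : 0 ≤ p03 s := by
  unfold p03
  apply mul_nonneg h0
  linarith

theorem ah3_zero : ah3 0 0 0 = 0 := by
  unfold ah3 cu3 al3
  norm_num

end Vale.Agent.P154
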