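import Vale.Agent.P154.Dom

/-!
# P154: further algebraic quantities for the general `d`-ary tree

* `dd3 e = (1+e0)(1+e1)(1+e2)` (`27` times the product of the posterior coordinates); for sum-zero `e` it is `1 - 3 al3 + 2 cu3`.
* `crt` is the cube root, `ff3 e = (2 + dd3 e)/3 - crt (dd3 e) ≥ 0` (arithmetic minus geometric mean of `1, 1, dd3 e`).
* `gg3 = cu3 - (3/5) ff3` is the function whose expectation stays nonnegative along the recursion.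
* `gh3 = cu3 - (3/5) (al3 - (2/3) cu3)^2 ≥ gg3` is a polynomial majorant of `gg3`.
* `Kg a b = Z * gg3 (combined deviation)`.
-/

namespace Vale.Agent.P154

def dd3 (x y z : ℝ) : ℝ := (1 + x) * (1 + y) * (1 + z)

noncomputable def crt (t : ℝ) : ℝ := t ^ ((1 : ℝ) / 3)

noncomputable def ff3 (x y z : ℝ) : ℝ := (2 + dd3 x y z) / 3 - crt (dd3 x y z)

noncomputable def gg3 (x y z : ℝ) : ℝ := cu3 x y z - 3 / 5 * ff3 x y z

noncomputable def gh3 (x y z : ℝ) : ℝ :=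
  cu3 x y z - 3 / 5 * (al3 x y z - 2 / 3 * cu3 x y z) ^ 2

noncomputable def Kg (a0 a1 a2 b0 b1 b2 : ℝ) : ℝ :=
  Z3 a0 a1 a2 b0 b1 b2 *
    gg3 ((1 + a0) * (1 + b0) / Z3 a0 a1 a2 b0 b1 b2 - 1)
        ((1 + a1) * (1 + b1) / Z3 a0 a1 a2 b0 b1 b2 - 1)
        ((1 + a2) * (1 + b2) / Z3 a0 a1 a2 b0 b1 b2 - 1)

/-- `(1 - al - be) * DF al be U - NumF al be A B U = Cc al be A B` for every `U`. -/
def Cc (al be A B : ℝ) : ℝ :=
  (1 - al) ^ 2 * (1 - be) ^ 2 + be * (1 - be) * (1 - 3 * al + 2 * A)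
    + al * (1 - al) * (1 - 3 * be + 2 * B)

/-- the correction in the second moment inequality -/
noncomputable def Rg (al be A B : ℝ) : ℝ :=
  -(1 / 10) * al * be - 9 / 10 * be * (A - 3 / 5 * (al - 2 / 3 * A) ^ 2)
    - 13 / 10 * (al - A) * (B - 3 / 5 * (be - 2 / 3 * B) ^ 2)

noncomputable def Elow (al be A B : ℝ) : ℝ :=
  3 / 5 * ((2 / 3 * (1 - 3 * al + 2 * A) * (1 - (1 - 3 * al + 2 * A))) *
        (2 / 3 * (1 - 3 * be + 2 * B) * (1 - (1 - 3 * be + 2 * B)))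
      - (1 - 3 * al + 2 * A) * (1 - 3 * be + 2 * B))
    + 3 / 5 - (1 - 3 * be + 2 * B) * (A - 3 / 5 * ((2 + (1 - 3 * al + 2 * A)) / 3))
    - (1 - 3 * al + 2 * A) * (B - 3 / 5 * ((2 + (1 - 3 * be + 2 * B)) / 3))

noncomputable def PG (al be A B : ℝ) : ℝ :=
  9 / 10 * ((1 - 3 * al + 2 * A) * (1 - 3 * be + 2 * B)) * (1 - al * be) ^ 2
    - (3 / 5 * ((1 - 3 * al + 2 * A) * (1 - 3 * be + 2 * B)) + 3 / 2 * Cc al be A B) * DF al be (A * B)
    + Elow al be A B * DF al be (A * B) ^ 2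
    - 42 / 5 * ((al ^ 3 - A ^ 2) * (be ^ 3 - B ^ 2))

end Vale.Agent.P154
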