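import Mathlib

/-!
# P154: positivity of a cubic / quadratic polynomial on an interval through its Bernstein coefficients

The interval is `l ≤ v`, `k * v ≤ c` with `0 < k`.  With `s1 = v - l`, `s2 = c - k * v`, `w = c - k * l = s2 + k * s1` one has
`v * w = l * s2 + c * s1`, hence `w ^ 3 * (q0 + q1 v + q2 v^2 + q3 v^3) = bw0 * s2^3 + bw1 * s1 * s2^2 + bw2 * s1^2 * s2 + bw3 * s1^3`.
-/

namespace Vale.Agent.P154

def bw0 (q0 q1 q2 q3 l _k _c : ℝ) : ℝ := q0 + q1 * l + q2 * l ^ 2 + q3 * l ^ 3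

def bw1 (q0 q1 q2 q3 l k c : ℝ) : ℝ :=
  3 * k * q0 + q1 * (c + 2 * k * l) + q2 * (2 * l * c + k * l ^ 2) + 3 * q3 * l ^ 2 * c

def bw2 (q0 q1 q2 q3 l k c : ℝ) : ℝ :=
  3 * k ^ 2 * q0 + q1 * (2 * k * c + k ^ 2 * l) + q2 * (c ^ 2 + 2 * k * l * c) + 3 * q3 * l * c ^ 2

def bw3 (q0 q1 q2 q3 _l k c : ℝ) : ℝ := k ^ 3 * q0 + k ^ 2 * c * q1 + k * c ^ 2 * q2 + c ^ 3 * q3

theorem cubic_bern (q0 q1 q2 q3 v l k c : ℝ) (h1 : 0 ≤ v - l) (h2 : 0 ≤ c - k * v) (hk : 0 < k)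
    (b0 : 0 ≤ bw0 q0 q1 q2 q3 l k c) (b1 : 0 ≤ bw1 q0 q1 q2 q3 l k c)
    (b2 : 0 ≤ bw2 q0 q1 q2 q3 l k c) (b3 : 0 ≤ bw3 q0 q1 q2 q3 l k c) :
    0 ≤ q0 + q1 * v + q2 * v ^ 2 + q3 * v ^ 3 := by
  have hw : 0 ≤ c - k * l := by nlinarith
  rcases hw.eq_or_lt with hw0 | hw0
  · have hv : v - l = 0 := by
      have : k * (v - l) ≤ 0 := by nlinarith
      have h3 : v - l ≤ 0 := by
        by_contra hcon
        rw [not_le] at hcon
        nlinarith [mul_pos hk hcon]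
      linarith
    have hv' : v = l := by linarith
    rw [hv']
    unfold bw0 at b0
    exact b0
  · have key : (c - k * l) ^ 3 * (q0 + q1 * v + q2 * v ^ 2 + q3 * v ^ 3) =
        bw0 q0 q1 q2 q3 l k c * (c - k * v) ^ 3 + bw1 q0 q1 q2 q3 l k c * (v - l) * (c - k * v) ^ 2
          + bw2 q0 q1 q2 q3 l k c * (v - l) ^ 2 * (c - k * v) + bw3 q0 q1 q2 q3 l k c * (v - l) ^ 3 := by
      unfold bw0 bw1 bw2 bw3
      ring
    have hpos : 0 ≤ (c - k * l) ^ 3 * (q0 + q1 * v + q2 * v ^ 2 + q3 * v ^ 3) := by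
      rw [key]
      positivity
    have hw3 : 0 < (c - k * l) ^ 3 := by positivity
    exact nonneg_of_mul_nonneg_right hpos hw3

def bv0 (q0 q1 q2 l _k _c : ℝ) : ℝ := q0 + q1 * l + q2 * l ^ 2

def bv1 (q0 q1 q2 l k c : ℝ) : ℝ := 2 * k * q0 + q1 * (c + k * l) + 2 * q2 * l * c

def bv2 (q0 q1 q2 _l k c : ℝ) : ℝ := k ^ 2 * q0 + k * c * q1 + c ^ 2 * q2

theorem quad_bern (q0 q1 q2 v l k c : ℝ) (h1 : 0 ≤ v - l) (h2 : 0 ≤ c - k * v) (hk : 0 < k)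
    (b0 : 0 ≤ bv0 q0 q1 q2 l k c) (b1 : 0 ≤ bv1 q0 q1 q2 l k c) (b2 : 0 ≤ bv2 q0 q1 q2 l k c) :
    0 ≤ q0 + q1 * v + q2 * v ^ 2 := by
  have hw : 0 ≤ c - k * l := by nlinarith
  rcases hw.eq_or_lt with hw0 | hw0
  · have hv : v - l = 0 := by
      have h3 : v - l ≤ 0 := by
        by_contra hcon
        rw [not_le] at hcon
        nlinarith [mul_pos hk hcon]
      linarith
    have hv' : v = l := by linarith
    rw [hv']
    unfold bv0 at b0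
    exact b0
  · have key : (c - k * l) ^ 2 * (q0 + q1 * v + q2 * v ^ 2) =
        bv0 q0 q1 q2 l k c * (c - k * v) ^ 2 + bv1 q0 q1 q2 l k c * (v - l) * (c - k * v)
          + bv2 q0 q1 q2 l k c * (v - l) ^ 2 := by
      unfold bv0 bv1 bv2
      ring
    have hpos : 0 ≤ (c - k * l) ^ 2 * (q0 + q1 * v + q2 * v ^ 2) := by
      rw [key]
      positivity
    have hw3 : 0 < (c - k * l) ^ 2 := by positivity
    exact nonneg_of_mul_nonneg_right hpos hw3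

end Vale.Agent.P154
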