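import Vale.Agent.P154.Gen.RotG

/-!
# P154: `Cc ≤ DF` and `dd3 a * dd3 b ≤ DF`

Here `DF = DF al be U = Z Z' Z''` (`DF_eq`), all three `Z > 0`.
* `Cc_nonneg`: every summand is nonnegative.
* `Cc_le_DF`: by `Cc_eq`, `DF - Cc = (al + be) DF + NumF`, and by `N2_rot`, `3 ((al+be) DF + NumF) = ∑ N2_i Z_j Z_k ≥ 0` (`N2_nonneg`).
* `dd_le_DF`: `(1+a i)(1+b i) ≥ 0` and `amgm3` give `dd3 a * dd3 b ≤ Z^3` for each of the three rotations (the product of the three numbers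
  `(1+a i)(1+b (i+k))` is always `dd3 a * dd3 b`, and their mean is the corresponding `Z` by the sum-zero conditions).  Multiply:
  `(dd3 a dd3 b)^3 ≤ (Z Z' Z'')^3`, and take cube roots (`pow_le_pow_left₀` by contradiction, or `pow_le_pow_iff_left₀`).
-/

namespace Vale.Agent.P154

theorem Cc_nonneg (al be A B : ℝ) (ha0 : 0 ≤ al) (ha1 : al ≤ 1) (hb0 : 0 ≤ be) (hb1 : be ≤ 1)
    (hDa : 0 ≤ 1 - 3 * al + 2 * A) (hDb : 0 ≤ 1 - 3 * be + 2 * B) : 0 ≤ Cc al be A B := by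
  unfold Cc
  have h1 : 0 ≤ (1 - al) ^ 2 * (1 - be) ^ 2 := by positivity
  have h2 : 0 ≤ be * (1 - be) * (1 - 3 * al + 2 * A) :=
    mul_nonneg (mul_nonneg hb0 (by linarith)) hDa
  have h3 : 0 ≤ al * (1 - al) * (1 - 3 * be + 2 * B) :=
    mul_nonneg (mul_nonneg ha0 (by linarith)) hDb
  linarith

theorem Cc_le_DF (a0 a1 a2 b0 b1 b2 : ℝ) (ha : a0 + a1 + a2 = 0) (hb : b0 + b1 + b2 = 0)
    (h0 : 0 < Z3 a0 a1 a2 b0 b1 b2) (h1 : 0 < Z3 a0 a1 a2 b1 b2 b0)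
    (h2 : 0 < Z3 a0 a1 a2 b2 b0 b1) :
    Cc (al3 a0 a1 a2) (al3 b0 b1 b2) (cu3 a0 a1 a2) (cu3 b0 b1 b2) ≤
      DF (al3 a0 a1 a2) (al3 b0 b1 b2)
        (cu3 a0 a1 a2 * cu3 b0 b1 b2 + dl3 a0 a1 a2 * dl3 b0 b1 b2 / 108) := by
  have hrot := N2_rot a0 a1 a2 b0 b1 b2 ha hb
  have hb' : b1 + b2 + b0 = 0 := by linarith
  have hb'' : b2 + b0 + b1 = 0 := by linarith
  have n0 := N2_nonneg a0 a1 a2 b0 b1 b2 ha hb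
  have n1 := N2_nonneg a0 a1 a2 b1 b2 b0 ha hb'
  have n2 := N2_nonneg a0 a1 a2 b2 b0 b1 ha hb''
  have p0 := mul_nonneg n0 (mul_pos h1 h2).le
  have p1 := mul_nonneg n1 (mul_pos h0 h2).le
  have p2 := mul_nonneg n2 (mul_pos h0 h1).le
  have hc := Cc_eq (al3 a0 a1 a2) (al3 b0 b1 b2) (cu3 a0 a1 a2) (cu3 b0 b1 b2)
    (cu3 a0 a1 a2 * cu3 b0 b1 b2 + dl3 a0 a1 a2 * dl3 b0 b1 b2 / 108)
  nlinarith [hrot, hc, p0, p1, p2]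

/-- one rotation: the product of three nonnegative numbers with mean `Z` is at most `Z ^ 3` -/
theorem dd_le_cube (a0 a1 a2 b0 b1 b2 : ℝ) (ha : a0 + a1 + a2 = 0) (hb : b0 + b1 + b2 = 0)
    (ha0 : -1 ≤ a0) (ha1 : -1 ≤ a1) (ha2 : -1 ≤ a2) (hb0 : -1 ≤ b0) (hb1 : -1 ≤ b1) (hb2 : -1 ≤ b2) :
    dd3 a0 a1 a2 * dd3 b0 b1 b2 ≤ Z3 a0 a1 a2 b0 b1 b2 ^ 3 ∧ 0 ≤ Z3 a0 a1 a2 b0 b1 b2 := by
  have u0 : 0 ≤ (1 + a0) * (1 + b0) := mul_nonneg (by linarith) (by linarith)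
  have u1 : 0 ≤ (1 + a1) * (1 + b1) := mul_nonneg (by linarith) (by linarith)
  have u2 : 0 ≤ (1 + a2) * (1 + b2) := mul_nonneg (by linarith) (by linarith)
  have h := amgm3 _ _ _ u0 u1 u2
  have hsum : ((1 + a0) * (1 + b0) + (1 + a1) * (1 + b1) + (1 + a2) * (1 + b2)) / 3
      = Z3 a0 a1 a2 b0 b1 b2 := by
    unfold Z3
    linear_combination (1 / 3) * ha + (1 / 3) * hb
  rw [hsum] at h
  constructor
  · have : dd3 a0 a1 a2 * dd3 b0 b1 b2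
        = (1 + a0) * (1 + b0) * ((1 + a1) * (1 + b1)) * ((1 + a2) * (1 + b2)) := by
      unfold dd3; ring
    rw [this]; exact h
  · rw [← hsum]; positivity

theorem dd_le_DF (a0 a1 a2 b0 b1 b2 : ℝ) (ha : a0 + a1 + a2 = 0) (hb : b0 + b1 + b2 = 0)
    (ha0 : -1 ≤ a0) (ha1 : -1 ≤ a1) (ha2 : -1 ≤ a2) (hb0 : -1 ≤ b0) (hb1 : -1 ≤ b1) (hb2 : -1 ≤ b2) :
    dd3 a0 a1 a2 * dd3 b0 b1 b2 ≤
      DF (al3 a0 a1 a2) (al3 b0 b1 b2)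
        (cu3 a0 a1 a2 * cu3 b0 b1 b2 + dl3 a0 a1 a2 * dl3 b0 b1 b2 / 108) := by
  rw [← DF_eq a0 a1 a2 b0 b1 b2 ha hb]
  obtain ⟨c0, z0⟩ := dd_le_cube a0 a1 a2 b0 b1 b2 ha hb ha0 ha1 ha2 hb0 hb1 hb2
  obtain ⟨c1, z1⟩ := dd_le_cube a0 a1 a2 b1 b2 b0 ha (by linarith) ha0 ha1 ha2 hb1 hb2 hb0
  obtain ⟨c2, z2⟩ := dd_le_cube a0 a1 a2 b2 b0 b1 ha (by linarith) ha0 ha1 ha2 hb2 hb0 hb1
  have r1 : dd3 b1 b2 b0 = dd3 b0 b1 b2 := by unfold dd3; ring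
  have r2 : dd3 b2 b0 b1 = dd3 b0 b1 b2 := by unfold dd3; ring
  rw [r1] at c1
  rw [r2] at c2
  have hP : 0 ≤ dd3 a0 a1 a2 * dd3 b0 b1 b2 :=
    mul_nonneg (dd3_nonneg _ _ _ ha0 ha1 ha2) (dd3_nonneg _ _ _ hb0 hb1 hb2)
  set P := dd3 a0 a1 a2 * dd3 b0 b1 b2
  set x := Z3 a0 a1 a2 b0 b1 b2
  set y := Z3 a0 a1 a2 b1 b2 b0
  set z := Z3 a0 a1 a2 b2 b0 b1
  have hcube : P ^ 3 ≤ (x * y * z) ^ 3 := by
    have e1 : P * P ≤ x ^ 3 * y ^ 3 := mul_le_mul c0 c1 hP (by positivity)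
    have e2 : P * P * P ≤ x ^ 3 * y ^ 3 * z ^ 3 := mul_le_mul e1 c2 hP (by positivity)
    calc P ^ 3 = P * P * P := by ring
      _ ≤ x ^ 3 * y ^ 3 * z ^ 3 := e2
      _ = (x * y * z) ^ 3 := by ring
  have hxyz : 0 ≤ x * y * z := by positivity
  exact (pow_le_pow_iff_left₀ hP hxyz (by norm_num)).mp hcube

end Vale.Agent.P154
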