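import Vale.Agent.P154.Gen.QGdef

namespace Vale.Agent.P154

noncomputable def cG10 (x y : ℝ) : ℝ :=
    (114/5) + (-12) * y + (-336/5) * y ^ 2 + (417/5) * y ^ 3 + (102/5) * y ^ 4 + (-306/5) * y ^ 5 +
    (96/5) * y ^ 6 + (-141/5) * x + (-32/5) * x * y + (462/5) * x * y ^ 2 + (-55) * x * y ^ 3 +
    (-219/5) * x * y ^ 4 + (69/5) * x * y ^ 5 + (164/5) * x * y ^ 6 + (-64/5) * x * y ^ 7 +
    (-238/5) * x ^ 2 + (836/15) * x ^ 2 * y + (786/5) * x ^ 2 * y ^ 2 + (-276) * x ^ 2 * y ^ 3 +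
    (232/3) * x ^ 2 * y ^ 4 + (198/5) * x ^ 2 * y ^ 5 + (-788/5) * x ^ 2 * y ^ 6 +
    (2684/15) * x ^ 2 * y ^ 7 + (-288/5) * x ^ 2 * y ^ 8 + (588/5) * x ^ 3 + (-222/5) * x ^ 3 * y +
    (-2058/5) * x ^ 3 * y ^ 2 + (2166/5) * x ^ 3 * y ^ 3 + (6/5) * x ^ 3 * y ^ 4 +
    (-204/5) * x ^ 3 * y ^ 5 + (336/5) * x ^ 3 * y ^ 6 + (288/5) * x ^ 3 * y ^ 7 +
    (-192) * x ^ 3 * y ^ 8 + (384/5) * x ^ 3 * y ^ 9 + (-72) * x ^ 4 + (-36/5) * x ^ 4 * y +
    (1782/5) * x ^ 4 * y ^ 2 + (-231) * x ^ 4 * y ^ 3 + (-3042/5) * x ^ 4 * y ^ 4 +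
    (3294/5) * x ^ 4 * y ^ 5 + (1336/5) * x ^ 4 * y ^ 6 + (-3136/5) * x ^ 4 * y ^ 7 +
    (1344/5) * x ^ 4 * y ^ 8 + (128/5) * x ^ 4 * y ^ 9 + (-128/5) * x ^ 4 * y ^ 10 +
    (64/5) * x ^ 5 + (32/3) * x ^ 5 * y + (-1506/5) * x ^ 5 * y ^ 2 + (481/5) * x ^ 5 * y ^ 3 +
    (3556/3) * x ^ 5 * y ^ 4 + (-4359/5) * x ^ 5 * y ^ 5 + (-3772/5) * x ^ 5 * y ^ 6 +
    (4016/15) * x ^ 5 * y ^ 7 + (2496/5) * x ^ 5 * y ^ 8 + (-1408/5) * x ^ 5 * y ^ 9 +
    (256/15) * x ^ 5 * y ^ 10 + 180 * x ^ 6 * y ^ 2 + (354/5) * x ^ 6 * y ^ 3 +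
    (-3876/5) * x ^ 6 * y ^ 4 + (-642/5) * x ^ 6 * y ^ 5 + (4908/5) * x ^ 6 * y ^ 6 +
    (1596/5) * x ^ 6 * y ^ 7 + (-672) * x ^ 6 * y ^ 8 + (384/5) * x ^ 6 * y ^ 9 +
    (384/5) * x ^ 6 * y ^ 10 + (-192/5) * x ^ 7 * y ^ 2 + (-104) * x ^ 7 * y ^ 3 +
    (948/5) * x ^ 7 * y ^ 4 + (1848/5) * x ^ 7 * y ^ 5 + (-2172/5) * x ^ 7 * y ^ 6 +
    (-1096/5) * x ^ 7 * y ^ 7 + (384/5) * x ^ 7 * y ^ 8 + (1024/5) * x ^ 7 * y ^ 9 +
    (-512/5) * x ^ 7 * y ^ 10 + (128/5) * x ^ 8 * y ^ 3 + (-184/15) * x ^ 8 * y ^ 4 +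
    (-384/5) * x ^ 8 * y ^ 5 + (216/5) * x ^ 8 * y ^ 6 + (64/3) * x ^ 8 * y ^ 7 +
    (384/5) * x ^ 8 * y ^ 8 + (-512/5) * x ^ 8 * y ^ 9 + (512/15) * x ^ 8 * y ^ 10

noncomputable def cG10_c0 (x : ℝ) : ℝ :=
    (7444654618688/961083984375) + (-17844598609376/2883251953125) * x +
    (-148941691738784/8649755859375) * x ^ 2 + (9885832052992/320361328125) * x ^ 3 +
    (-7545320481088/576650390625) * x ^ 4 + (-5334206070112/961083984375) * x ^ 5 +
    (12194932576/2562890625) * x ^ 6 + (2040750848/115330078125) * x ^ 7 +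
    (-28272131456/69198046875) * x ^ 8

theorem cG10_c0_nonneg (x : ℝ) (hx0 : -(1 / 2) ≤ x) (hx1 : x ≤ 1) : 0 ≤ cG10_c0 x := by
  obtain ⟨u, hu⟩ : ∃ u : ℝ, u = x + 1 / 2 := ⟨_, rfl⟩
  obtain ⟨v, hv⟩ : ∃ v : ℝ, v = 1 - x := ⟨_, rfl⟩
  have hu0 : 0 ≤ u := by rw [hu]; linarith
  have hv0 : 0 ≤ v := by rw [hv]; linarith
  have e : cG10_c0 x =
      (172783715729408/2101890673828125) * v ^ 8 + (674599182076928/233543408203125) * u * v ^ 7 +
      (325193458834304/28025208984375) * u ^ 2 * v ^ 6 +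
      (1384219422056192/77847802734375) * u ^ 3 * v ^ 5 +
      (5678662222969856/420378134765625) * u ^ 4 * v ^ 4 +
      (14293662669228032/2101890673828125) * u ^ 5 * v ^ 3 +
      (4794506672103424/2101890673828125) * u ^ 6 * v ^ 2 +
      (946063319498752/2101890673828125) * u ^ 7 * v + (76166114705408/2101890673828125) * u ^ 8 := by
    rw [hu, hv]; unfold cG10_c0; ring
  rw [e]; positivity

noncomputable def cG10_c1 (x : ℝ) : ℝ :=
    (20937655660096/192216796875) + (-62240208710176/576650390625) * x +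
    (-450919366080736/1729951171875) * x ^ 2 + (33946622073728/64072265625) * x ^ 3 +
    (-139186723381312/576650390625) * x ^ 4 + (-10434998351584/192216796875) * x ^ 5 +
    (42412555232/854296875) * x ^ 6 + (-274650611008/115330078125) * x ^ 7 +
    (-139318263296/69198046875) * x ^ 8

theorem cG10_c1_nonneg (x : ℝ) (hx0 : -(1 / 2) ≤ x) (hx1 : x ≤ 1) : 0 ≤ cG10_c1 x := by
  obtain ⟨u, hu⟩ : ∃ u : ℝ, u = x + 1 / 2 := ⟨_, rfl⟩
  obtain ⟨v, hv⟩ : ∃ v : ℝ, v = 1 - x := ⟨_, rfl⟩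
  have hu0 : 0 ≤ u := by rw [hu]; linarith
  have hv0 : 0 ≤ v := by rw [hv]; linarith
  have e : cG10_c1 x =
      (310019751956992/420378134765625) * v ^ 8 + (226343886957952/5189853515625) * u * v ^ 7 +
      (23864095971939712/140126044921875) * u ^ 2 * v ^ 6 +
      (11497804879586048/46708681640625) * u ^ 3 * v ^ 5 +
      (70320452710126592/420378134765625) * u ^ 4 * v ^ 4 +
      (28886327140753408/420378134765625) * u ^ 5 * v ^ 3 +
      (10184563864997888/420378134765625) * u ^ 6 * v ^ 2 +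
      (2877194052927488/420378134765625) * u ^ 7 * v + (323937261125632/420378134765625) * u ^ 8 := by
    rw [hu, hv]; unfold cG10_c1; ring
  rw [e]; positivity

noncomputable def cG10_c2 (x : ℝ) : ℝ :=
    (4053371119616/7119140625) + (-7985619949888/12814453125) * x +
    (-254337223159712/192216796875) * x ^ 2 + (61604989862528/21357421875) * x ^ 3 +
    (-101661315686912/64072265625) * x ^ 4 + (11260398527104/64072265625) * x ^ 5 +
    (7318204448/94921875) * x ^ 6 + (-20757182144/512578125) * x ^ 7 +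
    (62739750656/7688671875) * x ^ 8

theorem cG10_c2_nonneg (x : ℝ) (hx0 : -(1 / 2) ≤ x) (hx1 : x ≤ 1) : 0 ≤ cG10_c2 x := by
  obtain ⟨u, hu⟩ : ∃ u : ℝ, u = x + 1 / 2 := ⟨_, rfl⟩
  obtain ⟨v, hv⟩ : ∃ v : ℝ, v = 1 - x := ⟨_, rfl⟩
  have hu0 : 0 ≤ u := by rw [hu]; linarith
  have hv0 : 0 ≤ v := by rw [hv]; linarith
  have e : cG10_c2 x =
      (157625675508224/46708681640625) * v ^ 8 + (756974568007808/3113912109375) * u * v ^ 7 +
      (13886798819627392/15569560546875) * u ^ 2 * v ^ 6 +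
      (19495957398439936/15569560546875) * u ^ 3 * v ^ 5 +
      (39849789389297152/46708681640625) * u ^ 4 * v ^ 4 +
      (14642166435117056/46708681640625) * u ^ 5 * v ^ 3 +
      (4562611216850944/46708681640625) * u ^ 6 * v ^ 2 +
      (1622191449604096/46708681640625) * u ^ 7 * v + (257569844854784/46708681640625) * u ^ 8 := by
    rw [hu, hv]; unfold cG10_c2; ring
  rw [e]; positivity

noncomputable def cG10_c3 (x : ℝ) : ℝ :=
    (98515624770304/64072265625) + (-355571587771456/192216796875) * x +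
    (-1910120615770528/576650390625) * x ^ 2 + (56730660491008/7119140625) * x ^ 3 +
    (-976910550801664/192216796875) * x ^ 4 + (90312575191744/64072265625) * x ^ 5 +
    (-46863825184/170859375) * x ^ 6 + (110145530816/38443359375) * x ^ 7 +
    (9050549248/922640625) * x ^ 8

theorem cG10_c3_nonneg (x : ℝ) (hx0 : -(1 / 2) ≤ x) (hx1 : x ≤ 1) : 0 ≤ cG10_c3 x := by
  obtain ⟨u, hu⟩ : ∃ u : ℝ, u = x + 1 / 2 := ⟨_, rfl⟩
  obtain ⟨v, hv⟩ : ∃ v : ℝ, v = 1 - x := ⟨_, rfl⟩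
  have hu0 : 0 ≤ u := by rw [hu]; linarith
  have hv0 : 0 ≤ v := by rw [hv]; linarith
  have e : cG10_c3 x =
      (1488939870670336/140126044921875) * v ^ 8 + (10866054768627328/15569560546875) * u * v ^ 7 +
      (112161315811732864/46708681640625) * u ^ 2 * v ^ 6 +
      (379168587955712/115330078125) * u ^ 3 * v ^ 5 +
      (308929873318582784/140126044921875) * u ^ 4 * v ^ 4 +
      (109533358386325504/140126044921875) * u ^ 5 * v ^ 3 +
      (33223997353582592/140126044921875) * u ^ 6 * v ^ 2 +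
      (12974175339044864/140126044921875) * u ^ 7 * v +
      (2239655198212096/140126044921875) * u ^ 8 := by
    rw [hu, hv]; unfold cG10_c3; ring
  rw [e]; positivity

noncomputable def cG10_c4 (x : ℝ) : ℝ :=
    (157237555125952/64072265625) + (-626071810196896/192216796875) * x +
    (-558648665511104/115330078125) * x ^ 2 + (55238253867776/4271484375) * x ^ 3 +
    (-1667546245239616/192216796875) * x ^ 4 + (169448530700512/64072265625) * x ^ 5 +
    (-251853372736/284765625) * x ^ 6 + (9613202596928/38443359375) * x ^ 7 +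
    (-259052189312/23066015625) * x ^ 8

theorem cG10_c4_nonneg (x : ℝ) (hx0 : -(1 / 2) ≤ x) (hx1 : x ≤ 1) : 0 ≤ cG10_c4 x := by
  obtain ⟨u, hu⟩ : ∃ u : ℝ, u = x + 1 / 2 := ⟨_, rfl⟩
  obtain ⟨v, hv⟩ : ∃ v : ℝ, v = 1 - x := ⟨_, rfl⟩
  have hu0 : 0 ≤ u := by rw [hu]; linarith
  have hv0 : 0 ≤ v := by rw [hv]; linarith
  have e : cG10_c4 x =
      (134389146325504/5605041796875) * v ^ 8 + (18152997671113088/15569560546875) * u * v ^ 7 +
      (179438878864166656/46708681640625) * u ^ 2 * v ^ 6 +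
      (79909547182726912/15569560546875) * u ^ 3 * v ^ 5 +
      (457620095658661376/140126044921875) * u ^ 4 * v ^ 4 +
      (6105545437315072/5605041796875) * u ^ 5 * v ^ 3 +
      (51665911097163776/140126044921875) * u ^ 6 * v ^ 2 +
      (4132439424999424/28025208984375) * u ^ 7 * v + (133104907436032/5605041796875) * u ^ 8 := by
    rw [hu, hv]; unfold cG10_c4; ring
  rw [e]; positivity

noncomputable def cG10_c5 (x : ℝ) : ℝ :=
    (88078171364288/35595703125) + (-1159010149061408/320361328125) * x +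
    (-4215553665240512/961083984375) * x ^ 2 + (1413239602775168/106787109375) * x ^ 3 +
    (-551765313746752/64072265625) * x ^ 4 + (402933568314592/320361328125) * x ^ 5 +
    (-1388502976/94921875) * x ^ 6 + (126575703296/512578125) * x ^ 7 +
    (-522924749312/7688671875) * x ^ 8

theorem cG10_c5_nonneg (x : ℝ) (hx0 : -(1 / 2) ≤ x) (hx1 : x ≤ 1) : 0 ≤ cG10_c5 x := by
  obtain ⟨u, hu⟩ : ∃ u : ℝ, u = x + 1 / 2 := ⟨_, rfl⟩
  obtain ⟨v, hv⟩ : ∃ v : ℝ, v = 1 - x := ⟨_, rfl⟩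
  have hu0 : 0 ≤ u := by rw [hu]; linarith
  have hv0 : 0 ≤ v := by rw [hv]; linarith
  have e : cG10_c5 x =
      (8679905101650944/233543408203125) * v ^ 8 + (93435289948387072/77847802734375) * u * v ^ 7 +
      (61390868662903808/15569560546875) * u ^ 2 * v ^ 6 +
      (393213194503462144/77847802734375) * u ^ 3 * v ^ 5 +
      (135988188171347456/46708681640625) * u ^ 4 * v ^ 4 +
      (228722863988197376/233543408203125) * u ^ 5 * v ^ 3 +
      (92714010151555072/233543408203125) * u ^ 6 * v ^ 2 +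
      (34105880342388736/233543408203125) * u ^ 7 * v +
      (4692472372281344/233543408203125) * u ^ 8 := by
    rw [hu, hv]; unfold cG10_c5; ring
  rw [e]; positivity

noncomputable def cG10_c6 (x : ℝ) : ℝ :=
    (104653158854272/64072265625) + (-500870527545472/192216796875) * x +
    (-1399570470965632/576650390625) * x ^ 2 + (184976423825536/21357421875) * x ^ 3 +
    (-1043284891352704/192216796875) * x ^ 4 + (-56986713764288/64072265625) * x ^ 5 +
    (1492379980672/854296875) * x ^ 6 + (-17332008365056/38443359375) * x ^ 7 +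
    (436644425728/23066015625) * x ^ 8

theorem cG10_c6_nonneg (x : ℝ) (hx0 : -(1 / 2) ≤ x) (hx1 : x ≤ 1) : 0 ≤ cG10_c6 x := by
  obtain ⟨u, hu⟩ : ∃ u : ℝ, u = x + 1 / 2 := ⟨_, rfl⟩
  obtain ⟨v, hv⟩ : ∃ v : ℝ, v = 1 - x := ⟨_, rfl⟩
  have hu0 : 0 ≤ u := by rw [hu]; linarith
  have hv0 : 0 ≤ v := by rw [hv]; linarith
  have e : cG10_c6 x =
      (5283284858005504/140126044921875) * v ^ 8 + (12327876714743296/15569560546875) * u * v ^ 7 +
      (125485773455816704/46708681640625) * u ^ 2 * v ^ 6 +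
      (16457060764652032/5189853515625) * u ^ 3 * v ^ 5 +
      (237819626547313664/140126044921875) * u ^ 4 * v ^ 4 +
      (91310695091101696/140126044921875) * u ^ 5 * v ^ 3 +
      (40917217663164416/140126044921875) * u ^ 6 * v ^ 2 +
      (12641201030291456/140126044921875) * u ^ 7 * v +
      (1418592650051584/140126044921875) * u ^ 8 := by
    rw [hu, hv]; unfold cG10_c6; ring
  rw [e]; positivity

noncomputable def cG10_c7 (x : ℝ) : ℝ :=
    (46111709171584/64072265625) + (-9432157065856/7688671875) * x +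
    (-449001537542656/576650390625) * x ^ 2 + (25214194544896/7119140625) * x ^ 3 +
    (-440721563710336/192216796875) * x ^ 4 + (-19422366861952/21357421875) * x ^ 5 +
    (435535426304/284765625) * x ^ 6 + (-4415922046976/7688671875) * x ^ 7 +
    (1612182028288/23066015625) * x ^ 8

theorem cG10_c7_nonneg (x : ℝ) (hx0 : -(1 / 2) ≤ x) (hx1 : x ≤ 1) : 0 ≤ cG10_c7 x := by
  obtain ⟨u, hu⟩ : ∃ u : ℝ, u = x + 1 / 2 := ⟨_, rfl⟩
  obtain ⟨v, hv⟩ : ∃ v : ℝ, v = 1 - x := ⟨_, rfl⟩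
  have hu0 : 0 ≤ u := by rw [hu]; linarith
  have hv0 : 0 ≤ v := by rw [hv]; linarith
  have e : cG10_c7 x =
      (3332219299827712/140126044921875) * v ^ 8 + (1087469291580416/3113912109375) * u * v ^ 7 +
      (56214569156786176/46708681640625) * u ^ 2 * v ^ 6 +
      (2257186178919424/1729951171875) * u ^ 3 * v ^ 5 +
      (100245527892832256/140126044921875) * u ^ 4 * v ^ 4 +
      (45610442371760128/140126044921875) * u ^ 5 * v ^ 3 +
      (19292920875057152/140126044921875) * u ^ 6 * v ^ 2 +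
      (4772594387714048/140126044921875) * u ^ 7 * v + (430865656840192/140126044921875) * u ^ 8 := by
    rw [hu, hv]; unfold cG10_c7; ring
  rw [e]; positivity

noncomputable def cG10_c8 (x : ℝ) : ℝ :=
    (1506270461696/7119140625) + (-23854676340992/64072265625) * x +
    (-28533792820736/192216796875) * x ^ 2 + (19308436926464/21357421875) * x ^ 3 +
    (-42742129772288/64072265625) * x ^ 4 + (-12836704791296/64072265625) * x ^ 5 +
    (2942683648/6328125) * x ^ 6 + (-2697456647168/12814453125) * x ^ 7 +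
    (9888229376/307546875) * x ^ 8

theorem cG10_c8_nonneg (x : ℝ) (hx0 : -(1 / 2) ≤ x) (hx1 : x ≤ 1) : 0 ≤ cG10_c8 x := by
  obtain ⟨u, hu⟩ : ∃ u : ℝ, u = x + 1 / 2 := ⟨_, rfl⟩
  obtain ⟨v, hv⟩ : ∃ v : ℝ, v = 1 - x := ⟨_, rfl⟩
  have hu0 : 0 ≤ u := by rw [hu]; linarith
  have hv0 : 0 ≤ v := by rw [hv]; linarith
  have e : cG10_c8 x =
      (403171968991232/46708681640625) * v ^ 8 + (1633628220633088/15569560546875) * u * v ^ 7 +
      (5394448742821888/15569560546875) * u ^ 2 * v ^ 6 +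
      (1141100037552128/3113912109375) * u ^ 3 * v ^ 5 +
      (10491523153788928/46708681640625) * u ^ 4 * v ^ 4 +
      (5025631556354048/46708681640625) * u ^ 5 * v ^ 3 +
      (1792571997159424/46708681640625) * u ^ 6 * v ^ 2 +
      (351547063533568/46708681640625) * u ^ 7 * v + (25725333143552/46708681640625) * u ^ 8 := by
    rw [hu, hv]; unfold cG10_c8; ring
  rw [e]; positivity

noncomputable def cG10_c9 (x : ℝ) : ℝ :=
    (7486944027136/192216796875) + (-39143564443648/576650390625) * x +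
    (-1807728735232/69198046875) * x ^ 2 + (1968281147392/12814453125) * x ^ 3 +
    (-72956511451648/576650390625) * x ^ 4 + (293317666816/192216796875) * x ^ 5 +
    (125894926336/2562890625) * x ^ 6 + (-2954608377856/115330078125) * x ^ 7 +
    (298651131904/69198046875) * x ^ 8

theorem cG10_c9_nonneg (x : ℝ) (hx0 : -(1 / 2) ≤ x) (hx1 : x ≤ 1) : 0 ≤ cG10_c9 x := by
  obtain ⟨u, hu⟩ : ∃ u : ℝ, u = x + 1 / 2 := ⟨_, rfl⟩
  obtain ⟨v, hv⟩ : ∃ v : ℝ, v = 1 - x := ⟨_, rfl⟩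
  have hu0 : 0 ≤ u := by rw [hu]; linarith
  have hv0 : 0 ≤ v := by rw [hv]; linarith
  have e : cG10_c9 x =
      (131842197487616/84075626953125) * v ^ 8 + (927398354796544/46708681640625) * u * v ^ 7 +
      (8605535114887168/140126044921875) * u ^ 2 * v ^ 6 +
      (1071859088146432/15569560546875) * u ^ 3 * v ^ 5 +
      (18786257023459328/420378134765625) * u ^ 4 * v ^ 4 +
      (1635894109405184/84075626953125) * u ^ 5 * v ^ 3 +
      (2369000563539968/420378134765625) * u ^ 6 * v ^ 2 +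
      (74603520065536/84075626953125) * u ^ 7 * v + (4500085538816/84075626953125) * u ^ 8 := by
    rw [hu, hv]; unfold cG10_c9; ring
  rw [e]; positivity

noncomputable def cG10_c10 (x : ℝ) : ℝ :=
    (3286656601088/961083984375) + (-16438334775296/2883251953125) * x +
    (-37033820493824/8649755859375) * x ^ 2 + (5074792640512/320361328125) * x ^ 3 +
    (-1203982539776/115330078125) * x ^ 4 + (-2771533402112/961083984375) * x ^ 5 +
    (5767184384/854296875) * x ^ 6 + (-366067499008/115330078125) * x ^ 7 +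
    (36293459968/69198046875) * x ^ 8

theorem cG10_c10_nonneg (x : ℝ) (hx0 : -(1 / 2) ≤ x) (hx1 : x ≤ 1) : 0 ≤ cG10_c10 x := by
  obtain ⟨u, hu⟩ : ∃ u : ℝ, u = x + 1 / 2 := ⟨_, rfl⟩
  obtain ⟨v, hv⟩ : ∃ v : ℝ, v = 1 - x := ⟨_, rfl⟩
  have hu0 : 0 ≤ u := by rw [hu]; linarith
  have hv0 : 0 ≤ v := by rw [hv]; linarith
  have e : cG10_c10 x =
      (228806708953088/2101890673828125) * v ^ 8 + (127634683396096/77847802734375) * u * v ^ 7 +
      (794124642353152/140126044921875) * u ^ 2 * v ^ 6 +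
      (1470714785529856/233543408203125) * u ^ 3 * v ^ 5 +
      (1598061181288448/420378134765625) * u ^ 4 * v ^ 4 +
      (2959398058852352/2101890673828125) * u ^ 5 * v ^ 3 +
      (699084228788224/2101890673828125) * u ^ 6 * v ^ 2 +
      (90258509135872/2101890673828125) * u ^ 7 * v + (4573456498688/2101890673828125) * u ^ 8 := by
    rw [hu, hv]; unfold cG10_c10; ring
  rw [e]; positivity

theorem cG10_id (x y : ℝ) : cG10 x y =
      cG10_c0 x * (5 / 7 - y) ^ 10 + cG10_c1 x * (y + 5 / 14) * (5 / 7 - y) ^ 9 + cG10_c2 x * (y +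
      5 / 14) ^ 2 * (5 / 7 - y) ^ 8 + cG10_c3 x * (y + 5 / 14) ^ 3 * (5 / 7 - y) ^ 7 +
      cG10_c4 x * (y + 5 / 14) ^ 4 * (5 / 7 - y) ^ 6 + cG10_c5 x * (y +
      5 / 14) ^ 5 * (5 / 7 - y) ^ 5 + cG10_c6 x * (y + 5 / 14) ^ 6 * (5 / 7 - y) ^ 4 +
      cG10_c7 x * (y + 5 / 14) ^ 7 * (5 / 7 - y) ^ 3 + cG10_c8 x * (y +
      5 / 14) ^ 8 * (5 / 7 - y) ^ 2 + cG10_c9 x * (y + 5 / 14) ^ 9 * (5 / 7 - y) +
      cG10_c10 x * (y + 5 / 14) ^ 10 := by
  unfold cG10 cG10_c0 cG10_c1 cG10_c2 cG10_c3 cG10_c4 cG10_c5 cG10_c6 cG10_c7 cG10_c8 cG10_c9 cG10_c10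
  ring

theorem cG10_nonneg (x y : ℝ) (hx0 : -(1 / 2) ≤ x) (hx1 : x ≤ 1) (hy0 : -(5 / 14) ≤ y)
    (hy1 : y ≤ 5 / 7) : 0 ≤ cG10 x y := by
  rw [cG10_id]
  have hs0 : 0 ≤ y + 5 / 14 := by linarith
  have ht0 : 0 ≤ 5 / 7 - y := by linarith
  have h0 := cG10_c0_nonneg x hx0 hx1
  have h1 := cG10_c1_nonneg x hx0 hx1
  have h2 := cG10_c2_nonneg x hx0 hx1
  have h3 := cG10_c3_nonneg x hx0 hx1
  have h4 := cG10_c4_nonneg x hx0 hx1
  have h5 := cG10_c5_nonneg x hx0 hx1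
  have h6 := cG10_c6_nonneg x hx0 hx1
  have h7 := cG10_c7_nonneg x hx0 hx1
  have h8 := cG10_c8_nonneg x hx0 hx1
  have h9 := cG10_c9_nonneg x hx0 hx1
  have h10 := cG10_c10_nonneg x hx0 hx1
  generalize y + 5 / 14 = s at *
  generalize 5 / 7 - y = t at *
  positivity

theorem cG10_eq (x y : ℝ) : cG10 x y =
    bw0 (bw1 (qG00 x y) (qG10 x y) (qG20 x y) (qG30 x y) (x ^ 2) (3 - 2 * x) 1)
      (bw1 (qG01 x y) (qG11 x y) (qG21 x y) (qG31 x y) (x ^ 2) (3 - 2 * x) 1)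
      (bw1 (qG02 x y) (qG12 x y) (qG22 x y) (qG32 x y) (x ^ 2) (3 - 2 * x) 1)
      (bw1 (qG03 x y) (qG13 x y) (qG23 x y) (qG33 x y) (x ^ 2) (3 - 2 * x) 1)
      (y ^ 2) (15 / 7 - 2 * y) (125 / 343) := by
  unfold cG10 bw0 bw1 qG00 qG01 qG02 qG03 qG10 qG11 qG12 qG13 qG20 qG21 qG22 qG23 qG30 qG31 qG32 qG33
  ring

end Vale.Agent.P154
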