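import Vale.Agent.P154.Gen.QGdef

namespace Vale.Agent.P154

noncomputable def cG11 (x y : ℝ) : ℝ :=
    (5982/49) + (-314787/1715) * y + (-66588/343) * y ^ 2 + (997482/1715) * y ^ 3 +
    (-543714/1715) * y ^ 4 + (-4674/35) * y ^ 5 + (5724/35) * y ^ 6 + (-192/5) * y ^ 7 +
    (-7233/49) * x + (185243/1715) * x * y + (693996/1715) * x * y ^ 2 +
    (-1020864/1715) * x * y ^ 3 + (47057/343) * x * y ^ 4 + (205529/1715) * x * y ^ 5 +
    (1494/35) * x * y ^ 6 + (-3256/35) * x * y ^ 7 + (128/5) * x * y ^ 8 + (-85308/343) * x ^ 2 +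
    (931764/1715) * x ^ 2 * y + (1902022/5145) * x ^ 2 * y ^ 2 + (-3057492/1715) * x ^ 2 * y ^ 3 +
    (432342/343) * x ^ 2 * y ^ 4 + (-6546/343) * x ^ 2 * y ^ 5 + (-346728/1715) * x ^ 2 * y ^ 6 +
    (484/7) * x ^ 2 * y ^ 7 + (-184/15) * x ^ 2 * y ^ 8 + 606 * x ^ 3 +
    (-1428864/1715) * x ^ 3 * y + (-2569884/1715) * x ^ 3 * y ^ 2 +
    (5956596/1715) * x ^ 3 * y ^ 3 + (-2811702/1715) * x ^ 3 * y ^ 4 +
    (-12504/343) * x ^ 3 * y ^ 5 + (-290616/1715) * x ^ 3 * y ^ 6 + (209856/1715) * x ^ 3 * y ^ 7 +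
    (-114210/343) * x ^ 4 + (14775/49) * x ^ 4 * y + (2020878/1715) * x ^ 4 * y ^ 2 +
    (-3319254/1715) * x ^ 4 * y ^ 3 + (-118036/343) * x ^ 4 * y ^ 4 +
    (3809474/1715) * x ^ 4 * y ^ 5 + (-314652/245) * x ^ 4 * y ^ 6 +
    (488608/1715) * x ^ 4 * y ^ 7 + (-69952/1715) * x ^ 4 * y ^ 8 + (-9426/343) * x ^ 5 +
    (46013/1715) * x ^ 5 * y + (-560398/1029) * x ^ 5 * y ^ 2 + (1683552/1715) * x ^ 5 * y ^ 3 +
    (424374/245) * x ^ 5 * y ^ 4 + (-1466449/343) * x ^ 5 * y ^ 5 +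
    (3058974/1715) * x ^ 5 * y ^ 6 + (126072/343) * x ^ 5 * y ^ 7 +
    (-880864/5145) * x ^ 5 * y ^ 8 + (22500/343) * x ^ 6 + (8850/343) * x ^ 6 * y +
    (87600/343) * x ^ 6 * y ^ 2 + (-174984/343) * x ^ 6 * y ^ 3 + (-2493468/1715) * x ^ 6 * y ^ 4 +
    (3335058/1715) * x ^ 6 * y ^ 5 + (307536/245) * x ^ 6 * y ^ 6 +
    (-3150564/1715) * x ^ 6 * y ^ 7 + (629688/1715) * x ^ 6 * y ^ 8 + (-4800/343) * x ^ 7 +
    (-13000/343) * x ^ 7 * y + (-18348/343) * x ^ 7 * y ^ 2 + (-5568/245) * x ^ 7 * y ^ 3 +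
    (228128/343) * x ^ 7 * y ^ 4 + (6952/343) * x ^ 7 * y ^ 5 + (-2720148/1715) * x ^ 7 * y ^ 6 +
    (1915152/1715) * x ^ 7 * y ^ 7 + (-230416/1715) * x ^ 7 * y ^ 8 + (3200/343) * x ^ 8 * y +
    (-4600/1029) * x ^ 8 * y ^ 2 + (18432/343) * x ^ 8 * y ^ 3 + (-211776/1715) * x ^ 8 * y ^ 4 +
    (-171424/1715) * x ^ 8 * y ^ 5 + (566184/1715) * x ^ 8 * y ^ 6 +
    (-261776/1715) * x ^ 8 * y ^ 7 + (-5504/1029) * x ^ 8 * y ^ 8

noncomputable def cG11_c0 (x : ℝ) : ℝ :=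
    (21704532416/284765625) + (-52025068832/854296875) * x + (-3039626362016/17940234375) * x ^ 2 +
    (1412261721856/4651171875) * x ^ 3 + (-7545320481088/58604765625) * x ^ 4 +
    (-5334206070112/97674609375) * x ^ 5 + (12194932576/260465625) * x ^ 6 +
    (2040750848/11720953125) * x ^ 7 + (-28272131456/7032571875) * x ^ 8

theorem cG11_c0_nonneg (x : ℝ) (hx0 : -(1 / 2) ≤ x) (hx1 : x ≤ 1) : 0 ≤ cG11_c0 x := by
  obtain ⟨u, hu⟩ : ∃ u : ℝ, u = x + 1 / 2 := ⟨_, rfl⟩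
  obtain ⟨v, hv⟩ : ∃ v : ℝ, v = 1 - x := ⟨_, rfl⟩
  have hu0 : 0 ≤ u := by rw [hu]; linarith
  have hv0 : 0 ≤ v := by rw [hv]; linarith
  have e : cG11_c0 x =
      (503742611456/622782421875) * v ^ 8 + (674599182076928/23734930078125) * u * v ^ 7 +
      (325193458834304/2848191609375) * u ^ 2 * v ^ 6 +
      (1384219422056192/7911643359375) * u ^ 3 * v ^ 5 +
      (5678662222969856/42722874140625) * u ^ 4 * v ^ 4 +
      (14293662669228032/213614370703125) * u ^ 5 * v ^ 3 +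
      (4794506672103424/213614370703125) * u ^ 6 * v ^ 2 +
      (2758202097664/622782421875) * u ^ 7 * v + (222058643456/622782421875) * u ^ 8 := by
    rw [hu, hv]; unfold cG11_c0; ring
  rw [e]; positivity

noncomputable def cG11_c1 (x : ℝ) : ℝ :=
    (211993341616/284765625) + (-641284133272/854296875) * x +
    (-31246434261976/17940234375) * x ^ 2 + (16663319494016/4651171875) * x ^ 3 +
    (-19218517662832/11720953125) * x ^ 4 + (-38320815779912/97674609375) * x ^ 5 +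
    (97343587528/260465625) * x ^ 6 + (-385860564032/11720953125) * x ^ 7 +
    (-79697486368/7032571875) * x ^ 8

theorem cG11_c1_nonneg (x : ℝ) (hx0 : -(1 / 2) ≤ x) (hx1 : x ≤ 1) : 0 ≤ cG11_c1 x := by
  obtain ⟨u, hu⟩ : ∃ u : ℝ, u = x + 1 / 2 := ⟨_, rfl⟩
  obtain ⟨v, hv⟩ : ∃ v : ℝ, v = 1 - x := ⟨_, rfl⟩
  have hu0 : 0 ≤ u := by rw [hu]; linarith
  have hv0 : 0 ≤ v := by rw [hv]; linarith
  have e : cG11_c1 x =
      (3702362223616/622782421875) * v ^ 8 + (789476996856832/2637214453125) * u * v ^ 7 +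
      (16572579572436512/14240958046875) * u ^ 2 * v ^ 6 +
      (39714862554193856/23734930078125) * u ^ 3 * v ^ 5 +
      (48586654397264128/42722874140625) * u ^ 4 * v ^ 4 +
      (100403448018468352/213614370703125) * u ^ 5 * v ^ 3 +
      (35350295257063424/213614370703125) * u ^ 6 * v ^ 2 +
      (28804070703104/622782421875) * u ^ 7 * v + (3211841929216/622782421875) * u ^ 8 := by
    rw [hu, hv]; unfold cG11_c1; ring
  rw [e]; positivity

noncomputable def cG11_c2 (x : ℝ) : ℝ :=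
    (696553180064/284765625) + (-2402011838528/854296875) * x +
    (-95729809393664/17940234375) * x ^ 2 + (8153097147232/664453125) * x ^ 3 +
    (-56911384561216/8372109375) * x ^ 4 + (663995706512/4651171875) * x ^ 5 +
    (10901840288/12403125) * x ^ 6 + (-460996760848/1674421875) * x ^ 7 +
    (25331586976/1004653125) * x ^ 8

theorem cG11_c2_nonneg (x : ℝ) (hx0 : -(1 / 2) ≤ x) (hx1 : x ≤ 1) : 0 ≤ cG11_c2 x := by
  obtain ⟨u, hu⟩ : ∃ u : ℝ, u = x + 1 / 2 := ⟨_, rfl⟩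
  obtain ⟨v, hv⟩ : ∃ v : ℝ, v = 1 - x := ⟨_, rfl⟩
  have hu0 : 0 ≤ u := by rw [hu]; linarith
  have hv0 : 0 ≤ v := by rw [hv]; linarith
  have e : cG11_c2 x =
      (13869328452224/622782421875) * v ^ 8 + (3575703198120416/3390704296875) * u * v ^ 7 +
      (313495149439552/81376903125) * u ^ 2 * v ^ 6 +
      (1994625503479808/376744921875) * u ^ 3 * v ^ 5 +
      (21570907644365312/6103267734375) * u ^ 4 * v ^ 4 +
      (41479380524347904/30516338671875) * u ^ 5 * v ^ 3 +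
      (13710795765756928/30516338671875) * u ^ 6 * v ^ 2 +
      (90956454240256/622782421875) * u ^ 7 * v + (13185228161024/622782421875) * u ^ 8 := by
    rw [hu, hv]; unfold cG11_c2; ring
  rw [e]; positivity

noncomputable def cG11_c3 (x : ℝ) : ℝ :=
    (1082745656944/284765625) + (-4305386246248/854296875) * x +
    (-131372608627984/17940234375) * x ^ 2 + (13046957302592/664453125) * x ^ 3 +
    (-19467142165456/1674421875) * x ^ 4 + (2155188664856/13953515625) * x ^ 5 +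
    (47566795856/37209375) * x ^ 6 + (-195507860096/1674421875) * x ^ 7 +
    (-36679380736/1004653125) * x ^ 8

theorem cG11_c3_nonneg (x : ℝ) (hx0 : -(1 / 2) ≤ x) (hx1 : x ≤ 1) : 0 ≤ cG11_c3 x := by
  obtain ⟨u, hu⟩ : ∃ u : ℝ, u = x + 1 / 2 := ⟨_, rfl⟩
  obtain ⟨v, hv⟩ : ∃ v : ℝ, v = 1 - x := ⟨_, rfl⟩
  have hu0 : 0 ≤ u := by rw [hu]; linarith
  have hv0 : 0 ≤ v := by rw [hv]; linarith
  have e : cG11_c3 x =
      (32226775270144/622782421875) * v ^ 8 + (5892795088264256/3390704296875) * u * v ^ 7 +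
      (12309300696978944/2034422578125) * u ^ 2 * v ^ 6 +
      (26979820322769472/3390704296875) * u ^ 3 * v ^ 5 +
      (29759159862407296/6103267734375) * u ^ 4 * v ^ 4 +
      (55477917059060224/30516338671875) * u ^ 5 * v ^ 3 +
      (21187806988940288/30516338671875) * u ^ 6 * v ^ 2 +
      (139849447694336/622782421875) * u ^ 7 * v + (17708444114944/622782421875) * u ^ 8 := by
    rw [hu, hv]; unfold cG11_c3; ring
  rw [e]; positivity

noncomputable def cG11_c4 (x : ℝ) : ℝ :=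
    (37189916288/11390625) + (-167269618784/34171875) * x + (-728804361664/143521875) * x ^ 2 +
    (88613205344/5315625) * x ^ 3 + (-16839015826016/1674421875) * x ^ 4 +
    (-1212911435408/558140625) * x ^ 5 + (135237258848/37209375) * x ^ 6 +
    (-61028196928/66976875) * x ^ 7 + (25228415872/1004653125) * x ^ 8

theorem cG11_c4_nonneg (x : ℝ) (hx0 : -(1 / 2) ≤ x) (hx1 : x ≤ 1) : 0 ≤ cG11_c4 x := by
  obtain ⟨u, hu⟩ : ∃ u : ℝ, u = x + 1 / 2 := ⟨_, rfl⟩
  obtain ⟨v, hv⟩ : ∃ v : ℝ, v = 1 - x := ⟨_, rfl⟩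
  have hu0 : 0 ≤ u := by rw [hu]; linarith
  have hv0 : 0 ≤ v := by rw [hv]; linarith
  have e : cG11_c4 x =
      (362073800704/4982259375) * v ^ 8 + (207862415879168/135628171875) * u * v ^ 7 +
      (2164206477172736/406884515625) * u ^ 2 * v ^ 6 +
      (292178010460544/45209390625) * u ^ 3 * v ^ 5 +
      (4480910658846976/1220653546875) * u ^ 4 * v ^ 4 +
      (371149983213568/244130709375) * u ^ 5 * v ^ 3 +
      (779999503937536/1220653546875) * u ^ 6 * v ^ 2 + (894599432192/4982259375) * u ^ 7 * v +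
      (93508784128/4982259375) * u ^ 8 := by
    rw [hu, hv]; unfold cG11_c4; ring
  rw [e]; positivity

noncomputable def cG11_c5 (x : ℝ) : ℝ :=
    (482415309376/284765625) + (-2380525231552/854296875) * x +
    (-32667574754176/17940234375) * x ^ 2 + (747715270784/94921875) * x ^ 3 +
    (-41795134823744/8372109375) * x ^ 4 + (-29812563334976/13953515625) * x ^ 5 +
    (1739857408/496125) * x ^ 6 + (-2228798905856/1674421875) * x ^ 7 +
    (32868249088/200930625) * x ^ 8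

theorem cG11_c5_nonneg (x : ℝ) (hx0 : -(1 / 2) ≤ x) (hx1 : x ≤ 1) : 0 ≤ cG11_c5 x := by
  obtain ⟨u, hu⟩ : ∃ u : ℝ, u = x + 1 / 2 := ⟨_, rfl⟩
  obtain ⟨v, hv⟩ : ∃ v : ℝ, v = 1 - x := ⟨_, rfl⟩
  have hu0 : 0 ≤ u := by rw [hu]; linarith
  have hv0 : 0 ≤ v := by rw [hv]; linarith
  have e : cG11_c5 x =
      (35673858390016/622782421875) * v ^ 8 + (2736024327340544/3390704296875) * u * v ^ 7 +
      (1137662883928576/406884515625) * u ^ 2 * v ^ 6 +
      (10550958818933248/3390704296875) * u ^ 3 * v ^ 5 +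
      (11040719241515008/6103267734375) * u ^ 4 * v ^ 4 +
      (25778629061902336/30516338671875) * u ^ 5 * v ^ 3 +
      (10273971947159552/30516338671875) * u ^ 6 * v ^ 2 +
      (49074790498304/622782421875) * u ^ 7 * v + (4238855766016/622782421875) * u ^ 8 := by
    rw [hu, hv]; unfold cG11_c5; ring
  rw [e]; positivity

noncomputable def cG11_c6 (x : ℝ) : ℝ :=
    (156433469696/284765625) + (-812199708032/854296875) * x +
    (-6789591779456/17940234375) * x ^ 2 + (211570741504/94921875) * x ^ 3 +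
    (-2724213154688/1674421875) * x ^ 4 + (-2125173640832/4651171875) * x ^ 5 +
    (40435643392/37209375) * x ^ 6 + (-823505476096/1674421875) * x ^ 7 +
    (75047723008/1004653125) * x ^ 8

theorem cG11_c6_nonneg (x : ℝ) (hx0 : -(1 / 2) ≤ x) (hx1 : x ≤ 1) : 0 ≤ cG11_c6 x := by
  obtain ⟨u, hu⟩ : ∃ u : ℝ, u = x + 1 / 2 := ⟨_, rfl⟩
  obtain ⟨v, hv⟩ : ∃ v : ℝ, v = 1 - x := ⟨_, rfl⟩
  have hu0 : 0 ≤ u := by rw [hu]; linarith
  have hv0 : 0 ≤ v := by rw [hv]; linarith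
  have e : cG11_c6 x =
      (14219982135296/622782421875) * v ^ 8 + (306199252103168/1130234765625) * u * v ^ 7 +
      (1804301845267456/2034422578125) * u ^ 2 * v ^ 6 +
      (3274262952782848/3390704296875) * u ^ 3 * v ^ 5 +
      (3708186956201984/6103267734375) * u ^ 4 * v ^ 4 +
      (8748656308207616/30516338671875) * u ^ 5 * v ^ 3 +
      (2998453344673792/30516338671875) * u ^ 6 * v ^ 2 +
      (11798517121024/622782421875) * u ^ 7 * v + (845095632896/622782421875) * u ^ 8 := by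
    rw [hu, hv]; unfold cG11_c6; ring
  rw [e]; positivity

noncomputable def cG11_c7 (x : ℝ) : ℝ :=
    (29680303744/284765625) + (-154632767488/854296875) * x +
    (-1341836287744/17940234375) * x ^ 2 + (1938636475904/4651171875) * x ^ 3 +
    (-19744106037632/58604765625) * x ^ 4 + (-12082824704/3617578125) * x ^ 5 +
    (35799119872/260465625) * x ^ 6 + (-830168969216/11720953125) * x ^ 7 +
    (83736147968/7032571875) * x ^ 8

theorem cG11_c7_nonneg (x : ℝ) (hx0 : -(1 / 2) ≤ x) (hx1 : x ≤ 1) : 0 ≤ cG11_c7 x := by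
  obtain ⟨u, hu⟩ : ∃ u : ℝ, u = x + 1 / 2 := ⟨_, rfl⟩
  obtain ⟨v, hv⟩ : ∃ v : ℝ, v = 1 - x := ⟨_, rfl⟩
  have hu0 : 0 ≤ u := by rw [hu]; linarith
  have hv0 : 0 ≤ v := by rw [hv]; linarith
  have e : cG11_c7 x =
      (2569141141504/622782421875) * v ^ 8 + (1254973956042752/23734930078125) * u * v ^ 7 +
      (469982987862016/2848191609375) * u ^ 2 * v ^ 6 +
      (4387150276931584/23734930078125) * u ^ 3 * v ^ 5 +
      (5096079551186944/42722874140625) * u ^ 4 * v ^ 4 +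
      (10964187698495488/213614370703125) * u ^ 5 * v ^ 3 +
      (3136021761622016/213614370703125) * u ^ 6 * v ^ 2 +
      (1425179672576/622782421875) * u ^ 7 * v + (85332066304/622782421875) * u ^ 8 := by
    rw [hu, hv]; unfold cG11_c7; ring
  rw [e]; positivity

noncomputable def cG11_c8 (x : ℝ) : ℝ :=
    (2395522304/284765625) + (-11981293568/854296875) * x + (-188948063744/17940234375) * x ^ 2 +
    (181242594304/4651171875) * x ^ 3 + (-300995634944/11720953125) * x ^ 4 +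
    (-692883350528/97674609375) * x ^ 5 + (1441796096/86821875) * x ^ 6 +
    (-91516874752/11720953125) * x ^ 7 + (9073364992/7032571875) * x ^ 8

theorem cG11_c8_nonneg (x : ℝ) (hx0 : -(1 / 2) ≤ x) (hx1 : x ≤ 1) : 0 ≤ cG11_c8 x := by
  obtain ⟨u, hu⟩ : ∃ u : ℝ, u = x + 1 / 2 := ⟨_, rfl⟩
  obtain ⟨v, hv⟩ : ∃ v : ℝ, v = 1 - x := ⟨_, rfl⟩
  have hu0 : 0 ≤ u := by rw [hu]; linarith
  have hv0 : 0 ≤ v := by rw [hv]; linarith
  have e : cG11_c8 x =
      (166768738304/622782421875) * v ^ 8 + (31908670849024/7911643359375) * u * v ^ 7 +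
      (198531160588288/14240958046875) * u ^ 2 * v ^ 6 +
      (367678696382464/23734930078125) * u ^ 3 * v ^ 5 +
      (399515295322112/42722874140625) * u ^ 4 * v ^ 4 +
      (739849514713088/213614370703125) * u ^ 5 * v ^ 3 +
      (174771057197056/213614370703125) * u ^ 6 * v ^ 2 + (65786085376/622782421875) * u ^ 7 * v +
      (3333423104/622782421875) * u ^ 8 := by
    rw [hu, hv]; unfold cG11_c8; ring
  rw [e]; positivity

theorem cG11_id (x y : ℝ) : cG11 x y =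
      cG11_c0 x * (5 / 7 - y) ^ 8 + cG11_c1 x * (y + 5 / 14) * (5 / 7 - y) ^ 7 + cG11_c2 x * (y +
      5 / 14) ^ 2 * (5 / 7 - y) ^ 6 + cG11_c3 x * (y + 5 / 14) ^ 3 * (5 / 7 - y) ^ 5 +
      cG11_c4 x * (y + 5 / 14) ^ 4 * (5 / 7 - y) ^ 4 + cG11_c5 x * (y +
      5 / 14) ^ 5 * (5 / 7 - y) ^ 3 + cG11_c6 x * (y + 5 / 14) ^ 6 * (5 / 7 - y) ^ 2 +
      cG11_c7 x * (y + 5 / 14) ^ 7 * (5 / 7 - y) + cG11_c8 x * (y + 5 / 14) ^ 8 := by
  unfold cG11 cG11_c0 cG11_c1 cG11_c2 cG11_c3 cG11_c4 cG11_c5 cG11_c6 cG11_c7 cG11_c8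
  ring

theorem cG11_nonneg (x y : ℝ) (hx0 : -(1 / 2) ≤ x) (hx1 : x ≤ 1) (hy0 : -(5 / 14) ≤ y)
    (hy1 : y ≤ 5 / 7) : 0 ≤ cG11 x y := by
  rw [cG11_id]
  have hs0 : 0 ≤ y + 5 / 14 := by linarith
  have ht0 : 0 ≤ 5 / 7 - y := by linarith
  have h0 := cG11_c0_nonneg x hx0 hx1
  have h1 := cG11_c1_nonneg x hx0 hx1
  have h2 := cG11_c2_nonneg x hx0 hx1
  have h3 := cG11_c3_nonneg x hx0 hx1
  have h4 := cG11_c4_nonneg x hx0 hx1
  have h5 := cG11_c5_nonneg x hx0 hx1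
  have h6 := cG11_c6_nonneg x hx0 hx1
  have h7 := cG11_c7_nonneg x hx0 hx1
  have h8 := cG11_c8_nonneg x hx0 hx1
  generalize y + 5 / 14 = s at *
  generalize 5 / 7 - y = t at *
  positivity

theorem cG11_eq (x y : ℝ) : cG11 x y =
    bw1 (bw1 (qG00 x y) (qG10 x y) (qG20 x y) (qG30 x y) (x ^ 2) (3 - 2 * x) 1)
      (bw1 (qG01 x y) (qG11 x y) (qG21 x y) (qG31 x y) (x ^ 2) (3 - 2 * x) 1)
      (bw1 (qG02 x y) (qG12 x y) (qG22 x y) (qG32 x y) (x ^ 2) (3 - 2 * x) 1)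
      (bw1 (qG03 x y) (qG13 x y) (qG23 x y) (qG33 x y) (x ^ 2) (3 - 2 * x) 1)
      (y ^ 2) (15 / 7 - 2 * y) (125 / 343) := by
  unfold cG11 bw1 qG00 qG01 qG02 qG03 qG10 qG11 qG12 qG13 qG20 qG21 qG22 qG23 qG30 qG31 qG32 qG33
  ring

end Vale.Agent.P154
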