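import Vale.Agent.P154.Gen.QGdef

namespace Vale.Agent.P154

noncomputable def cG12 (x y : ℝ) : ℝ :=
    (25222140/117649) + (-62530728/117649) * y + (109670832/588245) * y ^ 2 +
    (1655817/2401) * y ^ 3 + (-11436204/12005) * y ^ 4 + (806364/1715) * y ^ 5 + (-384/5) * y ^ 6 +
    (-4187880/16807) * x + (49202787/117649) * x * y + (156813912/588245) * x * y ^ 2 +
    (-610391881/588245) * x * y ^ 3 + (10139298/12005) * x * y ^ 4 + (-567540/2401) * x * y ^ 5 +
    (-1832/343) * x * y ^ 6 + (-48164880/117649) * x ^ 2 + (157271946/117649) * x ^ 2 * y +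
    (-479270314/588245) * x ^ 2 * y ^ 2 + (-485855156/252105) * x ^ 2 * y ^ 3 +
    (1881006306/588245) * x ^ 2 * y ^ 4 + (-3997744/2401) * x ^ 2 * y ^ 5 +
    (284408/1029) * x ^ 2 * y ^ 6 + (114903630/117649) * x ^ 3 + (-278176146/117649) * x ^ 3 * y +
    (38339514/588245) * x ^ 3 * y ^ 2 + (2907024774/588245) * x ^ 3 * y ^ 3 +
    (-3167412888/588245) * x ^ 3 * y ^ 4 + (1029572856/588245) * x ^ 3 * y ^ 5 +
    (96/5) * x ^ 3 * y ^ 6 + (-58512600/117649) * x ^ 4 + (112874760/117649) * x ^ 4 * y +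
    (56817326/117649) * x ^ 4 * y ^ 2 + (-1492813183/588245) * x ^ 4 * y ^ 3 +
    (144349746/84035) * x ^ 4 * y ^ 4 + (56104892/117649) * x ^ 4 * y ^ 5 +
    (-341846392/588245) * x ^ 4 * y ^ 6 + (-18382110/117649) * x ^ 5 +
    (34274547/117649) * x ^ 5 * y + (-17975618/588245) * x ^ 5 * y ^ 2 +
    (50610713/352947) * x ^ 5 * y ^ 3 + (-148058346/588245) * x ^ 5 * y ^ 4 +
    (-292922724/588245) * x ^ 5 * y ^ 5 + (161560232/352947) * x ^ 5 * y ^ 6 +
    (23062500/117649) * x ^ 6 + (-19866750/117649) * x ^ 6 * y + (-5229600/16807) * x ^ 6 * y ^ 2 +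
    (-14526870/117649) * x ^ 6 * y ^ 3 + (11406072/16807) * x ^ 6 * y ^ 4 +
    (38608224/588245) * x ^ 6 * y ^ 5 + (-176818512/588245) * x ^ 6 * y ^ 6 +
    (-5256000/117649) * x ^ 7 + (-964200/16807) * x ^ 7 * y + (25142860/117649) * x ^ 7 * y ^ 2 +
    (7312528/117649) * x ^ 7 * y ^ 3 + (-63049332/588245) * x ^ 7 * y ^ 4 +
    (-37810832/117649) * x ^ 7 * y ^ 5 + (141457712/588245) * x ^ 7 * y ^ 6 +
    (3504000/117649) * x ^ 8 * y + (-5969400/117649) * x ^ 8 * y ^ 2 +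
    (6464480/352947) * x ^ 8 * y ^ 3 + (-7733112/117649) * x ^ 8 * y ^ 4 +
    (80642048/588245) * x ^ 8 * y ^ 5 + (-117469664/1764735) * x ^ 8 * y ^ 6

noncomputable def cG12_c0 (x : ℝ) : ℝ :=
    (3100647488/12403125) + (-52025068832/260465625) * x + (-3039626362016/5469778125) * x ^ 2 +
    (1412261721856/1418090625) * x ^ 3 + (-7545320481088/17867941875) * x ^ 4 +
    (-5334206070112/29779903125) * x ^ 5 + (12194932576/79413075) * x ^ 6 +
    (2040750848/3573588375) * x ^ 7 + (-28272131456/2144153025) * x ^ 8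

theorem cG12_c0_nonneg (x : ℝ) (hx0 : -(1 / 2) ≤ x) (hx1 : x ≤ 1) : 0 ≤ cG12_c0 x := by
  obtain ⟨u, hu⟩ : ∃ u : ℝ, u = x + 1 / 2 := ⟨_, rfl⟩
  obtain ⟨v, hv⟩ : ∃ v : ℝ, v = 1 - x := ⟨_, rfl⟩
  have hu0 : 0 ≤ u := by rw [hu]; linarith
  have hv0 : 0 ≤ v := by rw [hv]; linarith
  have e : cG12_c0 x =
      (71963230208/27125634375) * v ^ 8 + (674599182076928/7236516459375) * u * v ^ 7 +
      (325193458834304/868381975125) * u ^ 2 * v ^ 6 +
      (1384219422056192/2412172153125) * u ^ 3 * v ^ 5 +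
      (5678662222969856/13025729626875) * u ^ 4 * v ^ 4 +
      (14293662669228032/65128648134375) * u ^ 5 * v ^ 3 +
      (4794506672103424/65128648134375) * u ^ 6 * v ^ 2 +
      (2758202097664/189879440625) * u ^ 7 * v + (222058643456/189879440625) * u ^ 8 := by
    rw [hu, hv]; unfold cG12_c0; ring
  rw [e]; positivity

noncomputable def cG12_c1 (x : ℝ) : ℝ :=
    (5655859232/4134375) + (-41697399376/28940625) * x + (-5493562770544/1823259375) * x ^ 2 +
    (3026350597504/472696875) * x ^ 3 + (-17666151082336/5955980625) * x ^ 4 +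
    (-24466639801904/29779903125) * x ^ 5 + (13489901872/15882615) * x ^ 6 +
    (-165690172352/1191196125) * x ^ 7 + (-1338447296/142943535) * x ^ 8

theorem cG12_c1_nonneg (x : ℝ) (hx0 : -(1 / 2) ≤ x) (hx1 : x ≤ 1) : 0 ≤ cG12_c1 x := by
  obtain ⟨u, hu⟩ : ∃ u : ℝ, u = x + 1 / 2 := ⟨_, rfl⟩
  obtain ⟨v, hv⟩ : ∃ v : ℝ, v = 1 - x := ⟨_, rfl⟩
  have hu0 : 0 ≤ u := by rw [hu]; linarith
  have hv0 : 0 ≤ v := by rw [hv]; linarith
  have e : cG12_c1 x =
      (137404099072/9041878125) * v ^ 8 + (149078186307968/268019128125) * u * v ^ 7 +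
      (3093687724311104/1447303291875) * u ^ 2 * v ^ 6 +
      (7313566903485824/2412172153125) * u ^ 3 * v ^ 5 +
      (8950952028133888/4341909875625) * u ^ 4 * v ^ 4 +
      (18791753444389888/21709549378125) * u ^ 5 * v ^ 3 +
      (6592590396379136/21709549378125) * u ^ 6 * v ^ 2 + (5222179045376/63293146875) * u ^ 7 * v +
      (567188783104/63293146875) * u ^ 8 := by
    rw [hu, hv]; unfold cG12_c1; ring
  rw [e]; positivity

noncomputable def cG12_c2 (x : ℝ) : ℝ :=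
    (891646136/459375) + (-224932036016/86821875) * x + (-6011556978088/1823259375) * x ^ 2 +
    (1477376333936/157565625) * x ^ 3 + (-10604660845936/1985326875) * x ^ 4 +
    (-43184943288128/29779903125) * x ^ 5 + (168621290128/79413075) * x ^ 6 +
    (-594435184976/1191196125) * x ^ 7 + (-224405536/714717675) * x ^ 8

theorem cG12_c2_nonneg (x : ℝ) (hx0 : -(1 / 2) ≤ x) (hx1 : x ≤ 1) : 0 ≤ cG12_c2 x := by
  obtain ⟨u, hu⟩ : ∃ u : ℝ, u = x + 1 / 2 := ⟨_, rfl⟩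
  obtain ⟨v, hv⟩ : ∃ v : ℝ, v = 1 - x := ⟨_, rfl⟩
  have hu0 : 0 ≤ u := by rw [hu]; linarith
  have hv0 : 0 ≤ v := by rw [hv]; linarith
  have e : cG12_c2 x =
      (348774626944/9041878125) * v ^ 8 + (6258173171343392/7236516459375) * u * v ^ 7 +
      (4499105126080384/1447303291875) * u ^ 2 * v ^ 6 +
      (28745605283057024/7236516459375) * u ^ 3 * v ^ 5 +
      (10703568848764672/4341909875625) * u ^ 4 * v ^ 4 +
      (24080393360382976/21709549378125) * u ^ 5 * v ^ 3 +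
      (9339626837745152/21709549378125) * u ^ 6 * v ^ 2 + (6758741860352/63293146875) * u ^ 7 * v +
      (646370295808/63293146875) * u ^ 8 := by
    rw [hu, hv]; unfold cG12_c2; ring
  rw [e]; positivity

noncomputable def cG12_c3 (x : ℝ) : ℝ :=
    (16066161688/12403125) + (-524989001752/260465625) * x + (-7574207617696/5469778125) * x ^ 2 +
    (7760552917136/1418090625) * x ^ 3 + (-58676730934904/17867941875) * x ^ 4 +
    (-5339525376568/3308878125) * x ^ 5 + (7856274064/3176523) * x ^ 6 +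
    (-3323836666112/3573588375) * x ^ 7 + (47761022464/428830605) * x ^ 8

theorem cG12_c3_nonneg (x : ℝ) (hx0 : -(1 / 2) ≤ x) (hx1 : x ≤ 1) : 0 ≤ cG12_c3 x := by
  obtain ⟨u, hu⟩ : ∃ u : ℝ, u = x + 1 / 2 := ⟨_, rfl⟩
  obtain ⟨v, hv⟩ : ∃ v : ℝ, v = 1 - x := ⟨_, rfl⟩
  have hu0 : 0 ≤ u := by rw [hu]; linarith
  have hv0 : 0 ≤ v := by rw [hv]; linarith
  have e : cG12_c3 x =
      (1232399957248/27125634375) * v ^ 8 + (4340800088931008/7236516459375) * u * v ^ 7 +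
      (9077324429933696/4341909875625) * u ^ 2 * v ^ 6 +
      (17640587069185216/7236516459375) * u ^ 3 * v ^ 5 +
      (19848030600124672/13025729626875) * u ^ 4 * v ^ 4 +
      (47260447021422592/65128648134375) * u ^ 5 * v ^ 3 +
      (17542845040922624/65128648134375) * u ^ 6 * v ^ 2 +
      (11287011037184/189879440625) * u ^ 7 * v + (921937985536/189879440625) * u ^ 8 := by
    rw [hu, hv]; unfold cG12_c3; ring
  rw [e]; positivity

noncomputable def cG12_c4 (x : ℝ) : ℝ :=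
    (1988699024/4134375) + (-1129596752/1378125) * x + (-601417143328/1823259375) * x ^ 2 +
    (125849640064/67528125) * x ^ 3 + (-8002508917936/5955980625) * x ^ 4 +
    (-10453133324528/29779903125) * x ^ 5 + (68119419104/79413075) * x ^ 6 +
    (-462609673664/1191196125) * x ^ 7 + (41960715392/714717675) * x ^ 8

theorem cG12_c4_nonneg (x : ℝ) (hx0 : -(1 / 2) ≤ x) (hx1 : x ≤ 1) : 0 ≤ cG12_c4 x := by
  obtain ⟨u, hu⟩ : ∃ u : ℝ, u = x + 1 / 2 := ⟨_, rfl⟩
  obtain ⟨v, hv⟩ : ∃ v : ℝ, v = 1 - x := ⟨_, rfl⟩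
  have hu0 : 0 ≤ u := by rw [hu]; linarith
  have hv0 : 0 ≤ v := by rw [hv]; linarith
  have e : cG12_c4 x =
      (26161841152/1291696875) * v ^ 8 + (189721910375168/804057384375) * u * v ^ 7 +
      (1110103943581952/1447303291875) * u ^ 2 * v ^ 6 +
      (2067644527603328/2412172153125) * u ^ 3 * v ^ 5 +
      (95694018620416/173676395025) * u ^ 4 * v ^ 4 +
      (5556890235053056/21709549378125) * u ^ 5 * v ^ 3 +
      (1832223576215552/21709549378125) * u ^ 6 * v ^ 2 + (144434364416/9041878125) * u ^ 7 * v +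
      (10116235264/9041878125) * u ^ 8 := by
    rw [hu, hv]; unfold cG12_c4; ring
  rw [e]; positivity

noncomputable def cG12_c5 (x : ℝ) : ℝ :=
    (127285024/1378125) + (-13884505088/86821875) * x + (-18223623232/260465625) * x ^ 2 +
    (58885529728/157565625) * x ^ 3 + (-65583593248/220591875) * x ^ 4 +
    (-254779904384/29779903125) * x ^ 5 + (2006225408/15882615) * x ^ 6 +
    (-76807153664/1191196125) * x ^ 7 + (1546825216/142943535) * x ^ 8

theorem cG12_c5_nonneg (x : ℝ) (hx0 : -(1 / 2) ≤ x) (hx1 : x ≤ 1) : 0 ≤ cG12_c5 x := by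
  obtain ⟨u, hu⟩ : ∃ u : ℝ, u = x + 1 / 2 := ⟨_, rfl⟩
  obtain ⟨v, hv⟩ : ∃ v : ℝ, v = 1 - x := ⟨_, rfl⟩
  have hu0 : 0 ≤ u := by rw [hu]; linarith
  have hv0 : 0 ≤ v := by rw [hv]; linarith
  have e : cG12_c5 x =
      (32570355712/9041878125) * v ^ 8 + (337674992147456/7236516459375) * u * v ^ 7 +
      (212370508324864/1447303291875) * u ^ 2 * v ^ 6 +
      (1188707243328512/7236516459375) * u ^ 3 * v ^ 5 +
      (457966237209088/4341909875625) * u ^ 4 * v ^ 4 +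
      (975336434434048/21709549378125) * u ^ 5 * v ^ 3 +
      (275899401568256/21709549378125) * u ^ 6 * v ^ 2 + (124247146496/63293146875) * u ^ 7 * v +
      (7388790784/63293146875) * u ^ 8 := by
    rw [hu, hv]; unfold cG12_c5; ring
  rw [e]; positivity

noncomputable def cG12_c6 (x : ℝ) : ℝ :=
    (85554368/12403125) + (-2995323392/260465625) * x + (-47237015936/5469778125) * x ^ 2 +
    (45310648576/1418090625) * x ^ 3 + (-75248908736/3573588375) * x ^ 4 +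
    (-173220837632/29779903125) * x ^ 5 + (360449024/26471025) * x ^ 6 +
    (-22879218688/3573588375) * x ^ 7 + (2268341248/2144153025) * x ^ 8

theorem cG12_c6_nonneg (x : ℝ) (hx0 : -(1 / 2) ≤ x) (hx1 : x ≤ 1) : 0 ≤ cG12_c6 x := by
  obtain ⟨u, hu⟩ : ∃ u : ℝ, u = x + 1 / 2 := ⟨_, rfl⟩
  obtain ⟨v, hv⟩ : ∃ v : ℝ, v = 1 - x := ⟨_, rfl⟩
  have hu0 : 0 ≤ u := by rw [hu]; linarith
  have hv0 : 0 ≤ v := by rw [hv]; linarith
  have e : cG12_c6 x =
      (5956026368/27125634375) * v ^ 8 + (7977167712256/2412172153125) * u * v ^ 7 +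
      (49632790147072/4341909875625) * u ^ 2 * v ^ 6 +
      (91919674095616/7236516459375) * u ^ 3 * v ^ 5 +
      (99878823830528/13025729626875) * u ^ 4 * v ^ 4 +
      (184962378678272/65128648134375) * u ^ 5 * v ^ 3 +
      (43692764299264/65128648134375) * u ^ 6 * v ^ 2 + (16446521344/189879440625) * u ^ 7 * v +
      (833355776/189879440625) * u ^ 8 := by
    rw [hu, hv]; unfold cG12_c6; ring
  rw [e]; positivity

theorem cG12_id (x y : ℝ) : cG12 x y =
      cG12_c0 x * (5 / 7 - y) ^ 6 + cG12_c1 x * (y + 5 / 14) * (5 / 7 - y) ^ 5 + cG12_c2 x * (y +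
      5 / 14) ^ 2 * (5 / 7 - y) ^ 4 + cG12_c3 x * (y + 5 / 14) ^ 3 * (5 / 7 - y) ^ 3 +
      cG12_c4 x * (y + 5 / 14) ^ 4 * (5 / 7 - y) ^ 2 + cG12_c5 x * (y + 5 / 14) ^ 5 * (5 / 7 - y) +
      cG12_c6 x * (y + 5 / 14) ^ 6 := by
  unfold cG12 cG12_c0 cG12_c1 cG12_c2 cG12_c3 cG12_c4 cG12_c5 cG12_c6
  ring

theorem cG12_nonneg (x y : ℝ) (hx0 : -(1 / 2) ≤ x) (hx1 : x ≤ 1) (hy0 : -(5 / 14) ≤ y)
    (hy1 : y ≤ 5 / 7) : 0 ≤ cG12 x y := by
  rw [cG12_id]
  have hs0 : 0 ≤ y + 5 / 14 := by linarith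
  have ht0 : 0 ≤ 5 / 7 - y := by linarith
  have h0 := cG12_c0_nonneg x hx0 hx1
  have h1 := cG12_c1_nonneg x hx0 hx1
  have h2 := cG12_c2_nonneg x hx0 hx1
  have h3 := cG12_c3_nonneg x hx0 hx1
  have h4 := cG12_c4_nonneg x hx0 hx1
  have h5 := cG12_c5_nonneg x hx0 hx1
  have h6 := cG12_c6_nonneg x hx0 hx1
  generalize y + 5 / 14 = s at *
  generalize 5 / 7 - y = t at *
  positivity

theorem cG12_eq (x y : ℝ) : cG12 x y =
    bw2 (bw1 (qG00 x y) (qG10 x y) (qG20 x y) (qG30 x y) (x ^ 2) (3 - 2 * x) 1)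
      (bw1 (qG01 x y) (qG11 x y) (qG21 x y) (qG31 x y) (x ^ 2) (3 - 2 * x) 1)
      (bw1 (qG02 x y) (qG12 x y) (qG22 x y) (qG32 x y) (x ^ 2) (3 - 2 * x) 1)
      (bw1 (qG03 x y) (qG13 x y) (qG23 x y) (qG33 x y) (x ^ 2) (3 - 2 * x) 1)
      (y ^ 2) (15 / 7 - 2 * y) (125 / 343) := by
  unfold cG12 bw2 bw1 qG00 qG01 qG02 qG03 qG10 qG11 qG12 qG13 qG20 qG21 qG22 qG23 qG30 qG31 qG32 qG33
  ring

end Vale.Agent.P154
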