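import Vale.Agent.P154.Gen.QGdef

namespace Vale.Agent.P154

noncomputable def cG13 (x y : ℝ) : ℝ :=
    (101428200/823543) + (-349758585/823543) * y + (451312296/823543) * y ^ 2 +
    (-185015988/588245) * y ^ 3 + (23328/343) * y ^ 4 + (-15719400/117649) * x +
    (285988140/823543) * x * y + (-203160144/823543) * x * y ^ 2 +
    (-52539236/4117715) * x * y ^ 3 + (26973144/588245) * x * y ^ 4 +
    (-8469109350/40353607) * x ^ 2 + (37325403330/40353607) * x ^ 2 * y +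
    (-63360007638/40353607) * x ^ 2 * y ^ 2 + (4932897212/4117715) * x ^ 2 * y ^ 3 +
    (-606206512/1764735) * x ^ 2 * y ^ 4 + (19027718100/40353607) * x ^ 3 +
    (-67556471580/40353607) * x ^ 3 * y + (92740327788/40353607) * x ^ 3 * y ^ 2 +
    (-294017208288/201768035) * x ^ 3 * y ^ 3 + (621168/1715) * x ^ 3 * y ^ 4 +
    (-9136995750/40353607) * x ^ 4 + (28010182275/40353607) * x ^ 4 * y +
    (-4862537850/5764801) * x ^ 4 * y ^ 2 + (21308707036/40353607) * x ^ 4 * y ^ 3 +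
    (-30265960184/201768035) * x ^ 4 * y ^ 4 + (-4348753200/40353607) * x ^ 5 +
    (13667118960/40353607) * x ^ 5 * y + (-10862670096/40353607) * x ^ 5 * y ^ 2 +
    (-14533672684/201768035) * x ^ 5 * y ^ 3 + (4239068536/40353607) * x ^ 5 * y ^ 4 +
    (5133375000/40353607) * x ^ 6 + (-11614477500/40353607) * x ^ 6 * y +
    (277209000/5764801) * x ^ 6 * y ^ 2 + (10960718100/40353607) * x ^ 6 * y ^ 3 +
    (-6238237800/40353607) * x ^ 6 * y ^ 4 + (-25920000/823543) * x ^ 7 +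
    (377316000/40353607) * x ^ 7 * y + (7074229200/40353607) * x ^ 7 * y ^ 2 +
    (-10311204000/40353607) * x ^ 7 * y ^ 3 + (4056492800/40353607) * x ^ 7 * y ^ 4 +
    (17280000/823543) * x ^ 8 * y + (-2585964000/40353607) * x ^ 8 * y ^ 2 +
    (2634101200/40353607) * x ^ 8 * y ^ 3 + (-2650741600/121060821) * x ^ 8 * y ^ 4

noncomputable def cG13_c0 (x : ℝ) : ℝ :=
    (3100647488/11344725) + (-52025068832/238239225) * x + (-3039626362016/5003023725) * x ^ 2 +
    (1412261721856/1297080225) * x ^ 3 + (-7545320481088/16343210835) * x ^ 4 +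
    (-5334206070112/27238684725) * x ^ 5 + (60974662880/363182463) * x ^ 6 +
    (2040750848/3268642167) * x ^ 7 + (-141360657280/9805926501) * x ^ 8

theorem cG13_c0_nonneg (x : ℝ) (hx0 : -(1 / 2) ≤ x) (hx1 : x ≤ 1) : 0 ≤ cG13_c0 x := by
  obtain ⟨u, hu⟩ : ∃ u : ℝ, u = x + 1 / 2 := ⟨_, rfl⟩
  obtain ⟨v, hv⟩ : ∃ v : ℝ, v = 1 - x := ⟨_, rfl⟩
  have hu0 : 0 ≤ u := by rw [hu]; linarith
  have hv0 : 0 ≤ v := by rw [hv]; linarith
  have e : cG13_c0 x =
      (71963230208/24810913575) * v ^ 8 + (674599182076928/6619000388175) * u * v ^ 7 +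
      (325193458834304/794280046581) * u ^ 2 * v ^ 6 +
      (1384219422056192/2206333462725) * u ^ 3 * v ^ 5 +
      (5678662222969856/11914200698715) * u ^ 4 * v ^ 4 +
      (14293662669228032/59571003493575) * u ^ 5 * v ^ 3 +
      (4794506672103424/59571003493575) * u ^ 6 * v ^ 2 +
      (2758202097664/173676395025) * u ^ 7 * v + (222058643456/173676395025) * u ^ 8 := by
    rw [hu, hv]; unfold cG13_c0; ring
  rw [e]; positivity

noncomputable def cG13_c1 (x : ℝ) : ℝ :=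
    (3650392304/11344725) + (-109269055496/238239225) * x + (-1714942361288/5003023725) * x ^ 2 +
    (1494784091008/1297080225) * x ^ 3 + (-9904318179856/16343210835) * x ^ 4 +
    (-10612463823896/27238684725) * x ^ 5 + (20864128440/40353607) * x ^ 6 +
    (-608280470080/3268642167) * x ^ 7 + (197720337440/9805926501) * x ^ 8

theorem cG13_c1_nonneg (x : ℝ) (hx0 : -(1 / 2) ≤ x) (hx1 : x ≤ 1) : 0 ≤ cG13_c1 x := by
  obtain ⟨u, hu⟩ : ∃ u : ℝ, u = x + 1 / 2 := ⟨_, rfl⟩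
  obtain ⟨v, hv⟩ : ∃ v : ℝ, v = 1 - x := ⟨_, rfl⟩
  have hu0 : 0 ≤ u := by rw [hu]; linarith
  have hv0 : 0 ≤ v := by rw [hv]; linarith
  have e : cG13_c1 x =
      (295515705344/24810913575) * v ^ 8 + (104992120990976/735444487575) * u * v ^ 7 +
      (1989546773430112/3971400232905) * u ^ 2 * v ^ 6 +
      (4166538866721088/6619000388175) * u ^ 3 * v ^ 5 +
      (1023811554307840/2382840139743) * u ^ 4 * v ^ 4 +
      (12347072647870976/59571003493575) * u ^ 5 * v ^ 3 +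
      (4205247121211392/59571003493575) * u ^ 6 * v ^ 2 +
      (2529003569152/173676395025) * u ^ 7 * v + (191290769408/173676395025) * u ^ 8 := by
    rw [hu, hv]; unfold cG13_c1; ring
  rw [e]; positivity

noncomputable def cG13_c2 (x : ℝ) : ℝ :=
    (107180648/756315) + (-540316592/2268945) * x + (-32639032184/333534915) * x ^ 2 +
    (15218077488/28824005) * x ^ 3 + (-2046202745648/5447736945) * x ^ 4 +
    (-55124032624/605304105) * x ^ 5 + (27732420560/121060821) * x ^ 6 +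
    (-113116889792/1089547389) * x ^ 7 + (51124632640/3268642167) * x ^ 8

theorem cG13_c2_nonneg (x : ℝ) (hx0 : -(1 / 2) ≤ x) (hx1 : x ≤ 1) : 0 ≤ cG13_c2 x := by
  obtain ⟨u, hu⟩ : ∃ u : ℝ, u = x + 1 / 2 := ⟨_, rfl⟩
  obtain ⟨v, hv⟩ : ∃ v : ℝ, v = 1 - x := ⟨_, rfl⟩
  have hu0 : 0 ≤ u := by rw [hu]; linarith
  have hv0 : 0 ≤ v := by rw [hv]; linarith
  have e : cG13_c2 x =
      (1421182976/236294415) * v ^ 8 + (30522996939136/441266692545) * u * v ^ 7 +
      (296060685201728/1323800077635) * u ^ 2 * v ^ 6 +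
      (22559422241152/88253338509) * u ^ 3 * v ^ 5 +
      (663721203628288/3971400232905) * u ^ 4 * v ^ 4 +
      (303602587493888/3971400232905) * u ^ 5 * v ^ 3 +
      (96495681140224/3971400232905) * u ^ 6 * v ^ 2 + (7459667968/1654060905) * u ^ 7 * v +
      (510574592/1654060905) * u ^ 8 := by
    rw [hu, hv]; unfold cG13_c2; ring
  rw [e]; positivity

noncomputable def cG13_c3 (x : ℝ) : ℝ :=
    (307779896/11344725) + (-11162209664/238239225) * x + (-107483275952/5003023725) * x ^ 2 +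
    (143820104032/1297080225) * x ^ 3 + (-1422128899192/16343210835) * x ^ 4 +
    (-107000185504/27238684725) * x ^ 5 + (13890592640/363182463) * x ^ 6 +
    (-63325169920/3268642167) * x ^ 7 + (31838399360/9805926501) * x ^ 8

theorem cG13_c3_nonneg (x : ℝ) (hx0 : -(1 / 2) ≤ x) (hx1 : x ≤ 1) : 0 ≤ cG13_c3 x := by
  obtain ⟨u, hu⟩ : ∃ u : ℝ, u = x + 1 / 2 := ⟨_, rfl⟩
  obtain ⟨v, hv⟩ : ∃ v : ℝ, v = 1 - x := ⟨_, rfl⟩
  have hu0 : 0 ≤ u := by rw [hu]; linarith
  have hv0 : 0 ≤ v := by rw [hv]; linarith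
  have e : cG13_c3 x =
      (25916773376/24810913575) * v ^ 8 + (90401623821056/6619000388175) * u * v ^ 7 +
      (171686078780416/3971400232905) * u ^ 2 * v ^ 6 +
      (3952552214272/81716054175) * u ^ 3 * v ^ 5 +
      (368444383864448/11914200698715) * u ^ 4 * v ^ 4 +
      (777742920495104/59571003493575) * u ^ 5 * v ^ 3 +
      (217847742251008/59571003493575) * u ^ 6 * v ^ 2 + (97296990208/173676395025) * u ^ 7 * v +
      (5749932032/173676395025) * u ^ 8 := by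
    rw [hu, hv]; unfold cG13_c3; ring
  rw [e]; positivity

noncomputable def cG13_c4 (x : ℝ) : ℝ :=
    (21388592/11344725) + (-748830848/238239225) * x + (-11809253984/5003023725) * x ^ 2 +
    (11327662144/1297080225) * x ^ 3 + (-18812227184/3268642167) * x ^ 4 +
    (-43305209408/27238684725) * x ^ 5 + (450561280/121060821) * x ^ 6 +
    (-5719804672/3268642167) * x ^ 7 + (2835426560/9805926501) * x ^ 8

theorem cG13_c4_nonneg (x : ℝ) (hx0 : -(1 / 2) ≤ x) (hx1 : x ≤ 1) : 0 ≤ cG13_c4 x := by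
  obtain ⟨u, hu⟩ : ∃ u : ℝ, u = x + 1 / 2 := ⟨_, rfl⟩
  obtain ⟨v, hv⟩ : ∃ v : ℝ, v = 1 - x := ⟨_, rfl⟩
  have hu0 : 0 ≤ u := by rw [hu]; linarith
  have hv0 : 0 ≤ v := by rw [hv]; linarith
  have e : cG13_c4 x =
      (1489006592/24810913575) * v ^ 8 + (1994291928064/2206333462725) * u * v ^ 7 +
      (12408197536768/3971400232905) * u ^ 2 * v ^ 6 +
      (22979918523904/6619000388175) * u ^ 3 * v ^ 5 +
      (24969705957632/11914200698715) * u ^ 4 * v ^ 4 +
      (46240594669568/59571003493575) * u ^ 5 * v ^ 3 +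
      (10923191074816/59571003493575) * u ^ 6 * v ^ 2 + (4111630336/173676395025) * u ^ 7 * v +
      (208338944/173676395025) * u ^ 8 := by
    rw [hu, hv]; unfold cG13_c4; ring
  rw [e]; positivity

theorem cG13_id (x y : ℝ) : cG13 x y =
      cG13_c0 x * (5 / 7 - y) ^ 4 + cG13_c1 x * (y + 5 / 14) * (5 / 7 - y) ^ 3 + cG13_c2 x * (y +
      5 / 14) ^ 2 * (5 / 7 - y) ^ 2 + cG13_c3 x * (y + 5 / 14) ^ 3 * (5 / 7 - y) + cG13_c4 x * (y +
      5 / 14) ^ 4 := by
  unfold cG13 cG13_c0 cG13_c1 cG13_c2 cG13_c3 cG13_c4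
  ring

theorem cG13_nonneg (x y : ℝ) (hx0 : -(1 / 2) ≤ x) (hx1 : x ≤ 1) (hy0 : -(5 / 14) ≤ y)
    (hy1 : y ≤ 5 / 7) : 0 ≤ cG13 x y := by
  rw [cG13_id]
  have hs0 : 0 ≤ y + 5 / 14 := by linarith
  have ht0 : 0 ≤ 5 / 7 - y := by linarith
  have h0 := cG13_c0_nonneg x hx0 hx1
  have h1 := cG13_c1_nonneg x hx0 hx1
  have h2 := cG13_c2_nonneg x hx0 hx1
  have h3 := cG13_c3_nonneg x hx0 hx1
  have h4 := cG13_c4_nonneg x hx0 hx1
  generalize y + 5 / 14 = s at *
  generalize 5 / 7 - y = t at *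
  positivity

theorem cG13_eq (x y : ℝ) : cG13 x y =
    bw3 (bw1 (qG00 x y) (qG10 x y) (qG20 x y) (qG30 x y) (x ^ 2) (3 - 2 * x) 1)
      (bw1 (qG01 x y) (qG11 x y) (qG21 x y) (qG31 x y) (x ^ 2) (3 - 2 * x) 1)
      (bw1 (qG02 x y) (qG12 x y) (qG22 x y) (qG32 x y) (x ^ 2) (3 - 2 * x) 1)
      (bw1 (qG03 x y) (qG13 x y) (qG23 x y) (qG33 x y) (x ^ 2) (3 - 2 * x) 1)
      (y ^ 2) (15 / 7 - 2 * y) (125 / 343) := by
  unfold cG13 bw3 bw1 qG00 qG01 qG02 qG03 qG10 qG11 qG12 qG13 qG20 qG21 qG22 qG23 qG30 qG31 qG32 qG33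
  ring

end Vale.Agent.P154
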