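import Vale.Agent.P154.Gen.QGdef

namespace Vale.Agent.P154

noncomputable def cG20 (x y : ℝ) : ℝ :=
    (198/5) + (-63/5) * y + (-522/5) * y ^ 2 + (531/5) * y ^ 3 + (486/5) * y ^ 4 +
    (-882/5) * y ^ 5 + (-36/5) * y ^ 6 + (432/5) * y ^ 7 + (-144/5) * y ^ 8 + (-357/5) * x +
    (-87/5) * x * y + (1029/5) * x * y ^ 2 + (-576/5) * x * y ^ 3 + (-858/5) * x * y ^ 4 +
    (717/5) * x * y ^ 5 + (468/5) * x * y ^ 6 + (-48/5) * x * y ^ 7 + (-96) * x * y ^ 8 +
    (192/5) * x * y ^ 9 + (-36) * x ^ 2 + (531/5) * x ^ 2 * y + (1164/5) * x ^ 2 * y ^ 2 +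
    (-2291/5) * x ^ 2 * y ^ 3 + (-1786/5) * x ^ 2 * y ^ 4 + 750 * x ^ 2 * y ^ 5 +
    (-512/5) * x ^ 2 * y ^ 6 + (-1348/5) * x ^ 2 * y ^ 7 + (672/5) * x ^ 2 * y ^ 8 +
    (64/5) * x ^ 2 * y ^ 9 + (-64/5) * x ^ 2 * y ^ 10 + (1102/5) * x ^ 3 + (-1889/15) * x ^ 3 * y +
    (-5097/5) * x ^ 3 * y ^ 2 + (5102/5) * x ^ 3 * y ^ 3 + 1077 * x ^ 3 * y ^ 4 +
    (-4929/5) * x ^ 3 * y ^ 5 + (-2416/5) * x ^ 3 * y ^ 6 + (896/5) * x ^ 3 * y ^ 7 +
    (1248/5) * x ^ 3 * y ^ 8 + (-704/5) * x ^ 3 * y ^ 9 + (128/15) * x ^ 3 * y ^ 10 +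
    (-1128/5) * x ^ 4 + (168/5) * x ^ 4 * y + 948 * x ^ 4 * y ^ 2 + (-2694/5) * x ^ 4 * y ^ 3 +
    (-4476/5) * x ^ 4 * y ^ 4 + (-762/5) * x ^ 4 * y ^ 5 + (4956/5) * x ^ 4 * y ^ 6 +
    (492/5) * x ^ 4 * y ^ 7 + (-336) * x ^ 4 * y ^ 8 + (192/5) * x ^ 4 * y ^ 9 +
    (192/5) * x ^ 4 * y ^ 10 + (456/5) * x ^ 5 + (116/5) * x ^ 5 * y + (-1668/5) * x ^ 5 * y ^ 2 +
    (-88/5) * x ^ 5 * y ^ 3 + (1756/5) * x ^ 5 * y ^ 4 + (1884/5) * x ^ 5 * y ^ 5 +
    (-440) * x ^ 5 * y ^ 6 + (-704/5) * x ^ 5 * y ^ 7 + (192/5) * x ^ 5 * y ^ 8 +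
    (512/5) * x ^ 5 * y ^ 9 + (-256/5) * x ^ 5 * y ^ 10 + (-64/5) * x ^ 6 + (-32/3) * x ^ 6 * y +
    (192/5) * x ^ 6 * y ^ 2 + (232/5) * x ^ 6 * y ^ 3 + (-336/5) * x ^ 6 * y ^ 4 +
    (-264/5) * x ^ 6 * y ^ 5 + (64/5) * x ^ 6 * y ^ 6 + (208/5) * x ^ 6 * y ^ 7 +
    (192/5) * x ^ 6 * y ^ 8 + (-256/5) * x ^ 6 * y ^ 9 + (256/15) * x ^ 6 * y ^ 10

noncomputable def cG20_c0 (x : ℝ) : ℝ :=
    (4574334763712/320361328125) + (-5968386589088/320361328125) * x +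
    (-1938576337184/115330078125) * x ^ 2 + (481875921015136/8649755859375) * x ^ 3 +
    (-50100448854496/961083984375) * x ^ 4 + (63461657403136/2883251953125) * x ^ 5 +
    (-30291084049792/8649755859375) * x ^ 6

theorem cG20_c0_nonneg (x : ℝ) (hx0 : -(1 / 2) ≤ x) (hx1 : x ≤ 1) : 0 ≤ cG20_c0 x := by
  obtain ⟨u, hu⟩ : ∃ u : ℝ, u = x + 1 / 2 := ⟨_, rfl⟩
  obtain ⟨v, hv⟩ : ∃ v : ℝ, v = 1 - x := ⟨_, rfl⟩
  have hu0 : 0 ≤ u := by rw [hu]; linarith
  have hv0 : 0 ≤ v := by rw [hv]; linarith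
  have e : cG20_c0 x =
      (172783715729408/233543408203125) * v ^ 6 + (659806684699136/46708681640625) * u * v ^ 5 +
      (18866900412032/1037970703125) * u ^ 2 * v ^ 4 +
      (2928543578812672/233543408203125) * u ^ 3 * v ^ 3 +
      (1228397254402048/233543408203125) * u ^ 4 * v ^ 2 +
      (17037157236736/15569560546875) * u ^ 5 * v + (19041528676352/233543408203125) * u ^ 6 := by
    rw [hu, hv]; unfold cG20_c0; ring
  rw [e]; positivity

noncomputable def cG20_c1 (x : ℝ) : ℝ :=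
    (93085985216/512578125) + (-5910620768864/21357421875) * x +
    (-131149931898208/576650390625) * x ^ 2 + (1646052826694624/1729951171875) * x ^ 3 +
    (-35124255743776/38443359375) * x ^ 4 + (199681330646144/576650390625) * x ^ 5 +
    (-72295174285184/1729951171875) * x ^ 6

theorem cG20_c1_nonneg (x : ℝ) (hx0 : -(1 / 2) ≤ x) (hx1 : x ≤ 1) : 0 ≤ cG20_c1 x := by
  obtain ⟨u, hu⟩ : ∃ u : ℝ, u = x + 1 / 2 := ⟨_, rfl⟩
  obtain ⟨v, hv⟩ : ∃ v : ℝ, v = 1 - x := ⟨_, rfl⟩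
  have hu0 : 0 ≤ u := by rw [hu]; linarith
  have hv0 : 0 ≤ v := by rw [hv]; linarith
  have e : cG20_c1 x =
      (310019751956992/46708681640625) * v ^ 6 + (9470008219588352/46708681640625) * u * v ^ 5 +
      (46369283300224/207594140625) * u ^ 2 * v ^ 4 +
      (5117337887005952/46708681640625) * u ^ 3 * v ^ 3 +
      (2611566419618816/46708681640625) * u ^ 4 * v ^ 2 +
      (53352188567552/3113912109375) * u ^ 5 * v + (80984315281408/46708681640625) * u ^ 6 := by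
    rw [hu, hv]; unfold cG20_c1; ring
  rw [e]; positivity

noncomputable def cG20_c2 (x : ℝ) : ℝ :=
    (6744062214848/7119140625) + (-33445831535872/21357421875) * x +
    (-78113202809888/64072265625) * x ^ 2 + (1057831029846208/192216796875) * x ^ 3 +
    (-37251383170528/7119140625) * x ^ 4 + (124822076954368/64072265625) * x ^ 5 +
    (-46081933078912/192216796875) * x ^ 6

theorem cG20_c2_nonneg (x : ℝ) (hx0 : -(1 / 2) ≤ x) (hx1 : x ≤ 1) : 0 ≤ cG20_c2 x := by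
  obtain ⟨u, hu⟩ : ∃ u : ℝ, u = x + 1 / 2 := ⟨_, rfl⟩
  obtain ⟨v, hv⟩ : ∃ v : ℝ, v = 1 - x := ⟨_, rfl⟩
  have hu0 : 0 ≤ u := by rw [hu]; linarith
  have hv0 : 0 ≤ v := by rw [hv]; linarith
  have e : cG20_c2 x =
      (157625675508224/5189853515625) * v ^ 6 + (5764438957549312/5189853515625) * u * v ^ 5 +
      (132715560046208/115330078125) * u ^ 2 * v ^ 4 +
      (472626758053376/1037970703125) * u ^ 3 * v ^ 3 +
      (1159082539499008/5189853515625) * u ^ 4 * v ^ 2 +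
      (31329354907648/345990234375) * u ^ 5 * v + (64392461213696/5189853515625) * u ^ 6 := by
    rw [hu, hv]; unfold cG20_c2; ring
  rw [e]; positivity

noncomputable def cG20_c3 (x : ℝ) : ℝ :=
    (56286311659648/21357421875) + (-11011661670464/2373046875) * x +
    (-580937181738016/192216796875) * x ^ 2 + (9013651852284992/576650390625) * x ^ 3 +
    (-982909234166624/64072265625) * x ^ 4 + (1141864335924992/192216796875) * x ^ 5 +
    (-457933202047616/576650390625) * x ^ 6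

theorem cG20_c3_nonneg (x : ℝ) (hx0 : -(1 / 2) ≤ x) (hx1 : x ≤ 1) : 0 ≤ cG20_c3 x := by
  obtain ⟨u, hu⟩ : ∃ u : ℝ, u = x + 1 / 2 := ⟨_, rfl⟩
  obtain ⟨v, hv⟩ : ∃ v : ℝ, v = 1 - x := ⟨_, rfl⟩
  have hu0 : 0 ≤ u := by rw [hu]; linarith
  have hv0 : 0 ≤ v := by rw [hv]; linarith
  have e : cG20_c3 x =
      (1488939870670336/15569560546875) * v ^ 6 + (49490682753154304/15569560546875) * u * v ^ 5 +
      (1062637519797632/345990234375) * u ^ 2 * v ^ 4 +
      (17465392180163072/15569560546875) * u ^ 3 * v ^ 3 +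
      (8527794051229184/15569560546875) * u ^ 4 * v ^ 2 +
      (253563842287616/1037970703125) * u ^ 5 * v + (559913799553024/15569560546875) * u ^ 6 := by
    rw [hu, hv]; unfold cG20_c3; ring
  rw [e]; positivity

noncomputable def cG20_c4 (x : ℝ) : ℝ :=
    (92480266270336/21357421875) + (-35084001096032/4271484375) * x +
    (-667032817394944/192216796875) * x ^ 2 + (2870055941394208/115330078125) * x ^ 3 +
    (-1678407152787008/64072265625) * x ^ 4 + (416899043852032/38443359375) * x ^ 5 +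
    (-906669373664768/576650390625) * x ^ 6

theorem cG20_c4_nonneg (x : ℝ) (hx0 : -(1 / 2) ≤ x) (hx1 : x ≤ 1) : 0 ≤ cG20_c4 x := by
  obtain ⟨u, hu⟩ : ∃ u : ℝ, u = x + 1 / 2 := ⟨_, rfl⟩
  obtain ⟨v, hv⟩ : ∃ v : ℝ, v = 1 - x := ⟨_, rfl⟩
  have hu0 : 0 ≤ u := by rw [hu]; linarith
  have hv0 : 0 ≤ v := by rw [hv]; linarith
  have e : cG20_c4 x =
      (134389146325504/622782421875) * v ^ 6 + (83107758784768256/15569560546875) * u * v ^ 5 +
      (1613323001411072/345990234375) * u ^ 2 * v ^ 4 +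
      (26211093855064832/15569560546875) * u ^ 3 * v ^ 3 +
      (14045065110497792/15569560546875) * u ^ 4 * v ^ 2 +
      (399830330181632/1037970703125) * u ^ 5 * v + (33276226859008/622782421875) * u ^ 6 := by
    rw [hu, hv]; unfold cG20_c4; ring
  rw [e]; positivity

noncomputable def cG20_c5 (x : ℝ) : ℝ :=
    (160326637317056/35595703125) + (-980859375859552/106787109375) * x +
    (-79442086908352/64072265625) * x ^ 2 + (22208622646174048/961083984375) * x ^ 3 +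
    (-956146165662016/35595703125) * x ^ 4 + (3885378152107648/320361328125) * x ^ 5 +
    (-1863354955307776/961083984375) * x ^ 6

theorem cG20_c5_nonneg (x : ℝ) (hx0 : -(1 / 2) ≤ x) (hx1 : x ≤ 1) : 0 ≤ cG20_c5 x := by
  obtain ⟨u, hu⟩ : ∃ u : ℝ, u = x + 1 / 2 := ⟨_, rfl⟩
  obtain ⟨v, hv⟩ : ∃ v : ℝ, v = 1 - x := ⟨_, rfl⟩
  have hu0 : 0 ≤ u := by rw [hu]; linarith
  have hv0 : 0 ≤ v := by rw [hv]; linarith
  have e : cG20_c5 x =
      (8679905101650944/25949267578125) * v ^ 6 + (28848069740596736/5189853515625) * u * v ^ 5 +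
      (504119596739584/115330078125) * u ^ 2 * v ^ 4 +
      (46016165036805376/25949267578125) * u ^ 3 * v ^ 3 +
      (26365585664018944/25949267578125) * u ^ 4 * v ^ 2 +
      (646639211911168/1729951171875) * u ^ 5 * v + (1173118093070336/25949267578125) * u ^ 6 := by
    rw [hu, hv]; unfold cG20_c5; ring
  rw [e]; positivity

noncomputable def cG20_c6 (x : ℝ) : ℝ :=
    (13384033991552/4271484375) + (-144237403171904/21357421875) * x +
    (194900979534464/192216796875) * x ^ 2 + (7324039551989888/576650390625) * x ^ 3 +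
    (-212045071896448/12814453125) * x ^ 4 + (1563973861872128/192216796875) * x ^ 5 +
    (-821453350527488/576650390625) * x ^ 6

theorem cG20_c6_nonneg (x : ℝ) (hx0 : -(1 / 2) ≤ x) (hx1 : x ≤ 1) : 0 ≤ cG20_c6 x := by
  obtain ⟨u, hu⟩ : ∃ u : ℝ, u = x + 1 / 2 := ⟨_, rfl⟩
  obtain ⟨v, hv⟩ : ∃ v : ℝ, v = 1 - x := ⟨_, rfl⟩
  have hu0 : 0 ≤ u := by rw [hu]; linarith
  have hv0 : 0 ≤ v := by rw [hv]; linarith
  have e : cG20_c6 x =
      (5283284858005504/15569560546875) * v ^ 6 + (58029234325443584/15569560546875) * u * v ^ 5 +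
      (194222347293184/69198046875) * u ^ 2 * v ^ 4 +
      (21705733373778944/15569560546875) * u ^ 3 * v ^ 3 +
      (11732714493581312/15569560546875) * u ^ 4 * v ^ 2 +
      (234329894672384/1037970703125) * u ^ 5 * v + (354648162512896/15569560546875) * u ^ 6 := by
    rw [hu, hv]; unfold cG20_c6; ring
  rw [e]; positivity

noncomputable def cG20_c7 (x : ℝ) : ℝ :=
    (32030577195904/21357421875) + (-71521156512512/21357421875) * x +
    (234452492471936/192216796875) * x ^ 2 + (2478021907195904/576650390625) * x ^ 3 +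
    (-401309457074432/64072265625) * x ^ 4 + (633077076137984/192216796875) * x ^ 5 +
    (-357136995562496/576650390625) * x ^ 6

theorem cG20_c7_nonneg (x : ℝ) (hx0 : -(1 / 2) ≤ x) (hx1 : x ≤ 1) : 0 ≤ cG20_c7 x := by
  obtain ⟨u, hu⟩ : ∃ u : ℝ, u = x + 1 / 2 := ⟨_, rfl⟩
  obtain ⟨v, hv⟩ : ∃ v : ℝ, v = 1 - x := ⟨_, rfl⟩
  have hu0 : 0 ≤ u := by rw [hu]; linarith
  have hv0 : 0 ≤ v := by rw [hv]; linarith
  have e : cG20_c7 x =
      (3332219299827712/15569560546875) * v ^ 6 + (26003816170612736/15569560546875) * u * v ^ 5 +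
      (458252190393344/345990234375) * u ^ 2 * v ^ 4 +
      (473268804681728/622782421875) * u ^ 3 * v ^ 3 +
      (5432418136868864/15569560546875) * u ^ 4 * v ^ 2 +
      (86724334075904/1037970703125) * u ^ 5 * v + (107716414210048/15569560546875) * u ^ 6 := by
    rw [hu, hv]; unfold cG20_c7; ring
  rw [e]; positivity

noncomputable def cG20_c8 (x : ℝ) : ℝ :=
    (3402673008896/7119140625) + (-23238080647936/21357421875) * x +
    (30972273641728/64072265625) * x ^ 2 + (200193446773504/192216796875) * x ^ 3 +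
    (-11259995670016/7119140625) * x ^ 4 + (54075382242304/64072265625) * x ^ 5 +
    (-31332758013952/192216796875) * x ^ 6

theorem cG20_c8_nonneg (x : ℝ) (hx0 : -(1 / 2) ≤ x) (hx1 : x ≤ 1) : 0 ≤ cG20_c8 x := by
  obtain ⟨u, hu⟩ : ∃ u : ℝ, u = x + 1 / 2 := ⟨_, rfl⟩
  obtain ⟨v, hv⟩ : ∃ v : ℝ, v = 1 - x := ⟨_, rfl⟩
  have hu0 : 0 ≤ u := by rw [hu]; linarith
  have hv0 : 0 ≤ v := by rw [hv]; linarith
  have e : cG20_c8 x =
      (403171968991232/5189853515625) * v ^ 6 + (2620511077408768/5189853515625) * u * v ^ 5 +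
      (50636759035904/115330078125) * u ^ 2 * v ^ 4 +
      (1309989030651904/5189853515625) * u ^ 3 * v ^ 3 +
      (490576281960448/5189853515625) * u ^ 4 * v ^ 2 + (6287873277952/345990234375) * u ^ 5 * v +
      (6431333285888/5189853515625) * u ^ 6 := by
    rw [hu, hv]; unfold cG20_c8; ring
  rw [e]; positivity

noncomputable def cG20_c9 (x : ℝ) : ℝ :=
    (5706886678528/64072265625) + (-2623689592832/12814453125) * x +
    (44987029895168/576650390625) * x ^ 2 + (73413182734336/345990234375) * x ^ 3 +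
    (-56870180163584/192216796875) * x ^ 4 + (17443468115968/115330078125) * x ^ 5 +
    (-49362156929024/1729951171875) * x ^ 6

theorem cG20_c9_nonneg (x : ℝ) (hx0 : -(1 / 2) ≤ x) (hx1 : x ≤ 1) : 0 ≤ cG20_c9 x := by
  obtain ⟨u, hu⟩ : ∃ u : ℝ, u = x + 1 / 2 := ⟨_, rfl⟩
  obtain ⟨v, hv⟩ : ∃ v : ℝ, v = 1 - x := ⟨_, rfl⟩
  have hu0 : 0 ≤ u := by rw [hu]; linarith
  have hv0 : 0 ≤ v := by rw [hv]; linarith
  have e : cG20_c9 x =
      (131842197487616/9341736328125) * v ^ 6 + (4428431160147968/46708681640625) * u * v ^ 5 +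
      (87809902002176/1037970703125) * u ^ 2 * v ^ 4 +
      (2051807333974016/46708681640625) * u ^ 3 * v ^ 3 +
      (630058079584256/46708681640625) * u ^ 4 * v ^ 2 +
      (6591967133696/3113912109375) * u ^ 5 * v + (1125021384704/9341736328125) * u ^ 6 := by
    rw [hu, hv]; unfold cG20_c9; ring
  rw [e]; positivity

noncomputable def cG20_c10 (x : ℝ) : ℝ :=
    (2222279585792/320361328125) + (-63372259328/3955078125) * x +
    (2379880804352/576650390625) * x ^ 2 + (184348906295296/8649755859375) * x ^ 3 +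
    (-26154234535936/961083984375) * x ^ 4 + (38511867805696/2883251953125) * x ^ 5 +
    (-21118671880192/8649755859375) * x ^ 6

theorem cG20_c10_nonneg (x : ℝ) (hx0 : -(1 / 2) ≤ x) (hx1 : x ≤ 1) : 0 ≤ cG20_c10 x := by
  obtain ⟨u, hu⟩ : ∃ u : ℝ, u = x + 1 / 2 := ⟨_, rfl⟩
  obtain ⟨v, hv⟩ : ∃ v : ℝ, v = 1 - x := ⟨_, rfl⟩
  have hu0 : 0 ≤ u := by rw [hu]; linarith
  have hv0 : 0 ≤ v := by rw [hv]; linarith
  have e : cG20_c10 x =
      (228806708953088/233543408203125) * v ^ 6 + (361129486450688/46708681640625) * u * v ^ 5 +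
      (6901333950464/1037970703125) * u ^ 2 * v ^ 4 +
      (704946941427712/233543408203125) * u ^ 3 * v ^ 3 +
      (181348012392448/233543408203125) * u ^ 4 * v ^ 2 +
      (1580532760576/15569560546875) * u ^ 5 * v + (1143364124672/233543408203125) * u ^ 6 := by
    rw [hu, hv]; unfold cG20_c10; ring
  rw [e]; positivity

theorem cG20_id (x y : ℝ) : cG20 x y =
      cG20_c0 x * (5 / 7 - y) ^ 10 + cG20_c1 x * (y + 5 / 14) * (5 / 7 - y) ^ 9 + cG20_c2 x * (y +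
      5 / 14) ^ 2 * (5 / 7 - y) ^ 8 + cG20_c3 x * (y + 5 / 14) ^ 3 * (5 / 7 - y) ^ 7 +
      cG20_c4 x * (y + 5 / 14) ^ 4 * (5 / 7 - y) ^ 6 + cG20_c5 x * (y +
      5 / 14) ^ 5 * (5 / 7 - y) ^ 5 + cG20_c6 x * (y + 5 / 14) ^ 6 * (5 / 7 - y) ^ 4 +
      cG20_c7 x * (y + 5 / 14) ^ 7 * (5 / 7 - y) ^ 3 + cG20_c8 x * (y +
      5 / 14) ^ 8 * (5 / 7 - y) ^ 2 + cG20_c9 x * (y + 5 / 14) ^ 9 * (5 / 7 - y) +
      cG20_c10 x * (y + 5 / 14) ^ 10 := by
  unfold cG20 cG20_c0 cG20_c1 cG20_c2 cG20_c3 cG20_c4 cG20_c5 cG20_c6 cG20_c7 cG20_c8 cG20_c9 cG20_c10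
  ring

theorem cG20_nonneg (x y : ℝ) (hx0 : -(1 / 2) ≤ x) (hx1 : x ≤ 1) (hy0 : -(5 / 14) ≤ y)
    (hy1 : y ≤ 5 / 7) : 0 ≤ cG20 x y := by
  rw [cG20_id]
  have hs0 : 0 ≤ y + 5 / 14 := by linarith
  have ht0 : 0 ≤ 5 / 7 - y := by linarith
  have h0 := cG20_c0_nonneg x hx0 hx1
  have h1 := cG20_c1_nonneg x hx0 hx1
  have h2 := cG20_c2_nonneg x hx0 hx1
  have h3 := cG20_c3_nonneg x hx0 hx1
  have h4 := cG20_c4_nonneg x hx0 hx1
  have h5 := cG20_c5_nonneg x hx0 hx1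
  have h6 := cG20_c6_nonneg x hx0 hx1
  have h7 := cG20_c7_nonneg x hx0 hx1
  have h8 := cG20_c8_nonneg x hx0 hx1
  have h9 := cG20_c9_nonneg x hx0 hx1
  have h10 := cG20_c10_nonneg x hx0 hx1
  generalize y + 5 / 14 = s at *
  generalize 5 / 7 - y = t at *
  positivity

theorem cG20_eq (x y : ℝ) : cG20 x y =
    bw0 (bw2 (qG00 x y) (qG10 x y) (qG20 x y) (qG30 x y) (x ^ 2) (3 - 2 * x) 1)
      (bw2 (qG01 x y) (qG11 x y) (qG21 x y) (qG31 x y) (x ^ 2) (3 - 2 * x) 1)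
      (bw2 (qG02 x y) (qG12 x y) (qG22 x y) (qG32 x y) (x ^ 2) (3 - 2 * x) 1)
      (bw2 (qG03 x y) (qG13 x y) (qG23 x y) (qG33 x y) (x ^ 2) (3 - 2 * x) 1)
      (y ^ 2) (15 / 7 - 2 * y) (125 / 343) := by
  unfold cG20 bw0 bw2 qG00 qG01 qG02 qG03 qG10 qG11 qG12 qG13 qG20 qG21 qG22 qG23 qG30 qG31 qG32 qG33
  ring

end Vale.Agent.P154
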