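import Vale.Agent.P154.Gen.QGdef

namespace Vale.Agent.P154

noncomputable def cG21 (x y : ℝ) : ℝ :=
    (74268/343) + (-480024/1715) * y + (-503436/1715) * y ^ 2 + (26046/35) * y ^ 3 +
    (-495792/1715) * y ^ 4 + (-749694/1715) * y ^ 5 + (762732/1715) * y ^ 6 + (-576/5) * y ^ 7 +
    (-384) * x + (470871/1715) * x * y + (1462926/1715) * x * y ^ 2 + (-2079258/1715) * x * y ^ 3 +
    (387432/1715) * x * y ^ 4 + (1043379/1715) * x * y ^ 5 + (-486642/1715) * x * y ^ 6 +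
    (-241992/1715) * x * y ^ 7 + (384/5) * x * y ^ 8 + (-50280/343) * x ^ 2 +
    (250984/343) * x ^ 2 * y + (136282/1715) * x ^ 2 * y ^ 2 + (-4027278/1715) * x ^ 2 * y ^ 3 +
    (2032782/1715) * x ^ 2 * y ^ 4 + (3251622/1715) * x ^ 2 * y ^ 5 + (-97464/49) * x ^ 2 * y ^ 6 +
    (1215484/1715) * x ^ 2 * y ^ 7 + (-185896/1715) * x ^ 2 * y ^ 8 + (358557/343) * x ^ 3 +
    (-3018581/1715) * x ^ 3 * y + (-4876736/1715) * x ^ 3 * y ^ 2 +
    (13260774/1715) * x ^ 3 * y ^ 3 + (-3653619/1715) * x ^ 3 * y ^ 4 +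
    (-1436597/343) * x ^ 3 * y ^ 5 + (3026094/1715) * x ^ 3 * y ^ 6 +
    (169072/343) * x ^ 3 * y ^ 7 + (-302304/1715) * x ^ 3 * y ^ 8 + (-378948/343) * x ^ 4 +
    (2355114/1715) * x ^ 4 * y + (820758/245) * x ^ 4 * y ^ 2 + (-2130792/343) * x ^ 4 * y ^ 3 +
    (274878/1715) * x ^ 4 * y ^ 4 + (4106934/1715) * x ^ 4 * y ^ 5 + (459696/245) * x ^ 4 * y ^ 6 +
    (-3516564/1715) * x ^ 4 * y ^ 7 + (104952/343) * x ^ 4 * y ^ 8 + (159396/343) * x ^ 5 +
    (-693668/1715) * x ^ 5 * y + (-2484688/1715) * x ^ 5 * y ^ 2 + (2630136/1715) * x ^ 5 * y ^ 3 +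
    (2231436/1715) * x ^ 5 * y ^ 4 + (-269316/343) * x ^ 5 * y ^ 5 +
    (-2837424/1715) * x ^ 5 * y ^ 6 + (321424/343) * x ^ 5 * y ^ 7 + (-8192/1715) * x ^ 5 * y ^ 8 +
    (-23424/343) * x ^ 6 + (43112/1715) * x ^ 6 * y + (10600/49) * x ^ 6 * y ^ 2 +
    (11616/1715) * x ^ 6 * y ^ 3 + (-919704/1715) * x ^ 6 * y ^ 4 + (86840/343) * x ^ 6 * y ^ 5 +
    (300144/1715) * x ^ 6 * y ^ 6 + (12976/1715) * x ^ 6 * y ^ 7 + (-110688/1715) * x ^ 6 * y ^ 8

noncomputable def cG21_c0 (x : ℝ) : ℝ :=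
    (93353770688/664453125) + (-852626655584/4651171875) * x +
    (-1938576337184/11720953125) * x ^ 2 + (481875921015136/879071484375) * x ^ 3 +
    (-50100448854496/97674609375) * x ^ 4 + (63461657403136/293023828125) * x ^ 5 +
    (-30291084049792/879071484375) * x ^ 6

theorem cG21_c0_nonneg (x : ℝ) (hx0 : -(1 / 2) ≤ x) (hx1 : x ≤ 1) : 0 ≤ cG21_c0 x := by
  obtain ⟨u, hu⟩ : ∃ u : ℝ, u = x + 1 / 2 := ⟨_, rfl⟩
  obtain ⟨v, hv⟩ : ∃ v : ℝ, v = 1 - x := ⟨_, rfl⟩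
  have hu0 : 0 ≤ u := by rw [hu]; linarith
  have hv0 : 0 ≤ v := by rw [hv]; linarith
  have e : cG21_c0 x =
      (503742611456/69198046875) * v ^ 6 + (659806684699136/4746986015625) * u * v ^ 5 +
      (18866900412032/105488578125) * u ^ 2 * v ^ 4 +
      (2928543578812672/23734930078125) * u ^ 3 * v ^ 3 +
      (1228397254402048/23734930078125) * u ^ 4 * v ^ 2 + (49671012352/4613203125) * u ^ 5 * v +
      (55514660864/69198046875) * u ^ 6 := by
    rw [hu, hv]; unfold cG21_c0; ring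
  rw [e]; positivity

noncomputable def cG21_c1 (x : ℝ) : ℝ :=
    (834753897808/664453125) + (-9067763589224/4651171875) * x +
    (-84957595722008/58604765625) * x ^ 2 + (5603529469733096/879071484375) * x ^ 3 +
    (-601364260518536/97674609375) * x ^ 4 + (686233241496896/293023828125) * x ^ 5 +
    (-249968111122592/879071484375) * x ^ 6

theorem cG21_c1_nonneg (x : ℝ) (hx0 : -(1 / 2) ≤ x) (hx1 : x ≤ 1) : 0 ≤ cG21_c1 x := by
  obtain ⟨u, hu⟩ : ∃ u : ℝ, u = x + 1 / 2 := ⟨_, rfl⟩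
  obtain ⟨v, hv⟩ : ∃ v : ℝ, v = 1 - x := ⟨_, rfl⟩
  have hu0 : 0 ≤ u := by rw [hu]; linarith
  have hv0 : 0 ≤ v := by rw [hv]; linarith
  have e : cG21_c1 x =
      (3702362223616/69198046875) * v ^ 6 + (6615131812547968/4746986015625) * u * v ^ 5 +
      (32384058768608/21097715625) * u ^ 2 * v ^ 4 +
      (17967924670142912/23734930078125) * u ^ 3 * v ^ 3 +
      (9062417437979648/23734930078125) * u ^ 4 * v ^ 2 + (533598543872/4613203125) * u ^ 5 * v +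
      (802960482304/69198046875) * u ^ 6 := by
    rw [hu, hv]; unfold cG21_c1; ring
  rw [e]; positivity

noncomputable def cG21_c2 (x : ℝ) : ℝ :=
    (2794368109952/664453125) + (-530969691472/73828125) * x + (-1391270091424/334884375) * x ^ 2 +
    (2805189274061392/125581640625) * x ^ 3 + (-310905852282112/13953515625) * x ^ 4 +
    (369936259885792/41860546875) * x ^ 5 + (-151934379385024/125581640625) * x ^ 6

theorem cG21_c2_nonneg (x : ℝ) (hx0 : -(1 / 2) ≤ x) (hx1 : x ≤ 1) : 0 ≤ cG21_c2 x := by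
  obtain ⟨u, hu⟩ : ∃ u : ℝ, u = x + 1 / 2 := ⟨_, rfl⟩
  obtain ⟨v, hv⟩ : ∃ v : ℝ, v = 1 - x := ⟨_, rfl⟩
  have hu0 : 0 ≤ u := by rw [hu]; linarith
  have hv0 : 0 ≤ v := by rw [hv]; linarith
  have e : cG21_c2 x =
      (13869328452224/69198046875) * v ^ 6 + (3302142695876672/678140859375) * u * v ^ 5 +
      (2949677893376/602791875) * u ^ 2 * v ^ 4 +
      (7299379792269184/3390704296875) * u ^ 3 * v ^ 3 +
      (3550546348301056/3390704296875) * u ^ 4 * v ^ 2 + (1735694706688/4613203125) * u ^ 5 * v +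
      (3296307040256/69198046875) * u ^ 6 := by
    rw [hu, hv]; unfold cG21_c2; ring
  rw [e]; positivity

noncomputable def cG21_c3 (x : ℝ) : ℝ :=
    (4524796625872/664453125) + (-8575235655688/664453125) * x +
    (-27637992792656/8372109375) * x ^ 2 + (4245897402890552/125581640625) * x ^ 3 +
    (-525031611498032/13953515625) * x ^ 4 + (689834744152352/41860546875) * x ^ 5 +
    (-318497577543104/125581640625) * x ^ 6

theorem cG21_c3_nonneg (x : ℝ) (hx0 : -(1 / 2) ≤ x) (hx1 : x ≤ 1) : 0 ≤ cG21_c3 x := by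
  obtain ⟨u, hu⟩ : ∃ u : ℝ, u = x + 1 / 2 := ⟨_, rfl⟩
  obtain ⟨v, hv⟩ : ∃ v : ℝ, v = 1 - x := ⟨_, rfl⟩
  have hu0 : 0 ≤ u := by rw [hu]; linarith
  have hv0 : 0 ≤ v := by rw [hv]; linarith
  have e : cG21_c3 x =
      (32226775270144/69198046875) * v ^ 6 + (5484163914990976/678140859375) * u * v ^ 5 +
      (106878847138048/15069796875) * u ^ 2 * v ^ 4 +
      (10896773918279744/3390704296875) * u ^ 3 * v ^ 3 +
      (5804462039528576/3390704296875) * u ^ 4 * v ^ 2 + (2625964863488/4613203125) * u ^ 5 * v +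
      (4427111028736/69198046875) * u ^ 6 := by
    rw [hu, hv]; unfold cG21_c3; ring
  rw [e]; positivity

noncomputable def cG21_c4 (x : ℝ) : ℝ :=
    (166382288288/26578125) + (-68463141296/5315625) * x + (1911510411136/1674421875) * x ^ 2 +
    (24703508529536/1004653125) * x ^ 3 + (-17386077170368/558140625) * x ^ 4 +
    (1014982354432/66976875) * x ^ 5 + (-13233387520768/5023265625) * x ^ 6

theorem cG21_c4_nonneg (x : ℝ) (hx0 : -(1 / 2) ≤ x) (hx1 : x ≤ 1) : 0 ≤ cG21_c4 x := by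
  obtain ⟨u, hu⟩ : ∃ u : ℝ, u = x + 1 / 2 := ⟨_, rfl⟩
  obtain ⟨v, hv⟩ : ∃ v : ℝ, v = 1 - x := ⟨_, rfl⟩
  have hu0 : 0 ≤ u := by rw [hu]; linarith
  have hv0 : 0 ≤ v := by rw [hv]; linarith
  have e : cG21_c4 x =
      (362073800704/553584375) * v ^ 6 + (982784357564416/135628171875) * u * v ^ 5 +
      (17784193878784/3013959375) * u ^ 2 * v ^ 4 +
      (426349681764352/135628171875) * u ^ 3 * v ^ 3 +
      (217629985772032/135628171875) * u ^ 4 * v ^ 2 + (16468470272/36905625) * u ^ 5 * v +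
      (23377196032/553584375) * u ^ 6 := by
    rw [hu, hv]; unfold cG21_c4; ring
  rw [e]; positivity

noncomputable def cG21_c5 (x : ℝ) : ℝ :=
    (2371353794368/664453125) + (-82362331264/10546875) * x + (4588522150592/1674421875) * x ^ 2 +
    (1200953705020928/125581640625) * x ^ 3 + (-190001346507008/13953515625) * x ^ 4 +
    (294142462012928/41860546875) * x ^ 5 + (-163099448431616/125581640625) * x ^ 6

theorem cG21_c5_nonneg (x : ℝ) (hx0 : -(1 / 2) ≤ x) (hx1 : x ≤ 1) : 0 ≤ cG21_c5 x := by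
  obtain ⟨u, hu⟩ : ∃ u : ℝ, u = x + 1 / 2 := ⟨_, rfl⟩
  obtain ⟨v, hv⟩ : ∃ v : ℝ, v = 1 - x := ⟨_, rfl⟩
  have hu0 : 0 ≤ u := by rw [hu]; linarith
  have hv0 : 0 ≤ v := by rw [hv]; linarith
  have e : cG21_c5 x =
      (35673858390016/69198046875) * v ^ 6 + (2621877879989248/678140859375) * u * v ^ 5 +
      (49671097209856/15069796875) * u ^ 2 * v ^ 4 +
      (6448834938208256/3390704296875) * u ^ 3 * v ^ 3 +
      (2831689480776704/3390704296875) * u ^ 4 * v ^ 2 + (888560771072/4613203125) * u ^ 5 * v +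
      (1059713941504/69198046875) * u ^ 6 := by
    rw [hu, hv]; unfold cG21_c5; ring
  rw [e]; positivity

noncomputable def cG21_c6 (x : ℝ) : ℝ :=
    (829209074048/664453125) + (-269236845056/94921875) * x + (10475907984896/8372109375) * x ^ 2 +
    (328799199559168/125581640625) * x ^ 3 + (-54113007177088/13953515625) * x ^ 4 +
    (84018914733568/41860546875) * x ^ 5 + (-47130240103936/125581640625) * x ^ 6

theorem cG21_c6_nonneg (x : ℝ) (hx0 : -(1 / 2) ≤ x) (hx1 : x ≤ 1) : 0 ≤ cG21_c6 x := by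
  obtain ⟨u, hu⟩ : ∃ u : ℝ, u = x + 1 / 2 := ⟨_, rfl⟩
  obtain ⟨v, hv⟩ : ∃ v : ℝ, v = 1 - x := ⟨_, rfl⟩
  have hu0 : 0 ≤ u := by rw [hu]; linarith
  have hv0 : 0 ≤ v := by rw [hv]; linarith
  have e : cG21_c6 x =
      (14219982135296/69198046875) * v ^ 6 + (881911745122304/678140859375) * u * v ^ 5 +
      (3548106479104/3013959375) * u ^ 2 * v ^ 4 +
      (2212880708509696/3390704296875) * u ^ 3 * v ^ 3 +
      (806055872425984/3390704296875) * u ^ 4 * v ^ 2 + (210726879232/4613203125) * u ^ 5 * v +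
      (211273908224/69198046875) * u ^ 6 := by
    rw [hu, hv]; unfold cG21_c6; ring
  rw [e]; positivity

noncomputable def cG21_c7 (x : ℝ) : ℝ :=
    (156922004992/664453125) + (-2525906886656/4651171875) * x +
    (2368345534976/11720953125) * x ^ 2 + (504919618663424/879071484375) * x ^ 3 +
    (-77626283838464/97674609375) * x ^ 4 + (118649642676224/293023828125) * x ^ 5 +
    (-66982364131328/879071484375) * x ^ 6

theorem cG21_c7_nonneg (x : ℝ) (hx0 : -(1 / 2) ≤ x) (hx1 : x ≤ 1) : 0 ≤ cG21_c7 x := by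
  obtain ⟨u, hu⟩ : ∃ u : ℝ, u = x + 1 / 2 := ⟨_, rfl⟩
  obtain ⟨v, hv⟩ : ∃ v : ℝ, v = 1 - x := ⟨_, rfl⟩
  have hu0 : 0 ≤ u := by rw [hu]; linarith
  have hv0 : 0 ≤ v := by rw [hv]; linarith
  have e : cG21_c7 x =
      (2569141141504/69198046875) * v ^ 6 + (1197390161649664/4746986015625) * u * v ^ 5 +
      (4735561797632/21097715625) * u ^ 2 * v ^ 4 +
      (2740995902824448/23734930078125) * u ^ 3 * v ^ 3 +
      (832909602578432/23734930078125) * u ^ 4 * v ^ 2 + (25175195648/4613203125) * u ^ 5 * v +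
      (21333016576/69198046875) * u ^ 6 := by
    rw [hu, hv]; unfold cG21_c7; ring
  rw [e]; positivity

noncomputable def cG21_c8 (x : ℝ) : ℝ :=
    (11338161152/664453125) + (-2263294976/57421875) * x + (594970201088/58604765625) * x ^ 2 +
    (46087226573824/879071484375) * x ^ 3 + (-6538558633984/97674609375) * x ^ 4 +
    (9627966951424/293023828125) * x ^ 5 + (-5279667970048/879071484375) * x ^ 6

theorem cG21_c8_nonneg (x : ℝ) (hx0 : -(1 / 2) ≤ x) (hx1 : x ≤ 1) : 0 ≤ cG21_c8 x := by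
  obtain ⟨u, hu⟩ : ∃ u : ℝ, u = x + 1 / 2 := ⟨_, rfl⟩
  obtain ⟨v, hv⟩ : ∃ v : ℝ, v = 1 - x := ⟨_, rfl⟩
  have hu0 : 0 ≤ u := by rw [hu]; linarith
  have hv0 : 0 ≤ v := by rw [hv]; linarith
  have e : cG21_c8 x =
      (166768738304/69198046875) * v ^ 6 + (90282371612672/4746986015625) * u * v ^ 5 +
      (1725333487616/105488578125) * u ^ 2 * v ^ 4 +
      (176236735356928/23734930078125) * u ^ 3 * v ^ 3 +
      (45337003098112/23734930078125) * u ^ 4 * v ^ 2 + (1151991808/4613203125) * u ^ 5 * v +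
      (833355776/69198046875) * u ^ 6 := by
    rw [hu, hv]; unfold cG21_c8; ring
  rw [e]; positivity

theorem cG21_id (x y : ℝ) : cG21 x y =
      cG21_c0 x * (5 / 7 - y) ^ 8 + cG21_c1 x * (y + 5 / 14) * (5 / 7 - y) ^ 7 + cG21_c2 x * (y +
      5 / 14) ^ 2 * (5 / 7 - y) ^ 6 + cG21_c3 x * (y + 5 / 14) ^ 3 * (5 / 7 - y) ^ 5 +
      cG21_c4 x * (y + 5 / 14) ^ 4 * (5 / 7 - y) ^ 4 + cG21_c5 x * (y +
      5 / 14) ^ 5 * (5 / 7 - y) ^ 3 + cG21_c6 x * (y + 5 / 14) ^ 6 * (5 / 7 - y) ^ 2 +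
      cG21_c7 x * (y + 5 / 14) ^ 7 * (5 / 7 - y) + cG21_c8 x * (y + 5 / 14) ^ 8 := by
  unfold cG21 cG21_c0 cG21_c1 cG21_c2 cG21_c3 cG21_c4 cG21_c5 cG21_c6 cG21_c7 cG21_c8
  ring

theorem cG21_nonneg (x y : ℝ) (hx0 : -(1 / 2) ≤ x) (hx1 : x ≤ 1) (hy0 : -(5 / 14) ≤ y)
    (hy1 : y ≤ 5 / 7) : 0 ≤ cG21 x y := by
  rw [cG21_id]
  have hs0 : 0 ≤ y + 5 / 14 := by linarith
  have ht0 : 0 ≤ 5 / 7 - y := by linarith
  have h0 := cG21_c0_nonneg x hx0 hx1
  have h1 := cG21_c1_nonneg x hx0 hx1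
  have h2 := cG21_c2_nonneg x hx0 hx1
  have h3 := cG21_c3_nonneg x hx0 hx1
  have h4 := cG21_c4_nonneg x hx0 hx1
  have h5 := cG21_c5_nonneg x hx0 hx1
  have h6 := cG21_c6_nonneg x hx0 hx1
  have h7 := cG21_c7_nonneg x hx0 hx1
  have h8 := cG21_c8_nonneg x hx0 hx1
  generalize y + 5 / 14 = s at *
  generalize 5 / 7 - y = t at *
  positivity

theorem cG21_eq (x y : ℝ) : cG21 x y =
    bw1 (bw2 (qG00 x y) (qG10 x y) (qG20 x y) (qG30 x y) (x ^ 2) (3 - 2 * x) 1)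
      (bw2 (qG01 x y) (qG11 x y) (qG21 x y) (qG31 x y) (x ^ 2) (3 - 2 * x) 1)
      (bw2 (qG02 x y) (qG12 x y) (qG22 x y) (qG32 x y) (x ^ 2) (3 - 2 * x) 1)
      (bw2 (qG03 x y) (qG13 x y) (qG23 x y) (qG33 x y) (x ^ 2) (3 - 2 * x) 1)
      (y ^ 2) (15 / 7 - 2 * y) (125 / 343) := by
  unfold cG21 bw1 bw2 qG00 qG01 qG02 qG03 qG10 qG11 qG12 qG13 qG20 qG21 qG22 qG23 qG30 qG31 qG32 qG33
  ring

end Vale.Agent.P154
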