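import Vale.Agent.P154.Gen.QGdef

namespace Vale.Agent.P154

noncomputable def cG22 (x y : ℝ) : ℝ :=
    (955770/2401) + (-2154249/2401) * y + (175676454/588245) * y ^ 2 + (499145571/588245) * y ^ 3 +
    (-638792082/588245) * y ^ 4 + (884412/1715) * y ^ 5 + (-408/5) * y ^ 6 +
    (-80937945/117649) * x + (133581744/117649) * x * y + (270269829/588245) * x * y ^ 2 +
    (-1189013586/588245) * x * y ^ 3 + (1027518354/588245) * x * y ^ 4 +
    (-455521176/588245) * x * y ^ 5 + (252408/1715) * x * y ^ 6 + (-22036050/117649) * x ^ 2 +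
    (168624345/117649) * x ^ 2 * y + (-228921800/117649) * x ^ 2 * y ^ 2 +
    (-736997927/588245) * x ^ 2 * y ^ 3 + (303882552/84035) * x ^ 2 * y ^ 4 +
    (-1063655716/588245) * x ^ 2 * y ^ 5 + (90175264/588245) * x ^ 2 * y ^ 6 +
    (186053895/117649) * x ^ 3 + (-523941834/117649) * x ^ 3 * y +
    (743419681/588245) * x ^ 3 * y ^ 2 + (5205457596/588245) * x ^ 3 * y ^ 3 +
    (-6732115902/588245) * x ^ 3 * y ^ 4 + (2433552592/588245) * x ^ 3 * y ^ 5 +
    (4249832/117649) * x ^ 3 * y ^ 6 + (-199360530/117649) * x ^ 4 +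
    (472985586/117649) * x ^ 4 * y + (190419456/588245) * x ^ 4 * y ^ 2 +
    (-5326792566/588245) * x ^ 4 * y ^ 3 + (136673442/16807) * x ^ 4 * y ^ 4 +
    (-201608664/588245) * x ^ 4 * y ^ 5 + (-789825048/588245) * x ^ 4 * y ^ 6 +
    (86169060/117649) * x ^ 5 + (-178438152/117649) * x ^ 5 * y +
    (-304868132/588245) * x ^ 5 * y ^ 2 + (1814303168/588245) * x ^ 5 * y ^ 3 +
    (-407589768/588245) * x ^ 5 * y ^ 4 + (-1543327328/588245) * x ^ 5 * y ^ 5 +
    (887142944/588245) * x ^ 5 * y ^ 6 + (-1880520/16807) * x ^ 6 + (22551528/117649) * x ^ 6 * y +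
    (74187968/588245) * x ^ 6 * y ^ 2 + (-26243160/117649) * x ^ 6 * y ^ 3 +
    (-349836408/588245) * x ^ 6 * y ^ 4 + (632665952/588245) * x ^ 6 * y ^ 5 +
    (-268852384/588245) * x ^ 6 * y ^ 6

noncomputable def cG22_c0 (x : ℝ) : ℝ :=
    (93353770688/202584375) + (-852626655584/1418090625) * x +
    (-1938576337184/3573588375) * x ^ 2 + (481875921015136/268019128125) * x ^ 3 +
    (-50100448854496/29779903125) * x ^ 4 + (63461657403136/89339709375) * x ^ 5 +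
    (-30291084049792/268019128125) * x ^ 6

theorem cG22_c0_nonneg (x : ℝ) (hx0 : -(1 / 2) ≤ x) (hx1 : x ≤ 1) : 0 ≤ cG22_c0 x := by
  obtain ⟨u, hu⟩ : ∃ u : ℝ, u = x + 1 / 2 := ⟨_, rfl⟩
  obtain ⟨v, hv⟩ : ∃ v : ℝ, v = 1 - x := ⟨_, rfl⟩
  have hu0 : 0 ≤ u := by rw [hu]; linarith
  have hv0 : 0 ≤ v := by rw [hv]; linarith
  have e : cG22_c0 x =
      (71963230208/3013959375) * v ^ 6 + (659806684699136/1447303291875) * u * v ^ 5 +
      (18866900412032/32162295375) * u ^ 2 * v ^ 4 +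
      (2928543578812672/7236516459375) * u ^ 3 * v ^ 3 +
      (1228397254402048/7236516459375) * u ^ 4 * v ^ 2 + (49671012352/1406514375) * u ^ 5 * v +
      (55514660864/21097715625) * u ^ 6 := by
    rw [hu, hv]; unfold cG22_c0; ring
  rw [e]; positivity

noncomputable def cG22_c1 (x : ℝ) : ℝ :=
    (160728851872/67528125) + (-5469911245168/1418090625) * x +
    (-12921753181936/5955980625) * x ^ 2 + (992264935331024/89339709375) * x ^ 3 +
    (-4007680585712/367653125) * x ^ 4 + (41562203307008/9926634375) * x ^ 5 +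
    (-46153450273088/89339709375) * x ^ 6

theorem cG22_c1_nonneg (x : ℝ) (hx0 : -(1 / 2) ≤ x) (hx1 : x ≤ 1) : 0 ≤ cG22_c1 x := by
  obtain ⟨u, hu⟩ : ∃ u : ℝ, u = x + 1 / 2 := ⟨_, rfl⟩
  obtain ⟨v, hv⟩ : ∃ v : ℝ, v = 1 - x := ⟨_, rfl⟩
  have hu0 : 0 ≤ u := by rw [hu]; linarith
  have hv0 : 0 ≤ v := by rw [hv]; linarith
  have e : cG22_c1 x =
      (137404099072/1004653125) * v ^ 6 + (1253418468502528/482434430625) * u * v ^ 5 +
      (6132944745664/2144153025) * u ^ 2 * v ^ 4 +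
      (3449719968418688/2412172153125) * u ^ 3 * v ^ 3 +
      (1689000925955072/2412172153125) * u ^ 4 * v ^ 2 + (96489463808/468838125) * u ^ 5 * v +
      (141797195776/7032571875) * u ^ 6 := by
    rw [hu, hv]; unfold cG22_c1; ring
  rw [e]; positivity

noncomputable def cG22_c2 (x : ℝ) : ℝ :=
    (83315821088/22509375) + (-9878499505736/1418090625) * x + (-823990315832/1985326875) * x ^ 2 +
    (1273916298009848/89339709375) * x ^ 3 + (-169425818314888/9926634375) * x ^ 4 +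
    (243078284196448/29779903125) * x ^ 5 + (-126191296162016/89339709375) * x ^ 6

theorem cG22_c2_nonneg (x : ℝ) (hx0 : -(1 / 2) ≤ x) (hx1 : x ≤ 1) : 0 ≤ cG22_c2 x := by
  obtain ⟨u, hu⟩ : ∃ u : ℝ, u = x + 1 / 2 := ⟨_, rfl⟩
  obtain ⟨v, hv⟩ : ∃ v : ℝ, v = 1 - x := ⟨_, rfl⟩
  have hu0 : 0 ≤ u := by rw [hu]; linarith
  have hv0 : 0 ≤ v := by rw [hv]; linarith
  have e : cG22_c2 x =
      (348774626944/1004653125) * v ^ 6 + (1989162707232832/482434430625) * u * v ^ 5 +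
      (40389690436192/10720765125) * u ^ 2 * v ^ 4 +
      (5337914813231936/2412172153125) * u ^ 3 * v ^ 3 +
      (2531037240111104/2412172153125) * u ^ 4 * v ^ 2 + (123418535936/468838125) * u ^ 5 * v +
      (161592573952/7032571875) * u ^ 6 := by
    rw [hu, hv]; unfold cG22_c2; ring
  rw [e]; positivity

noncomputable def cG22_c3 (x : ℝ) : ℝ :=
    (560442579448/202584375) + (-8368339542704/1418090625) * x +
    (35349476028616/17867941875) * x ^ 2 + (1790193391910816/268019128125) * x ^ 3 +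
    (-270388263654416/29779903125) * x ^ 4 + (398625615689216/89339709375) * x ^ 5 +
    (-209315538665792/268019128125) * x ^ 6

theorem cG22_c3_nonneg (x : ℝ) (hx0 : -(1 / 2) ≤ x) (hx1 : x ≤ 1) : 0 ≤ cG22_c3 x := by
  obtain ⟨u, hu⟩ : ∃ u : ℝ, u = x + 1 / 2 := ⟨_, rfl⟩
  obtain ⟨v, hv⟩ : ∃ v : ℝ, v = 1 - x := ⟨_, rfl⟩
  have hu0 : 0 ≤ u := by rw [hu]; linarith
  have hv0 : 0 ≤ v := by rw [hv]; linarith
  have e : cG22_c3 x =
      (1232399957248/3013959375) * v ^ 6 + (4162696246306432/1447303291875) * u * v ^ 5 +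
      (87563945129536/32162295375) * u ^ 2 * v ^ 4 +
      (11213889064500992/7236516459375) * u ^ 3 * v ^ 3 +
      (4682831996997248/7236516459375) * u ^ 4 * v ^ 2 + (203482483712/1406514375) * u ^ 5 * v +
      (230484496384/21097715625) * u ^ 6 := by
    rw [hu, hv]; unfold cG22_c3; ring
  rw [e]; positivity

noncomputable def cG22_c4 (x : ℝ) : ℝ :=
    (74044196944/67528125) + (-504270211888/202584375) * x + (6464172191312/5955980625) * x ^ 2 +
    (199758312016688/89339709375) * x ^ 3 + (-10669327923616/3308878125) * x ^ 4 +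
    (1782545441344/1102959375) * x ^ 5 + (-26050791814016/89339709375) * x ^ 6

theorem cG22_c4_nonneg (x : ℝ) (hx0 : -(1 / 2) ≤ x) (hx1 : x ≤ 1) : 0 ≤ cG22_c4 x := by
  obtain ⟨u, hu⟩ : ∃ u : ℝ, u = x + 1 / 2 := ⟨_, rfl⟩
  obtain ⟨v, hv⟩ : ∃ v : ℝ, v = 1 - x := ⟨_, rfl⟩
  have hu0 : 0 ≤ u := by rw [hu]; linarith
  have hv0 : 0 ≤ v := by rw [hv]; linarith
  have e : cG22_c4 x =
      (26161841152/143521875) * v ^ 6 + (21802989597184/19297377225) * u * v ^ 5 +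
      (11346673266176/10720765125) * u ^ 2 * v ^ 4 +
      (1368265838304896/2412172153125) * u ^ 3 * v ^ 3 +
      (484261337083904/2412172153125) * u ^ 4 * v ^ 2 + (2575843328/66976875) * u ^ 5 * v +
      (2529058816/1004653125) * u ^ 6 := by
    rw [hu, hv]; unfold cG22_c4; ring
  rw [e]; positivity

noncomputable def cG22_c5 (x : ℝ) : ℝ :=
    (667699072/3215625) + (-677308444928/1418090625) * x + (345463829888/1985326875) * x ^ 2 +
    (45917237103104/89339709375) * x ^ 3 + (-7013736872704/9926634375) * x ^ 4 +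
    (10689800802304/29779903125) * x ^ 5 + (-6021836008448/89339709375) * x ^ 6

theorem cG22_c5_nonneg (x : ℝ) (hx0 : -(1 / 2) ≤ x) (hx1 : x ≤ 1) : 0 ≤ cG22_c5 x := by
  obtain ⟨u, hu⟩ : ∃ u : ℝ, u = x + 1 / 2 := ⟨_, rfl⟩
  obtain ⟨v, hv⟩ : ∃ v : ℝ, v = 1 - x := ⟨_, rfl⟩
  have hu0 : 0 ≤ u := by rw [hu]; linarith
  have hv0 : 0 ≤ v := by rw [hv]; linarith
  have e : cG22_c5 x =
      (32570355712/1004653125) * v ^ 6 + (107306044438528/482434430625) * u * v ^ 5 +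
      (2116928539648/10720765125) * u ^ 2 * v ^ 4 +
      (243102719848448/2412172153125) * u ^ 3 * v ^ 3 +
      (73187217139712/2412172153125) * u ^ 4 * v ^ 2 + (2193932288/468838125) * u ^ 5 * v +
      (1847197696/7032571875) * u ^ 6 := by
    rw [hu, hv]; unfold cG22_c5; ring
  rw [e]; positivity

noncomputable def cG22_c6 (x : ℝ) : ℝ :=
    (2834540288/202584375) + (-1697471232/52521875) * x + (148742550272/17867941875) * x ^ 2 +
    (11521806643456/268019128125) * x ^ 3 + (-1634639658496/29779903125) * x ^ 4 +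
    (2406991737856/89339709375) * x ^ 5 + (-1319916992512/268019128125) * x ^ 6

theorem cG22_c6_nonneg (x : ℝ) (hx0 : -(1 / 2) ≤ x) (hx1 : x ≤ 1) : 0 ≤ cG22_c6 x := by
  obtain ⟨u, hu⟩ : ∃ u : ℝ, u = x + 1 / 2 := ⟨_, rfl⟩
  obtain ⟨v, hv⟩ : ∃ v : ℝ, v = 1 - x := ⟨_, rfl⟩
  have hu0 : 0 ≤ u := by rw [hu]; linarith
  have hv0 : 0 ≤ v := by rw [hv]; linarith
  have e : cG22_c6 x =
      (5956026368/3013959375) * v ^ 6 + (22570592903168/1447303291875) * u * v ^ 5 +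
      (431333371904/32162295375) * u ^ 2 * v ^ 4 + (44059183839232/7236516459375) * u ^ 3 * v ^ 3 +
      (11334250774528/7236516459375) * u ^ 4 * v ^ 2 + (287997952/1406514375) * u ^ 5 * v +
      (208338944/21097715625) * u ^ 6 := by
    rw [hu, hv]; unfold cG22_c6; ring
  rw [e]; positivity

theorem cG22_id (x y : ℝ) : cG22 x y =
      cG22_c0 x * (5 / 7 - y) ^ 6 + cG22_c1 x * (y + 5 / 14) * (5 / 7 - y) ^ 5 + cG22_c2 x * (y +
      5 / 14) ^ 2 * (5 / 7 - y) ^ 4 + cG22_c3 x * (y + 5 / 14) ^ 3 * (5 / 7 - y) ^ 3 +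
      cG22_c4 x * (y + 5 / 14) ^ 4 * (5 / 7 - y) ^ 2 + cG22_c5 x * (y + 5 / 14) ^ 5 * (5 / 7 - y) +
      cG22_c6 x * (y + 5 / 14) ^ 6 := by
  unfold cG22 cG22_c0 cG22_c1 cG22_c2 cG22_c3 cG22_c4 cG22_c5 cG22_c6
  ring

theorem cG22_nonneg (x y : ℝ) (hx0 : -(1 / 2) ≤ x) (hx1 : x ≤ 1) (hy0 : -(5 / 14) ≤ y)
    (hy1 : y ≤ 5 / 7) : 0 ≤ cG22 x y := by
  rw [cG22_id]
  have hs0 : 0 ≤ y + 5 / 14 := by linarith
  have ht0 : 0 ≤ 5 / 7 - y := by linarith
  have h0 := cG22_c0_nonneg x hx0 hx1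
  have h1 := cG22_c1_nonneg x hx0 hx1
  have h2 := cG22_c2_nonneg x hx0 hx1
  have h3 := cG22_c3_nonneg x hx0 hx1
  have h4 := cG22_c4_nonneg x hx0 hx1
  have h5 := cG22_c5_nonneg x hx0 hx1
  have h6 := cG22_c6_nonneg x hx0 hx1
  generalize y + 5 / 14 = s at *
  generalize 5 / 7 - y = t at *
  positivity

theorem cG22_eq (x y : ℝ) : cG22 x y =
    bw2 (bw2 (qG00 x y) (qG10 x y) (qG20 x y) (qG30 x y) (x ^ 2) (3 - 2 * x) 1)
      (bw2 (qG01 x y) (qG11 x y) (qG21 x y) (qG31 x y) (x ^ 2) (3 - 2 * x) 1)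
      (bw2 (qG02 x y) (qG12 x y) (qG22 x y) (qG32 x y) (x ^ 2) (3 - 2 * x) 1)
      (bw2 (qG03 x y) (qG13 x y) (qG23 x y) (qG33 x y) (x ^ 2) (3 - 2 * x) 1)
      (y ^ 2) (15 / 7 - 2 * y) (125 / 343) := by
  unfold cG22 bw2 qG00 qG01 qG02 qG03 qG10 qG11 qG12 qG13 qG20 qG21 qG22 qG23 qG30 qG31 qG32 qG33
  ring

end Vale.Agent.P154
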