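import Vale.Agent.P154.Gen.QGdef

namespace Vale.Agent.P154

noncomputable def cG23 (x y : ℝ) : ℝ :=
    (9897852600/40353607) + (-31815883380/40353607) * y + (36690378408/40353607) * y ^ 2 +
    (-257395896/588245) * y ^ 3 + (121872/1715) * y ^ 4 + (-16601367150/40353607) * x +
    (42538362120/40353607) * x * y + (-27722982282/40353607) * x * y ^ 2 +
    (-27810904068/201768035) * x * y ^ 3 + (107434704/588245) * x * y ^ 4 +
    (-2948649750/40353607) * x ^ 2 + (34338217500/40353607) * x ^ 2 * y +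
    (-13046456970/5764801) * x ^ 2 * y ^ 2 + (91456994332/40353607) * x ^ 2 * y ^ 3 +
    (-157370589536/201768035) * x ^ 2 * y ^ 4 + (30055116150/40353607) * x ^ 3 +
    (-119883586320/40353607) * x ^ 3 * y + (191439789402/40353607) * x ^ 3 * y ^ 2 +
    (-719529620652/201768035) * x ^ 3 * y ^ 3 + (632212643984/605304105) * x ^ 3 * y ^ 4 +
    (-31222004850/40353607) * x ^ 4 + (112418347680/40353607) * x ^ 4 * y +
    (-23225112534/5764801) * x ^ 4 * y ^ 2 + (568598761308/201768035) * x ^ 4 * y ^ 3 +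
    (-160787753808/201768035) * x ^ 4 * y ^ 4 + (274222800/823543) * x ^ 5 +
    (-46986240960/40353607) * x ^ 5 * y + (67593812256/40353607) * x ^ 5 * y ^ 2 +
    (-243868079456/201768035) * x ^ 5 * y ^ 3 + (73072720704/201768035) * x ^ 5 * y ^ 4 +
    (-6132600/117649) * x ^ 6 + (149424960/823543) * x ^ 6 * y +
    (-11031942504/40353607) * x ^ 6 * y ^ 2 + (43699451184/201768035) * x ^ 6 * y ^ 3 +
    (-8695705408/121060821) * x ^ 6 * y ^ 4

noncomputable def cG23_c0 (x : ℝ) : ℝ :=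
    (93353770688/185297175) + (-852626655584/1297080225) * x +
    (-1938576337184/3268642167) * x ^ 2 + (481875921015136/245148162525) * x ^ 3 +
    (-50100448854496/27238684725) * x ^ 4 + (63461657403136/81716054175) * x ^ 5 +
    (-30291084049792/245148162525) * x ^ 6

theorem cG23_c0_nonneg (x : ℝ) (hx0 : -(1 / 2) ≤ x) (hx1 : x ≤ 1) : 0 ≤ cG23_c0 x := by
  obtain ⟨u, hu⟩ : ∃ u : ℝ, u = x + 1 / 2 := ⟨_, rfl⟩
  obtain ⟨v, hv⟩ : ∃ v : ℝ, v = 1 - x := ⟨_, rfl⟩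
  have hu0 : 0 ≤ u := by rw [hu]; linarith
  have hv0 : 0 ≤ v := by rw [hv]; linarith
  have e : cG23_c0 x =
      (71963230208/2756768175) * v ^ 6 + (659806684699136/1323800077635) * u * v ^ 5 +
      (18866900412032/29417779503) * u ^ 2 * v ^ 4 +
      (2928543578812672/6619000388175) * u ^ 3 * v ^ 3 +
      (1228397254402048/6619000388175) * u ^ 4 * v ^ 2 + (49671012352/1286491815) * u ^ 5 * v +
      (55514660864/19297377225) * u ^ 6 := by
    rw [hu, hv]; unfold cG23_c0; ring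
  rw [e]; positivity

noncomputable def cG23_c1 (x : ℝ) : ℝ :=
    (129619213424/185297175) + (-208006544568/144120025) * x +
    (7427076630392/16343210835) * x ^ 2 + (350060142253048/245148162525) * x ^ 3 +
    (-47879994366808/27238684725) * x ^ 4 + (61886418029248/81716054175) * x ^ 5 +
    (-26952590515936/245148162525) * x ^ 6

theorem cG23_c1_nonneg (x : ℝ) (hx0 : -(1 / 2) ≤ x) (hx1 : x ≤ 1) : 0 ≤ cG23_c1 x := by
  obtain ⟨u, hu⟩ : ∃ u : ℝ, u = x + 1 / 2 := ⟨_, rfl⟩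
  obtain ⟨v, hv⟩ : ∃ v : ℝ, v = 1 - x := ⟨_, rfl⟩
  have hu0 : 0 ≤ u := by rw [hu]; linarith
  have hv0 : 0 ≤ v := by rw [hv]; linarith
  have e : cG23_c1 x =
      (295515705344/2756768175) * v ^ 6 + (181075799693440/264760015527) * u * v ^ 5 +
      (22068048526880/29417779503) * u ^ 2 * v ^ 4 +
      (2730395140369216/6619000388175) * u ^ 3 * v ^ 3 +
      (1071588117750784/6619000388175) * u ^ 4 * v ^ 2 + (45338238976/1286491815) * u ^ 5 * v +
      (47822692352/19297377225) * u ^ 6 := by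
    rw [hu, hv]; unfold cG23_c1; ring
  rw [e]; positivity

noncomputable def cG23_c2 (x : ℝ) : ℝ :=
    (3996624224/12353145) + (-63457722296/86472015) * x + (1716744727048/5447736945) * x ^ 2 +
    (10577884658584/16343210835) * x ^ 3 + (-1649746328728/1815912315) * x ^ 4 +
    (2402437540864/5447736945) * x ^ 5 + (-1252445794912/16343210835) * x ^ 6

theorem cG23_c2_nonneg (x : ℝ) (hx0 : -(1 / 2) ≤ x) (hx1 : x ≤ 1) : 0 ≤ cG23_c2 x := by
  obtain ⟨u, hu⟩ : ∃ u : ℝ, u = x + 1 / 2 := ⟨_, rfl⟩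
  obtain ⟨v, hv⟩ : ∃ v : ℝ, v = 1 - x := ⟨_, rfl⟩
  have hu0 : 0 ≤ u := by rw [hu]; linarith
  have hv0 : 0 ≤ v := by rw [hv]; linarith
  have e : cG23_c2 x =
      (1421182976/26254935) * v ^ 6 + (145806123209728/441266692545) * u * v ^ 5 +
      (3122120106400/9805926501) * u ^ 2 * v ^ 4 + (73018549562944/441266692545) * u ^ 3 * v ^ 3 +
      (25105074942208/441266692545) * u ^ 4 * v ^ 2 + (18976768/1750329) * u ^ 5 * v +
      (127643648/183784545) * u ^ 6 := by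
    rw [hu, hv]; unfold cG23_c2; ring
  rw [e]; positivity

noncomputable def cG23_c3 (x : ℝ) : ℝ :=
    (11224895456/185297175) + (-180785042048/1297080225) * x + (814479254816/16343210835) * x ^ 2 +
    (37318379488192/245148162525) * x ^ 3 + (-5668962569152/27238684725) * x ^ 4 +
    (8619098536192/81716054175) * x ^ 5 + (-4846356254464/245148162525) * x ^ 6

theorem cG23_c3_nonneg (x : ℝ) (hx0 : -(1 / 2) ≤ x) (hx1 : x ≤ 1) : 0 ≤ cG23_c3 x := by
  obtain ⟨u, hu⟩ : ∃ u : ℝ, u = x + 1 / 2 := ⟨_, rfl⟩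
  obtain ⟨v, hv⟩ : ∃ v : ℝ, v = 1 - x := ⟨_, rfl⟩
  have hu0 : 0 ≤ u := by rw [hu]; linarith
  have hv0 : 0 ≤ v := by rw [hv]; linarith
  have e : cG23_c3 x =
      (25916773376/2756768175) * v ^ 6 + (86122181554688/1323800077635) * u * v ^ 5 +
      (1695529747712/29417779503) * u ^ 2 * v ^ 4 +
      (193341835846144/6619000388175) * u ^ 3 * v ^ 3 +
      (57723975548416/6619000388175) * u ^ 4 * v ^ 2 + (1717448704/1286491815) * u ^ 5 * v +
      (1437483008/19297377225) * u ^ 6 := by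
    rw [hu, hv]; unfold cG23_c3; ring
  rw [e]; positivity

noncomputable def cG23_c4 (x : ℝ) : ℝ :=
    (708635072/185297175) + (-1273103424/144120025) * x + (37185637568/16343210835) * x ^ 2 +
    (2880451660864/245148162525) * x ^ 3 + (-408659914624/27238684725) * x ^ 4 +
    (601747934464/81716054175) * x ^ 5 + (-329979248128/245148162525) * x ^ 6

theorem cG23_c4_nonneg (x : ℝ) (hx0 : -(1 / 2) ≤ x) (hx1 : x ≤ 1) : 0 ≤ cG23_c4 x := by
  obtain ⟨u, hu⟩ : ∃ u : ℝ, u = x + 1 / 2 := ⟨_, rfl⟩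
  obtain ⟨v, hv⟩ : ∃ v : ℝ, v = 1 - x := ⟨_, rfl⟩
  have hu0 : 0 ≤ u := by rw [hu]; linarith
  have hv0 : 0 ≤ v := by rw [hv]; linarith
  have e : cG23_c4 x =
      (1489006592/2756768175) * v ^ 6 + (5642648225792/1323800077635) * u * v ^ 5 +
      (107833342976/29417779503) * u ^ 2 * v ^ 4 + (11014795959808/6619000388175) * u ^ 3 * v ^ 3 +
      (2833562693632/6619000388175) * u ^ 4 * v ^ 2 + (71999488/1286491815) * u ^ 5 * v +
      (52084736/19297377225) * u ^ 6 := by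
    rw [hu, hv]; unfold cG23_c4; ring
  rw [e]; positivity

theorem cG23_id (x y : ℝ) : cG23 x y =
      cG23_c0 x * (5 / 7 - y) ^ 4 + cG23_c1 x * (y + 5 / 14) * (5 / 7 - y) ^ 3 + cG23_c2 x * (y +
      5 / 14) ^ 2 * (5 / 7 - y) ^ 2 + cG23_c3 x * (y + 5 / 14) ^ 3 * (5 / 7 - y) + cG23_c4 x * (y +
      5 / 14) ^ 4 := by
  unfold cG23 cG23_c0 cG23_c1 cG23_c2 cG23_c3 cG23_c4
  ring

theorem cG23_nonneg (x y : ℝ) (hx0 : -(1 / 2) ≤ x) (hx1 : x ≤ 1) (hy0 : -(5 / 14) ≤ y)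
    (hy1 : y ≤ 5 / 7) : 0 ≤ cG23 x y := by
  rw [cG23_id]
  have hs0 : 0 ≤ y + 5 / 14 := by linarith
  have ht0 : 0 ≤ 5 / 7 - y := by linarith
  have h0 := cG23_c0_nonneg x hx0 hx1
  have h1 := cG23_c1_nonneg x hx0 hx1
  have h2 := cG23_c2_nonneg x hx0 hx1
  have h3 := cG23_c3_nonneg x hx0 hx1
  have h4 := cG23_c4_nonneg x hx0 hx1
  generalize y + 5 / 14 = s at *
  generalize 5 / 7 - y = t at *
  positivity

theorem cG23_eq (x y : ℝ) : cG23 x y =
    bw3 (bw2 (qG00 x y) (qG10 x y) (qG20 x y) (qG30 x y) (x ^ 2) (3 - 2 * x) 1)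
      (bw2 (qG01 x y) (qG11 x y) (qG21 x y) (qG31 x y) (x ^ 2) (3 - 2 * x) 1)
      (bw2 (qG02 x y) (qG12 x y) (qG22 x y) (qG32 x y) (x ^ 2) (3 - 2 * x) 1)
      (bw2 (qG03 x y) (qG13 x y) (qG23 x y) (qG33 x y) (x ^ 2) (3 - 2 * x) 1)
      (y ^ 2) (15 / 7 - 2 * y) (125 / 343) := by
  unfold cG23 bw3 bw2 qG00 qG01 qG02 qG03 qG10 qG11 qG12 qG13 qG20 qG21 qG22 qG23 qG30 qG31 qG32 qG33
  ring

end Vale.Agent.P154
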