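import Vale.Agent.P154.Gen.QGdef

namespace Vale.Agent.P154

noncomputable def cG30 (x y : ℝ) : ℝ :=
    (54/5) + (54/5) * y + (162/5) * y ^ 2 + (-378/5) * y ^ 3 + (-216/5) * y ^ 4 + (324/5) * y ^ 5 +
    (-99/5) * x + (-234/5) * x * y + (-414/5) * x * y ^ 2 + (828/5) * x * y ^ 3 + 117 * x * y ^ 4 +
    (-234/5) * x * y ^ 5 + (-432/5) * x * y ^ 6 + (114/5) * x ^ 2 + (294/5) * x ^ 2 * y +
    (6/5) * x ^ 2 * y ^ 2 + (-78/5) * x ^ 2 * y ^ 3 + (-120) * x ^ 2 * y ^ 4 +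
    (-120) * x ^ 2 * y ^ 5 + 144 * x ^ 2 * y ^ 6 + (144/5) * x ^ 2 * y ^ 7 + (-84/5) * x ^ 3 +
    (-144/5) * x ^ 3 * y + (312/5) * x ^ 3 * y ^ 2 + (-492/5) * x ^ 3 * y ^ 3 +
    (456/5) * x ^ 3 * y ^ 4 + (228/5) * x ^ 3 * y ^ 5 + (36/5) * x ^ 3 * y ^ 6 +
    (-312/5) * x ^ 3 * y ^ 7 + (24/5) * x ^ 4 + (24/5) * x ^ 4 * y + (-24) * x ^ 4 * y ^ 2 +
    (192/5) * x ^ 4 * y ^ 3 + (-168/5) * x ^ 4 * y ^ 4 + 24 * x ^ 4 * y ^ 5 +
    (-216/5) * x ^ 4 * y ^ 6 + (144/5) * x ^ 4 * y ^ 7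

noncomputable def cG30_c0 (x : ℝ) : ℝ :=
    (29151472/3515625) + (-1124090464/94921875) * x + (296233712/284765625) * x ^ 2 +
    (422086976/94921875) * x ^ 3 + (-443065408/284765625) * x ^ 4

theorem cG30_c0_nonneg (x : ℝ) (hx0 : -(1 / 2) ≤ x) (hx1 : x ≤ 1) : 0 ≤ cG30_c0 x := by
  obtain ⟨u, hu⟩ : ∃ u : ℝ, u = x + 1 / 2 := ⟨_, rfl⟩
  obtain ⟨v, hv⟩ : ∃ v : ℝ, v = 1 - x := ⟨_, rfl⟩
  have hu0 : 0 ≤ u := by rw [hu]; linarith
  have hv0 : 0 ≤ v := by rw [hv]; linarith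
  have e : cG30_c0 x =
      (62967826432/23066015625) * v ^ 4 + (191936664832/23066015625) * u * v ^ 3 +
      (38787942464/7688671875) * u ^ 2 * v ^ 2 + (25018120192/23066015625) * u ^ 3 * v +
      (1734833152/23066015625) * u ^ 4 := by
    rw [hu, hv]; unfold cG30_c0; ring
  rw [e]; positivity

noncomputable def cG30_c1 (x : ℝ) : ℝ :=
    (416075072/10546875) + (-4505685688/94921875) * x + (13269288704/284765625) * x ^ 2 +
    (-4894343608/94921875) * x ^ 3 + (5677212464/284765625) * x ^ 4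

theorem cG30_c1_nonneg (x : ℝ) (hx0 : -(1 / 2) ≤ x) (hx1 : x ≤ 1) : 0 ≤ cG30_c1 x := by
  obtain ⟨u, hu⟩ : ∃ u : ℝ, u = x + 1 / 2 := ⟨_, rfl⟩
  obtain ⟨v, hv⟩ : ∃ v : ℝ, v = 1 - x := ⟨_, rfl⟩
  have hu0 : 0 ≤ u := by rw [hu]; linarith
  have hv0 : 0 ≤ v := by rw [hv]; linarith
  have e : cG30_c1 x =
      (376001316544/23066015625) * v ^ 4 + (528711863344/23066015625) * u * v ^ 3 +
      (302425073888/7688671875) * u ^ 2 * v ^ 2 + (326397508864/23066015625) * u ^ 3 * v +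
      (31687043584/23066015625) * u ^ 4 := by
    rw [hu, hv]; unfold cG30_c1; ring
  rw [e]; positivity

noncomputable def cG30_c2 (x : ℝ) : ℝ :=
    (346506832/3515625) + (-4962486928/31640625) * x + (25296533024/94921875) * x ^ 2 +
    (-7673789648/31640625) * x ^ 3 + (6667738784/94921875) * x ^ 4

theorem cG30_c2_nonneg (x : ℝ) (hx0 : -(1 / 2) ≤ x) (hx1 : x ≤ 1) : 0 ≤ cG30_c2 x := by
  obtain ⟨u, hu⟩ : ∃ u : ℝ, u = x + 1 / 2 := ⟨_, rfl⟩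
  obtain ⟨v, hv⟩ : ∃ v : ℝ, v = 1 - x := ⟨_, rfl⟩
  have hu0 : 0 ≤ u := by rw [hu]; linarith
  have hv0 : 0 ≤ v := by rw [hv]; linarith
  have e : cG30_c2 x =
      (422687246464/7688671875) * v ^ 4 + (231935628064/7688671875) * u * v ^ 3 +
      (224523470528/2562890625) * u ^ 2 * v ^ 2 + (378813213184/7688671875) * u ^ 3 * v +
      (54578024704/7688671875) * u ^ 4 := by
    rw [hu, hv]; unfold cG30_c2; ring
  rw [e]; positivity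

noncomputable def cG30_c3 (x : ℝ) : ℝ :=
    (57061088/234375) + (-8987213368/18984375) * x + (33313718144/56953125) * x ^ 2 +
    (-8446650688/18984375) * x ^ 3 + (7336906304/56953125) * x ^ 4

theorem cG30_c3_nonneg (x : ℝ) (hx0 : -(1 / 2) ≤ x) (hx1 : x ≤ 1) : 0 ≤ cG30_c3 x := by
  obtain ⟨u, hu⟩ : ∃ u : ℝ, u = x + 1 / 2 := ⟨_, rfl⟩
  obtain ⟨v, hv⟩ : ∃ v : ℝ, v = 1 - x := ⟨_, rfl⟩
  have hu0 : 0 ≤ u := by rw [hu]; linarith
  have hv0 : 0 ≤ v := by rw [hv]; linarith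
  have e : cG30_c3 x =
      (628818313984/4613203125) * v ^ 4 + (524502645184/4613203125) * u * v ^ 3 +
      (254814085568/1537734375) * u ^ 2 * v ^ 2 + (309906541504/4613203125) * u ^ 3 * v +
      (35438026624/4613203125) * u ^ 4 := by
    rw [hu, hv]; unfold cG30_c3; ring
  rw [e]; positivity

noncomputable def cG30_c4 (x : ℝ) : ℝ :=
    (754739552/2109375) + (-15783721408/18984375) * x + (47476343264/56953125) * x ^ 2 +
    (-8376776128/18984375) * x ^ 3 + (5657652224/56953125) * x ^ 4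

theorem cG30_c4_nonneg (x : ℝ) (hx0 : -(1 / 2) ≤ x) (hx1 : x ≤ 1) : 0 ≤ cG30_c4 x := by
  obtain ⟨u, hu⟩ : ∃ u : ℝ, u = x + 1 / 2 := ⟨_, rfl⟩
  obtain ⟨v, hv⟩ : ∃ v : ℝ, v = 1 - x := ⟨_, rfl⟩
  have hu0 : 0 ≤ u := by rw [hu]; linarith
  have hv0 : 0 ≤ v := by rw [hv]; linarith
  have e : cG30_c4 x =
      (950680482304/4613203125) * v ^ 4 + (1006624011904/4613203125) * u * v ^ 3 +
      (229162817408/1537734375) * u ^ 2 * v ^ 2 + (189762625024/4613203125) * u ^ 3 * v +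
      (16487532544/4613203125) * u ^ 4 := by
    rw [hu, hv]; unfold cG30_c4; ring
  rw [e]; positivity

noncomputable def cG30_c5 (x : ℝ) : ℝ :=
    (833523712/3515625) + (-20198472448/31640625) * x + (63878307584/94921875) * x ^ 2 +
    (-10504218368/31640625) * x ^ 3 + (6126815744/94921875) * x ^ 4

theorem cG30_c5_nonneg (x : ℝ) (hx0 : -(1 / 2) ≤ x) (hx1 : x ≤ 1) : 0 ≤ cG30_c5 x := by
  obtain ⟨u, hu⟩ : ∃ u : ℝ, u = x + 1 / 2 := ⟨_, rfl⟩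
  obtain ⟨v, hv⟩ : ∃ v : ℝ, v = 1 - x := ⟨_, rfl⟩
  have hu0 : 0 ≤ u := by rw [hu]; linarith
  have hv0 : 0 ≤ v := by rw [hv]; linarith
  have e : cG30_c5 x =
      (1169510938624/7688671875) * v ^ 4 + (1049924775424/7688671875) * u * v ^ 3 +
      (154953064448/2562890625) * u ^ 2 * v ^ 2 + (94608338944/7688671875) * u ^ 3 * v +
      (6435057664/7688671875) * u ^ 4 := by
    rw [hu, hv]; unfold cG30_c5; ring
  rw [e]; positivity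

noncomputable def cG30_c6 (x : ℝ) : ℝ :=
    (212570624/3515625) + (-16561957888/94921875) * x + (54629410304/284765625) * x ^ 2 +
    (-9062007808/94921875) * x ^ 3 + (5164888064/284765625) * x ^ 4

theorem cG30_c6_nonneg (x : ℝ) (hx0 : -(1 / 2) ≤ x) (hx1 : x ≤ 1) : 0 ≤ cG30_c6 x := by
  obtain ⟨u, hu⟩ : ∃ u : ℝ, u = x + 1 / 2 := ⟨_, rfl⟩
  obtain ⟨v, hv⟩ : ∃ v : ℝ, v = 1 - x := ⟨_, rfl⟩
  have hu0 : 0 ≤ u := by rw [hu]; linarith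
  have hv0 : 0 ≤ v := by rw [hv]; linarith
  have e : cG30_c6 x =
      (951033094144/23066015625) * v ^ 4 + (749238482944/23066015625) * u * v ^ 3 +
      (85041625088/7688671875) * u ^ 2 * v ^ 2 + (40813502464/23066015625) * u ^ 3 * v +
      (2249949184/23066015625) * u ^ 4 := by
    rw [hu, hv]; unfold cG30_c6; ring
  rw [e]; positivity

noncomputable def cG30_c7 (x : ℝ) : ℝ :=
    (53989376/10546875) + (-1454946304/94921875) * x + (4925407232/284765625) * x ^ 2 +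
    (-828043264/94921875) * x ^ 3 + (472358912/284765625) * x ^ 4

theorem cG30_c7_nonneg (x : ℝ) (hx0 : -(1 / 2) ≤ x) (hx1 : x ≤ 1) : 0 ≤ cG30_c7 x := by
  obtain ⟨u, hu⟩ : ∃ u : ℝ, u = x + 1 / 2 := ⟨_, rfl⟩
  obtain ⟨v, hv⟩ : ∃ v : ℝ, v = 1 - x := ⟨_, rfl⟩
  have hu0 : 0 ≤ u := by rw [hu]; linarith
  have hv0 : 0 ≤ v := by rw [hv]; linarith
  have e : cG30_c7 x =
      (83384369152/23066015625) * v ^ 4 + (60188925952/23066015625) * u * v ^ 3 +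
      (5741871104/7688671875) * u ^ 2 * v ^ 2 + (2264154112/23066015625) * u ^ 3 * v +
      (104169472/23066015625) * u ^ 4 := by
    rw [hu, hv]; unfold cG30_c7; ring
  rw [e]; positivity

theorem cG30_id (x y : ℝ) : cG30 x y =
      cG30_c0 x * (5 / 7 - y) ^ 7 + cG30_c1 x * (y + 5 / 14) * (5 / 7 - y) ^ 6 + cG30_c2 x * (y +
      5 / 14) ^ 2 * (5 / 7 - y) ^ 5 + cG30_c3 x * (y + 5 / 14) ^ 3 * (5 / 7 - y) ^ 4 +
      cG30_c4 x * (y + 5 / 14) ^ 4 * (5 / 7 - y) ^ 3 + cG30_c5 x * (y +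
      5 / 14) ^ 5 * (5 / 7 - y) ^ 2 + cG30_c6 x * (y + 5 / 14) ^ 6 * (5 / 7 - y) + cG30_c7 x * (y +
      5 / 14) ^ 7 := by
  unfold cG30 cG30_c0 cG30_c1 cG30_c2 cG30_c3 cG30_c4 cG30_c5 cG30_c6 cG30_c7
  ring

theorem cG30_nonneg (x y : ℝ) (hx0 : -(1 / 2) ≤ x) (hx1 : x ≤ 1) (hy0 : -(5 / 14) ≤ y)
    (hy1 : y ≤ 5 / 7) : 0 ≤ cG30 x y := by
  rw [cG30_id]
  have hs0 : 0 ≤ y + 5 / 14 := by linarith
  have ht0 : 0 ≤ 5 / 7 - y := by linarith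
  have h0 := cG30_c0_nonneg x hx0 hx1
  have h1 := cG30_c1_nonneg x hx0 hx1
  have h2 := cG30_c2_nonneg x hx0 hx1
  have h3 := cG30_c3_nonneg x hx0 hx1
  have h4 := cG30_c4_nonneg x hx0 hx1
  have h5 := cG30_c5_nonneg x hx0 hx1
  have h6 := cG30_c6_nonneg x hx0 hx1
  have h7 := cG30_c7_nonneg x hx0 hx1
  generalize y + 5 / 14 = s at *
  generalize 5 / 7 - y = t at *
  positivity

theorem cG30_eq (x y : ℝ) : cG30 x y =
    bw0 (bw3 (qG00 x y) (qG10 x y) (qG20 x y) (qG30 x y) (x ^ 2) (3 - 2 * x) 1)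
      (bw3 (qG01 x y) (qG11 x y) (qG21 x y) (qG31 x y) (x ^ 2) (3 - 2 * x) 1)
      (bw3 (qG02 x y) (qG12 x y) (qG22 x y) (qG32 x y) (x ^ 2) (3 - 2 * x) 1)
      (bw3 (qG03 x y) (qG13 x y) (qG23 x y) (qG33 x y) (x ^ 2) (3 - 2 * x) 1)
      (y ^ 2) (15 / 7 - 2 * y) (125 / 343) := by
  unfold cG30 bw0 bw3 qG00 qG01 qG02 qG03 qG10 qG11 qG12 qG13 qG20 qG21 qG22 qG23 qG30 qG31 qG32 qG33
  ring

end Vale.Agent.P154
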