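import Vale.Agent.P154.Gen.QGdef

namespace Vale.Agent.P154

noncomputable def cG31 (x y : ℝ) : ℝ :=
    (27864/343) + (-5616/245) * y + (57258/1715) * y ^ 2 + (-696924/1715) * y ^ 3 +
    (9234/35) * y ^ 4 + (1224/7) * y ^ 5 + (-648/5) * y ^ 6 + (-54009/343) * x +
    (-208728/1715) * x * y + (-1758/1715) * x * y ^ 2 + (1726668/1715) * x * y ^ 3 +
    (-690561/1715) * x * y ^ 4 + (-14052/35) * x * y ^ 5 + (-3204/35) * x * y ^ 6 +
    (864/5) * x * y ^ 7 + (50424/343) * x ^ 2 + (403908/1715) * x ^ 2 * y +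
    (-605982/1715) * x ^ 2 * y ^ 2 + (-272892/1715) * x ^ 2 * y ^ 3 +
    (-978654/1715) * x ^ 2 * y ^ 4 + (776292/1715) * x ^ 2 * y ^ 5 + (3840/7) * x ^ 2 * y ^ 6 +
    (-1584/7) * x ^ 2 * y ^ 7 + (-288/5) * x ^ 2 * y ^ 8 + (-29244/343) * x ^ 3 +
    (-206148/1715) * x ^ 3 * y + (726492/1715) * x ^ 3 * y ^ 2 + (-1094304/1715) * x ^ 3 * y ^ 3 +
    (1857084/1715) * x ^ 3 * y ^ 4 + (-1005276/1715) * x ^ 3 * y ^ 5 + (-2652/35) * x ^ 3 * y ^ 6 +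
    (-5184/35) * x ^ 3 * y ^ 7 + (624/5) * x ^ 3 * y ^ 8 + (7584/343) * x ^ 4 +
    (27528/1715) * x ^ 4 * y + (-4608/35) * x ^ 4 * y ^ 2 + (95376/343) * x ^ 4 * y ^ 3 +
    (-687864/1715) * x ^ 4 * y ^ 4 + (469944/1715) * x ^ 4 * y ^ 5 + (-984/7) * x ^ 4 * y ^ 6 +
    (5184/35) * x ^ 4 * y ^ 7 + (-288/5) * x ^ 4 * y ^ 8

noncomputable def cG31_c0 (x : ℝ) : ℝ :=
    (233211776/3515625) + (-8992723712/94921875) * x + (2369869696/284765625) * x ^ 2 +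
    (3376695808/94921875) * x ^ 3 + (-3544523264/284765625) * x ^ 4

theorem cG31_c0_nonneg (x : ℝ) (hx0 : -(1 / 2) ≤ x) (hx1 : x ≤ 1) : 0 ≤ cG31_c0 x := by
  obtain ⟨u, hu⟩ : ∃ u : ℝ, u = x + 1 / 2 := ⟨_, rfl⟩
  obtain ⟨v, hv⟩ : ∃ v : ℝ, v = 1 - x := ⟨_, rfl⟩
  have hu0 : 0 ≤ u := by rw [hu]; linarith
  have hv0 : 0 ≤ v := by rw [hv]; linarith
  have e : cG31_c0 x =
      (503742611456/23066015625) * v ^ 4 + (1535493318656/23066015625) * u * v ^ 3 +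
      (310303539712/7688671875) * u ^ 2 * v ^ 2 + (200144961536/23066015625) * u ^ 3 * v +
      (13878665216/23066015625) * u ^ 4 := by
    rw [hu, hv]; unfold cG31_c0; ring
  rw [e]; positivity

noncomputable def cG31_c1 (x : ℝ) : ℝ :=
    (4090059008/10546875) + (-53746575232/94921875) * x + (114840534656/284765625) * x ^ 2 +
    (-26406992512/94921875) * x ^ 3 + (27734832896/284765625) * x ^ 4

theorem cG31_c1_nonneg (x : ℝ) (hx0 : -(1 / 2) ≤ x) (hx1 : x ≤ 1) : 0 ≤ cG31_c1 x := by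
  obtain ⟨u, hu⟩ : ∃ u : ℝ, u = x + 1 / 2 := ⟨_, rfl⟩
  obtain ⟨v, hv⟩ : ∃ v : ℝ, v = 1 - x := ⟨_, rfl⟩
  have hu0 : 0 ≤ u := by rw [hu]; linarith
  have hv0 : 0 ≤ v := by rw [hv]; linarith
  have e : cG31_c1 x =
      (3702362223616/23066015625) * v ^ 4 + (6424727055616/23066015625) * u * v ^ 3 +
      (2323293612032/7688671875) * u ^ 2 * v ^ 2 + (2201734660096/23066015625) * u ^ 3 * v +
      (200740120576/23066015625) * u ^ 4 := by
    rw [hu, hv]; unfold cG31_c1; ring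
  rw [e]; positivity

noncomputable def cG31_c2 (x : ℝ) : ℝ :=
    (479285856/390625) + (-202764125648/94921875) * x + (611852869984/284765625) * x ^ 2 +
    (-140738090768/94921875) * x ^ 3 + (120759187744/284765625) * x ^ 4

theorem cG31_c2_nonneg (x : ℝ) (hx0 : -(1 / 2) ≤ x) (hx1 : x ≤ 1) : 0 ≤ cG31_c2 x := by
  obtain ⟨u, hu⟩ : ∃ u : ℝ, u = x + 1 / 2 := ⟨_, rfl⟩
  obtain ⟨v, hv⟩ : ∃ v : ℝ, v = 1 - x := ⟨_, rfl⟩
  have hu0 : 0 ≤ u := by rw [hu]; linarith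
  have hv0 : 0 ≤ v := by rw [hv]; linarith
  have e : cG31_c2 x =
      (13869328452224/23066015625) * v ^ 4 + (17144860728224/23066015625) * u * v ^ 3 +
      (6521960544448/7688671875) * u ^ 2 * v ^ 2 + (7332931910144/23066015625) * u ^ 3 * v +
      (824076760064/23066015625) * u ^ 4 := by
    rw [hu, hv]; unfold cG31_c2; ring
  rw [e]; positivity

noncomputable def cG31_c3 (x : ℝ) : ℝ :=
    (27629812672/10546875) + (-507347800288/94921875) * x + (1517936767904/284765625) * x ^ 2 +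
    (-301702957408/94921875) * x ^ 3 + (232384172864/284765625) * x ^ 4

theorem cG31_c3_nonneg (x : ℝ) (hx0 : -(1 / 2) ≤ x) (hx1 : x ≤ 1) : 0 ≤ cG31_c3 x := by
  obtain ⟨u, hu⟩ : ∃ u : ℝ, u = x + 1 / 2 := ⟨_, rfl⟩
  obtain ⟨v, hv⟩ : ∃ v : ℝ, v = 1 - x := ⟨_, rfl⟩
  have hu0 : 0 ≤ u := by rw [hu]; linarith
  have hv0 : 0 ≤ v := by rw [hv]; linarith
  have e : cG31_c3 x =
      (32226775270144/23066015625) * v ^ 4 + (36867007255744/23066015625) * u * v ^ 3 +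
      (11103572741888/7688671875) * u ^ 2 * v ^ 2 + (10954145995264/23066015625) * u ^ 3 * v +
      (1106777757184/23066015625) * u ^ 4 := by
    rw [hu, hv]; unfold cG31_c3; ring
  rw [e]; positivity

noncomputable def cG31_c4 (x : ℝ) : ℝ :=
    (95583712/28125) + (-6053918416/759375) * x + (3612848032/455625) * x ^ 2 +
    (-3102867136/759375) * x ^ 3 + (2029104512/2278125) * x ^ 4

theorem cG31_c4_nonneg (x : ℝ) (hx0 : -(1 / 2) ≤ x) (hx1 : x ≤ 1) : 0 ≤ cG31_c4 x := by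
  obtain ⟨u, hu⟩ : ∃ u : ℝ, u = x + 1 / 2 := ⟨_, rfl⟩
  obtain ⟨v, hv⟩ : ∃ v : ℝ, v = 1 - x := ⟨_, rfl⟩
  have hu0 : 0 ≤ u := by rw [hu]; linarith
  have hv0 : 0 ≤ v := by rw [hv]; linarith
  have e : cG31_c4 x =
      (362073800704/184528125) * v ^ 4 + (386967233536/184528125) * u * v ^ 3 +
      (83669220608/61509375) * u ^ 2 * v ^ 2 + (67601062528/184528125) * u ^ 3 * v +
      (5844299008/184528125) * u ^ 4 := by
    rw [hu, hv]; unfold cG31_c4; ring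
  rw [e]; positivity

noncomputable def cG31_c5 (x : ℝ) : ℝ :=
    (25800116608/10546875) + (-611350872832/94921875) * x + (1929430710656/284765625) * x ^ 2 +
    (-323720826112/94921875) * x ^ 3 + (195739268096/284765625) * x ^ 4

theorem cG31_c5_nonneg (x : ℝ) (hx0 : -(1 / 2) ≤ x) (hx1 : x ≤ 1) : 0 ≤ cG31_c5 x := by
  obtain ⟨u, hu⟩ : ∃ u : ℝ, u = x + 1 / 2 := ⟨_, rfl⟩
  obtain ⟨v, hv⟩ : ∃ v : ℝ, v = 1 - x := ⟨_, rfl⟩
  have hu0 : 0 ≤ u := by rw [hu]; linarith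
  have hv0 : 0 ≤ v := by rw [hv]; linarith
  have e : cG31_c5 x =
      (35673858390016/23066015625) * v ^ 4 + (32542037833216/23066015625) * u * v ^ 3 +
      (5351721016832/7688671875) * u ^ 2 * v ^ 2 + (3597031376896/23066015625) * u ^ 3 * v +
      (264928485376/23066015625) * u ^ 4 := by
    rw [hu, hv]; unfold cG31_c5; ring
  rw [e]; positivity

noncomputable def cG31_c6 (x : ℝ) : ℝ :=
    (9635102848/10546875) + (-245802190592/94921875) * x + (812364017536/284765625) * x ^ 2 +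
    (-137857014272/94921875) * x ^ 3 + (81766974976/284765625) * x ^ 4

theorem cG31_c6_nonneg (x : ℝ) (hx0 : -(1 / 2) ≤ x) (hx1 : x ≤ 1) : 0 ≤ cG31_c6 x := by
  obtain ⟨u, hu⟩ : ∃ u : ℝ, u = x + 1 / 2 := ⟨_, rfl⟩
  obtain ⟨v, hv⟩ : ∃ v : ℝ, v = 1 - x := ⟨_, rfl⟩
  have hu0 : 0 ≤ u := by rw [hu]; linarith
  have hv0 : 0 ≤ v := by rw [hv]; linarith
  have e : cG31_c6 x =
      (14219982135296/23066015625) * v ^ 4 + (11259951927296/23066015625) * u * v ^ 3 +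
      (1484440187392/7688671875) * u ^ 2 * v ^ 2 + (843044274176/23066015625) * u ^ 3 * v +
      (52818477056/23066015625) * u ^ 4 := by
    rw [hu, hv]; unfold cG31_c6; ring
  rw [e]; positivity

noncomputable def cG31_c7 (x : ℝ) : ℝ :=
    (1707338752/10546875) + (-44763486208/94921875) * x + (148662078464/284765625) * x ^ 2 +
    (-24748361728/94921875) * x ^ 3 + (14108647424/284765625) * x ^ 4

theorem cG31_c7_nonneg (x : ℝ) (hx0 : -(1 / 2) ≤ x) (hx1 : x ≤ 1) : 0 ≤ cG31_c7 x := by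
  obtain ⟨u, hu⟩ : ∃ u : ℝ, u = x + 1 / 2 := ⟨_, rfl⟩
  obtain ⟨v, hv⟩ : ∃ v : ℝ, v = 1 - x := ⟨_, rfl⟩
  have hu0 : 0 ≤ u := by rw [hu]; linarith
  have hv0 : 0 ≤ v := by rw [hv]; linarith
  have e : cG31_c7 x =
      (2569141141504/23066015625) * v ^ 4 + (1979988373504/23066015625) * u * v ^ 3 +
      (216018219008/7688671875) * u ^ 2 * v ^ 2 + (99740237824/23066015625) * u ^ 3 * v +
      (5333254144/23066015625) * u ^ 4 := by
    rw [hu, hv]; unfold cG31_c7; ring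
  rw [e]; positivity

noncomputable def cG31_c8 (x : ℝ) : ℝ :=
    (107978752/10546875) + (-2909892608/94921875) * x + (9850814464/284765625) * x ^ 2 +
    (-1656086528/94921875) * x ^ 3 + (944717824/284765625) * x ^ 4

theorem cG31_c8_nonneg (x : ℝ) (hx0 : -(1 / 2) ≤ x) (hx1 : x ≤ 1) : 0 ≤ cG31_c8 x := by
  obtain ⟨u, hu⟩ : ∃ u : ℝ, u = x + 1 / 2 := ⟨_, rfl⟩
  obtain ⟨v, hv⟩ : ∃ v : ℝ, v = 1 - x := ⟨_, rfl⟩
  have hu0 : 0 ≤ u := by rw [hu]; linarith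
  have hv0 : 0 ≤ v := by rw [hv]; linarith
  have e : cG31_c8 x =
      (166768738304/23066015625) * v ^ 4 + (120377851904/23066015625) * u * v ^ 3 +
      (11483742208/7688671875) * u ^ 2 * v ^ 2 + (4528308224/23066015625) * u ^ 3 * v +
      (208338944/23066015625) * u ^ 4 := by
    rw [hu, hv]; unfold cG31_c8; ring
  rw [e]; positivity

theorem cG31_id (x y : ℝ) : cG31 x y =
      cG31_c0 x * (5 / 7 - y) ^ 8 + cG31_c1 x * (y + 5 / 14) * (5 / 7 - y) ^ 7 + cG31_c2 x * (y +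
      5 / 14) ^ 2 * (5 / 7 - y) ^ 6 + cG31_c3 x * (y + 5 / 14) ^ 3 * (5 / 7 - y) ^ 5 +
      cG31_c4 x * (y + 5 / 14) ^ 4 * (5 / 7 - y) ^ 4 + cG31_c5 x * (y +
      5 / 14) ^ 5 * (5 / 7 - y) ^ 3 + cG31_c6 x * (y + 5 / 14) ^ 6 * (5 / 7 - y) ^ 2 +
      cG31_c7 x * (y + 5 / 14) ^ 7 * (5 / 7 - y) + cG31_c8 x * (y + 5 / 14) ^ 8 := by
  unfold cG31 cG31_c0 cG31_c1 cG31_c2 cG31_c3 cG31_c4 cG31_c5 cG31_c6 cG31_c7 cG31_c8
  ring

theorem cG31_nonneg (x y : ℝ) (hx0 : -(1 / 2) ≤ x) (hx1 : x ≤ 1) (hy0 : -(5 / 14) ≤ y)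
    (hy1 : y ≤ 5 / 7) : 0 ≤ cG31 x y := by
  rw [cG31_id]
  have hs0 : 0 ≤ y + 5 / 14 := by linarith
  have ht0 : 0 ≤ 5 / 7 - y := by linarith
  have h0 := cG31_c0_nonneg x hx0 hx1
  have h1 := cG31_c1_nonneg x hx0 hx1
  have h2 := cG31_c2_nonneg x hx0 hx1
  have h3 := cG31_c3_nonneg x hx0 hx1
  have h4 := cG31_c4_nonneg x hx0 hx1
  have h5 := cG31_c5_nonneg x hx0 hx1
  have h6 := cG31_c6_nonneg x hx0 hx1
  have h7 := cG31_c7_nonneg x hx0 hx1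
  have h8 := cG31_c8_nonneg x hx0 hx1
  generalize y + 5 / 14 = s at *
  generalize 5 / 7 - y = t at *
  positivity

theorem cG31_eq (x y : ℝ) : cG31 x y =
    bw1 (bw3 (qG00 x y) (qG10 x y) (qG20 x y) (qG30 x y) (x ^ 2) (3 - 2 * x) 1)
      (bw3 (qG01 x y) (qG11 x y) (qG21 x y) (qG31 x y) (x ^ 2) (3 - 2 * x) 1)
      (bw3 (qG02 x y) (qG12 x y) (qG22 x y) (qG32 x y) (x ^ 2) (3 - 2 * x) 1)
      (bw3 (qG03 x y) (qG13 x y) (qG23 x y) (qG33 x y) (x ^ 2) (3 - 2 * x) 1)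
      (y ^ 2) (15 / 7 - 2 * y) (125 / 343) := by
  unfold cG31 bw1 bw3 qG00 qG01 qG02 qG03 qG10 qG11 qG12 qG13 qG20 qG21 qG22 qG23 qG30 qG31 qG32 qG33
  ring

end Vale.Agent.P154
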