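import Vale.Agent.P154.Gen.QGdef

namespace Vale.Agent.P154

noncomputable def cG32 (x y : ℝ) : ℝ :=
    (22388040/117649) + (-33605118/117649) * y + (520938/12005) * y ^ 2 +
    (-3974562/12005) * y ^ 3 + (1370034/1715) * y ^ 4 + (-2592/5) * y ^ 5 + (504/5) * y ^ 6 +
    (-46000740/117649) * x + (27950508/117649) * x * y + (303232428/588245) * x * y ^ 2 +
    (7981812/12005) * x * y ^ 3 + (-19965096/12005) * x * y ^ 4 + (858096/1715) * x * y ^ 5 +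
    (672/5) * x * y ^ 6 + (38803140/117649) * x ^ 2 + (21372462/117649) * x ^ 2 * y +
    (-810864258/588245) * x ^ 2 * y ^ 2 + (361777602/588245) * x ^ 2 * y ^ 3 +
    (-5907186/12005) * x ^ 2 * y ^ 4 + (20361648/12005) * x ^ 2 * y ^ 5 +
    (-1611384/1715) * x ^ 2 * y ^ 6 + (-17898840/117649) * x ^ 3 + (-23921172/117649) * x ^ 3 * y +
    (654327948/588245) * x ^ 3 * y ^ 2 + (-824899212/588245) * x ^ 3 * y ^ 3 +
    (25027308/12005) * x ^ 3 * y ^ 4 + (-29482368/12005) * x ^ 3 * y ^ 5 +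
    (344016/343) * x ^ 3 * y ^ 6 + (556320/16807) * x ^ 4 + (4804992/117649) * x ^ 4 * y +
    (-170723328/588245) * x ^ 4 * y ^ 2 + (311728512/588245) * x ^ 4 * y ^ 3 +
    (-2007648/2401) * x ^ 4 * y ^ 4 + (10054848/12005) * x ^ 4 * y ^ 5 +
    (-532992/1715) * x ^ 4 * y ^ 6

noncomputable def cG32_c0 (x : ℝ) : ℝ :=
    (4759424/21875) + (-1284674816/4134375) * x + (2369869696/86821875) * x ^ 2 +
    (3376695808/28940625) * x ^ 3 + (-3544523264/86821875) * x ^ 4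

theorem cG32_c0_nonneg (x : ℝ) (hx0 : -(1 / 2) ≤ x) (hx1 : x ≤ 1) : 0 ≤ cG32_c0 x := by
  obtain ⟨u, hu⟩ : ∃ u : ℝ, u = x + 1 / 2 := ⟨_, rfl⟩
  obtain ⟨v, hv⟩ : ∃ v : ℝ, v = 1 - x := ⟨_, rfl⟩
  have hu0 : 0 ≤ u := by rw [hu]; linarith
  have hv0 : 0 ≤ v := by rw [hv]; linarith
  have e : cG32_c0 x =
      (71963230208/1004653125) * v ^ 4 + (1535493318656/7032571875) * u * v ^ 3 +
      (310303539712/2344190625) * u ^ 2 * v ^ 2 + (200144961536/7032571875) * u ^ 3 * v +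
      (13878665216/7032571875) * u ^ 4 := by
    rw [hu, hv]; unfold cG32_c0; ring
  rw [e]; positivity

noncomputable def cG32_c1 (x : ℝ) : ℝ :=
    (18725248/21875) + (-2117594944/1378125) * x + (38805716864/28940625) * x ^ 2 +
    (-2643258176/3215625) * x ^ 3 + (6895178624/28940625) * x ^ 4

theorem cG32_c1_nonneg (x : ℝ) (hx0 : -(1 / 2) ≤ x) (hx1 : x ≤ 1) : 0 ≤ cG32_c1 x := by
  obtain ⟨u, hu⟩ : ∃ u : ℝ, u = x + 1 / 2 := ⟨_, rfl⟩
  obtain ⟨v, hv⟩ : ∃ v : ℝ, v = 1 - x := ⟨_, rfl⟩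
  have hu0 : 0 ≤ u := by rw [hu]; linarith
  have hv0 : 0 ≤ v := by rw [hv]; linarith
  have e : cG32_c1 x =
      (137404099072/334884375) * v ^ 4 + (1337759749504/2344190625) * u * v ^ 3 +
      (432092004608/781396875) * u ^ 2 * v ^ 2 + (397284788224/2344190625) * u ^ 3 * v +
      (35449298944/2344190625) * u ^ 4 := by
    rw [hu, hv]; unfold cG32_c1; ring
  rw [e]; positivity

noncomputable def cG32_c2 (x : ℝ) : ℝ :=
    (18565784/9375) + (-5905556288/1378125) * x + (107162190728/28940625) * x ^ 2 +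
    (-5243413552/3215625) * x ^ 3 + (9257522048/28940625) * x ^ 4

theorem cG32_c2_nonneg (x : ℝ) (hx0 : -(1 / 2) ≤ x) (hx1 : x ≤ 1) : 0 ≤ cG32_c2 x := by
  obtain ⟨u, hu⟩ : ∃ u : ℝ, u = x + 1 / 2 := ⟨_, rfl⟩
  obtain ⟨v, hv⟩ : ∃ v : ℝ, v = 1 - x := ⟨_, rfl⟩
  have hu0 : 0 ≤ u := by rw [hu]; linarith
  have hv0 : 0 ≤ v := by rw [hv]; linarith
  have e : cG32_c2 x =
      (348774626944/334884375) * v ^ 4 + (3256873347808/2344190625) * u * v ^ 3 +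
      (676043251616/781396875) * u ^ 2 * v ^ 2 + (503217653248/2344190625) * u ^ 3 * v +
      (40398143488/2344190625) * u ^ 4 := by
    rw [hu, hv]; unfold cG32_c2; ring
  rw [e]; positivity

noncomputable def cG32_c3 (x : ℝ) : ℝ :=
    (17844976/9375) + (-21077737696/4134375) * x + (475345111376/86821875) * x ^ 2 +
    (-81615086752/28940625) * x ^ 3 + (50471638016/86821875) * x ^ 4

theorem cG32_c3_nonneg (x : ℝ) (hx0 : -(1 / 2) ≤ x) (hx1 : x ≤ 1) : 0 ≤ cG32_c3 x := by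
  obtain ⟨u, hu⟩ : ∃ u : ℝ, u = x + 1 / 2 := ⟨_, rfl⟩
  obtain ⟨v, hv⟩ : ∃ v : ℝ, v = 1 - x := ⟨_, rfl⟩
  have hu0 : 0 ≤ u := by rw [hu]; linarith
  have hv0 : 0 ≤ v := by rw [hv]; linarith
  have e : cG32_c3 x =
      (1232399957248/1004653125) * v ^ 4 + (7462861990336/7032571875) * u * v ^ 3 +
      (1229108094272/2344190625) * u ^ 2 * v ^ 2 + (820680438016/7032571875) * u ^ 3 * v +
      (57621124096/7032571875) * u ^ 4 := by
    rw [hu, hv]; unfold cG32_c3; ring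
  rw [e]; positivity

noncomputable def cG32_c4 (x : ℝ) : ℝ :=
    (17392576/21875) + (-3157404928/1378125) * x + (10642620224/4134375) * x ^ 2 +
    (-615097216/459375) * x ^ 3 + (1117789184/4134375) * x ^ 4

theorem cG32_c4_nonneg (x : ℝ) (hx0 : -(1 / 2) ≤ x) (hx1 : x ≤ 1) : 0 ≤ cG32_c4 x := by
  obtain ⟨u, hu⟩ : ∃ u : ℝ, u = x + 1 / 2 := ⟨_, rfl⟩
  obtain ⟨v, hv⟩ : ∃ v : ℝ, v = 1 - x := ⟨_, rfl⟩
  have hu0 : 0 ≤ u := by rw [hu]; linarith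
  have hv0 : 0 ≤ v := by rw [hv]; linarith
  have e : cG32_c4 x =
      (26161841152/47840625) * v ^ 4 + (136716292864/334884375) * u * v ^ 3 +
      (17927913728/111628125) * u ^ 2 * v ^ 2 + (10291677184/334884375) * u ^ 3 * v +
      (632264704/334884375) * u ^ 4 := by
    rw [hu, hv]; unfold cG32_c4; ring
  rw [e]; positivity

noncomputable def cG32_c5 (x : ℝ) : ℝ :=
    (9261824/65625) + (-567540224/1378125) * x + (13209407744/28940625) * x ^ 2 +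
    (-244485632/1071875) * x ^ 3 + (1254447104/28940625) * x ^ 4

theorem cG32_c5_nonneg (x : ℝ) (hx0 : -(1 / 2) ≤ x) (hx1 : x ≤ 1) : 0 ≤ cG32_c5 x := by
  obtain ⟨u, hu⟩ : ∃ u : ℝ, u = x + 1 / 2 := ⟨_, rfl⟩
  obtain ⟨v, hv⟩ : ∃ v : ℝ, v = 1 - x := ⟨_, rfl⟩
  have hu0 : 0 ≤ u := by rw [hu]; linarith
  have hv0 : 0 ≤ v := by rw [hv]; linarith
  have e : cG32_c5 x =
      (32570355712/334884375) * v ^ 4 + (175030518784/2344190625) * u * v ^ 3 +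
      (18958496768/781396875) * u ^ 2 * v ^ 2 + (8689045504/2344190625) * u ^ 3 * v +
      (461799424/2344190625) * u ^ 4 := by
    rw [hu, hv]; unfold cG32_c5; ring
  rw [e]; positivity

noncomputable def cG32_c6 (x : ℝ) : ℝ :=
    (550912/65625) + (-103924736/4134375) * x + (2462703616/86821875) * x ^ 2 +
    (-414021632/28940625) * x ^ 3 + (236179456/86821875) * x ^ 4

theorem cG32_c6_nonneg (x : ℝ) (hx0 : -(1 / 2) ≤ x) (hx1 : x ≤ 1) : 0 ≤ cG32_c6 x := by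
  obtain ⟨u, hu⟩ : ∃ u : ℝ, u = x + 1 / 2 := ⟨_, rfl⟩
  obtain ⟨v, hv⟩ : ∃ v : ℝ, v = 1 - x := ⟨_, rfl⟩
  have hu0 : 0 ≤ u := by rw [hu]; linarith
  have hv0 : 0 ≤ v := by rw [hv]; linarith
  have e : cG32_c6 x =
      (5956026368/1004653125) * v ^ 4 + (30094462976/7032571875) * u * v ^ 3 +
      (2870935552/2344190625) * u ^ 2 * v ^ 2 + (1132077056/7032571875) * u ^ 3 * v +
      (52084736/7032571875) * u ^ 4 := by
    rw [hu, hv]; unfold cG32_c6; ring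
  rw [e]; positivity

theorem cG32_id (x y : ℝ) : cG32 x y =
      cG32_c0 x * (5 / 7 - y) ^ 6 + cG32_c1 x * (y + 5 / 14) * (5 / 7 - y) ^ 5 + cG32_c2 x * (y +
      5 / 14) ^ 2 * (5 / 7 - y) ^ 4 + cG32_c3 x * (y + 5 / 14) ^ 3 * (5 / 7 - y) ^ 3 +
      cG32_c4 x * (y + 5 / 14) ^ 4 * (5 / 7 - y) ^ 2 + cG32_c5 x * (y + 5 / 14) ^ 5 * (5 / 7 - y) +
      cG32_c6 x * (y + 5 / 14) ^ 6 := by
  unfold cG32 cG32_c0 cG32_c1 cG32_c2 cG32_c3 cG32_c4 cG32_c5 cG32_c6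
  ring

theorem cG32_nonneg (x y : ℝ) (hx0 : -(1 / 2) ≤ x) (hx1 : x ≤ 1) (hy0 : -(5 / 14) ≤ y)
    (hy1 : y ≤ 5 / 7) : 0 ≤ cG32 x y := by
  rw [cG32_id]
  have hs0 : 0 ≤ y + 5 / 14 := by linarith
  have ht0 : 0 ≤ 5 / 7 - y := by linarith
  have h0 := cG32_c0_nonneg x hx0 hx1
  have h1 := cG32_c1_nonneg x hx0 hx1
  have h2 := cG32_c2_nonneg x hx0 hx1
  have h3 := cG32_c3_nonneg x hx0 hx1
  have h4 := cG32_c4_nonneg x hx0 hx1
  have h5 := cG32_c5_nonneg x hx0 hx1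
  have h6 := cG32_c6_nonneg x hx0 hx1
  generalize y + 5 / 14 = s at *
  generalize 5 / 7 - y = t at *
  positivity

theorem cG32_eq (x y : ℝ) : cG32 x y =
    bw2 (bw3 (qG00 x y) (qG10 x y) (qG20 x y) (qG30 x y) (x ^ 2) (3 - 2 * x) 1)
      (bw3 (qG01 x y) (qG11 x y) (qG21 x y) (qG31 x y) (x ^ 2) (3 - 2 * x) 1)
      (bw3 (qG02 x y) (qG12 x y) (qG22 x y) (qG32 x y) (x ^ 2) (3 - 2 * x) 1)
      (bw3 (qG03 x y) (qG13 x y) (qG23 x y) (qG33 x y) (x ^ 2) (3 - 2 * x) 1)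
      (y ^ 2) (15 / 7 - 2 * y) (125 / 343) := by
  unfold cG32 bw2 bw3 qG00 qG01 qG02 qG03 qG10 qG11 qG12 qG13 qG20 qG21 qG22 qG23 qG30 qG31 qG32 qG33
  ring

end Vale.Agent.P154
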