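import Vale.Agent.P154.Gen.QGdef

namespace Vale.Agent.P154

noncomputable def cG33 (x y : ℝ) : ℝ :=
    (116136450/823543) + (-314914860/823543) * y + (33942078/117649) * y ^ 2 +
    (4104/1715) * y ^ 3 + (-12168/245) * y ^ 4 + (-255008700/823543) * x +
    (482021160/823543) * x * y + (153450324/823543) * x * y ^ 2 + (-520970832/588245) * x * y ^ 3 +
    (103728/245) * x * y ^ 4 + (210879450/823543) * x ^ 2 + (-116389260/823543) * x ^ 2 * y +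
    (-1058987814/823543) * x ^ 2 * y ^ 2 + (8143869864/4117715) * x ^ 2 * y ^ 3 +
    (-473633448/588245) * x ^ 2 * y ^ 4 + (-82204200/823543) * x ^ 3 +
    (-107713440/823543) * x ^ 3 * y + (931655784/823543) * x ^ 3 * y ^ 2 +
    (-6100337184/4117715) * x ^ 3 * y ^ 3 + (340791648/588245) * x ^ 3 * y ^ 4 +
    (1956600/117649) * x ^ 4 + (42921840/823543) * x ^ 4 * y +
    (-242841624/823543) * x ^ 4 * y ^ 2 + (1525979424/4117715) * x ^ 4 * y ^ 3 +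
    (-84712608/588245) * x ^ 4 * y ^ 4

noncomputable def cG33_c0 (x : ℝ) : ℝ :=
    (14278272/60025) + (-1284674816/3781575) * x + (2369869696/79413075) * x ^ 2 +
    (3376695808/26471025) * x ^ 3 + (-3544523264/79413075) * x ^ 4

theorem cG33_c0_nonneg (x : ℝ) (hx0 : -(1 / 2) ≤ x) (hx1 : x ≤ 1) : 0 ≤ cG33_c0 x := by
  obtain ⟨u, hu⟩ : ∃ u : ℝ, u = x + 1 / 2 := ⟨_, rfl⟩
  obtain ⟨v, hv⟩ : ∃ v : ℝ, v = 1 - x := ⟨_, rfl⟩
  have hu0 : 0 ≤ u := by rw [hu]; linarith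
  have hv0 : 0 ≤ v := by rw [hv]; linarith
  have e : cG33_c0 x =
      (71963230208/918922725) * v ^ 4 + (1535493318656/6432459075) * u * v ^ 3 +
      (310303539712/2144153025) * u ^ 2 * v ^ 2 + (200144961536/6432459075) * u ^ 3 * v +
      (13878665216/6432459075) * u ^ 4 := by
    rw [hu, hv]; unfold cG33_c0; ring
  rw [e]; positivity

noncomputable def cG33_c1 (x : ℝ) : ℝ :=
    (28880896/60025) + (-5027487488/3781575) * x + (117993766528/79413075) * x ^ 2 +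
    (-21171654656/26471025) * x ^ 3 + (13636238848/79413075) * x ^ 4

theorem cG33_c1_nonneg (x : ℝ) (hx0 : -(1 / 2) ≤ x) (hx1 : x ≤ 1) : 0 ≤ cG33_c1 x := by
  obtain ⟨u, hu⟩ : ∃ u : ℝ, u = x + 1 / 2 := ⟨_, rfl⟩
  obtain ⟨v, hv⟩ : ∃ v : ℝ, v = 1 - x := ⟨_, rfl⟩
  have hu0 : 0 ≤ u := by rw [hu]; linarith
  have hv0 : 0 ≤ v := by rw [hv]; linarith
  have e : cG33_c1 x =
      (295515705344/918922725) * v ^ 4 + (1601831441408/6432459075) * u * v ^ 3 +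
      (269258415616/2144153025) * u ^ 2 * v ^ 2 + (181974069248/6432459075) * u ^ 3 * v +
      (11955673088/6432459075) * u ^ 4 := by
    rw [hu, hv]; unfold cG33_c1; ring
  rw [e]; positivity

noncomputable def cG33_c2 (x : ℝ) : ℝ :=
    (2787384/12005) + (-171161744/252105) * x + (586575592/756315) * x ^ 2 +
    (-34485728/84035) * x ^ 3 + (9095776/108045) * x ^ 4

theorem cG33_c2_nonneg (x : ℝ) (hx0 : -(1 / 2) ≤ x) (hx1 : x ≤ 1) : 0 ≤ cG33_c2 x := by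
  obtain ⟨u, hu⟩ : ∃ u : ℝ, u = x + 1 / 2 := ⟨_, rfl⟩
  obtain ⟨v, hv⟩ : ∃ v : ℝ, v = 1 - x := ⟨_, rfl⟩
  have hu0 : 0 ≤ u := by rw [hu]; linarith
  have hv0 : 0 ≤ v := by rw [hv]; linarith
  have e : cG33_c2 x =
      (1421182976/8751645) * v ^ 4 + (7040930432/61261515) * u * v ^ 3 +
      (916031584/20420505) * u ^ 2 * v ^ 2 + (530051072/61261515) * u ^ 3 * v +
      (31910912/61261515) * u ^ 4 := by
    rw [hu, hv]; unfold cG33_c2; ring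
  rw [e]; positivity

noncomputable def cG33_c3 (x : ℝ) : ℝ :=
    (2453184/60025) + (-451636352/3781575) * x + (10522731712/79413075) * x ^ 2 +
    (-1753783424/26471025) * x ^ 3 + (999880192/79413075) * x ^ 4

theorem cG33_c3_nonneg (x : ℝ) (hx0 : -(1 / 2) ≤ x) (hx1 : x ≤ 1) : 0 ≤ cG33_c3 x := by
  obtain ⟨u, hu⟩ : ∃ u : ℝ, u = x + 1 / 2 := ⟨_, rfl⟩
  obtain ⟨v, hv⟩ : ∃ v : ℝ, v = 1 - x := ⟨_, rfl⟩
  have hu0 : 0 ≤ u := by rw [hu]; linarith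
  have hv0 : 0 ≤ v := by rw [hv]; linarith
  have e : cG33_c3 x =
      (25916773376/918922725) * v ^ 4 + (138796504832/6432459075) * u * v ^ 3 +
      (14936606464/2144153025) * u ^ 2 * v ^ 2 + (6799803392/6432459075) * u ^ 3 * v +
      (359370752/6432459075) * u ^ 4 := by
    rw [hu, hv]; unfold cG33_c3; ring
  rw [e]; positivity

noncomputable def cG33_c4 (x : ℝ) : ℝ :=
    (137728/60025) + (-25981184/3781575) * x + (615675904/79413075) * x ^ 2 +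
    (-103505408/26471025) * x ^ 3 + (59044864/79413075) * x ^ 4

theorem cG33_c4_nonneg (x : ℝ) (hx0 : -(1 / 2) ≤ x) (hx1 : x ≤ 1) : 0 ≤ cG33_c4 x := by
  obtain ⟨u, hu⟩ : ∃ u : ℝ, u = x + 1 / 2 := ⟨_, rfl⟩
  obtain ⟨v, hv⟩ : ∃ v : ℝ, v = 1 - x := ⟨_, rfl⟩
  have hu0 : 0 ≤ u := by rw [hu]; linarith
  have hv0 : 0 ≤ v := by rw [hv]; linarith
  have e : cG33_c4 x =
      (1489006592/918922725) * v ^ 4 + (7523615744/6432459075) * u * v ^ 3 +
      (717733888/2144153025) * u ^ 2 * v ^ 2 + (283019264/6432459075) * u ^ 3 * v +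
      (13021184/6432459075) * u ^ 4 := by
    rw [hu, hv]; unfold cG33_c4; ring
  rw [e]; positivity

theorem cG33_id (x y : ℝ) : cG33 x y =
      cG33_c0 x * (5 / 7 - y) ^ 4 + cG33_c1 x * (y + 5 / 14) * (5 / 7 - y) ^ 3 + cG33_c2 x * (y +
      5 / 14) ^ 2 * (5 / 7 - y) ^ 2 + cG33_c3 x * (y + 5 / 14) ^ 3 * (5 / 7 - y) + cG33_c4 x * (y +
      5 / 14) ^ 4 := by
  unfold cG33 cG33_c0 cG33_c1 cG33_c2 cG33_c3 cG33_c4
  ring

theorem cG33_nonneg (x y : ℝ) (hx0 : -(1 / 2) ≤ x) (hx1 : x ≤ 1) (hy0 : -(5 / 14) ≤ y)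
    (hy1 : y ≤ 5 / 7) : 0 ≤ cG33 x y := by
  rw [cG33_id]
  have hs0 : 0 ≤ y + 5 / 14 := by linarith
  have ht0 : 0 ≤ 5 / 7 - y := by linarith
  have h0 := cG33_c0_nonneg x hx0 hx1
  have h1 := cG33_c1_nonneg x hx0 hx1
  have h2 := cG33_c2_nonneg x hx0 hx1
  have h3 := cG33_c3_nonneg x hx0 hx1
  have h4 := cG33_c4_nonneg x hx0 hx1
  generalize y + 5 / 14 = s at *
  generalize 5 / 7 - y = t at *
  positivity

theorem cG33_eq (x y : ℝ) : cG33 x y =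
    bw3 (bw3 (qG00 x y) (qG10 x y) (qG20 x y) (qG30 x y) (x ^ 2) (3 - 2 * x) 1)
      (bw3 (qG01 x y) (qG11 x y) (qG21 x y) (qG31 x y) (x ^ 2) (3 - 2 * x) 1)
      (bw3 (qG02 x y) (qG12 x y) (qG22 x y) (qG32 x y) (x ^ 2) (3 - 2 * x) 1)
      (bw3 (qG03 x y) (qG13 x y) (qG23 x y) (qG33 x y) (x ^ 2) (3 - 2 * x) 1)
      (y ^ 2) (15 / 7 - 2 * y) (125 / 343) := by
  unfold cG33 bw3 qG00 qG01 qG02 qG03 qG10 qG11 qG12 qG13 qG20 qG21 qG22 qG23 qG30 qG31 qG32 qG33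
  ring

end Vale.Agent.P154
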