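import Vale.Agent.P154.Gen.QXdef

namespace Vale.Agent.P154

noncomputable def cX00 (x y : ℝ) : ℝ :=
    (9/10) + (7/10) * y + (-61/50) * y ^ 2 + (-26/25) * y ^ 3 + (26/75) * y ^ 4 + (11/10) * x +
    (-7/10) * x * y + (-139/50) * x * y ^ 2 + (76/25) * x * y ^ 3 + (-26/75) * x * y ^ 4 +
    (-73/50) * x ^ 2 + (-2) * x ^ 2 * y + (13/10) * x ^ 2 * y ^ 2 + (39/10) * x ^ 2 * y ^ 3 +
    (-117/50) * x ^ 2 * y ^ 4 + (78/25) * x ^ 2 * y ^ 5 + (-26/25) * x ^ 2 * y ^ 6 +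
    (-18/25) * x ^ 3 + 2 * x ^ 3 * y + (27/10) * x ^ 3 * y ^ 2 + (-41/10) * x ^ 3 * y ^ 3 +
    (-13/50) * x ^ 3 * y ^ 4 + (-39/25) * x ^ 3 * y ^ 5 + (-26/25) * x ^ 3 * y ^ 6 +
    (52/75) * x ^ 3 * y ^ 7 + (6/25) * x ^ 4 + (-81/50) * x ^ 4 * y ^ 2 + (-9/5) * x ^ 4 * y ^ 3 +
    (13/5) * x ^ 4 * y ^ 4 + (-39/25) * x ^ 4 * y ^ 5 + (52/25) * x ^ 4 * y ^ 6 +
    (-52/75) * x ^ 4 * y ^ 7 + (54/25) * x ^ 5 * y ^ 2 + (27/25) * x ^ 5 * y ^ 3 +
    (-18/25) * x ^ 6 * y ^ 2 + (-36/25) * x ^ 6 * y ^ 3 + (12/25) * x ^ 7 * y ^ 3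

noncomputable def cX00_c0 (x : ℝ) : ℝ :=
    (865556384/2562890625) + (1346052736/2562890625) * x + (-2150211896/4271484375) * x ^ 2 +
    (-7123037216/12814453125) * x ^ 3 + (1356347672/12814453125) * x ^ 4 +
    (883568/6328125) * x ^ 5 + (-307328/18984375) * x ^ 6 + (-153664/11390625) * x ^ 7

theorem cX00_c0_nonneg (x : ℝ) (hx0 : -(1 / 2) ≤ x) (hx1 : x ≤ 1) : 0 ≤ cX00_c0 x := by
  obtain ⟨u, hu⟩ : ∃ u : ℝ, u = x + 1 / 2 := ⟨_, rfl⟩
  obtain ⟨v, hv⟩ : ∃ v : ℝ, v = 1 - x := ⟨_, rfl⟩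
  have hu0 : 0 ≤ u := by rw [hu]; linarith
  have hv0 : 0 ≤ v := by rw [hv]; linarith
  have e : cX00_c0 x =
      (11406441152/9341736328125) * v ^ 7 + (191725830848/3113912109375) * u * v ^ 6 +
      (1196937941632/3113912109375) * u ^ 2 * v ^ 5 + (71789070272/74733890625) * u ^ 3 * v ^ 4 +
      (1156982582528/1037970703125) * u ^ 4 * v ^ 3 +
      (1801343247616/3113912109375) * u ^ 5 * v ^ 2 + (214890391552/1868347265625) * u ^ 6 * v +
      (3550253056/3113912109375) * u ^ 7 := by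
    rw [hu, hv]; unfold cX00_c0; ring
  rw [e]; positivity

noncomputable def cX00_c1 (x : ℝ) : ℝ :=
    (7939906688/2562890625) + (13678313152/2562890625) * x + (-17083842272/4271484375) * x ^ 2 +
    (-62826933512/12814453125) * x ^ 3 + (7674246104/12814453125) * x ^ 4 +
    (1459808/6328125) * x ^ 5 + (-2612288/18984375) * x ^ 6 + (307328/11390625) * x ^ 7

theorem cX00_c1_nonneg (x : ℝ) (hx0 : -(1 / 2) ≤ x) (hx1 : x ≤ 1) : 0 ≤ cX00_c1 x := by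
  obtain ⟨u, hu⟩ : ∃ u : ℝ, u = x + 1 / 2 := ⟨_, rfl⟩
  obtain ⟨v, hv⟩ : ∃ v : ℝ, v = 1 - x := ⟨_, rfl⟩
  have hu0 : 0 ≤ u := by rw [hu]; linarith
  have hv0 : 0 ≤ v := by rw [hv]; linarith
  have e : cX00_c1 x =
      (38453113664/9341736328125) * v ^ 7 + (1582587667136/3113912109375) * u * v ^ 6 +
      (10791958066624/3113912109375) * u ^ 2 * v ^ 5 +
      (3302376761152/373669453125) * u ^ 3 * v ^ 4 +
      (10932741748096/1037970703125) * u ^ 4 * v ^ 3 +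
      (18812379373312/3113912109375) * u ^ 5 * v ^ 2 + (2564177749504/1868347265625) * u ^ 6 * v +
      (45873006592/3113912109375) * u ^ 7 := by
    rw [hu, hv]; unfold cX00_c1; ring
  rw [e]; positivity

noncomputable def cX00_c2 (x : ℝ) : ℝ :=
    (9917480048/854296875) + (14120947792/854296875) * x + (-25514092772/1423828125) * x ^ 2 +
    (-53810709512/4271484375) * x ^ 3 + (16748654804/4271484375) * x ^ 4 +
    (-1767136/2109375) * x ^ 5 + (614656/6328125) * x ^ 6 + (307328/3796875) * x ^ 7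

theorem cX00_c2_nonneg (x : ℝ) (hx0 : -(1 / 2) ≤ x) (hx1 : x ≤ 1) : 0 ≤ cX00_c2 x := by
  obtain ⟨u, hu⟩ : ∃ u : ℝ, u = x + 1 / 2 := ⟨_, rfl⟩
  obtain ⟨v, hv⟩ : ∃ v : ℝ, v = 1 - x := ⟨_, rfl⟩
  have hu0 : 0 ≤ u := by rw [hu]; linarith
  have hv0 : 0 ≤ v := by rw [hv]; linarith
  have e : cX00_c2 x =
      (129629821664/3113912109375) * v ^ 7 + (2377273111136/1037970703125) * u * v ^ 6 +
      (14442050672224/1037970703125) * u ^ 2 * v ^ 5 +
      (4011578595808/124556484375) * u ^ 3 * v ^ 4 + (1377223334144/38443359375) * u ^ 4 * v ^ 3 +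
      (20320118019712/1037970703125) * u ^ 5 * v ^ 2 + (2655914404864/622782421875) * u ^ 6 * v +
      (53617672192/1037970703125) * u ^ 7 := by
    rw [hu, hv]; unfold cX00_c2; ring
  rw [e]; positivity

noncomputable def cX00_c3 (x : ℝ) : ℝ :=
    (11394465488/512578125) + (12125346352/512578125) * x + (-32452807772/854296875) * x ^ 2 +
    (-31323164012/2562890625) * x ^ 3 + (17670334304/2562890625) * x ^ 4 +
    (-2458624/1265625) * x ^ 5 + (3380608/3796875) * x ^ 6 + (-1229312/11390625) * x ^ 7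

theorem cX00_c3_nonneg (x : ℝ) (hx0 : -(1 / 2) ≤ x) (hx1 : x ≤ 1) : 0 ≤ cX00_c3 x := by
  obtain ⟨u, hu⟩ : ∃ u : ℝ, u = x + 1 / 2 := ⟨_, rfl⟩
  obtain ⟨v, hv⟩ : ∃ v : ℝ, v = 1 - x := ⟨_, rfl⟩
  have hu0 : 0 ≤ u := by rw [hu]; linarith
  have hv0 : 0 ≤ v := by rw [hv]; linarith
  have e : cX00_c3 x =
      (321388700864/1868347265625) * v ^ 7 + (3387638299136/622782421875) * u * v ^ 6 +
      (17585741617024/622782421875) * u ^ 2 * v ^ 5 + (4411618451968/74733890625) * u ^ 3 * v ^ 4 +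
      (12690479727296/207594140625) * u ^ 4 * v ^ 3 +
      (19492088019712/622782421875) * u ^ 5 * v ^ 2 + (2398512358144/373669453125) * u ^ 6 * v +
      (51404910592/622782421875) * u ^ 7 := by
    rw [hu, hv]; unfold cX00_c3; ring
  rw [e]; positivity

noncomputable def cX00_c4 (x : ℝ) : ℝ :=
    (11918185328/512578125) + (8922110512/512578125) * x + (-36887703272/854296875) * x ^ 2 +
    (-5061603512/2562890625) * x ^ 3 + (13210119104/2562890625) * x ^ 4 +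
    (422576/1265625) * x ^ 5 + (307328/759375) * x ^ 6 + (-2612288/11390625) * x ^ 7

theorem cX00_c4_nonneg (x : ℝ) (hx0 : -(1 / 2) ≤ x) (hx1 : x ≤ 1) : 0 ≤ cX00_c4 x := by
  obtain ⟨u, hu⟩ : ∃ u : ℝ, u = x + 1 / 2 := ⟨_, rfl⟩
  obtain ⟨v, hv⟩ : ∃ v : ℝ, v = 1 - x := ⟨_, rfl⟩
  have hu0 : 0 ≤ u := by rw [hu]; linarith
  have hv0 : 0 ≤ v := by rw [hv]; linarith
  have e : cX00_c4 x =
      (472416568064/1868347265625) * v ^ 7 + (4193100926336/622782421875) * u * v ^ 6 +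
      (19196744117824/622782421875) * u ^ 2 * v ^ 5 + (4440492929152/74733890625) * u ^ 3 * v ^ 4 +
      (11887259956096/207594140625) * u ^ 4 * v ^ 3 +
      (16761627968512/622782421875) * u ^ 5 * v ^ 2 + (1876932703744/373669453125) * u ^ 6 * v +
      (42553864192/622782421875) * u ^ 7 := by
    rw [hu, hv]; unfold cX00_c4; ring
  rw [e]; positivity

noncomputable def cX00_c5 (x : ℝ) : ℝ :=
    (11180433488/854296875) + (5597370352/854296875) * x + (-38049738272/1423828125) * x ^ 2 +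
    (23487959488/4271484375) * x ^ 3 + (-1342721296/4271484375) * x ^ 4 +
    (7913696/2109375) * x ^ 5 + (-9066176/6328125) * x ^ 6 + (307328/3796875) * x ^ 7

theorem cX00_c5_nonneg (x : ℝ) (hx0 : -(1 / 2) ≤ x) (hx1 : x ≤ 1) : 0 ≤ cX00_c5 x := by
  obtain ⟨u, hu⟩ : ∃ u : ℝ, u = x + 1 / 2 := ⟨_, rfl⟩
  obtain ⟨v, hv⟩ : ∃ v : ℝ, v = 1 - x := ⟨_, rfl⟩
  have hu0 : 0 ≤ u := by rw [hu]; linarith
  have hv0 : 0 ≤ v := by rw [hv]; linarith
  have e : cX00_c5 x =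
      (416102968064/3113912109375) * v ^ 7 + (4525393031936/1037970703125) * u * v ^ 6 +
      (18563129799424/1037970703125) * u ^ 2 * v ^ 5 + (809743270784/24911296875) * u ^ 3 * v ^ 4 +
      (3359644639232/115330078125) * u ^ 4 * v ^ 3 +
      (12847245709312/1037970703125) * u ^ 5 * v ^ 2 + (1271806219264/622782421875) * u ^ 6 * v +
      (30383675392/1037970703125) * u ^ 7 := by
    rw [hu, hv]; unfold cX00_c5; ring
  rw [e]; positivity

noncomputable def cX00_c6 (x : ℝ) : ℝ :=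
    (9017475488/2562890625) + (3092784352/2562890625) * x + (-32925402272/4271484375) * x ^ 2 +
    (37279331488/12814453125) * x ^ 3 + (-21872144896/12814453125) * x ^ 4 +
    (21051968/6328125) * x ^ 5 + (-32576768/18984375) * x ^ 6 + (614656/2278125) * x ^ 7

theorem cX00_c6_nonneg (x : ℝ) (hx0 : -(1 / 2) ≤ x) (hx1 : x ≤ 1) : 0 ≤ cX00_c6 x := by
  obtain ⟨u, hu⟩ : ∃ u : ℝ, u = x + 1 / 2 := ⟨_, rfl⟩
  obtain ⟨v, hv⟩ : ∃ v : ℝ, v = 1 - x := ⟨_, rfl⟩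
  have hu0 : 0 ≤ u := by rw [hu]; linarith
  have hv0 : 0 ≤ v := by rw [hv]; linarith
  have e : cX00_c6 x =
      (210417073664/9341736328125) * v ^ 7 + (4138094299136/3113912109375) * u * v ^ 6 +
      (14918041594624/3113912109375) * u ^ 2 * v ^ 5 +
      (3237620495872/373669453125) * u ^ 3 * v ^ 4 +
      (7590947012096/1037970703125) * u ^ 4 * v ^ 3 +
      (8708392333312/3113912109375) * u ^ 5 * v ^ 2 + (746214805504/1868347265625) * u ^ 6 * v +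
      (18213486592/3113912109375) * u ^ 7 := by
    rw [hu, hv]; unfold cX00_c6; ring
  rw [e]; positivity

noncomputable def cX00_c7 (x : ℝ) : ℝ :=
    (772864064/2562890625) + (315077056/2562890625) * x + (-2559312896/4271484375) * x ^ 2 +
    (1279710784/12814453125) * x ^ 3 + (-5101678528/12814453125) * x ^ 4 +
    (5839232/6328125) * x ^ 5 + (-10449152/18984375) * x ^ 6 + (1229312/11390625) * x ^ 7

theorem cX00_c7_nonneg (x : ℝ) (hx0 : -(1 / 2) ≤ x) (hx1 : x ≤ 1) : 0 ≤ cX00_c7 x := by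
  obtain ⟨u, hu⟩ : ∃ u : ℝ, u = x + 1 / 2 := ⟨_, rfl⟩
  obtain ⟨v, hv⟩ : ∃ v : ℝ, v = 1 - x := ⟨_, rfl⟩
  have hu0 : 0 ≤ u := by rw [hu]; linarith
  have hv0 : 0 ≤ v := by rw [hv]; linarith
  have e : cX00_c7 x =
      (8012797952/9341736328125) * v ^ 7 + (401263336448/3113912109375) * u * v ^ 6 +
      (1085874092032/3113912109375) * u ^ 2 * v ^ 5 + (295874097664/373669453125) * u ^ 3 * v ^ 4 +
      (699932259328/1037970703125) * u ^ 4 * v ^ 3 + (747982882816/3113912109375) * u ^ 5 * v ^ 2 +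
      (55077732352/1868347265625) * u ^ 6 * v + (1337491456/3113912109375) * u ^ 7 := by
    rw [hu, hv]; unfold cX00_c7; ring
  rw [e]; positivity

theorem cX00_id (x y : ℝ) : cX00 x y =
      cX00_c0 x * (5 / 7 - y) ^ 7 + cX00_c1 x * (y + 5 / 14) * (5 / 7 - y) ^ 6 + cX00_c2 x * (y +
      5 / 14) ^ 2 * (5 / 7 - y) ^ 5 + cX00_c3 x * (y + 5 / 14) ^ 3 * (5 / 7 - y) ^ 4 +
      cX00_c4 x * (y + 5 / 14) ^ 4 * (5 / 7 - y) ^ 3 + cX00_c5 x * (y +
      5 / 14) ^ 5 * (5 / 7 - y) ^ 2 + cX00_c6 x * (y + 5 / 14) ^ 6 * (5 / 7 - y) + cX00_c7 x * (y +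
      5 / 14) ^ 7 := by
  unfold cX00 cX00_c0 cX00_c1 cX00_c2 cX00_c3 cX00_c4 cX00_c5 cX00_c6 cX00_c7
  ring

theorem cX00_nonneg (x y : ℝ) (hx0 : -(1 / 2) ≤ x) (hx1 : x ≤ 1) (hy0 : -(5 / 14) ≤ y)
    (hy1 : y ≤ 5 / 7) : 0 ≤ cX00 x y := by
  rw [cX00_id]
  have hs0 : 0 ≤ y + 5 / 14 := by linarith
  have ht0 : 0 ≤ 5 / 7 - y := by linarith
  have h0 := cX00_c0_nonneg x hx0 hx1
  have h1 := cX00_c1_nonneg x hx0 hx1
  have h2 := cX00_c2_nonneg x hx0 hx1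
  have h3 := cX00_c3_nonneg x hx0 hx1
  have h4 := cX00_c4_nonneg x hx0 hx1
  have h5 := cX00_c5_nonneg x hx0 hx1
  have h6 := cX00_c6_nonneg x hx0 hx1
  have h7 := cX00_c7_nonneg x hx0 hx1
  generalize y + 5 / 14 = s at *
  generalize 5 / 7 - y = t at *
  positivity

theorem cX00_eq (x y : ℝ) : cX00 x y =
    bv0 (bv0 (qX00 x y) (qX10 x y) (qX20 x y) (x ^ 2) (3 - 2 * x) 1)
      (bv0 (qX01 x y) (qX11 x y) (qX21 x y) (x ^ 2) (3 - 2 * x) 1)
      (bv0 (qX02 x y) (qX12 x y) (qX22 x y) (x ^ 2) (3 - 2 * x) 1)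
      (y ^ 2) (15 / 7 - 2 * y) (125 / 343) := by
  unfold cX00 bv0 qX00 qX01 qX02 qX10 qX11 qX12 qX20 qX21 qX22
  ring

end Vale.Agent.P154
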