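import Vale.Agent.P154.Gen.QXdef

namespace Vale.Agent.P154

noncomputable def cX01 (x y : ℝ) : ℝ :=
    (2341/686) + (-1679/1715) * y + (-54413/10290) * y ^ 2 + (37/175) * y ^ 3 + (494/175) * y ^ 4 +
    (-52/75) * y ^ 5 + (2539/686) * x + (-10791/1715) * x * y + (-33787/10290) * x * y ^ 2 +
    (2113/175) * x * y ^ 3 + (-1194/175) * x * y ^ 4 + (52/75) * x * y ^ 5 +
    (-19837/3430) * x ^ 2 + (-22469/17150) * x ^ 2 * y + (6229/686) * x ^ 2 * y ^ 2 +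
    (27547/3430) * x ^ 2 * y ^ 3 + (-14677/1715) * x ^ 2 * y ^ 4 + (-7209/3430) * x ^ 3 +
    (170767/17150) * x ^ 3 * y + (-999/686) * x ^ 3 * y ^ 2 + (-52557/3430) * x ^ 3 * y ^ 3 +
    (3208/1715) * x ^ 3 * y ^ 4 + (29354/5145) * x ^ 3 * y ^ 5 + (1503/3430) * x ^ 4 +
    (-13857/8575) * x ^ 4 * y + (-8657/3430) * x ^ 4 * y ^ 2 + (-15042/8575) * x ^ 4 * y ^ 3 +
    (18329/1715) * x ^ 4 * y ^ 4 + (-29354/5145) * x ^ 4 * y ^ 5 + (270/343) * x ^ 5 +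
    (135/343) * x ^ 5 * y + (162/35) * x ^ 5 * y ^ 2 + (-351/175) * x ^ 5 * y ^ 3 +
    (-54/25) * x ^ 5 * y ^ 4 + (-90/343) * x ^ 6 + (-180/343) * x ^ 6 * y +
    (-54/35) * x ^ 6 * y ^ 2 + (-288/175) * x ^ 6 * y ^ 3 + (72/25) * x ^ 6 * y ^ 4 +
    (60/343) * x ^ 7 * y + (36/35) * x ^ 7 * y ^ 3 + (-24/25) * x ^ 7 * y ^ 4

noncomputable def cX01_c0 (x : ℝ) : ℝ :=
    (5046976/2278125) + (7848704/2278125) * x + (-614346256/186046875) * x ^ 2 +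
    (-14246074432/3906984375) * x ^ 3 + (2712695344/3906984375) * x ^ 4 + (5152/5625) * x ^ 5 +
    (-1792/16875) * x ^ 6 + (-896/10125) * x ^ 7

theorem cX01_c0_nonneg (x : ℝ) (hx0 : -(1 / 2) ≤ x) (hx1 : x ≤ 1) : 0 ≤ cX01_c0 x := by
  obtain ⟨u, hu⟩ : ∃ u : ℝ, u = x + 1 / 2 := ⟨_, rfl⟩
  obtain ⟨v, hv⟩ : ∃ v : ℝ, v = 1 - x := ⟨_, rfl⟩
  have hu0 : 0 ≤ u := by rw [hu]; linarith
  have hv0 : 0 ≤ v := by rw [hv]; linarith
  have e : cX01_c0 x =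
      (22812882304/2848191609375) * v ^ 7 + (383451661696/949397203125) * u * v ^ 6 +
      (2393875883264/949397203125) * u ^ 2 * v ^ 5 + (143578140544/22785532875) * u ^ 3 * v ^ 4 +
      (2313965165056/316465734375) * u ^ 4 * v ^ 3 + (3602686495232/949397203125) * u ^ 5 * v ^ 2 +
      (429780783104/569638321875) * u ^ 6 * v + (20701184/2767921875) * u ^ 7 := by
    rw [hu, hv]; unfold cX01_c0; ring
  rw [e]; positivity

noncomputable def cX01_c1 (x : ℝ) : ℝ :=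
    (29225168/2278125) + (42654472/2278125) * x + (-502619834/26578125) * x ^ 2 +
    (-55643405336/3906984375) * x ^ 3 + (4977673562/3906984375) * x ^ 4 + (11732/5625) * x ^ 5 +
    (-16352/16875) * x ^ 6 + (1232/10125) * x ^ 7

theorem cX01_c1_nonneg (x : ℝ) (hx0 : -(1 / 2) ≤ x) (hx1 : x ≤ 1) : 0 ≤ cX01_c1 x := by
  obtain ⟨u, hu⟩ : ∃ u : ℝ, u = x + 1 / 2 := ⟨_, rfl⟩
  obtain ⟨v, hv⟩ : ∃ v : ℝ, v = 1 - x := ⟨_, rfl⟩
  have hu0 : 0 ≤ u := by rw [hu]; linarith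
  have hv0 : 0 ≤ v := by rw [hv]; linarith
  have e : cX01_c1 x =
      (86301333392/2848191609375) * v ^ 7 + (2465358731408/949397203125) * u * v ^ 6 +
      (14284020724672/949397203125) * u ^ 2 * v ^ 5 +
      (4053588755728/113927664375) * u ^ 3 * v ^ 4 + (4255490885696/105488578125) * u ^ 4 * v ^ 3 +
      (21058998387136/949397203125) * u ^ 5 * v ^ 2 + (2776308654592/569638321875) * u ^ 6 * v +
      (147653632/2767921875) * u ^ 7 := by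
    rw [hu, hv]; unfold cX01_c1; ring
  rw [e]; positivity

noncomputable def cX01_c2 (x : ℝ) : ℝ :=
    (60803392/2278125) + (51831368/2278125) * x + (-8848691542/186046875) * x ^ 2 +
    (-36297535774/3906984375) * x ^ 3 + (24973832908/3906984375) * x ^ 4 + (18844/5625) * x ^ 5 +
    (-14224/16875) * x ^ 6 + (-1232/10125) * x ^ 7

theorem cX01_c2_nonneg (x : ℝ) (hx0 : -(1 / 2) ≤ x) (hx1 : x ≤ 1) : 0 ≤ cX01_c2 x := by
  obtain ⟨u, hu⟩ : ∃ u : ℝ, u = x + 1 / 2 := ⟨_, rfl⟩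
  obtain ⟨v, hv⟩ : ∃ v : ℝ, v = 1 - x := ⟨_, rfl⟩
  have hu0 : 0 ≤ u := by rw [hu]; linarith
  have hv0 : 0 ≤ v := by rw [hv]; linarith
  have e : cX01_c2 x =
      (811438289728/2848191609375) * v ^ 7 + (7006079407072/949397203125) * u * v ^ 6 +
      (32738757552848/949397203125) * u ^ 2 * v ^ 5 + (316058420096/4557106575) * u ^ 3 * v ^ 4 +
      (21784001895392/316465734375) * u ^ 4 * v ^ 3 +
      (31170459981824/949397203125) * u ^ 5 * v ^ 2 + (3511381624448/569638321875) * u ^ 6 * v +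
      (221516288/2767921875) * u ^ 7 := by
    rw [hu, hv]; unfold cX01_c2; ring
  rw [e]; positivity

noncomputable def cX01_c3 (x : ℝ) : ℝ :=
    (48190708/2278125) + (23113532/2278125) * x + (-8296513408/186046875) * x ^ 2 +
    (46030154624/3906984375) * x ^ 3 + (-10517911508/3906984375) * x ^ 4 + (42952/5625) * x ^ 5 +
    (-47152/16875) * x ^ 6 + (224/2025) * x ^ 7

theorem cX01_c3_nonneg (x : ℝ) (hx0 : -(1 / 2) ≤ x) (hx1 : x ≤ 1) : 0 ≤ cX01_c3 x := by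
  obtain ⟨u, hu⟩ : ∃ u : ℝ, u = x + 1 / 2 := ⟨_, rfl⟩
  obtain ⟨v, hv⟩ : ∃ v : ℝ, v = 1 - x := ⟨_, rfl⟩
  have hu0 : 0 ≤ u := by rw [hu]; linarith
  have hv0 : 0 ≤ v := by rw [hv]; linarith
  have e : cX01_c3 x =
      (501466905472/2848191609375) * v ^ 7 + (6824813196928/949397203125) * u * v ^ 6 +
      (27619129458752/949397203125) * u ^ 2 * v ^ 5 +
      (5967416719328/113927664375) * u ^ 3 * v ^ 4 +
      (14719141009408/316465734375) * u ^ 4 * v ^ 3 +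
      (18434914616576/949397203125) * u ^ 5 * v ^ 2 + (1788608851712/569638321875) * u ^ 6 * v +
      (121114112/2767921875) * u ^ 7 := by
    rw [hu, hv]; unfold cX01_c3; ring
  rw [e]; positivity

noncomputable def cX01_c4 (x : ℝ) : ℝ :=
    (14271632/2278125) + (4967728/2278125) * x + (-2534622512/186046875) * x ^ 2 +
    (19279521136/3906984375) * x ^ 3 + (-13486911712/3906984375) * x ^ 4 + (1568/225) * x ^ 5 +
    (-12544/3375) * x ^ 6 + (6272/10125) * x ^ 7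

theorem cX01_c4_nonneg (x : ℝ) (hx0 : -(1 / 2) ≤ x) (hx1 : x ≤ 1) : 0 ≤ cX01_c4 x := by
  obtain ⟨u, hu⟩ : ∃ u : ℝ, u = x + 1 / 2 := ⟨_, rfl⟩
  obtain ⟨v, hv⟩ : ∃ v : ℝ, v = 1 - x := ⟨_, rfl⟩
  have hu0 : 0 ≤ u := by rw [hu]; linarith
  have hv0 : 0 ≤ v := by rw [hv]; linarith
  have e : cX01_c4 x =
      (109214935808/2848191609375) * v ^ 7 + (2269678817792/949397203125) * u * v ^ 6 +
      (8001957843328/949397203125) * u ^ 2 * v ^ 5 + (1766747296768/113927664375) * u ^ 3 * v ^ 4 +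
      (460604403968/35162859375) * u ^ 4 * v ^ 3 + (4728187608064/949397203125) * u ^ 5 * v ^ 2 +
      (400646268928/569638321875) * u ^ 6 * v + (28499968/2767921875) * u ^ 7 := by
    rw [hu, hv]; unfold cX01_c4; ring
  rw [e]; positivity

noncomputable def cX01_c5 (x : ℝ) : ℝ :=
    (1126624/2278125) + (459296/2278125) * x + (-182808064/186046875) * x ^ 2 +
    (639855392/3906984375) * x ^ 3 + (-2550839264/3906984375) * x ^ 4 + (8512/5625) * x ^ 5 +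
    (-15232/16875) * x ^ 6 + (1792/10125) * x ^ 7

theorem cX01_c5_nonneg (x : ℝ) (hx0 : -(1 / 2) ≤ x) (hx1 : x ≤ 1) : 0 ≤ cX01_c5 x := by
  obtain ⟨u, hu⟩ : ∃ u : ℝ, u = x + 1 / 2 := ⟨_, rfl⟩
  obtain ⟨v, hv⟩ : ∃ v : ℝ, v = 1 - x := ⟨_, rfl⟩
  have hu0 : 0 ≤ u := by rw [hu]; linarith
  have hv0 : 0 ≤ v := by rw [hv]; linarith
  have e : cX01_c5 x =
      (4006398976/2848191609375) * v ^ 7 + (200631668224/949397203125) * u * v ^ 6 +
      (542937046016/949397203125) * u ^ 2 * v ^ 5 + (147937048832/113927664375) * u ^ 3 * v ^ 4 +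
      (349966129664/316465734375) * u ^ 4 * v ^ 3 + (373991441408/949397203125) * u ^ 5 * v ^ 2 +
      (27538866176/569638321875) * u ^ 6 * v + (1949696/2767921875) * u ^ 7 := by
    rw [hu, hv]; unfold cX01_c5; ring
  rw [e]; positivity

theorem cX01_id (x y : ℝ) : cX01 x y =
      cX01_c0 x * (5 / 7 - y) ^ 5 + cX01_c1 x * (y + 5 / 14) * (5 / 7 - y) ^ 4 + cX01_c2 x * (y +
      5 / 14) ^ 2 * (5 / 7 - y) ^ 3 + cX01_c3 x * (y + 5 / 14) ^ 3 * (5 / 7 - y) ^ 2 +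
      cX01_c4 x * (y + 5 / 14) ^ 4 * (5 / 7 - y) + cX01_c5 x * (y + 5 / 14) ^ 5 := by
  unfold cX01 cX01_c0 cX01_c1 cX01_c2 cX01_c3 cX01_c4 cX01_c5
  ring

theorem cX01_nonneg (x y : ℝ) (hx0 : -(1 / 2) ≤ x) (hx1 : x ≤ 1) (hy0 : -(5 / 14) ≤ y)
    (hy1 : y ≤ 5 / 7) : 0 ≤ cX01 x y := by
  rw [cX01_id]
  have hs0 : 0 ≤ y + 5 / 14 := by linarith
  have ht0 : 0 ≤ 5 / 7 - y := by linarith
  have h0 := cX01_c0_nonneg x hx0 hx1
  have h1 := cX01_c1_nonneg x hx0 hx1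
  have h2 := cX01_c2_nonneg x hx0 hx1
  have h3 := cX01_c3_nonneg x hx0 hx1
  have h4 := cX01_c4_nonneg x hx0 hx1
  have h5 := cX01_c5_nonneg x hx0 hx1
  generalize y + 5 / 14 = s at *
  generalize 5 / 7 - y = t at *
  positivity

theorem cX01_eq (x y : ℝ) : cX01 x y =
    bv1 (bv0 (qX00 x y) (qX10 x y) (qX20 x y) (x ^ 2) (3 - 2 * x) 1)
      (bv0 (qX01 x y) (qX11 x y) (qX21 x y) (x ^ 2) (3 - 2 * x) 1)
      (bv0 (qX02 x y) (qX12 x y) (qX22 x y) (x ^ 2) (3 - 2 * x) 1)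
      (y ^ 2) (15 / 7 - 2 * y) (125 / 343) := by
  unfold cX01 bv1 bv0 qX00 qX01 qX02 qX10 qX11 qX12 qX20 qX21 qX22
  ring

end Vale.Agent.P154
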