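import Vale.Agent.P154.Gen.QXdef

namespace Vale.Agent.P154

noncomputable def cX02 (x y : ℝ) : ℝ :=
    (7635/2401) + (-21239/4802) * y + (-16462/12005) * y ^ 2 + (13106/5145) * y ^ 3 +
    (6915/2401) * x + (-39581/4802) * x * y + (95002/12005) * x * y ^ 2 +
    (-13106/5145) * x * y ^ 3 + (-1411707/235298) * x ^ 2 + (6874307/1176490) * x ^ 2 * y +
    (24477371/2941225) * x ^ 2 * y ^ 2 + (-8) * x ^ 2 * y ^ 3 + (-104337/117649) * x ^ 3 +
    (11739249/1176490) * x ^ 3 * y + (-56480478/2941225) * x ^ 3 * y ^ 2 +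
    (3524926/352947) * x ^ 3 * y ^ 3 + (-783/4802) * x ^ 4 + (-1464279/588245) * x ^ 4 * y +
    (13466701/2941225) * x ^ 4 * y ^ 2 + (-701350/352947) * x ^ 4 * y ^ 3 + (4050/2401) * x ^ 5 +
    (-1755/2401) * x ^ 5 * y + (-270/343) * x ^ 5 * y ^ 2 + (-1350/2401) * x ^ 6 +
    (-1440/2401) * x ^ 6 * y + (360/343) * x ^ 6 * y ^ 2 + (900/2401) * x ^ 7 * y +
    (-120/343) * x ^ 7 * y ^ 2

noncomputable def cX02_c0 (x : ℝ) : ℝ :=
    (2523488/694575) + (3924352/694575) * x + (-307173128/56723625) * x ^ 2 +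
    (-7123037216/1191196125) * x ^ 3 + (1356347672/1191196125) * x ^ 4 + (368/245) * x ^ 5 +
    (-128/735) * x ^ 6 + (-64/441) * x ^ 7

theorem cX02_c0_nonneg (x : ℝ) (hx0 : -(1 / 2) ≤ x) (hx1 : x ≤ 1) : 0 ≤ cX02_c0 x := by
  obtain ⟨u, hu⟩ : ∃ u : ℝ, u = x + 1 / 2 := ⟨_, rfl⟩
  obtain ⟨v, hv⟩ : ∃ v : ℝ, v = 1 - x := ⟨_, rfl⟩
  have hu0 : 0 ≤ u := by rw [hu]; linarith
  have hv0 : 0 ≤ v := by rw [hv]; linarith
  have e : cX02_c0 x =
      (11406441152/868381975125) * v ^ 7 + (191725830848/289460658375) * u * v ^ 6 +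
      (1196937941632/289460658375) * u ^ 2 * v ^ 5 + (71789070272/6947055801) * u ^ 3 * v ^ 4 +
      (1156982582528/96486886125) * u ^ 4 * v ^ 3 + (1801343247616/289460658375) * u ^ 5 * v ^ 2 +
      (214890391552/173676395025) * u ^ 6 * v + (1478656/120558375) * u ^ 7 := by
    rw [hu, hv]; unfold cX02_c0; ring
  rw [e]; positivity

noncomputable def cX02_c1 (x : ℝ) : ℝ :=
    (2025584/231525) + (925336/231525) * x + (-39918146/2100875) * x ^ 2 +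
    (2394509392/397065375) * x ^ 3 + (-898857514/397065375) * x ^ 4 + (1068/245) * x ^ 5 +
    (-416/245) * x ^ 6 + (16/147) * x ^ 7

theorem cX02_c1_nonneg (x : ℝ) (hx0 : -(1 / 2) ≤ x) (hx1 : x ≤ 1) : 0 ≤ cX02_c1 x := by
  obtain ⟨u, hu⟩ : ∃ u : ℝ, u = x + 1 / 2 := ⟨_, rfl⟩
  obtain ⟨v, hv⟩ : ∃ v : ℝ, v = 1 - x := ⟨_, rfl⟩
  have hu0 : 0 ≤ u := by rw [hu]; linarith
  have hv0 : 0 ≤ v := by rw [hv]; linarith
  have e : cX02_c1 x =
      (15949406576/289460658375) * v ^ 7 + (98085673808/32162295375) * u * v ^ 6 +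
      (1164020886016/96486886125) * u ^ 2 * v ^ 5 + (250403998192/11578426335) * u ^ 3 * v ^ 4 +
      (1833730908992/96486886125) * u ^ 4 * v ^ 3 + (748873004608/96486886125) * u ^ 5 * v ^ 2 +
      (70710301696/57892131675) * u ^ 6 * v + (662528/40186125) * u ^ 7 := by
    rw [hu, hv]; unfold cX02_c1; ring
  rw [e]; positivity

noncomputable def cX02_c2 (x : ℝ) : ℝ :=
    (641594/231525) + (226126/231525) * x + (-16175182/2701125) * x ^ 2 +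
    (829974022/397065375) * x ^ 3 + (-668239624/397065375) * x ^ 4 + (852/245) * x ^ 5 +
    (-464/245) * x ^ 6 + (16/49) * x ^ 7

theorem cX02_c2_nonneg (x : ℝ) (hx0 : -(1 / 2) ≤ x) (hx1 : x ≤ 1) : 0 ≤ cX02_c2 x := by
  obtain ⟨u, hu⟩ : ∃ u : ℝ, u = x + 1 / 2 := ⟨_, rfl⟩
  obtain ⟨v, hv⟩ : ∃ v : ℝ, v = 1 - x := ⟨_, rfl⟩
  have hu0 : 0 ≤ u := by rw [hu]; linarith
  have hv0 : 0 ≤ v := by rw [hv]; linarith
  have e : cX02_c2 x =
      (4717555616/289460658375) * v ^ 7 + (102929603584/96486886125) * u * v ^ 6 +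
      (356037287056/96486886125) * u ^ 2 * v ^ 5 + (15955702880/2315685267) * u ^ 3 * v ^ 4 +
      (561925720672/96486886125) * u ^ 4 * v ^ 3 + (212590793728/96486886125) * u ^ 5 * v ^ 2 +
      (17841047296/57892131675) * u ^ 6 * v + (60416/13395375) * u ^ 7 := by
    rw [hu, hv]; unfold cX02_c2; ring
  rw [e]; positivity

noncomputable def cX02_c3 (x : ℝ) : ℝ :=
    (140828/694575) + (57412/694575) * x + (-22851008/56723625) * x ^ 2 +
    (79981924/1191196125) * x ^ 3 + (-318854908/1191196125) * x ^ 4 + (152/245) * x ^ 5 +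
    (-272/735) * x ^ 6 + (32/441) * x ^ 7

theorem cX02_c3_nonneg (x : ℝ) (hx0 : -(1 / 2) ≤ x) (hx1 : x ≤ 1) : 0 ≤ cX02_c3 x := by
  obtain ⟨u, hu⟩ : ∃ u : ℝ, u = x + 1 / 2 := ⟨_, rfl⟩
  obtain ⟨v, hv⟩ : ∃ v : ℝ, v = 1 - x := ⟨_, rfl⟩
  have hu0 : 0 ≤ u := by rw [hu]; linarith
  have hv0 : 0 ≤ v := by rw [hv]; linarith
  have e : cX02_c3 x =
      (500799872/868381975125) * v ^ 7 + (25078958528/289460658375) * u * v ^ 6 +
      (67867130752/289460658375) * u ^ 2 * v ^ 5 + (18492131104/34735279005) * u ^ 3 * v ^ 4 +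
      (43745766208/96486886125) * u ^ 4 * v ^ 3 + (46748930176/289460658375) * u ^ 5 * v ^ 2 +
      (3442358272/173676395025) * u ^ 6 * v + (34816/120558375) * u ^ 7 := by
    rw [hu, hv]; unfold cX02_c3; ring
  rw [e]; positivity

theorem cX02_id (x y : ℝ) : cX02 x y =
      cX02_c0 x * (5 / 7 - y) ^ 3 + cX02_c1 x * (y + 5 / 14) * (5 / 7 - y) ^ 2 + cX02_c2 x * (y +
      5 / 14) ^ 2 * (5 / 7 - y) + cX02_c3 x * (y + 5 / 14) ^ 3 := by
  unfold cX02 cX02_c0 cX02_c1 cX02_c2 cX02_c3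
  ring

theorem cX02_nonneg (x y : ℝ) (hx0 : -(1 / 2) ≤ x) (hx1 : x ≤ 1) (hy0 : -(5 / 14) ≤ y)
    (hy1 : y ≤ 5 / 7) : 0 ≤ cX02 x y := by
  rw [cX02_id]
  have hs0 : 0 ≤ y + 5 / 14 := by linarith
  have ht0 : 0 ≤ 5 / 7 - y := by linarith
  have h0 := cX02_c0_nonneg x hx0 hx1
  have h1 := cX02_c1_nonneg x hx0 hx1
  have h2 := cX02_c2_nonneg x hx0 hx1
  have h3 := cX02_c3_nonneg x hx0 hx1
  generalize y + 5 / 14 = s at *
  generalize 5 / 7 - y = t at *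
  positivity

theorem cX02_eq (x y : ℝ) : cX02 x y =
    bv2 (bv0 (qX00 x y) (qX10 x y) (qX20 x y) (x ^ 2) (3 - 2 * x) 1)
      (bv0 (qX01 x y) (qX11 x y) (qX21 x y) (x ^ 2) (3 - 2 * x) 1)
      (bv0 (qX02 x y) (qX12 x y) (qX22 x y) (x ^ 2) (3 - 2 * x) 1)
      (y ^ 2) (15 / 7 - 2 * y) (125 / 343) := by
  unfold cX02 bv2 bv0 qX00 qX01 qX02 qX10 qX11 qX12 qX20 qX21 qX22
  ring

end Vale.Agent.P154
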