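import Vale.Agent.P154.Gen.QXdef

namespace Vale.Agent.P154

noncomputable def cX10 (x y : ℝ) : ℝ :=
    (197/50) + (11/5) * y + (-301/50) * y ^ 2 + (-117/50) * y ^ 3 + (-13/50) * y ^ 4 +
    (78/25) * y ^ 5 + (-26/25) * y ^ 6 + (57/25) * x + (-5) * x * y + (-91/10) * x * y ^ 2 +
    (183/10) * x * y ^ 3 + (-559/150) * x * y ^ 4 + (-39/25) * x * y ^ 5 + (-26/25) * x * y ^ 6 +
    (52/75) * x * y ^ 7 + (-427/50) * x ^ 2 + (-16/5) * x ^ 2 * y + (589/50) * x ^ 2 * y ^ 2 +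
    (-113/50) * x ^ 2 * y ^ 3 + (-91/30) * x ^ 2 * y ^ 4 + (39/5) * x ^ 2 * y ^ 5 +
    (-26/25) * x ^ 2 * y ^ 6 + (-52/75) * x ^ 2 * y ^ 7 + (19/25) * x ^ 3 + 10 * x ^ 3 * y +
    (491/50) * x ^ 3 * y ^ 2 + (-897/50) * x ^ 3 * y ^ 3 + (39/10) * x ^ 3 * y ^ 4 +
    (-273/25) * x ^ 3 * y ^ 5 + (-26/25) * x ^ 3 * y ^ 6 + (52/25) * x ^ 3 * y ^ 7 +
    (54/25) * x ^ 4 + (-4) * x ^ 4 * y + (-171/25) * x ^ 4 * y ^ 2 + (-2/25) * x ^ 4 * y ^ 3 +
    (208/25) * x ^ 4 * y ^ 4 + (-39/25) * x ^ 4 * y ^ 5 + (208/25) * x ^ 4 * y ^ 6 +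
    (-52/15) * x ^ 4 * y ^ 7 + (-12/25) * x ^ 5 + (114/25) * x ^ 5 * y ^ 3 +
    (-26/5) * x ^ 5 * y ^ 4 + (78/25) * x ^ 5 * y ^ 5 + (-104/25) * x ^ 5 * y ^ 6 +
    (104/75) * x ^ 5 * y ^ 7

noncomputable def cX10_c0 (x : ℝ) : ℝ :=
    (2168450648/1423828125) + (5315805728/4271484375) * x + (-15516751504/4271484375) * x ^ 2 +
    (-1629796624/4271484375) * x ^ 3 + (22801145848/12814453125) * x ^ 4 +
    (-6325720144/12814453125) * x ^ 5

theorem cX10_c0_nonneg (x : ℝ) (hx0 : -(1 / 2) ≤ x) (hx1 : x ≤ 1) : 0 ≤ cX10_c0 x := by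
  obtain ⟨u, hu⟩ : ∃ u : ℝ, u = x + 1 / 2 := ⟨_, rfl⟩
  obtain ⟨v, hv⟩ : ∃ v : ℝ, v = 1 - x := ⟨_, rfl⟩
  have hu0 : 0 ≤ u := by rw [hu]; linarith
  have hv0 : 0 ≤ v := by rw [hv]; linarith
  have e : cX10_c0 x =
      (22812882304/1037970703125) * v ^ 5 + (841316712688/1037970703125) * u * v ^ 4 +
      (1068854269888/345990234375) * u ^ 2 * v ^ 3 +
      (2412901626496/1037970703125) * u ^ 3 * v ^ 2 + (542551358464/1037970703125) * u ^ 4 * v +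
      (1775126528/345990234375) * u ^ 5 := by
    rw [hu, hv]; unfold cX10_c0; ring
  rw [e]; positivity

noncomputable def cX10_c1 (x : ℝ) : ℝ :=
    (20771741536/1423828125) + (62908109096/4271484375) * x + (-140426745928/4271484375) * x ^ 2 +
    (-26688508168/4271484375) * x ^ 3 + (150050937736/12814453125) * x ^ 4 +
    (-17924285008/12814453125) * x ^ 5

theorem cX10_c1_nonneg (x : ℝ) (hx0 : -(1 / 2) ≤ x) (hx1 : x ≤ 1) : 0 ≤ cX10_c1 x := by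
  obtain ⟨u, hu⟩ : ∃ u : ℝ, u = x + 1 / 2 := ⟨_, rfl⟩
  obtain ⟨v, hv⟩ : ∃ v : ℝ, v = 1 - x := ⟨_, rfl⟩
  have hu0 : 0 ≤ u := by rw [hu]; linarith
  have hv0 : 0 ≤ v := by rw [hv]; linarith
  have e : cX10_c1 x =
      (76906227328/1037970703125) * v ^ 5 + (7893788956816/1037970703125) * u * v ^ 4 +
      (9839096346016/345990234375) * u ^ 2 * v ^ 3 +
      (26658983596672/1037970703125) * u ^ 3 * v ^ 2 + (6479253883648/1037970703125) * u ^ 4 * v +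
      (22936503296/345990234375) * u ^ 5 := by
    rw [hu, hv]; unfold cX10_c1; ring
  rw [e]; positivity

noncomputable def cX10_c2 (x : ℝ) : ℝ :=
    (24553569236/474609375) + (57156041096/1423828125) * x + (-164009951728/1423828125) * x ^ 2 +
    (-5168157568/1423828125) * x ^ 3 + (148895326636/4271484375) * x ^ 4 +
    (-26271260008/4271484375) * x ^ 5

theorem cX10_c2_nonneg (x : ℝ) (hx0 : -(1 / 2) ≤ x) (hx1 : x ≤ 1) : 0 ≤ cX10_c2 x := by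
  obtain ⟨u, hu⟩ : ∃ u : ℝ, u = x + 1 / 2 := ⟨_, rfl⟩
  obtain ⟨v, hv⟩ : ∃ v : ℝ, v = 1 - x := ⟨_, rfl⟩
  have hu0 : 0 ≤ u := by rw [hu]; linarith
  have hv0 : 0 ≤ v := by rw [hv]; linarith
  have e : cX10_c2 x =
      (259259643328/345990234375) * v ^ 5 + (10403693286616/345990234375) * u * v ^ 4 +
      (11306663588416/115330078125) * u ^ 2 * v ^ 3 +
      (28287371073472/345990234375) * u ^ 3 * v ^ 2 + (6720212520448/345990234375) * u ^ 4 * v +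
      (26808836096/115330078125) * u ^ 5 := by
    rw [hu, hv]; unfold cX10_c2; ring
  rw [e]; positivity

noncomputable def cX10_c3 (x : ℝ) : ℝ :=
    (27163949036/284765625) + (34849305596/854296875) * x + (-171214860628/854296875) * x ^ 2 +
    (30263309132/854296875) * x ^ 3 + (110419309336/2562890625) * x ^ 4 +
    (-29359297408/2562890625) * x ^ 5

theorem cX10_c3_nonneg (x : ℝ) (hx0 : -(1 / 2) ≤ x) (hx1 : x ≤ 1) : 0 ≤ cX10_c3 x := by
  obtain ⟨u, hu⟩ : ∃ u : ℝ, u = x + 1 / 2 := ⟨_, rfl⟩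
  obtain ⟨v, hv⟩ : ∃ v : ℝ, v = 1 - x := ⟨_, rfl⟩
  have hu0 : 0 ≤ u := by rw [hu]; linarith
  have hv0 : 0 ≤ v := by rw [hv]; linarith
  have e : cX10_c3 x =
      (642777401728/207594140625) * v ^ 5 + (13164295154416/207594140625) * u * v ^ 4 +
      (11829791102416/69198046875) * u ^ 2 * v ^ 3 +
      (26586033359872/207594140625) * u ^ 3 * v ^ 2 + (6073388261248/207594140625) * u ^ 4 * v +
      (25702455296/69198046875) * u ^ 5 := by
    rw [hu, hv]; unfold cX10_c3; ring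
  rw [e]; positivity

noncomputable def cX10_c4 (x : ℝ) : ℝ :=
    (27431383336/284765625) + (8079335096/854296875) * x + (-166285020328/854296875) * x ^ 2 +
    (69284280632/854296875) * x ^ 3 + (56728949536/2562890625) * x ^ 4 +
    (-30863048608/2562890625) * x ^ 5

theorem cX10_c4_nonneg (x : ℝ) (hx0 : -(1 / 2) ≤ x) (hx1 : x ≤ 1) : 0 ≤ cX10_c4 x := by
  obtain ⟨u, hu⟩ : ∃ u : ℝ, u = x + 1 / 2 := ⟨_, rfl⟩
  obtain ⟨v, hv⟩ : ∃ v : ℝ, v = 1 - x := ⟨_, rfl⟩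
  have hu0 : 0 ≤ u := by rw [hu]; linarith
  have hv0 : 0 ≤ v := by rw [hv]; linarith
  have e : cX10_c4 x =
      (944833136128/207594140625) * v ^ 5 + (14979742004416/207594140625) * u * v ^ 4 +
      (11327848842016/69198046875) * u ^ 2 * v ^ 3 +
      (22141062479872/207594140625) * u ^ 3 * v ^ 2 + (4756162555648/207594140625) * u ^ 4 * v +
      (21276932096/69198046875) * u ^ 5 := by
    rw [hu, hv]; unfold cX10_c4; ring
  rw [e]; positivity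

noncomputable def cX10_c5 (x : ℝ) : ℝ :=
    (24584865536/474609375) + (-10733199904/1423828125) * x + (-155724418528/1423828125) * x ^ 2 +
    (110270925632/1423828125) * x ^ 3 + (-28936972064/4271484375) * x ^ 4 +
    (-19494035008/4271484375) * x ^ 5

theorem cX10_c5_nonneg (x : ℝ) (hx0 : -(1 / 2) ≤ x) (hx1 : x ≤ 1) : 0 ≤ cX10_c5 x := by
  obtain ⟨u, hu⟩ : ∃ u : ℝ, u = x + 1 / 2 := ⟨_, rfl⟩
  obtain ⟨v, hv⟩ : ∃ v : ℝ, v = 1 - x := ⟨_, rfl⟩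
  have hu0 : 0 ≤ u := by rw [hu]; linarith
  have hv0 : 0 ≤ v := by rw [hv]; linarith
  have e : cX10_c5 x =
      (832205936128/345990234375) * v ^ 5 + (15224387098816/345990234375) * u * v ^ 4 +
      (9665720329216/115330078125) * u ^ 2 * v ^ 3 +
      (16205478537472/345990234375) * u ^ 3 * v ^ 2 + (3225091061248/345990234375) * u ^ 4 * v +
      (15191837696/115330078125) * u ^ 5 := by
    rw [hu, hv]; unfold cX10_c5; ring
  rw [e]; positivity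

noncomputable def cX10_c6 (x : ℝ) : ℝ :=
    (19083117536/1423828125) + (-16762215904/4271484375) * x + (-135398232928/4271484375) * x ^ 2 +
    (131550292832/4271484375) * x ^ 3 + (-105738995264/12814453125) * x ^ 4 +
    (-1617323008/12814453125) * x ^ 5

theorem cX10_c6_nonneg (x : ℝ) (hx0 : -(1 / 2) ≤ x) (hx1 : x ≤ 1) : 0 ≤ cX10_c6 x := by
  obtain ⟨u, hu⟩ : ∃ u : ℝ, u = x + 1 / 2 := ⟨_, rfl⟩
  obtain ⟨v, hv⟩ : ∃ v : ℝ, v = 1 - x := ⟨_, rfl⟩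
  have hu0 : 0 ≤ u := by rw [hu]; linarith
  have hv0 : 0 ≤ v := by rw [hv]; linarith
  have e : cX10_c6 x =
      (420834147328/1037970703125) * v ^ 5 + (13372335442816/1037970703125) * u * v ^ 4 +
      (7188937254016/345990234375) * u ^ 2 * v ^ 3 +
      (10349844316672/1037970703125) * u ^ 3 * v ^ 2 + (1892857243648/1037970703125) * u ^ 4 * v +
      (9106743296/345990234375) * u ^ 5 := by
    rw [hu, hv]; unfold cX10_c6; ring
  rw [e]; positivity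

noncomputable def cX10_c7 (x : ℝ) : ℝ :=
    (1723109248/1423828125) + (-1575086272/4271484375) * x + (-13657199104/4271484375) * x ^ 2 +
    (14281299776/4271484375) * x ^ 3 + (-12367127552/12814453125) * x ^ 4 +
    (-99814144/12814453125) * x ^ 5

theorem cX10_c7_nonneg (x : ℝ) (hx0 : -(1 / 2) ≤ x) (hx1 : x ≤ 1) : 0 ≤ cX10_c7 x := by
  obtain ⟨u, hu⟩ : ∃ u : ℝ, u = x + 1 / 2 := ⟨_, rfl⟩
  obtain ⟨v, hv⟩ : ∃ v : ℝ, v = 1 - x := ⟨_, rfl⟩
  have hu0 : 0 ≤ u := by rw [hu]; linarith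
  have hv0 : 0 ≤ v := by rw [hv]; linarith
  have e : cX10_c7 x =
      (16025595904/1037970703125) * v ^ 5 + (1272634137088/1037970703125) * u * v ^ 4 +
      (654119903488/345990234375) * u ^ 2 * v ^ 3 + (835360554496/1037970703125) * u ^ 3 * v ^ 2 +
      (139700568064/1037970703125) * u ^ 4 * v + (668745728/345990234375) * u ^ 5 := by
    rw [hu, hv]; unfold cX10_c7; ring
  rw [e]; positivity

theorem cX10_id (x y : ℝ) : cX10 x y =
      cX10_c0 x * (5 / 7 - y) ^ 7 + cX10_c1 x * (y + 5 / 14) * (5 / 7 - y) ^ 6 + cX10_c2 x * (y +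
      5 / 14) ^ 2 * (5 / 7 - y) ^ 5 + cX10_c3 x * (y + 5 / 14) ^ 3 * (5 / 7 - y) ^ 4 +
      cX10_c4 x * (y + 5 / 14) ^ 4 * (5 / 7 - y) ^ 3 + cX10_c5 x * (y +
      5 / 14) ^ 5 * (5 / 7 - y) ^ 2 + cX10_c6 x * (y + 5 / 14) ^ 6 * (5 / 7 - y) + cX10_c7 x * (y +
      5 / 14) ^ 7 := by
  unfold cX10 cX10_c0 cX10_c1 cX10_c2 cX10_c3 cX10_c4 cX10_c5 cX10_c6 cX10_c7
  ring

theorem cX10_nonneg (x y : ℝ) (hx0 : -(1 / 2) ≤ x) (hx1 : x ≤ 1) (hy0 : -(5 / 14) ≤ y)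
    (hy1 : y ≤ 5 / 7) : 0 ≤ cX10 x y := by
  rw [cX10_id]
  have hs0 : 0 ≤ y + 5 / 14 := by linarith
  have ht0 : 0 ≤ 5 / 7 - y := by linarith
  have h0 := cX10_c0_nonneg x hx0 hx1
  have h1 := cX10_c1_nonneg x hx0 hx1
  have h2 := cX10_c2_nonneg x hx0 hx1
  have h3 := cX10_c3_nonneg x hx0 hx1
  have h4 := cX10_c4_nonneg x hx0 hx1
  have h5 := cX10_c5_nonneg x hx0 hx1
  have h6 := cX10_c6_nonneg x hx0 hx1
  have h7 := cX10_c7_nonneg x hx0 hx1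
  generalize y + 5 / 14 = s at *
  generalize 5 / 7 - y = t at *
  positivity

theorem cX10_eq (x y : ℝ) : cX10 x y =
    bv0 (bv1 (qX00 x y) (qX10 x y) (qX20 x y) (x ^ 2) (3 - 2 * x) 1)
      (bv1 (qX01 x y) (qX11 x y) (qX21 x y) (x ^ 2) (3 - 2 * x) 1)
      (bv1 (qX02 x y) (qX12 x y) (qX22 x y) (x ^ 2) (3 - 2 * x) 1)
      (y ^ 2) (15 / 7 - 2 * y) (125 / 343) := by
  unfold cX10 bv0 bv1 qX00 qX01 qX02 qX10 qX11 qX12 qX20 qX21 qX22
  ring

end Vale.Agent.P154
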