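import Vale.Agent.P154.Gen.QXdef

namespace Vale.Agent.P154

noncomputable def cX11 (x y : ℝ) : ℝ :=
    (7199/490) + (-123209/17150) * y + (-77681/3430) * y ^ 2 + (159491/17150) * y ^ 3 +
    (71851/8575) * y ^ 4 + (-104/25) * y ^ 5 + (3163/490) * x + (-409533/17150) * x * y +
    (-11/2058) * x * y ^ 2 + (193031/3430) * x * y ^ 3 + (-86364/1715) * x * y ^ 4 +
    (65026/5145) * x * y ^ 5 + (-110813/3430) * x ^ 2 + (336519/17150) * x ^ 2 * y +
    (353761/10290) * x ^ 2 * y ^ 2 + (-389609/17150) * x ^ 2 * y ^ 3 +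
    (105514/8575) * x ^ 2 * y ^ 4 + (-218114/25725) * x ^ 2 * y ^ 5 + (23447/3430) * x ^ 3 +
    (570739/17150) * x ^ 3 * y + (-45523/3430) * x ^ 3 * y ^ 2 + (-161803/2450) * x ^ 3 * y ^ 3 +
    (157846/8575) * x ^ 3 * y ^ 4 + (29354/1715) * x ^ 3 * y ^ 5 + (11601/1715) * x ^ 4 +
    (-221338/8575) * x ^ 4 * y + (654/245) * x ^ 4 * y ^ 2 + (106086/8575) * x ^ 4 * y ^ 3 +
    (292247/8575) * x ^ 4 * y ^ 4 + (-29354/1029) * x ^ 4 * y ^ 5 + (-72/35) * x ^ 5 +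
    (30714/8575) * x ^ 5 * y + (-650/343) * x ^ 5 * y ^ 2 + (20658/1715) * x ^ 5 * y ^ 3 +
    (-199754/8575) * x ^ 5 * y ^ 4 + (58708/5145) * x ^ 5 * y ^ 5

noncomputable def cX11_c0 (x : ℝ) : ℝ :=
    (619557328/62015625) + (10631611456/1302328125) * x + (-31033503008/1302328125) * x ^ 2 +
    (-3259593248/1302328125) * x ^ 3 + (45602291696/3906984375) * x ^ 4 +
    (-12651440288/3906984375) * x ^ 5

theorem cX11_c0_nonneg (x : ℝ) (hx0 : -(1 / 2) ≤ x) (hx1 : x ≤ 1) : 0 ≤ cX11_c0 x := by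
  obtain ⟨u, hu⟩ : ∃ u : ℝ, u = x + 1 / 2 := ⟨_, rfl⟩
  obtain ⟨v, hv⟩ : ∃ v : ℝ, v = 1 - x := ⟨_, rfl⟩
  have hu0 : 0 ≤ u := by rw [hu]; linarith
  have hv0 : 0 ≤ v := by rw [hv]; linarith
  have e : cX11_c0 x =
      (45625764608/316465734375) * v ^ 5 + (1682633425376/316465734375) * u * v ^ 4 +
      (2137708539776/105488578125) * u ^ 2 * v ^ 3 + (4825803252992/316465734375) * u ^ 3 * v ^ 2 +
      (1085102716928/316465734375) * u ^ 4 * v + (10350592/307546875) * u ^ 5 := by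
    rw [hu, hv]; unfold cX11_c0; ring
  rw [e]; positivity

noncomputable def cX11_c1 (x : ℝ) : ℝ :=
    (171460214/2953125) + (60928819688/1302328125) * x + (-171532227484/1302328125) * x ^ 2 +
    (-954159004/1302328125) * x ^ 3 + (134576031658/3906984375) * x ^ 4 +
    (-19623213724/3906984375) * x ^ 5

theorem cX11_c1_nonneg (x : ℝ) (hx0 : -(1 / 2) ≤ x) (hx1 : x ≤ 1) : 0 ≤ cX11_c1 x := by
  obtain ⟨u, hu⟩ : ∃ u : ℝ, u = x + 1 / 2 := ⟨_, rfl⟩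
  obtain ⟨v, hv⟩ : ∃ v : ℝ, v = 1 - x := ⟨_, rfl⟩
  have hu0 : 0 ≤ u := by rw [hu]; linarith
  have hv0 : 0 ≤ v := by rw [hv]; linarith
  have e : cX11_c1 x =
      (172602666784/316465734375) * v ^ 5 + (10812069552148/316465734375) * u * v ^ 4 +
      (11569471295248/105488578125) * u ^ 2 * v ^ 3 +
      (29420238325216/316465734375) * u ^ 3 * v ^ 2 + (7016739430144/316465734375) * u ^ 4 * v +
      (73826816/307546875) * u ^ 5 := by
    rw [hu, hv]; unfold cX11_c1; ring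
  rw [e]; positivity

noncomputable def cX11_c2 (x : ℝ) : ℝ :=
    (6981656846/62015625) + (26645323942/1302328125) * x + (-299558527106/1302328125) * x ^ 2 +
    (96309860014/1302328125) * x ^ 3 + (172786134872/3906984375) * x ^ 4 +
    (-72135787016/3906984375) * x ^ 5

theorem cX11_c2_nonneg (x : ℝ) (hx0 : -(1 / 2) ≤ x) (hx1 : x ≤ 1) : 0 ≤ cX11_c2 x := by
  obtain ⟨u, hu⟩ : ∃ u : ℝ, u = x + 1 / 2 := ⟨_, rfl⟩
  obtain ⟨v, hv⟩ : ∃ v : ℝ, v = 1 - x := ⟨_, rfl⟩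
  have hu0 : 0 ≤ u := by rw [hu]; linarith
  have hv0 : 0 ≤ v := by rw [hv]; linarith
  have e : cX11_c2 x =
      (1622876579456/316465734375) * v ^ 5 + (25496354694032/316465734375) * u * v ^ 4 +
      (20723782871432/105488578125) * u ^ 2 * v ^ 3 +
      (41233325812544/316465734375) * u ^ 3 * v ^ 2 + (8892424191296/316465734375) * u ^ 4 * v +
      (110758144/307546875) * u ^ 5 := by
    rw [hu, hv]; unfold cX11_c2; ring
  rw [e]; positivity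

noncomputable def cX11_c3 (x : ℝ) : ℝ :=
    (5105644504/62015625) + (-15573285992/1302328125) * x + (-237800940344/1302328125) * x ^ 2 +
    (182070265936/1302328125) * x ^ 3 + (-80510571472/3906984375) * x ^ 4 +
    (-21391287584/3906984375) * x ^ 5

theorem cX11_c3_nonneg (x : ℝ) (hx0 : -(1 / 2) ≤ x) (hx1 : x ≤ 1) : 0 ≤ cX11_c3 x := by
  obtain ⟨u, hu⟩ : ∃ u : ℝ, u = x + 1 / 2 := ⟨_, rfl⟩
  obtain ⟨v, hv⟩ : ∃ v : ℝ, v = 1 - x := ⟨_, rfl⟩
  have hu0 : 0 ≤ u := by rw [hu]; linarith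
  have hv0 : 0 ≤ v := by rw [hv]; linarith
  have e : cX11_c3 x =
      (1002933810944/316465734375) * v ^ 5 + (22773254171168/316465734375) * u * v ^ 4 +
      (14007260067968/105488578125) * u ^ 2 * v ^ 3 +
      (22990287678656/316465734375) * u ^ 3 * v ^ 2 + (4533835339904/316465734375) * u ^ 4 * v +
      (60557056/307546875) * u ^ 5 := by
    rw [hu, hv]; unfold cX11_c3; ring
  rw [e]; positivity

noncomputable def cX11_c4 (x : ℝ) : ℝ :=
    (55042928/2296875) + (-9168651088/1302328125) * x + (-74527716016/1302328125) * x ^ 2 +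
    (72915796304/1302328125) * x ^ 3 + (-59053061408/3906984375) * x ^ 4 +
    (-858568576/3906984375) * x ^ 5

theorem cX11_c4_nonneg (x : ℝ) (hx0 : -(1 / 2) ≤ x) (hx1 : x ≤ 1) : 0 ≤ cX11_c4 x := by
  obtain ⟨u, hu⟩ : ∃ u : ℝ, u = x + 1 / 2 := ⟨_, rfl⟩
  obtain ⟨v, hv⟩ : ∃ v : ℝ, v = 1 - x := ⟨_, rfl⟩
  have hu0 : 0 ≤ u := by rw [hu]; linarith
  have hv0 : 0 ≤ v := by rw [hv]; linarith
  have e : cX11_c4 x =
      (218429871616/316465734375) * v ^ 5 + (7322484789952/316465734375) * u * v ^ 4 +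
      (3921528578752/105488578125) * u ^ 2 * v ^ 3 + (5592602435584/316465734375) * u ^ 3 * v ^ 2 +
      (1016278905856/316465734375) * u ^ 4 * v + (14249984/307546875) * u ^ 5 := by
    rw [hu, hv]; unfold cX11_c4; ring
  rw [e]; positivity

noncomputable def cX11_c5 (x : ℝ) : ℝ :=
    (123079232/62015625) + (-787543136/1302328125) * x + (-6828599552/1302328125) * x ^ 2 +
    (7140649888/1302328125) * x ^ 3 + (-6183563776/3906984375) * x ^ 4 +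
    (-49907072/3906984375) * x ^ 5

theorem cX11_c5_nonneg (x : ℝ) (hx0 : -(1 / 2) ≤ x) (hx1 : x ≤ 1) : 0 ≤ cX11_c5 x := by
  obtain ⟨u, hu⟩ : ∃ u : ℝ, u = x + 1 / 2 := ⟨_, rfl⟩
  obtain ⟨v, hv⟩ : ∃ v : ℝ, v = 1 - x := ⟨_, rfl⟩
  have hu0 : 0 ≤ u := by rw [hu]; linarith
  have hv0 : 0 ≤ v := by rw [hv]; linarith
  have e : cX11_c5 x =
      (8012797952/316465734375) * v ^ 5 + (636317068544/316465734375) * u * v ^ 4 +
      (327059951744/105488578125) * u ^ 2 * v ^ 3 + (417680277248/316465734375) * u ^ 3 * v ^ 2 +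
      (69850284032/316465734375) * u ^ 4 * v + (974848/307546875) * u ^ 5 := by
    rw [hu, hv]; unfold cX11_c5; ring
  rw [e]; positivity

theorem cX11_id (x y : ℝ) : cX11 x y =
      cX11_c0 x * (5 / 7 - y) ^ 5 + cX11_c1 x * (y + 5 / 14) * (5 / 7 - y) ^ 4 + cX11_c2 x * (y +
      5 / 14) ^ 2 * (5 / 7 - y) ^ 3 + cX11_c3 x * (y + 5 / 14) ^ 3 * (5 / 7 - y) ^ 2 +
      cX11_c4 x * (y + 5 / 14) ^ 4 * (5 / 7 - y) + cX11_c5 x * (y + 5 / 14) ^ 5 := by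
  unfold cX11 cX11_c0 cX11_c1 cX11_c2 cX11_c3 cX11_c4 cX11_c5
  ring

theorem cX11_nonneg (x y : ℝ) (hx0 : -(1 / 2) ≤ x) (hx1 : x ≤ 1) (hy0 : -(5 / 14) ≤ y)
    (hy1 : y ≤ 5 / 7) : 0 ≤ cX11 x y := by
  rw [cX11_id]
  have hs0 : 0 ≤ y + 5 / 14 := by linarith
  have ht0 : 0 ≤ 5 / 7 - y := by linarith
  have h0 := cX11_c0_nonneg x hx0 hx1
  have h1 := cX11_c1_nonneg x hx0 hx1
  have h2 := cX11_c2_nonneg x hx0 hx1
  have h3 := cX11_c3_nonneg x hx0 hx1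
  have h4 := cX11_c4_nonneg x hx0 hx1
  have h5 := cX11_c5_nonneg x hx0 hx1
  generalize y + 5 / 14 = s at *
  generalize 5 / 7 - y = t at *
  positivity

theorem cX11_eq (x y : ℝ) : cX11 x y =
    bv1 (bv1 (qX00 x y) (qX10 x y) (qX20 x y) (x ^ 2) (3 - 2 * x) 1)
      (bv1 (qX01 x y) (qX11 x y) (qX21 x y) (x ^ 2) (3 - 2 * x) 1)
      (bv1 (qX02 x y) (qX12 x y) (qX22 x y) (x ^ 2) (3 - 2 * x) 1)
      (y ^ 2) (15 / 7 - 2 * y) (125 / 343) := by
  unfold cX11 bv1 qX00 qX01 qX02 qX10 qX11 qX12 qX20 qX21 qX22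
  ring

end Vale.Agent.P154
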