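import Vale.Agent.P154.Gen.QXdef

namespace Vale.Agent.P154

noncomputable def cX12 (x y : ℝ) : ℝ :=
    (3077673/235298) + (-24347023/1176490) * y + (278231/2941225) * y ^ 2 + (12492/1715) * y ^ 3 +
    (432213/117649) * x + (-25630601/1176490) * x * y + (99305222/2941225) * x * y ^ 2 +
    (-1821930/117649) * x * y ^ 3 + (-7281843/235298) * x ^ 2 + (57872893/1176490) * x ^ 2 * y +
    (-6203146/2941225) * x ^ 2 * y ^ 2 + (-9292986/588245) * x ^ 2 * y ^ 3 +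
    (1495596/117649) * x ^ 3 + (2821319/168070) * x ^ 3 * y +
    (-223026676/2941225) * x ^ 3 * y ^ 2 + (5407310/117649) * x ^ 3 * y ^ 3 +
    (465336/117649) * x ^ 4 + (-18921411/588245) * x ^ 4 * y +
    (159535059/2941225) * x ^ 4 * y ^ 2 + (-9153902/352947) * x ^ 4 * y ^ 3 + (-108/49) * x ^ 5 +
    (4758708/588245) * x ^ 5 * y + (-28991402/2941225) * x ^ 5 * y ^ 2 +
    (1402700/352947) * x ^ 5 * y ^ 3

noncomputable def cX12_c0 (x : ℝ) : ℝ :=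
    (309778664/18907875) + (5315805728/397065375) * x + (-15516751504/397065375) * x ^ 2 +
    (-1629796624/397065375) * x ^ 3 + (22801145848/1191196125) * x ^ 4 +
    (-6325720144/1191196125) * x ^ 5

theorem cX12_c0_nonneg (x : ℝ) (hx0 : -(1 / 2) ≤ x) (hx1 : x ≤ 1) : 0 ≤ cX12_c0 x := by
  obtain ⟨u, hu⟩ : ∃ u : ℝ, u = x + 1 / 2 := ⟨_, rfl⟩
  obtain ⟨v, hv⟩ : ∃ v : ℝ, v = 1 - x := ⟨_, rfl⟩
  have hu0 : 0 ≤ u := by rw [hu]; linarith
  have hv0 : 0 ≤ v := by rw [hv]; linarith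
  have e : cX12_c0 x =
      (22812882304/96486886125) * v ^ 5 + (841316712688/96486886125) * u * v ^ 4 +
      (1068854269888/32162295375) * u ^ 2 * v ^ 3 + (2412901626496/96486886125) * u ^ 3 * v ^ 2 +
      (542551358464/96486886125) * u ^ 4 * v + (739328/13395375) * u ^ 5 := by
    rw [hu, hv]; unfold cX12_c0; ring
  rw [e]; positivity

noncomputable def cX12_c1 (x : ℝ) : ℝ :=
    (633272846/18907875) + (-659763136/132355125) * x + (-10368493852/132355125) * x ^ 2 +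
    (8578116388/132355125) * x ^ 3 + (-5158302026/397065375) * x ^ 4 +
    (-566309572/397065375) * x ^ 5

theorem cX12_c1_nonneg (x : ℝ) (hx0 : -(1 / 2) ≤ x) (hx1 : x ≤ 1) : 0 ≤ cX12_c1 x := by
  obtain ⟨u, hu⟩ : ∃ u : ℝ, u = x + 1 / 2 := ⟨_, rfl⟩
  obtain ⟨v, hv⟩ : ∃ v : ℝ, v = 1 - x := ⟨_, rfl⟩
  have hu0 : 0 ≤ u := by rw [hu]; linarith
  have hv0 : 0 ≤ v := by rw [hv]; linarith
  have e : cX12_c1 x =
      (31898813152/32162295375) * v ^ 5 + (972760198444/32162295375) * u * v ^ 4 +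
      (192263883248/3573588375) * u ^ 2 * v ^ 3 + (920418242848/32162295375) * u ^ 3 * v ^ 2 +
      (179161848832/32162295375) * u ^ 4 * v + (331264/4465125) * u ^ 5 := by
    rw [hu, hv]; unfold cX12_c1; ring
  rw [e]; positivity

noncomputable def cX12_c2 (x : ℝ) : ℝ :=
    (28736398/2701125) + (-414841426/132355125) * x + (-3389846482/132355125) * x ^ 2 +
    (1111895086/44118375) * x ^ 3 + (-2718192716/397065375) * x ^ 4 +
    (-37853152/397065375) * x ^ 5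

theorem cX12_c2_nonneg (x : ℝ) (hx0 : -(1 / 2) ≤ x) (hx1 : x ≤ 1) : 0 ≤ cX12_c2 x := by
  obtain ⟨u, hu⟩ : ∃ u : ℝ, u = x + 1 / 2 := ⟨_, rfl⟩
  obtain ⟨v, hv⟩ : ∃ v : ℝ, v = 1 - x := ⟨_, rfl⟩
  have hu0 : 0 ≤ u := by rw [hu]; linarith
  have hv0 : 0 ≤ v := by rw [hv]; linarith
  have e : cX12_c2 x =
      (9435111232/32162295375) * v ^ 5 + (331616744104/32162295375) * u * v ^ 4 +
      (177024522104/10720765125) * u ^ 2 * v ^ 3 + (250428446368/32162295375) * u ^ 3 * v ^ 2 +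
      (45255382912/32162295375) * u ^ 4 * v + (30208/1488375) * u ^ 5 := by
    rw [hu, hv]; unfold cX12_c2; ring
  rw [e]; positivity

noncomputable def cX12_c3 (x : ℝ) : ℝ :=
    (15384904/18907875) + (-98442892/397065375) * x + (-853574944/397065375) * x ^ 2 +
    (892581236/397065375) * x ^ 3 + (-772945472/1191196125) * x ^ 4 +
    (-6238384/1191196125) * x ^ 5

theorem cX12_c3_nonneg (x : ℝ) (hx0 : -(1 / 2) ≤ x) (hx1 : x ≤ 1) : 0 ≤ cX12_c3 x := by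
  obtain ⟨u, hu⟩ : ∃ u : ℝ, u = x + 1 / 2 := ⟨_, rfl⟩
  obtain ⟨v, hv⟩ : ∃ v : ℝ, v = 1 - x := ⟨_, rfl⟩
  have hu0 : 0 ≤ u := by rw [hu]; linarith
  have hv0 : 0 ≤ v := by rw [hv]; linarith
  have e : cX12_c3 x =
      (1001599744/96486886125) * v ^ 5 + (79539633568/96486886125) * u * v ^ 4 +
      (40882493968/32162295375) * u ^ 2 * v ^ 3 + (52210034656/96486886125) * u ^ 3 * v ^ 2 +
      (8731285504/96486886125) * u ^ 4 * v + (17408/13395375) * u ^ 5 := by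
    rw [hu, hv]; unfold cX12_c3; ring
  rw [e]; positivity

theorem cX12_id (x y : ℝ) : cX12 x y =
      cX12_c0 x * (5 / 7 - y) ^ 3 + cX12_c1 x * (y + 5 / 14) * (5 / 7 - y) ^ 2 + cX12_c2 x * (y +
      5 / 14) ^ 2 * (5 / 7 - y) + cX12_c3 x * (y + 5 / 14) ^ 3 := by
  unfold cX12 cX12_c0 cX12_c1 cX12_c2 cX12_c3
  ring

theorem cX12_nonneg (x y : ℝ) (hx0 : -(1 / 2) ≤ x) (hx1 : x ≤ 1) (hy0 : -(5 / 14) ≤ y)
    (hy1 : y ≤ 5 / 7) : 0 ≤ cX12 x y := by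
  rw [cX12_id]
  have hs0 : 0 ≤ y + 5 / 14 := by linarith
  have ht0 : 0 ≤ 5 / 7 - y := by linarith
  have h0 := cX12_c0_nonneg x hx0 hx1
  have h1 := cX12_c1_nonneg x hx0 hx1
  have h2 := cX12_c2_nonneg x hx0 hx1
  have h3 := cX12_c3_nonneg x hx0 hx1
  generalize y + 5 / 14 = s at *
  generalize 5 / 7 - y = t at *
  positivity

theorem cX12_eq (x y : ℝ) : cX12 x y =
    bv2 (bv1 (qX00 x y) (qX10 x y) (qX20 x y) (x ^ 2) (3 - 2 * x) 1)
      (bv1 (qX01 x y) (qX11 x y) (qX21 x y) (x ^ 2) (3 - 2 * x) 1)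
      (bv1 (qX02 x y) (qX12 x y) (qX22 x y) (x ^ 2) (3 - 2 * x) 1)
      (y ^ 2) (15 / 7 - 2 * y) (125 / 343) := by
  unfold cX12 bv2 bv1 qX00 qX01 qX02 qX10 qX11 qX12 qX20 qX21 qX22
  ring

end Vale.Agent.P154
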