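import Vale.Agent.P154.Gen.QXdef

namespace Vale.Agent.P154

noncomputable def cX20 (x y : ℝ) : ℝ :=
    (93/25) + (3/10) * y + (-87/10) * y ^ 2 + (117/50) * y ^ 3 + (-39/10) * y ^ 4 +
    (234/25) * y ^ 5 + (-78/25) * y ^ 6 + (-7/50) * x + (-47/10) * x * y + (-68/25) * x * y ^ 2 +
    (1041/50) * x * y ^ 3 + (-169/50) * x * y ^ 4 + (-273/25) * x * y ^ 5 + (-26/25) * x * y ^ 6 +
    (52/25) * x * y ^ 7 + (-186/25) * x ^ 2 + (36/5) * x ^ 2 * y + (559/25) * x ^ 2 * y ^ 2 +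
    (-982/25) * x ^ 2 * y ^ 3 + (208/15) * x ^ 2 * y ^ 4 + (-39/25) * x ^ 2 * y ^ 5 +
    (208/25) * x ^ 2 * y ^ 6 + (-52/15) * x ^ 2 * y ^ 7 + (98/25) * x ^ 3 + (-14/5) * x ^ 3 * y +
    (-278/25) * x ^ 3 * y ^ 2 + (406/25) * x ^ 3 * y ^ 3 + (-494/75) * x ^ 3 * y ^ 4 +
    (78/25) * x ^ 3 * y ^ 5 + (-104/25) * x ^ 3 * y ^ 6 + (104/75) * x ^ 3 * y ^ 7

noncomputable def cX20_c0 (x : ℝ) : ℝ :=
    (1996054424/1423828125) + (653458336/4271484375) * x + (-40443444232/12814453125) * x ^ 2 +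
    (20768206576/12814453125) * x ^ 3

theorem cX20_c0_nonneg (x : ℝ) (hx0 : -(1 / 2) ≤ x) (hx1 : x ≤ 1) : 0 ≤ cX20_c0 x := by
  obtain ⟨u, hu⟩ : ∃ u : ℝ, u = x + 1 / 2 := ⟨_, rfl⟩
  obtain ⟨v, hv⟩ : ∃ v : ℝ, v = 1 - x := ⟨_, rfl⟩
  have hu0 : 0 ≤ u := by rw [hu]; linarith
  have hv0 : 0 ≤ v := by rw [hv]; linarith
  have e : cX20_c0 x =
      (11406441152/115330078125) * v ^ 3 + (266139220144/115330078125) * u * v ^ 2 +
      (68484592256/115330078125) * u ^ 2 * v + (221890816/38443359375) * u ^ 3 := by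
    rw [hu, hv]; unfold cX20_c0; ring
  rw [e]; positivity

noncomputable def cX20_c1 (x : ℝ) : ℝ :=
    (22434175568/1423828125) + (18702684952/4271484375) * x + (-510086423224/12814453125) * x ^ 2 +
    (255296234032/12814453125) * x ^ 3

theorem cX20_c1_nonneg (x : ℝ) (hx0 : -(1 / 2) ≤ x) (hx1 : x ≤ 1) : 0 ≤ cX20_c1 x := by
  obtain ⟨u, hu⟩ : ∃ u : ℝ, u = x + 1 / 2 := ⟨_, rfl⟩
  obtain ⟨v, hv⟩ : ∃ v : ℝ, v = 1 - x := ⟨_, rfl⟩
  have hu0 : 0 ≤ u := by rw [hu]; linarith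
  have hv0 : 0 ≤ v := by rw [hv]; linarith
  have e : cX20_c1 x =
      (38453113664/115330078125) * v ^ 3 + (3146025955408/115330078125) * u * v ^ 2 +
      (818507924192/115330078125) * u ^ 2 * v + (2867062912/38443359375) * u ^ 3 := by
    rw [hu, hv]; unfold cX20_c1; ring
  rw [e]; positivity

noncomputable def cX20_c2 (x : ℝ) : ℝ :=
    (24436338668/474609375) + (9489275152/1423828125) * x + (-500426832724/4271484375) * x ^ 2 +
    (255801951832/4271484375) * x ^ 3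

theorem cX20_c2_nonneg (x : ℝ) (hx0 : -(1 / 2) ≤ x) (hx1 : x ≤ 1) : 0 ≤ cX20_c2 x := by
  obtain ⟨u, hu⟩ : ∃ u : ℝ, u = x + 1 / 2 := ⟨_, rfl⟩
  obtain ⟨v, hv⟩ : ∃ v : ℝ, v = 1 - x := ⟨_, rfl⟩
  have hu0 : 0 ≤ u := by rw [hu]; linarith
  have hv0 : 0 ≤ v := by rw [hv]; linarith
  have e : cX20_c2 x =
      (129629821664/38443359375) * v ^ 3 + (3271873953208/38443359375) * u * v ^ 2 +
      (850079878592/38443359375) * u ^ 2 * v + (3351104512/12814453125) * u ^ 3 := by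
    rw [hu, hv]; unfold cX20_c2; ring
  rw [e]; positivity

noncomputable def cX20_c3 (x : ℝ) : ℝ :=
    (24882550868/284765625) + (-14086234148/854296875) * x + (-391494072424/2562890625) * x ^ 2 +
    (213424224832/2562890625) * x ^ 3

theorem cX20_c3_nonneg (x : ℝ) (hx0 : -(1 / 2) ≤ x) (hx1 : x ≤ 1) : 0 ≤ cX20_c3 x := by
  obtain ⟨u, hu⟩ : ∃ u : ℝ, u = x + 1 / 2 := ⟨_, rfl⟩
  obtain ⟨v, hv⟩ : ∃ v : ℝ, v = 1 - x := ⟨_, rfl⟩
  have hu0 : 0 ≤ u := by rw [hu]; linarith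
  have hv0 : 0 ≤ v := by rw [hv]; linarith
  have e : cX20_c3 x =
      (321388700864/23066015625) * v ^ 3 + (3001380257008/23066015625) * u * v ^ 2 +
      (768811953392/23066015625) * u ^ 2 * v + (3212806912/7688671875) * u ^ 3 := by
    rw [hu, hv]; unfold cX20_c3; ring
  rw [e]; positivity

noncomputable def cX20_c4 (x : ℝ) : ℝ :=
    (22521707768/284765625) + (-35533007048/854296875) * x + (-241271206624/2562890625) * x ^ 2 +
    (148166926432/2562890625) * x ^ 3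

theorem cX20_c4_nonneg (x : ℝ) (hx0 : -(1 / 2) ≤ x) (hx1 : x ≤ 1) : 0 ≤ cX20_c4 x := by
  obtain ⟨u, hu⟩ : ∃ u : ℝ, u = x + 1 / 2 := ⟨_, rfl⟩
  obtain ⟨v, hv⟩ : ∃ v : ℝ, v = 1 - x := ⟨_, rfl⟩
  have hu0 : 0 ≤ u := by rw [hu]; linarith
  have hv0 : 0 ≤ v := by rw [hv]; linarith
  have e : cX20_c4 x =
      (472416568064/23066015625) * v ^ 3 + (2400439225408/23066015625) * u * v ^ 2 +
      (602499168992/23066015625) * u ^ 2 * v + (2659616512/7688671875) * u ^ 3 := by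
    rw [hu, hv]; unfold cX20_c4; ring
  rw [e]; positivity

noncomputable def cX20_c5 (x : ℝ) : ℝ :=
    (16581819968/474609375) + (-34718933648/1423828125) * x + (-135050854624/4271484375) * x ^ 2 +
    (92107628032/4271484375) * x ^ 3

theorem cX20_c5_nonneg (x : ℝ) (hx0 : -(1 / 2) ≤ x) (hx1 : x ≤ 1) : 0 ≤ cX20_c5 x := by
  obtain ⟨u, hu⟩ : ∃ u : ℝ, u = x + 1 / 2 := ⟨_, rfl⟩
  obtain ⟨v, hv⟩ : ∃ v : ℝ, v = 1 - x := ⟨_, rfl⟩
  have hu0 : 0 ≤ u := by rw [hu]; linarith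
  have hv0 : 0 ≤ v := by rw [hv]; linarith
  have e : cX20_c5 x =
      (416102968064/38443359375) * v ^ 3 + (1648208003008/38443359375) * u * v ^ 2 +
      (408833321792/38443359375) * u ^ 2 * v + (1898979712/12814453125) * u ^ 3 := by
    rw [hu, hv]; unfold cX20_c5; ring
  rw [e]; positivity

noncomputable def cX20_c6 (x : ℝ) : ℝ :=
    (9257725568/1423828125) + (-16617530048/4271484375) * x + (-88967228224/12814453125) * x ^ 2 +
    (56780924032/12814453125) * x ^ 3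

theorem cX20_c6_nonneg (x : ℝ) (hx0 : -(1 / 2) ≤ x) (hx1 : x ≤ 1) : 0 ≤ cX20_c6 x := by
  obtain ⟨u, hu⟩ : ∃ u : ℝ, u = x + 1 / 2 := ⟨_, rfl⟩
  obtain ⟨v, hv⟩ : ∃ v : ℝ, v = 1 - x := ⟨_, rfl⟩
  have hu0 : 0 ≤ u := by rw [hu]; linarith
  have hv0 : 0 ≤ v := by rw [hv]; linarith
  have e : cX20_c6 x =
      (210417073664/115330078125) * v ^ 3 + (958052545408/115330078125) * u * v ^ 2 +
      (240022184192/115330078125) * u ^ 2 * v + (1138342912/38443359375) * u ^ 3 := by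
    rw [hu, hv]; unfold cX20_c6; ring
  rw [e]; positivity

noncomputable def cX20_c7 (x : ℝ) : ℝ :=
    (578945024/1423828125) + (-391307264/4271484375) * x + (-8761292032/12814453125) * x ^ 2 +
    (4818750976/12814453125) * x ^ 3

theorem cX20_c7_nonneg (x : ℝ) (hx0 : -(1 / 2) ≤ x) (hx1 : x ≤ 1) : 0 ≤ cX20_c7 x := by
  obtain ⟨u, hu⟩ : ∃ u : ℝ, u = x + 1 / 2 := ⟨_, rfl⟩
  obtain ⟨v, hv⟩ : ∃ v : ℝ, v = 1 - x := ⟨_, rfl⟩
  have hu0 : 0 ≤ u := by rw [hu]; linarith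
  have hv0 : 0 ≤ v := by rw [hv]; linarith
  have e : cX20_c7 x =
      (8012797952/115330078125) * v ^ 3 + (68844127744/115330078125) * u * v ^ 2 +
      (17713350656/115330078125) * u ^ 2 * v + (83593216/38443359375) * u ^ 3 := by
    rw [hu, hv]; unfold cX20_c7; ring
  rw [e]; positivity

theorem cX20_id (x y : ℝ) : cX20 x y =
      cX20_c0 x * (5 / 7 - y) ^ 7 + cX20_c1 x * (y + 5 / 14) * (5 / 7 - y) ^ 6 + cX20_c2 x * (y +
      5 / 14) ^ 2 * (5 / 7 - y) ^ 5 + cX20_c3 x * (y + 5 / 14) ^ 3 * (5 / 7 - y) ^ 4 +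
      cX20_c4 x * (y + 5 / 14) ^ 4 * (5 / 7 - y) ^ 3 + cX20_c5 x * (y +
      5 / 14) ^ 5 * (5 / 7 - y) ^ 2 + cX20_c6 x * (y + 5 / 14) ^ 6 * (5 / 7 - y) + cX20_c7 x * (y +
      5 / 14) ^ 7 := by
  unfold cX20 cX20_c0 cX20_c1 cX20_c2 cX20_c3 cX20_c4 cX20_c5 cX20_c6 cX20_c7
  ring

theorem cX20_nonneg (x y : ℝ) (hx0 : -(1 / 2) ≤ x) (hx1 : x ≤ 1) (hy0 : -(5 / 14) ≤ y)
    (hy1 : y ≤ 5 / 7) : 0 ≤ cX20 x y := by
  rw [cX20_id]
  have hs0 : 0 ≤ y + 5 / 14 := by linarith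
  have ht0 : 0 ≤ 5 / 7 - y := by linarith
  have h0 := cX20_c0_nonneg x hx0 hx1
  have h1 := cX20_c1_nonneg x hx0 hx1
  have h2 := cX20_c2_nonneg x hx0 hx1
  have h3 := cX20_c3_nonneg x hx0 hx1
  have h4 := cX20_c4_nonneg x hx0 hx1
  have h5 := cX20_c5_nonneg x hx0 hx1
  have h6 := cX20_c6_nonneg x hx0 hx1
  have h7 := cX20_c7_nonneg x hx0 hx1
  generalize y + 5 / 14 = s at *
  generalize 5 / 7 - y = t at *
  positivity

theorem cX20_eq (x y : ℝ) : cX20 x y =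
    bv0 (bv2 (qX00 x y) (qX10 x y) (qX20 x y) (x ^ 2) (3 - 2 * x) 1)
      (bv2 (qX01 x y) (qX11 x y) (qX21 x y) (x ^ 2) (3 - 2 * x) 1)
      (bv2 (qX02 x y) (qX12 x y) (qX22 x y) (x ^ 2) (3 - 2 * x) 1)
      (y ^ 2) (15 / 7 - 2 * y) (125 / 343) := by
  unfold cX20 bv0 bv2 qX00 qX01 qX02 qX10 qX11 qX12 qX20 qX21 qX22
  ring

end Vale.Agent.P154
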