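import Vale.Agent.P154.Gen.QXdef

namespace Vale.Agent.P154

noncomputable def cX21 (x y : ℝ) : ℝ :=
    (43809/3430) + (-218517/17150) * y + (-11673/490) * y ^ 2 + (100281/3430) * y ^ 3 +
    (-2301/8575) * y ^ 4 + (-156/25) * y ^ 5 + (-2729/1715) * x + (-205721/17150) * x * y +
    (27446/1715) * x * y ^ 2 + (103133/2450) * x * y ^ 3 + (-640658/8575) * x * y ^ 4 +
    (271622/8575) * x * y ^ 5 + (-40709/1715) * x ^ 2 + (397042/8575) * x ^ 2 * y +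
    (115568/5145) * x ^ 2 * y ^ 2 + (-1114994/8575) * x ^ 2 * y ^ 3 +
    (1066447/8575) * x ^ 2 * y ^ 4 + (-339742/8575) * x ^ 2 * y ^ 5 + (21862/1715) * x ^ 3 +
    (-26658/1225) * x ^ 3 * y + (-77324/5145) * x ^ 3 * y ^ 2 + (508618/8575) * x ^ 3 * y ^ 3 +
    (-425546/8575) * x ^ 3 * y ^ 4 + (121628/8575) * x ^ 3 * y ^ 5

noncomputable def cX21_c0 (x : ℝ) : ℝ :=
    (570301264/62015625) + (1306916672/1302328125) * x + (-80886888464/3906984375) * x ^ 2 +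
    (41536413152/3906984375) * x ^ 3

theorem cX21_c0_nonneg (x : ℝ) (hx0 : -(1 / 2) ≤ x) (hx1 : x ≤ 1) : 0 ≤ cX21_c0 x := by
  obtain ⟨u, hu⟩ : ∃ u : ℝ, u = x + 1 / 2 := ⟨_, rfl⟩
  obtain ⟨v, hv⟩ : ∃ v : ℝ, v = 1 - x := ⟨_, rfl⟩
  have hu0 : 0 ≤ u := by rw [hu]; linarith
  have hv0 : 0 ≤ v := by rw [hv]; linarith
  have e : cX21_c0 x =
      (22812882304/35162859375) * v ^ 3 + (10862825312/717609375) * u * v ^ 2 +
      (136969184512/35162859375) * u ^ 2 * v + (1293824/34171875) * u ^ 3 := by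
    rw [hu, hv]; unfold cX21_c0; ring
  rw [e]; positivity

noncomputable def cX21_c1 (x : ℝ) : ℝ :=
    (508221746/8859375) + (15302195656/1302328125) * x + (-538982452822/3906984375) * x ^ 2 +
    (272511066196/3906984375) * x ^ 3

theorem cX21_c1_nonneg (x : ℝ) (hx0 : -(1 / 2) ≤ x) (hx1 : x ≤ 1) : 0 ≤ cX21_c1 x := by
  obtain ⟨u, hu⟩ : ∃ u : ℝ, u = x + 1 / 2 := ⟨_, rfl⟩
  obtain ⟨v, hv⟩ : ∃ v : ℝ, v = 1 - x := ⟨_, rfl⟩
  have hu0 : 0 ≤ u := by rw [hu]; linarith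
  have hv0 : 0 ≤ v := by rw [hv]; linarith
  have e : cX21_c1 x =
      (86301333392/35162859375) * v ^ 3 + (487999051132/5023265625) * u * v ^ 2 +
      (886588402976/35162859375) * u ^ 2 * v + (9228352/34171875) * u ^ 3 := by
    rw [hu, hv]; unfold cX21_c1; ring
  rw [e]; positivity

noncomputable def cX21_c2 (x : ℝ) : ℝ :=
    (5879589298/62015625) + (-58491877846/1302328125) * x + (-473498937848/3906984375) * x ^ 2 +
    (283902795464/3906984375) * x ^ 3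

theorem cX21_c2_nonneg (x : ℝ) (hx0 : -(1 / 2) ≤ x) (hx1 : x ≤ 1) : 0 ≤ cX21_c2 x := by
  obtain ⟨u, hu⟩ : ∃ u : ℝ, u = x + 1 / 2 := ⟨_, rfl⟩
  obtain ⟨v, hv⟩ : ∃ v : ℝ, v = 1 - x := ⟨_, rfl⟩
  have hu0 : 0 ≤ u := by rw [hu]; linarith
  have hv0 : 0 ≤ v := by rw [hv]; linarith
  have e : cX21_c2 x =
      (811438289728/35162859375) * v ^ 3 + (639730924688/5023265625) * u * v ^ 2 +
      (1125799290184/35162859375) * u ^ 2 * v + (13844768/34171875) * u ^ 3 := by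
    rw [hu, hv]; unfold cX21_c2; ring
  rw [e]; positivity

noncomputable def cX21_c3 (x : ℝ) : ℝ :=
    (3166626952/62015625) + (-39543330604/1302328125) * x + (-214681936352/3906984375) * x ^ 2 +
    (136735361936/3906984375) * x ^ 3

theorem cX21_c3_nonneg (x : ℝ) (hx0 : -(1 / 2) ≤ x) (hx1 : x ≤ 1) : 0 ≤ cX21_c3 x := by
  obtain ⟨u, hu⟩ : ∃ u : ℝ, u = x + 1 / 2 := ⟨_, rfl⟩
  obtain ⟨v, hv⟩ : ∃ v : ℝ, v = 1 - x := ⟨_, rfl⟩
  have hu0 : 0 ≤ u := by rw [hu]; linarith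
  have hv0 : 0 ≤ v := by rw [hv]; linarith
  have e : cX21_c3 x =
      (501466905472/35162859375) * v ^ 3 + (328402082912/5023265625) * u * v ^ 2 +
      (574518568816/35162859375) * u ^ 2 * v + (7569632/34171875) * u ^ 3 := by
    rw [hu, hv]; unfold cX21_c3; ring
  rw [e]; positivity

noncomputable def cX21_c4 (x : ℝ) : ℝ :=
    (702619328/62015625) + (-8504418656/1302328125) * x + (-48864260128/3906984375) * x ^ 2 +
    (30799837504/3906984375) * x ^ 3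

theorem cX21_c4_nonneg (x : ℝ) (hx0 : -(1 / 2) ≤ x) (hx1 : x ≤ 1) : 0 ≤ cX21_c4 x := by
  obtain ⟨u, hu⟩ : ∃ u : ℝ, u = x + 1 / 2 := ⟨_, rfl⟩
  obtain ⟨v, hv⟩ : ∃ v : ℝ, v = 1 - x := ⟨_, rfl⟩
  have hu0 : 0 ≤ u := by rw [hu]; linarith
  have hv0 : 0 ≤ v := by rw [hv]; linarith
  have e : cX21_c4 x =
      (109214935808/35162859375) * v ^ 3 + (73349762368/5023265625) * u * v ^ 2 +
      (128867767424/35162859375) * u ^ 2 * v + (1781248/34171875) * u ^ 3 := by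
    rw [hu, hv]; unfold cX21_c4; ring
  rw [e]; positivity

noncomputable def cX21_c5 (x : ℝ) : ℝ :=
    (41353216/62015625) + (-195653632/1302328125) * x + (-4380646016/3906984375) * x ^ 2 +
    (2409375488/3906984375) * x ^ 3

theorem cX21_c5_nonneg (x : ℝ) (hx0 : -(1 / 2) ≤ x) (hx1 : x ≤ 1) : 0 ≤ cX21_c5 x := by
  obtain ⟨u, hu⟩ : ∃ u : ℝ, u = x + 1 / 2 := ⟨_, rfl⟩
  obtain ⟨v, hv⟩ : ∃ v : ℝ, v = 1 - x := ⟨_, rfl⟩
  have hu0 : 0 ≤ u := by rw [hu]; linarith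
  have hv0 : 0 ≤ v := by rw [hv]; linarith
  have e : cX21_c5 x =
      (4006398976/35162859375) * v ^ 3 + (4917437696/5023265625) * u * v ^ 2 +
      (8856675328/35162859375) * u ^ 2 * v + (121856/34171875) * u ^ 3 := by
    rw [hu, hv]; unfold cX21_c5; ring
  rw [e]; positivity

theorem cX21_id (x y : ℝ) : cX21 x y =
      cX21_c0 x * (5 / 7 - y) ^ 5 + cX21_c1 x * (y + 5 / 14) * (5 / 7 - y) ^ 4 + cX21_c2 x * (y +
      5 / 14) ^ 2 * (5 / 7 - y) ^ 3 + cX21_c3 x * (y + 5 / 14) ^ 3 * (5 / 7 - y) ^ 2 +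
      cX21_c4 x * (y + 5 / 14) ^ 4 * (5 / 7 - y) + cX21_c5 x * (y + 5 / 14) ^ 5 := by
  unfold cX21 cX21_c0 cX21_c1 cX21_c2 cX21_c3 cX21_c4 cX21_c5
  ring

theorem cX21_nonneg (x y : ℝ) (hx0 : -(1 / 2) ≤ x) (hx1 : x ≤ 1) (hy0 : -(5 / 14) ≤ y)
    (hy1 : y ≤ 5 / 7) : 0 ≤ cX21 x y := by
  rw [cX21_id]
  have hs0 : 0 ≤ y + 5 / 14 := by linarith
  have ht0 : 0 ≤ 5 / 7 - y := by linarith
  have h0 := cX21_c0_nonneg x hx0 hx1
  have h1 := cX21_c1_nonneg x hx0 hx1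
  have h2 := cX21_c2_nonneg x hx0 hx1
  have h3 := cX21_c3_nonneg x hx0 hx1
  have h4 := cX21_c4_nonneg x hx0 hx1
  have h5 := cX21_c5_nonneg x hx0 hx1
  generalize y + 5 / 14 = s at *
  generalize 5 / 7 - y = t at *
  positivity

theorem cX21_eq (x y : ℝ) : cX21 x y =
    bv1 (bv2 (qX00 x y) (qX10 x y) (qX20 x y) (x ^ 2) (3 - 2 * x) 1)
      (bv2 (qX01 x y) (qX11 x y) (qX21 x y) (x ^ 2) (3 - 2 * x) 1)
      (bv2 (qX02 x y) (qX12 x y) (qX22 x y) (x ^ 2) (3 - 2 * x) 1)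
      (y ^ 2) (15 / 7 - 2 * y) (125 / 343) := by
  unfold cX21 bv1 bv2 qX00 qX01 qX02 qX10 qX11 qX12 qX20 qX21 qX22
  ring

end Vale.Agent.P154
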