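import Vale.Agent.P154.Gen.QXdef

namespace Vale.Agent.P154

noncomputable def cX22 (x y : ℝ) : ℝ :=
    (1100637/117649) + (-12409962/588245) * y + (37133403/2941225) * y ^ 2 + (-1842/1715) * y ^ 3 +
    (-142719/117649) * x + (-301733/84035) * x * y + (37166264/2941225) * x * y ^ 2 +
    (-4430956/588245) * x * y ^ 3 + (-2038074/117649) * x ^ 2 + (29208349/588245) * x ^ 2 * y +
    (-138990581/2941225) * x ^ 2 * y ^ 2 + (26156218/1764735) * x ^ 2 * y ^ 3 +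
    (22368/2401) * x ^ 3 + (-14856482/588245) * x ^ 3 * y + (65139558/2941225) * x ^ 3 * y ^ 2 +
    (-10967932/1764735) * x ^ 3 * y ^ 3

noncomputable def cX22_c0 (x : ℝ) : ℝ :=
    (285150632/18907875) + (653458336/397065375) * x + (-40443444232/1191196125) * x ^ 2 +
    (20768206576/1191196125) * x ^ 3

theorem cX22_c0_nonneg (x : ℝ) (hx0 : -(1 / 2) ≤ x) (hx1 : x ≤ 1) : 0 ≤ cX22_c0 x := by
  obtain ⟨u, hu⟩ : ∃ u : ℝ, u = x + 1 / 2 := ⟨_, rfl⟩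
  obtain ⟨v, hv⟩ : ∃ v : ℝ, v = 1 - x := ⟨_, rfl⟩
  have hu0 : 0 ≤ u := by rw [hu]; linarith
  have hv0 : 0 ≤ v := by rw [hv]; linarith
  have e : cX22_c0 x =
      (11406441152/10720765125) * v ^ 3 + (5431412656/218791125) * u * v ^ 2 +
      (68484592256/10720765125) * u ^ 2 * v + (92416/1488375) * u ^ 3 := by
    rw [hu, hv]; unfold cX22_c0; ring
  rw [e]; positivity

noncomputable def cX22_c1 (x : ℝ) : ℝ :=
    (117556666/6302625) + (-125944048/14706125) * x + (-9632009866/397065375) * x ^ 2 +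
    (5738277388/397065375) * x ^ 3

theorem cX22_c1_nonneg (x : ℝ) (hx0 : -(1 / 2) ≤ x) (hx1 : x ≤ 1) : 0 ≤ cX22_c1 x := by
  obtain ⟨u, hu⟩ : ∃ u : ℝ, u = x + 1 / 2 := ⟨_, rfl⟩
  obtain ⟨v, hv⟩ : ∃ v : ℝ, v = 1 - x := ⟨_, rfl⟩
  have hu0 : 0 ≤ u := by rw [hu]; linarith
  have hv0 : 0 ≤ v := by rw [hv]; linarith
  have e : cX22_c1 x =
      (15949406576/3573588375) * v ^ 3 + (12855590596/510512625) * u * v ^ 2 +
      (22693492928/3573588375) * u ^ 2 * v + (41408/496125) * u ^ 3 := by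
    rw [hu, hv]; unfold cX22_c1; ring
  rw [e]; positivity

noncomputable def cX22_c2 (x : ℝ) : ℝ :=
    (1476136/300125) + (-362503012/132355125) * x + (-2218537756/397065375) * x ^ 2 +
    (1383717208/397065375) * x ^ 3

theorem cX22_c2_nonneg (x : ℝ) (hx0 : -(1 / 2) ≤ x) (hx1 : x ≤ 1) : 0 ≤ cX22_c2 x := by
  obtain ⟨u, hu⟩ : ∃ u : ℝ, u = x + 1 / 2 := ⟨_, rfl⟩
  obtain ⟨v, hv⟩ : ∃ v : ℝ, v = 1 - x := ⟨_, rfl⟩
  have hu0 : 0 ≤ u := by rw [hu]; linarith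
  have hv0 : 0 ≤ v := by rw [hv]; linarith
  have e : cX22_c2 x =
      (4717555616/3573588375) * v ^ 3 + (3261133336/510512625) * u * v ^ 2 +
      (5738518448/3573588375) * u ^ 2 * v + (3776/165375) * u ^ 3 := by
    rw [hu, hv]; unfold cX22_c2; ring
  rw [e]; positivity

noncomputable def cX22_c3 (x : ℝ) : ℝ :=
    (5169152/18907875) + (-24456704/397065375) * x + (-547580752/1191196125) * x ^ 2 +
    (301171936/1191196125) * x ^ 3

theorem cX22_c3_nonneg (x : ℝ) (hx0 : -(1 / 2) ≤ x) (hx1 : x ≤ 1) : 0 ≤ cX22_c3 x := by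
  obtain ⟨u, hu⟩ : ∃ u : ℝ, u = x + 1 / 2 := ⟨_, rfl⟩
  obtain ⟨v, hv⟩ : ∃ v : ℝ, v = 1 - x := ⟨_, rfl⟩
  have hu0 : 0 ≤ u := by rw [hu]; linarith
  have hv0 : 0 ≤ v := by rw [hv]; linarith
  have e : cX22_c3 x =
      (500799872/10720765125) * v ^ 3 + (614679712/1531537875) * u * v ^ 2 +
      (1107084416/10720765125) * u ^ 2 * v + (2176/1488375) * u ^ 3 := by
    rw [hu, hv]; unfold cX22_c3; ring
  rw [e]; positivity

theorem cX22_id (x y : ℝ) : cX22 x y =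
      cX22_c0 x * (5 / 7 - y) ^ 3 + cX22_c1 x * (y + 5 / 14) * (5 / 7 - y) ^ 2 + cX22_c2 x * (y +
      5 / 14) ^ 2 * (5 / 7 - y) + cX22_c3 x * (y + 5 / 14) ^ 3 := by
  unfold cX22 cX22_c0 cX22_c1 cX22_c2 cX22_c3
  ring

theorem cX22_nonneg (x y : ℝ) (hx0 : -(1 / 2) ≤ x) (hx1 : x ≤ 1) (hy0 : -(5 / 14) ≤ y)
    (hy1 : y ≤ 5 / 7) : 0 ≤ cX22 x y := by
  rw [cX22_id]
  have hs0 : 0 ≤ y + 5 / 14 := by linarith
  have ht0 : 0 ≤ 5 / 7 - y := by linarith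
  have h0 := cX22_c0_nonneg x hx0 hx1
  have h1 := cX22_c1_nonneg x hx0 hx1
  have h2 := cX22_c2_nonneg x hx0 hx1
  have h3 := cX22_c3_nonneg x hx0 hx1
  generalize y + 5 / 14 = s at *
  generalize 5 / 7 - y = t at *
  positivity

theorem cX22_eq (x y : ℝ) : cX22 x y =
    bv2 (bv2 (qX00 x y) (qX10 x y) (qX20 x y) (x ^ 2) (3 - 2 * x) 1)
      (bv2 (qX01 x y) (qX11 x y) (qX21 x y) (x ^ 2) (3 - 2 * x) 1)
      (bv2 (qX02 x y) (qX12 x y) (qX22 x y) (x ^ 2) (3 - 2 * x) 1)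
      (y ^ 2) (15 / 7 - 2 * y) (125 / 343) := by
  unfold cX22 bv2 qX00 qX01 qX02 qX10 qX11 qX12 qX20 qX21 qX22
  ring

end Vale.Agent.P154
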