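import Vale.Agent.P154.Gen.Crt

/-!
# P154: convexity of `FF u = 1 - u/3 - crt (1 - u)` on `[0,1]`

`Real.concaveOn_rpow` (exponent `1/3`) composed with the affine map `u ↦ 1 - u`.
* `FF_mix`: convexity between `v` and `v + τ`:  `v + c τ = (1-c) v + c (v+τ)`.
* `FF_incr`: increments of a convex function are monotone: for `v ≤ u`, `τ ≥ 0`: `FF (v+τ) + FF u ≤ FF v + FF (u+τ)`.
  (If `u + τ = v` everything is equal.  Otherwise with `θ = (u - v)/(u + τ - v)`:
  `v + τ = θ v + (1-θ) (u+τ)` and `u = (1-θ) v + θ (u+τ)`; add the two convexity inequalities.)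
-/

namespace Vale.Agent.P154

noncomputable def FF (u : ℝ) : ℝ := 1 - u / 3 - crt (1 - u)

theorem FF_convex : ConvexOn ℝ (Set.Icc 0 1) FF := by
  have hconc : ConcaveOn ℝ (Set.Ici (0 : ℝ)) (fun x : ℝ => x ^ ((1 : ℝ) / 3)) :=
    Real.concaveOn_rpow (by norm_num) (by norm_num)
  refine ⟨convex_Icc 0 1, ?_⟩
  intro x hx y hy a b ha hb hab
  have hx' : (1 - x) ∈ Set.Ici (0 : ℝ) := by
    simp only [Set.mem_Ici]; linarith [hx.2]
  have hy' : (1 - y) ∈ Set.Ici (0 : ℝ) := by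
    simp only [Set.mem_Ici]; linarith [hy.2]
  have h := hconc.2 hx' hy' ha hb hab
  simp only [smul_eq_mul] at h ⊢
  have e : a * (1 - x) + b * (1 - y) = 1 - (a * x + b * y) := by
    have : a = 1 - b := by linarith
    subst this; ring
  rw [e] at h
  unfold FF crt
  have hb' : b = 1 - a := by linarith
  subst hb'
  nlinarith [h]

theorem FF_mix (v τ c : ℝ) (hv : 0 ≤ v) (hτ : 0 ≤ τ) (hvτ : v + τ ≤ 1) (hc0 : 0 ≤ c) (hc1 : c ≤ 1) :
    FF (v + c * τ) ≤ FF v + c * (FF (v + τ) - FF v) := by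
  have hvm : v ∈ Set.Icc (0 : ℝ) 1 := ⟨hv, by linarith⟩
  have hum : v + τ ∈ Set.Icc (0 : ℝ) 1 := ⟨by linarith, hvτ⟩
  have hc1' : 0 ≤ 1 - c := by linarith
  have hsum : (1 - c) + c = 1 := by ring
  have h := FF_convex.2 hvm hum hc1' hc0 hsum
  simp only [smul_eq_mul] at h
  have e : (1 - c) * v + c * (v + τ) = v + c * τ := by ring
  rw [e] at h
  linarith

theorem FF_incr (v u τ : ℝ) (hv : 0 ≤ v) (hvu : v ≤ u) (hτ : 0 ≤ τ) (huτ : u + τ ≤ 1) :
    FF (v + τ) - FF v ≤ FF (u + τ) - FF u := by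
  by_cases hD : u + τ - v = 0
  · have h1 : u = v := by linarith
    have h2 : τ = 0 := by linarith
    subst h1; subst h2; simp
  · have hDpos : 0 < u + τ - v := lt_of_le_of_ne (by linarith) (Ne.symm hD)
    set θ : ℝ := (u - v) / (u + τ - v) with hθ
    have hθ0 : 0 ≤ θ := div_nonneg (by linarith) hDpos.le
    have hθ1 : θ ≤ 1 := by
      rw [hθ, div_le_one hDpos]; linarith
    have hθD : θ * (u + τ - v) = u - v := by
      rw [hθ]; field_simp
    have hvm : v ∈ Set.Icc (0 : ℝ) 1 := ⟨hv, by linarith⟩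
    have hum : u + τ ∈ Set.Icc (0 : ℝ) 1 := ⟨by linarith, huτ⟩
    have hθ1' : 0 ≤ 1 - θ := by linarith
    have hs1 : θ + (1 - θ) = 1 := by ring
    have hs2 : (1 - θ) + θ = 1 := by ring
    have h1 := FF_convex.2 hvm hum hθ0 hθ1' hs1
    have h2 := FF_convex.2 hvm hum hθ1' hθ0 hs2
    simp only [smul_eq_mul] at h1 h2
    have e1 : θ * v + (1 - θ) * (u + τ) = v + τ := by nlinarith [hθD]
    have e2 : (1 - θ) * v + θ * (u + τ) = u := by nlinarith [hθD]
    rw [e1] at h1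
    rw [e2] at h2
    linarith

end Vale.Agent.P154
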