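import Vale.Agent.P154.Gen.ChanAxis
import Vale.Agent.P154.Gen.ChanConv

/-!
# P154: the channel inequality  `ff3 (lam e) ≤ lam^3 ff3 e`,  hence `gg3 (lam e) ≥ lam^3 gg3 e`

`ff3 e = FF (u e)` with `u e = 1 - dd3 e = 3 al3 e - 2 cu3 e ∈ [0,1]` (`dd3_eq`, `dd3_nonneg`, `dd3_le_one`).
Let `al = al3 e ∈ [0,1]`, `s = sqrt al`, `A = cu3 e`; `A ≤ s^3` by `cu3_sq_le` (`A^2 ≤ al^3 = (s^3)^2`).
Put `us = 3 s^2 - 2 s^3`, `τ = 2 (s^3 - A) ≥ 0`, so `u e = us + τ`;  `v = 3 (lam s)^2 - 2 (lam s)^3`, so `u (lam e) = v + lam^3 τ`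
(`al3_smul`, `cu3_smul`).  `0 ≤ v ≤ us` (the map `s ↦ 3s^2 - 2s^3` is nondecreasing on `[0,1]`).
`FF us = phiA s`, `FF v = phiA (lam s)`  since `1 - us = (1-s)^2 (1+2s)`.  Then
`FF (v + lam^3 τ) ≤ FF v + lam^3 (FF (v+τ) - FF v)`            (`FF_mix`)
`              ≤ FF v + lam^3 (FF (us+τ) - FF us)`              (`FF_incr`)
`              ≤ lam^3 FF us + lam^3 (FF (us+τ) - FF us) = lam^3 FF (u e)`   (`phiA_scale`).
-/

namespace Vale.Agent.P154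

/-- `ff3` through `FF` on the sum-zero plane. -/
theorem ff3_eq_FF (e0 e1 e2 : ℝ) (h : e0 + e1 + e2 = 0) :
    ff3 e0 e1 e2 = FF (3 * al3 e0 e1 e2 - 2 * cu3 e0 e1 e2) := by
  have hd := dd3_eq e0 e1 e2 h
  have e : 1 - (3 * al3 e0 e1 e2 - 2 * cu3 e0 e1 e2) = dd3 e0 e1 e2 := by rw [hd]; ring
  unfold ff3 FF
  rw [e, hd]
  ring

/-- `FF` on the axis is `phiA`. -/
theorem FF_axis (s : ℝ) : FF (3 * s ^ 2 - 2 * s ^ 3) = phiA s := by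
  have e : 1 - (3 * s ^ 2 - 2 * s ^ 3) = (1 - s) ^ 2 * (1 + 2 * s) := by ring
  unfold FF phiA
  rw [e]
  ring

/-- the abstract chain of inequalities -/
theorem FF_chain (s A lam : ℝ) (hs0 : 0 ≤ s) (hs1 : s ≤ 1) (hA : A ≤ s ^ 3)
    (hu1 : 3 * s ^ 2 - 2 * A ≤ 1) (hl0 : 0 ≤ lam) (hl1 : lam ≤ 5 / 7) :
    FF (3 * (lam ^ 2 * s ^ 2) - 2 * (lam ^ 3 * A)) ≤ lam ^ 3 * FF (3 * s ^ 2 - 2 * A) := by
  have hl1' : lam ≤ 1 := by linarith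
  have hx0 : 0 ≤ lam * s := mul_nonneg hl0 hs0
  have hxs : lam * s ≤ s := by nlinarith
  have hx1 : lam * s ≤ 1 := le_trans hxs hs1
  set x : ℝ := lam * s with hx
  set us : ℝ := 3 * s ^ 2 - 2 * s ^ 3 with hus
  set τ : ℝ := 2 * (s ^ 3 - A) with hτ
  set v : ℝ := 3 * x ^ 2 - 2 * x ^ 3 with hv
  have hτ0 : 0 ≤ τ := by rw [hτ]; linarith
  have hv0 : 0 ≤ v := by
    have : v = x ^ 2 * (3 - 2 * x) := by rw [hv]; ring
    rw [this]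
    exact mul_nonneg (by positivity) (by linarith)
  have hvus : v ≤ us := by
    have e : us - v = (s - x) * (3 * (s + x) - 2 * (s ^ 2 + s * x + x ^ 2)) := by
      rw [hus, hv]; ring
    have h1 : 0 ≤ s - x := by linarith
    have h2 : 0 ≤ 3 * (s + x) - 2 * (s ^ 2 + s * x + x ^ 2) := by
      have a1 : s ^ 2 ≤ s := by nlinarith
      have a2 : x ^ 2 ≤ x := by nlinarith
      have a3 : s * x ≤ x := by nlinarith
      have a4 : s * x ≤ s := by nlinarith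
      nlinarith
    have := mul_nonneg h1 h2
    linarith
  have husτ : us + τ = 3 * s ^ 2 - 2 * A := by rw [hus, hτ]; ring
  have husτ1 : us + τ ≤ 1 := by rw [husτ]; exact hu1
  have hvτ1 : v + τ ≤ 1 := by linarith
  have hc0 : 0 ≤ lam ^ 3 := by positivity
  have hc1 : lam ^ 3 ≤ 1 := pow_le_one₀ hl0 hl1'
  have harg : 3 * (lam ^ 2 * s ^ 2) - 2 * (lam ^ 3 * A) = v + lam ^ 3 * τ := by
    rw [hv, hτ, hx]; ring
  have h1 := FF_mix v τ (lam ^ 3) hv0 hτ0 hvτ1 hc0 hc1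
  have h2 := FF_incr v us τ hv0 hvus hτ0 husτ1
  have h3 := phiA_scale s lam hs0 hs1 hl0 hl1
  have h4 : FF v = phiA x := by rw [hv]; exact FF_axis x
  have h5 : FF us = phiA s := by rw [hus]; exact FF_axis s
  rw [harg, ← husτ]
  have h6 : lam ^ 3 * (FF (v + τ) - FF v) ≤ lam ^ 3 * (FF (us + τ) - FF us) :=
    mul_le_mul_of_nonneg_left h2 hc0
  have h7 : FF v ≤ lam ^ 3 * FF us := by rw [h4, h5]; exact h3
  nlinarith [h1, h6, h7]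

theorem ff3_smul_le (lam e0 e1 e2 : ℝ) (hl0 : 0 ≤ lam) (hl1 : lam ≤ 5 / 7) (h : e0 + e1 + e2 = 0)
    (h0 : -1 ≤ e0) (h1 : -1 ≤ e1) (h2 : -1 ≤ e2) :
    ff3 (lam * e0) (lam * e1) (lam * e2) ≤ lam ^ 3 * ff3 e0 e1 e2 := by
  have hsum : lam * e0 + lam * e1 + lam * e2 = 0 := by
    have : lam * e0 + lam * e1 + lam * e2 = lam * (e0 + e1 + e2) := by ring
    rw [this, h]; ring
  rw [ff3_eq_FF _ _ _ hsum, ff3_eq_FF _ _ _ h, al3_smul, cu3_smul]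
  have hal0 : 0 ≤ al3 e0 e1 e2 := al3_nonneg e0 e1 e2
  have hal1 : al3 e0 e1 e2 ≤ 1 := al3_le_one e0 e1 e2 h h0 h1 h2
  set al : ℝ := al3 e0 e1 e2 with hal
  set A : ℝ := cu3 e0 e1 e2 with hA
  set s : ℝ := Real.sqrt al with hs
  have hs0 : 0 ≤ s := Real.sqrt_nonneg al
  have hs2 : s ^ 2 = al := Real.sq_sqrt hal0
  have hs1 : s ≤ 1 := by
    rw [hs]
    exact Real.sqrt_le_one.mpr hal1
  have hsq : A ^ 2 ≤ (s ^ 3) ^ 2 := by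
    have h3 : A ^ 2 ≤ al ^ 3 := cu3_sq_le e0 e1 e2 h
    have h4 : (s ^ 3) ^ 2 = al ^ 3 := by rw [← hs2]; ring
    rw [h4]; exact h3
  have hAs : A ≤ s ^ 3 :=
    le_trans (le_abs_self A) (abs_le_of_sq_le_sq hsq (by positivity))
  have hu1 : 3 * s ^ 2 - 2 * A ≤ 1 := by
    have hd := dd3_eq e0 e1 e2 h
    have hd0 := dd3_nonneg e0 e1 e2 h0 h1 h2
    rw [hs2]
    linarith
  have key := FF_chain s A lam hs0 hs1 hAs hu1 hl0 hl1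
  rw [hs2] at key
  exact key

theorem gg3_smul_ge (lam e0 e1 e2 : ℝ) (hl0 : 0 ≤ lam) (hl1 : lam ≤ 5 / 7) (h : e0 + e1 + e2 = 0)
    (h0 : -1 ≤ e0) (h1 : -1 ≤ e1) (h2 : -1 ≤ e2) :
    lam ^ 3 * gg3 e0 e1 e2 ≤ gg3 (lam * e0) (lam * e1) (lam * e2) := by
  have hf := ff3_smul_le lam e0 e1 e2 hl0 hl1 h h0 h1 h2
  unfold gg3
  rw [cu3_smul]
  nlinarith [hf]

end Vale.Agent.P154
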