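import Vale.Agent.P154.Gen.Crt

/-!
# P154: the channel inequality on the symmetry axis (one real variable)

`phi s = ff3` at the point `s * (2,-1,-1)`:  `dd3 = (1-s)^2 (1+2s) = 1 - 3 s^2 + 2 s^3`.
Claim: `phi (lam * s) ≤ lam^3 * phi s` for `0 ≤ s ≤ 1`, `0 ≤ lam ≤ 5/7`  (it is true for all `lam ≤ 1`).

Proof (no calculus): the curve `R^3 = σ^2 (3 - 2σ)` (`σ = 1 - s`) is rational.  With `k = R / σ = 1 + x`:
`k^3 (1 - s) = 1 + 2 s`, `s = (k^3-1)/(k^3+2)`, `R = 3k/(k^3+2)` and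
`phi s = s^3 * N x / (3 * E x)`, `N x = x (x+3)^2 (2x^3+6x^2+9x+9)`, `E x = (x^2+3x+3)^3`.
`N (x+y) * E x - N x * E (x+y)` has only nonnegative coefficients, so `N / E` is nondecreasing, and
`2 E - N` has nonnegative coefficients (case `s = 1`).
-/

namespace Vale.Agent.P154

noncomputable def phiA (s : ℝ) : ℝ := 1 - s ^ 2 + 2 / 3 * s ^ 3 - crt ((1 - s) ^ 2 * (1 + 2 * s))

/-- numerator of the rational form of `phiA s / s^3` -/
noncomputable def axN (x : ℝ) : ℝ := x * (x + 3) ^ 2 * (2 * x ^ 3 + 6 * x ^ 2 + 9 * x + 9)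

/-- denominator (up to the factor 3) of the rational form of `phiA s / s^3` -/
noncomputable def axE (x : ℝ) : ℝ := (x ^ 2 + 3 * x + 3) ^ 3

theorem axE_pos (x : ℝ) (hx : 0 ≤ x) : 0 < axE x := by
  unfold axE
  positivity

theorem axN_nonneg (x : ℝ) (hx : 0 ≤ x) : 0 ≤ axN x := by
  unfold axN
  positivity

theorem ax_mono_aux (x y : ℝ) (hx : 0 ≤ x) (hy : 0 ≤ y) :
    axN x * axE (x + y) ≤ axN (x + y) * axE x := by
  have h : axN (x + y) * axE x - axN x * axE (x + y) =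
      2187 * y + 3645 * y ^ 2 + 3159 * y ^ 3 + 1701 * y ^ 4 + 486 * y ^ 5 + 54 * y ^ 6
      + x * (7290 * y + 11664 * y ^ 2 + 9720 * y ^ 3 + 4617 * y ^ 4 + 1053 * y ^ 5 + 81 * y ^ 6)
      + x ^ 2 * (11664 * y + 18954 * y ^ 2 + 15309 * y ^ 3 + 6399 * y ^ 4 + 1215 * y ^ 5
          + 81 * y ^ 6)
      + x ^ 3 * (12636 * y + 21384 * y ^ 2 + 16146 * y ^ 3 + 5751 * y ^ 4 + 891 * y ^ 5
          + 45 * y ^ 6)
      + x ^ 4 * (10692 * y + 17820 * y ^ 2 + 11583 * y ^ 3 + 3240 * y ^ 4 + 351 * y ^ 5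
          + 9 * y ^ 6)
      + x ^ 5 * (7128 * y + 10449 * y ^ 2 + 5265 * y ^ 3 + 999 * y ^ 4 + 54 * y ^ 5)
      + x ^ 6 * (3483 * y + 3969 * y ^ 2 + 1341 * y ^ 3 + 126 * y ^ 4)
      + x ^ 7 * (1134 * y + 864 * y ^ 2 + 144 * y ^ 3)
      + x ^ 8 * (216 * y + 81 * y ^ 2)
      + x ^ 9 * (18 * y) := by
    unfold axN axE
    ring
  have h2 : 0 ≤ axN (x + y) * axE x - axN x * axE (x + y) := by
    rw [h]
    positivity
  linarith

theorem ax_mono (x z : ℝ) (hx : 0 ≤ x) (hxz : x ≤ z) :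
    axN x * axE z ≤ axN z * axE x := by
  have h := ax_mono_aux x (z - x) hx (by linarith)
  have e : x + (z - x) = z := by ring
  rw [e] at h
  exact h

theorem ax_top (x : ℝ) (hx : 0 ≤ x) : axN x ≤ 2 * axE x := by
  have h : 2 * axE x - axN x = 54 + 81 * x + 81 * x ^ 2 + 45 * x ^ 3 + 9 * x ^ 4 := by
    unfold axN axE
    ring
  have h2 : 0 ≤ 2 * axE x - axN x := by
    rw [h]
    positivity
  linarith

/-- rational parametrisation of the axis -/
theorem ax_param (s : ℝ) (hs0 : 0 ≤ s) (hs1 : s < 1) :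
    ∃ x : ℝ, 0 ≤ x ∧ (x + 1) ^ 3 * (1 - s) = 1 + 2 * s ∧
      phiA s * (3 * axE x) = axN x * s ^ 3 := by
  have hσ : 0 < 1 - s := by linarith
  have hD : 0 ≤ (1 - s) ^ 2 * (1 + 2 * s) := by positivity
  set q := crt ((1 - s) ^ 2 * (1 + 2 * s)) with hq
  have hq0 : 0 ≤ q := crt_nonneg _ hD
  have hq3 : q ^ 3 = (1 - s) ^ 2 * (1 + 2 * s) := crt_cube _ hD
  set k := q / (1 - s) with hk
  have hk0 : 0 ≤ k := div_nonneg hq0 hσ.le
  have hqk : q = k * (1 - s) := by
    rw [hk]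
    field_simp
  have hk3 : k ^ 3 * (1 - s) = 1 + 2 * s := by
    have h1 : k ^ 3 * (1 - s) ^ 3 = (1 - s) ^ 2 * (1 + 2 * s) := by
      rw [← hq3, hqk]
      ring
    have h2 : (1 - s) ^ 2 * (k ^ 3 * (1 - s)) = (1 - s) ^ 2 * (1 + 2 * s) := by
      rw [← h1]
      ring
    exact mul_left_cancel₀ (by positivity) h2
  have hk1 : 1 ≤ k := by
    by_contra hlt
    have hlt' : k < 1 := not_le.mp hlt
    have h3 : k ^ 3 < 1 := pow_lt_one₀ hk0 hlt' (by norm_num)
    nlinarith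
  refine ⟨k - 1, by linarith, ?_, ?_⟩
  · have e : k - 1 + 1 = k := by ring
    rw [e]
    exact hk3
  · have hk2 : 0 < k ^ 3 + 2 := by positivity
    have hs : s = (k ^ 3 - 1) / (k ^ 3 + 2) := by
      rw [eq_div_iff hk2.ne']
      linarith
    have hphi : phiA s = 1 - s ^ 2 + 2 / 3 * s ^ 3 - k * (1 - s) := by
      unfold phiA
      rw [← hq, hqk]
    rw [hphi]
    unfold axN axE
    rw [hs]
    field_simp
    ring

theorem phiA_zero : phiA 0 = 0 := by
  unfold phiA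
  have e : ((1 : ℝ) - 0) ^ 2 * (1 + 2 * 0) = 1 := by norm_num
  rw [e, crt_one]
  norm_num

theorem phiA_one : phiA 1 = 2 / 3 := by
  unfold phiA
  have e : ((1 : ℝ) - 1) ^ 2 * (1 + 2 * 1) = 0 := by norm_num
  rw [e, crt_zero]
  norm_num

theorem phiA_scale (s lam : ℝ) (hs0 : 0 ≤ s) (hs1 : s ≤ 1) (hl0 : 0 ≤ lam) (hl1 : lam ≤ 5 / 7) :
    phiA (lam * s) ≤ lam ^ 3 * phiA s := by
  have ht0 : 0 ≤ lam * s := mul_nonneg hl0 hs0
  have hts : lam * s ≤ s := by nlinarith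
  have ht1 : lam * s < 1 := by nlinarith
  obtain ⟨x, hx0, hx3, hxp⟩ := ax_param (lam * s) ht0 ht1
  have hEx := axE_pos x hx0
  have hNx := axN_nonneg x hx0
  have ht3 : 0 ≤ (lam * s) ^ 3 := by positivity
  rcases lt_or_eq_of_le hs1 with hs1' | hs1'
  · obtain ⟨z, hz0, hz3, hzp⟩ := ax_param s hs0 hs1'
    have hEz := axE_pos z hz0
    have hxz : x ≤ z := by
      by_contra hlt
      have hlt' : z < x := not_le.mp hlt
      have h1 : (z + 1) ^ 3 < (x + 1) ^ 3 :=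
        pow_lt_pow_left₀ (by linarith) (by linarith) (by norm_num)
      have hσ : 0 < 1 - s := by linarith
      have hτ : 0 < 1 - lam * s := by linarith
      -- (x+1)^3 (1-t)(1-s) = (1+2t)(1-s) ≤ (1+2s)(1-t) = (z+1)^3 (1-s)(1-t)
      have h2 : (x + 1) ^ 3 * ((1 - lam * s) * (1 - s)) ≤ (z + 1) ^ 3 * ((1 - lam * s) * (1 - s)) := by
        have a1 : (x + 1) ^ 3 * ((1 - lam * s) * (1 - s)) = (1 + 2 * (lam * s)) * (1 - s) := by
          rw [← hx3]
          ring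
        have a2 : (z + 1) ^ 3 * ((1 - lam * s) * (1 - s)) = (1 + 2 * s) * (1 - lam * s) := by
          rw [← hz3]
          ring
        rw [a1, a2]
        nlinarith
      have h3 : 0 < (1 - lam * s) * (1 - s) := mul_pos hτ hσ
      have h4 := le_of_mul_le_mul_right h2 h3
      linarith
    have hm := ax_mono x z hx0 hxz
    -- phiA t * 3 E x * E z = N x t^3 E z ≤ N z E x t^3 = lam^3 phiA s 3 E z E x
    have h5 : phiA (lam * s) * (3 * axE x * axE z) ≤ lam ^ 3 * phiA s * (3 * axE x * axE z) := by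
      have b1 : phiA (lam * s) * (3 * axE x * axE z) = axN x * axE z * (lam * s) ^ 3 := by
        have : phiA (lam * s) * (3 * axE x * axE z) = phiA (lam * s) * (3 * axE x) * axE z := by
          ring
        rw [this, hxp]
        ring
      have b2 : lam ^ 3 * phiA s * (3 * axE x * axE z) = axN z * axE x * (lam * s) ^ 3 := by
        have : lam ^ 3 * phiA s * (3 * axE x * axE z)
            = lam ^ 3 * axE x * (phiA s * (3 * axE z)) := by
          ring
        rw [this, hzp]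
        ring
      rw [b1, b2]
      exact mul_le_mul_of_nonneg_right hm ht3
    have h6 : 0 < 3 * axE x * axE z := by positivity
    exact le_of_mul_le_mul_right h5 h6
  · subst hs1'
    rw [phiA_one]
    have htop := ax_top x hx0
    have h5 : phiA (lam * 1) * (3 * axE x) ≤ lam ^ 3 * (2 / 3) * (3 * axE x) := by
      rw [hxp]
      have : lam ^ 3 * (2 / 3) * (3 * axE x) = 2 * axE x * (lam * 1) ^ 3 := by ring
      rw [this]
      exact mul_le_mul_of_nonneg_right htop ht3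
    have h6 : 0 < 3 * axE x := by positivity
    exact le_of_mul_le_mul_right h5 h6

end Vale.Agent.P154
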