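import Vale.Agent.P154.Gen.Alg2

/-!
# P154 (all d): the class is stable under the ferromagnetic channel (pointwise)

With `al = al3 e`, `ah = ah3 e`:
`ah3 (l e) - l^3 ah = l^3 al (1 - l) (al - (1 + l) ah) / (1 - l^2 al)`   (`al3_smul`, `cu3_smul`, `field_simp`, `ring`),
and `(1 + l) ah ≤ al`: if `ah ≤ 0` clear (`al ≥ 0`), otherwise `(1 + l) ah ≤ 2 ah ≤ al` by `two_ah3_le`.
`1 - l^2 al > 0` because `l^2 al ≤ al < 1`.
-/

namespace Vale.Agent.P154

theorem ah3_smul_ge (l x y z : ℝ) (h : x + y + z = 0) (hl0 : 0 ≤ l) (hl1 : l ≤ 1)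
    (hlt : al3 x y z < 1) : l ^ 3 * ah3 x y z ≤ ah3 (l * x) (l * y) (l * z) := by
  have h2 := two_ah3_le x y z h hlt
  have hal := al3_nonneg x y z
  have hdef : ah3 x y z = (cu3 x y z - al3 x y z ^ 2) / (1 - al3 x y z) := rfl
  have hdef2 : ah3 (l * x) (l * y) (l * z) =
      (l ^ 3 * cu3 x y z - (l ^ 2 * al3 x y z) ^ 2) / (1 - l ^ 2 * al3 x y z) := by
    unfold ah3
    rw [al3_smul, cu3_smul]
  generalize ah3 (l * x) (l * y) (l * z) = b at hdef2
  generalize ah3 x y z = ah at h2 hdef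
  generalize al3 x y z = al at hlt h2 hal hdef hdef2
  generalize cu3 x y z = A at hdef hdef2
  have h1 : 0 < 1 - al := by linarith
  have hl2 : l ^ 2 ≤ 1 := by nlinarith
  have h3 : 0 < 1 - l ^ 2 * al := by nlinarith [sq_nonneg l]
  have hA : A = ah * (1 - al) + al ^ 2 := by
    rw [hdef]
    field_simp
    ring
  have hkey : (1 + l) * ah ≤ al := by
    rcases le_total ah 0 with hneg | hpos
    · nlinarith
    · nlinarith
  have hid : b - l ^ 3 * ah = l ^ 3 * al * (1 - l) * (al - (1 + l) * ah) / (1 - l ^ 2 * al) := by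
    rw [hdef2, hA]
    field_simp
    ring
  have hnn : 0 ≤ l ^ 3 * al * (1 - l) * (al - (1 + l) * ah) / (1 - l ^ 2 * al) := by
    apply div_nonneg _ h3.le
    apply mul_nonneg (mul_nonneg (mul_nonneg (pow_nonneg hl0 3) hal) (by linarith)) (by linarith)
  linarith

end Vale.Agent.P154
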