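import Vale.Agent.P154.Gen.Fam2
import Vale.Agent.P154.Gen.ChanPt

/-!
# P154 (all d): the channel on experiments

* `Good.chan`: fields `pos`, `tot` unchanged; `zero`: factor `lam`; `ge`: `lam * e ≥ -lam ≥ -1`; `rot`, `swp`: apply `h.rot` / `h.swp` to
  `fun x y z => f (lam * x) (lam * y) (lam * z)`.
* `Good.chan_inter`: `lam * e ≥ -lam > -1`.
* `Xf_chan`: `al3_smul`, `Finset.mul_sum`.
* `Good.al3_chan_le`: `al3_smul`, `al3_le_one`.
* `Good.Hf_chan`: termwise `ah3_smul_ge` (with `al3_lt_one` from `Inter`), weights `≥ 0`.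
-/

namespace Vale.Agent.P154

open Finset

variable {ι : Type} [Fintype ι] {w : ι → ℝ} {e : ι → Fin 3 → ℝ}

theorem Good.chan (h : Good w e) (lam : ℝ) (h0 : 0 ≤ lam) (h1 : lam ≤ 1) : Good w (eC lam e) := by
  refine ⟨h.pos, h.tot, ?_, ?_, ?_, ?_⟩
  · intro η
    have := h.zero η
    simp only [eC]
    calc lam * e η 0 + lam * e η 1 + lam * e η 2 = lam * (e η 0 + e η 1 + e η 2) := by ring
      _ = 0 := by rw [this, mul_zero]
  · intro η i
    have := h.ge η i
    simp only [eC]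
    nlinarith
  · intro f
    simp only [eC]
    exact h.rot (fun x y z => f (lam * x) (lam * y) (lam * z))
  · intro f
    simp only [eC]
    exact h.swp (fun x y z => f (lam * x) (lam * y) (lam * z))

theorem Good.chan_inter (h : Good w e) (lam : ℝ) (h0 : 0 ≤ lam) (h1 : lam < 1) :
    Inter (eC lam e) := by
  intro η i
  have := h.ge η i
  simp only [eC]
  nlinarith

theorem Xf_chan (w : ι → ℝ) (e : ι → Fin 3 → ℝ) (lam : ℝ) :
    Xf w (eC lam e) = lam ^ 2 * Xf w e := by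
  unfold Xf
  rw [Finset.mul_sum]
  refine Finset.sum_congr rfl fun η _ => ?_
  simp only [eC]
  rw [al3_smul]
  ring

theorem Good.al3_chan_le (h : Good w e) (lam : ℝ) (η : ι) :
    al3 (eC lam e η 0) (eC lam e η 1) (eC lam e η 2) ≤ lam ^ 2 := by
  simp only [eC]
  rw [al3_smul]
  have h1 := al3_le_one (e η 0) (e η 1) (e η 2) (h.zero η) (h.ge η 0) (h.ge η 1) (h.ge η 2)
  nlinarith [sq_nonneg lam]

theorem Good.Hf_chan (h : Good w e) (he : Inter e) (lam : ℝ) (h0 : 0 ≤ lam) (h1 : lam ≤ 1) :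
    lam ^ 3 * Hf w e ≤ Hf w (eC lam e) := by
  unfold Hf
  rw [Finset.mul_sum]
  refine Finset.sum_le_sum fun η _ => ?_
  simp only [eC]
  have hlt := al3_lt_one (e η 0) (e η 1) (e η 2) (h.zero η) (he η 0) (he η 1) (he η 2)
  have hk := ah3_smul_ge lam (e η 0) (e η 1) (e η 2) (h.zero η) h0 h1 hlt
  calc lam ^ 3 * (w η * ah3 (e η 0) (e η 1) (e η 2))
      = w η * (lam ^ 3 * ah3 (e η 0) (e η 1) (e η 2)) := by ring
    _ ≤ w η * ah3 (lam * e η 0) (lam * e η 1) (lam * e η 2) :=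
        mul_le_mul_of_nonneg_left hk (h.pos η).le

end Vale.Agent.P154
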