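import Vale.Agent.P154.Gen.Dom2

/-!
# P154: the cube root `crt t = t ^ (1/3)` and the functions `ff3`, `gg3`, `gh3`

`Real.rpow_natCast`, `Real.rpow_mul`, `Real.mul_rpow`, `Real.div_rpow`, `Real.rpow_le_one`, `Real.zero_rpow`, `Real.one_rpow`.
* `ff_lower`:  `(2+p^3)/3 - p - (1-p^3)^2/9 = (1-p)^2 (3 (2+p) - (1+p+p^2)^2)/9` and `3(2+p) - (1+p+p^2)^2 = (1-p)(5+6p+3p^2+p^3)`.
* `crt_minorant`: `p - p^3 - (2/3) p^3 (1-p^3) = p (1-p) ((1+p) - (2/3) p^2 (1+p+p^2))` and `3 (1+p) ≥ 2 p^2 (1+p+p^2)` on `[0,1]`.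
* `gg3_le_gh3`: with `p = crt (dd3 e)`, `dd3 e = p^3`, `al3 - (2/3) cu3 = (1 - dd3)/3` (`dd3_eq`), apply `ff_lower`.
-/

namespace Vale.Agent.P154

theorem crt_nonneg (t : ℝ) (h : 0 ≤ t) : 0 ≤ crt t := by
  unfold crt
  exact Real.rpow_nonneg h _

theorem crt_cube (t : ℝ) (h : 0 ≤ t) : crt t ^ 3 = t := by
  unfold crt
  rw [← Real.rpow_natCast, ← Real.rpow_mul h]
  norm_num

theorem crt_le_one (t : ℝ) (h0 : 0 ≤ t) (h1 : t ≤ 1) : crt t ≤ 1 := by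
  unfold crt
  exact Real.rpow_le_one h0 h1 (by norm_num)

theorem crt_zero : crt 0 = 0 := by
  unfold crt
  exact Real.zero_rpow (by norm_num)

theorem crt_one : crt 1 = 1 := by
  unfold crt
  exact Real.one_rpow _

theorem crt_mul (s t : ℝ) (hs : 0 ≤ s) (ht : 0 ≤ t) : crt (s * t) = crt s * crt t := by
  unfold crt
  exact Real.mul_rpow hs ht

theorem crt_pow_cube (Z : ℝ) (hZ : 0 ≤ Z) : crt (Z ^ 3) = Z := by
  unfold crt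
  rw [← Real.rpow_natCast, ← Real.rpow_mul hZ]
  norm_num

theorem crt_div_cube (s Z : ℝ) (hs : 0 ≤ s) (hZ : 0 < Z) : crt (s / Z ^ 3) = crt s / Z := by
  have h : crt (s / Z ^ 3) = crt s / crt (Z ^ 3) := by
    unfold crt
    exact Real.div_rpow hs (by positivity) _
  rw [h, crt_pow_cube Z hZ.le]

theorem ff_lower (p : ℝ) (h0 : 0 ≤ p) (h1 : p ≤ 1) : (1 - p ^ 3) ^ 2 / 9 ≤ (2 + p ^ 3) / 3 - p := by
  have h : (2 + p ^ 3) / 3 - p - (1 - p ^ 3) ^ 2 / 9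
      = (1 - p) ^ 2 * ((1 - p) * (5 + 6 * p + 3 * p ^ 2 + p ^ 3)) / 9 := by ring
  have h2 : 0 ≤ 1 - p := by linarith
  have h3 : 0 ≤ (1 - p) ^ 2 * ((1 - p) * (5 + 6 * p + 3 * p ^ 2 + p ^ 3)) / 9 := by positivity
  linarith

theorem crt_minorant (p : ℝ) (h0 : 0 ≤ p) (h1 : p ≤ 1) :
    2 / 3 * p ^ 3 * (1 - p ^ 3) ≤ p - p ^ 3 := by
  have h : p - p ^ 3 - 2 / 3 * p ^ 3 * (1 - p ^ 3)
      = p * (1 - p) * ((1 + p) - 2 / 3 * p ^ 2 * (1 + p + p ^ 2)) := by ring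
  have h2 : 0 ≤ 1 - p := by linarith
  have hp2 : p ^ 2 ≤ 1 := by nlinarith
  have h4 : p ^ 2 * (1 + p + p ^ 2) ≤ 1 * (1 + p + p) := by
    apply mul_le_mul hp2 _ (by positivity) (by norm_num)
    nlinarith
  have h3 : 0 ≤ (1 + p) - 2 / 3 * p ^ 2 * (1 + p + p ^ 2) := by nlinarith
  have h5 : 0 ≤ p * (1 - p) * ((1 + p) - 2 / 3 * p ^ 2 * (1 + p + p ^ 2)) := by positivity
  linarith

theorem gg3_le_gh3 (e0 e1 e2 : ℝ) (h : e0 + e1 + e2 = 0) (h0 : -1 ≤ e0) (h1 : -1 ≤ e1)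
    (h2 : -1 ≤ e2) : gg3 e0 e1 e2 ≤ gh3 e0 e1 e2 := by
  have hd0 := dd3_nonneg e0 e1 e2 h0 h1 h2
  have hd1 := dd3_le_one e0 e1 e2 h h0 h1 h2
  have hde := dd3_eq e0 e1 e2 h
  have hp0 := crt_nonneg _ hd0
  have hp1 := crt_le_one _ hd0 hd1
  have hp3 := crt_cube _ hd0
  have hf := ff_lower _ hp0 hp1
  rw [hp3] at hf
  have e : al3 e0 e1 e2 - 2 / 3 * cu3 e0 e1 e2 = (1 - dd3 e0 e1 e2) / 3 := by
    rw [hde]; ring
  unfold gg3 gh3 ff3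
  rw [e]
  have e2 : ((1 - dd3 e0 e1 e2) / 3) ^ 2 = (1 - dd3 e0 e1 e2) ^ 2 / 9 := by ring
  rw [e2]
  linarith

theorem gg3_zero : gg3 0 0 0 = 0 := by
  unfold gg3 ff3 cu3 dd3
  have : (1 + (0 : ℝ)) * (1 + 0) * (1 + 0) = 1 := by norm_num
  rw [this, crt_one]
  norm_num

/-- value at a vertex of the triangle (all three positions) -/
theorem gg3_vertex : gg3 2 (-1) (-1) = 3 / 5 ∧ gg3 (-1) 2 (-1) = 3 / 5 ∧ gg3 (-1) (-1) 2 = 3 / 5 := by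
  have a1 : (1 + (2 : ℝ)) * (1 + -1) * (1 + -1) = 0 := by norm_num
  have a2 : (1 + (-1 : ℝ)) * (1 + 2) * (1 + -1) = 0 := by norm_num
  have a3 : (1 + (-1 : ℝ)) * (1 + -1) * (1 + 2) = 0 := by norm_num
  refine ⟨?_, ?_, ?_⟩
  · unfold gg3 ff3 cu3 dd3
    rw [a1, crt_zero]
    norm_num
  · unfold gg3 ff3 cu3 dd3
    rw [a2, crt_zero]
    norm_num
  · unfold gg3 ff3 cu3 dd3
    rw [a3, crt_zero]
    norm_num

end Vale.Agent.P154
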