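import Vale.Agent.P154.Gen.Alg2G

/-!
# P154: elementary facts on the full triangle `e0 + e1 + e2 = 0`, `-1 ≤ e i`

All proofs: substitute `e2 = -e0 - e1`, unfold, `ring` / `nlinarith`.
* `amgm3`: `u0 u1 u2 ≤ ((u0+u1+u2)/3)^3` for nonnegative reals.
* `dd3_le_one`: `amgm3` with `u i = 1 + e i`.
* `cu3_le_al3`: `18 (al3 - cu3) = ∑ (1 + e i) (e j - e k)^2`.
* `Z3_pos2`: `3 Z3 = ∑ (1+a i)(1+b i) ≥ (2/7) ∑ (1 + a i) = 6/7` (both deviations have sum zero).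
-/

namespace Vale.Agent.P154

theorem dd3_eq (e0 e1 e2 : ℝ) (h : e0 + e1 + e2 = 0) :
    dd3 e0 e1 e2 = 1 - 3 * al3 e0 e1 e2 + 2 * cu3 e0 e1 e2 := by
  have h2 : e2 = -e0 - e1 := by linarith
  subst h2
  unfold dd3 al3 cu3
  ring

theorem dd3_nonneg (e0 e1 e2 : ℝ) (h0 : -1 ≤ e0) (h1 : -1 ≤ e1) (h2 : -1 ≤ e2) :
    0 ≤ dd3 e0 e1 e2 := by
  unfold dd3
  have a0 : 0 ≤ 1 + e0 := by linarith
  have a1 : 0 ≤ 1 + e1 := by linarith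
  have a2 : 0 ≤ 1 + e2 := by linarith
  positivity

theorem amgm3 (u0 u1 u2 : ℝ) (h0 : 0 ≤ u0) (h1 : 0 ≤ u1) (h2 : 0 ≤ u2) :
    u0 * u1 * u2 ≤ ((u0 + u1 + u2) / 3) ^ 3 := by
  have k0 := mul_nonneg h0 (sq_nonneg (u1 - u2))
  have k1 := mul_nonneg h1 (sq_nonneg (u2 - u0))
  have k2 := mul_nonneg h2 (sq_nonneg (u0 - u1))
  have k3 := mul_nonneg (add_nonneg (add_nonneg h0 h1) h2)
    (add_nonneg (add_nonneg (sq_nonneg (u0 - u1)) (sq_nonneg (u1 - u2))) (sq_nonneg (u2 - u0)))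
  have key : ((u0 + u1 + u2) / 3) ^ 3 - u0 * u1 * u2 =
      ((u0 + u1 + u2) * ((u0 - u1) ^ 2 + (u1 - u2) ^ 2 + (u2 - u0) ^ 2)) / 54
        + (u0 * (u1 - u2) ^ 2 + u1 * (u2 - u0) ^ 2 + u2 * (u0 - u1) ^ 2) / 9 := by
    ring
  linarith

theorem dd3_le_one (e0 e1 e2 : ℝ) (h : e0 + e1 + e2 = 0) (h0 : -1 ≤ e0) (h1 : -1 ≤ e1)
    (h2 : -1 ≤ e2) : dd3 e0 e1 e2 ≤ 1 := by
  have k := amgm3 (1 + e0) (1 + e1) (1 + e2) (by linarith) (by linarith) (by linarith)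
  have s : (1 + e0 + (1 + e1) + (1 + e2)) / 3 = 1 := by linarith
  rw [s] at k
  unfold dd3
  linarith

theorem cu3_le_al3 (e0 e1 e2 : ℝ) (h : e0 + e1 + e2 = 0) (h0 : -1 ≤ e0) (h1 : -1 ≤ e1)
    (h2 : -1 ≤ e2) : cu3 e0 e1 e2 ≤ al3 e0 e1 e2 := by
  have a0 : 0 ≤ 1 + e0 := by linarith
  have a1 : 0 ≤ 1 + e1 := by linarith
  have a2 : 0 ≤ 1 + e2 := by linarith
  have k0 := mul_nonneg a0 (sq_nonneg (e1 - e2))
  have k1 := mul_nonneg a1 (sq_nonneg (e2 - e0))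
  have k2 := mul_nonneg a2 (sq_nonneg (e0 - e1))
  have e : e2 = -e0 - e1 := by linarith
  have key : 18 * (al3 e0 e1 e2 - cu3 e0 e1 e2) =
      (1 + e0) * (e1 - e2) ^ 2 + (1 + e1) * (e2 - e0) ^ 2 + (1 + e2) * (e0 - e1) ^ 2 := by
    subst e
    unfold al3 cu3
    ring
  linarith

theorem Z3_pos2 (a0 a1 a2 b0 b1 b2 : ℝ) (ha : a0 + a1 + a2 = 0) (hb : b0 + b1 + b2 = 0)
    (ha0 : -1 ≤ a0) (ha1 : -1 ≤ a1) (ha2 : -1 ≤ a2) (hb0 : -(5 / 7) ≤ b0) (hb1 : -(5 / 7) ≤ b1)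
    (hb2 : -(5 / 7) ≤ b2) : 0 < Z3 a0 a1 a2 b0 b1 b2 := by
  have k0 : 0 ≤ (1 + a0) * (b0 + 5 / 7) := mul_nonneg (by linarith) (by linarith)
  have k1 : 0 ≤ (1 + a1) * (b1 + 5 / 7) := mul_nonneg (by linarith) (by linarith)
  have k2 : 0 ≤ (1 + a2) * (b2 + 5 / 7) := mul_nonneg (by linarith) (by linarith)
  have key : 3 * Z3 a0 a1 a2 b0 b1 b2 =
      (1 + a0) * (b0 + 5 / 7) + (1 + a1) * (b1 + 5 / 7) + (1 + a2) * (b2 + 5 / 7)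
        + 6 / 7 - (b0 + b1 + b2) - 5 / 7 * (a0 + a1 + a2) := by
    unfold Z3
    ring
  rw [ha, hb] at key
  linarith

end Vale.Agent.P154
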