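import Vale.Agent.P154.Gen.Alg2
import Vale.Agent.P154.FamSix
import Vale.Agent.P154.FamEquiv

/-!
# P154 (all d): merging two different experiments, the channel, new functionals (definitions)

* `eC lam e`: the experiment read through the channel (deviations are multiplied by `lam`, weights unchanged).
* `wM`, `eM`: the experiment given by two conditionally independent observations `(w, e)` on `ι` and `(v, g)` on `κ`.
* `Hf`, `Ff`, `Pf`: expectations of `ah3`, `ph3`, `p03 ∘ al3`.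
* `Inter e`: all posterior probabilities are positive.
-/

namespace Vale.Agent.P154

open Finset

def Inter {ι : Type} (e : ι → Fin 3 → ℝ) : Prop := ∀ η i, -1 < e η i

def eC {ι : Type} (lam : ℝ) (e : ι → Fin 3 → ℝ) (η : ι) (i : Fin 3) : ℝ := lam * e η i

noncomputable def ZM {ι κ : Type} (e : ι → Fin 3 → ℝ) (g : κ → Fin 3 → ℝ) (p : ι × κ) : ℝ :=
  Z3 (e p.1 0) (e p.1 1) (e p.1 2) (g p.2 0) (g p.2 1) (g p.2 2)

noncomputable def wM {ι κ : Type} (w : ι → ℝ) (v : κ → ℝ) (e : ι → Fin 3 → ℝ) (g : κ → Fin 3 → ℝ)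
    (p : ι × κ) : ℝ := w p.1 * v p.2 * ZM e g p

noncomputable def eM {ι κ : Type} (e : ι → Fin 3 → ℝ) (g : κ → Fin 3 → ℝ) (p : ι × κ) (i : Fin 3) :
    ℝ := (1 + e p.1 i) * (1 + g p.2 i) / ZM e g p - 1

noncomputable def Hf {ι : Type} [Fintype ι] (w : ι → ℝ) (e : ι → Fin 3 → ℝ) : ℝ :=
  ∑ η, w η * ah3 (e η 0) (e η 1) (e η 2)

noncomputable def Ff {ι : Type} [Fintype ι] (w : ι → ℝ) (e : ι → Fin 3 → ℝ) : ℝ :=
  ∑ η, w η * ph3 (e η 0) (e η 1) (e η 2)

noncomputable def Pf {ι : Type} [Fintype ι] (w : ι → ℝ) (e : ι → Fin 3 → ℝ) : ℝ :=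
  ∑ η, w η * p03 (al3 (e η 0) (e η 1) (e η 2))

end Vale.Agent.P154
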