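import Vale.Agent.P154.FamSix
import Vale.Agent.P154.Gen.Alg2G

/-!
# P154: combining two different finite experiments (definitions)

`Good w e` is defined in `Fam.lean`.  Here `(w, e)` on `ι` is an arbitrary good experiment and `(w', e')` on `κ` is a good experiment
whose deviations are small (`Small e'`: all coordinates `≥ -5/7`, `al3 ≤ 1/2`); the latter is a message read through the channel.
`wC`, `eC`: the experiment that observes both (conditionally independent given the colour).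
`sc lam e`: the deviations after the channel `lam`.
`Gf w e = ∑ w * gg3 (e)`: the quantity that stays nonnegative.
-/

namespace Vale.Agent.P154

open Finset

def Small {κ : Type} (e' : κ → Fin 3 → ℝ) : Prop :=
  (∀ η i, -(5 / 7) ≤ e' η i) ∧ ∀ η, al3 (e' η 0) (e' η 1) (e' η 2) ≤ 1 / 2

noncomputable def Gf {ι : Type} [Fintype ι] (w : ι → ℝ) (e : ι → Fin 3 → ℝ) : ℝ :=
  ∑ η, w η * gg3 (e η 0) (e η 1) (e η 2)

noncomputable def ZC {ι κ : Type} (e : ι → Fin 3 → ℝ) (e' : κ → Fin 3 → ℝ) (p : ι × κ) : ℝ :=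
  Z3 (e p.1 0) (e p.1 1) (e p.1 2) (e' p.2 0) (e' p.2 1) (e' p.2 2)

noncomputable def wC {ι κ : Type} (w : ι → ℝ) (w' : κ → ℝ) (e : ι → Fin 3 → ℝ) (e' : κ → Fin 3 → ℝ)
    (p : ι × κ) : ℝ :=
  w p.1 * w' p.2 * ZC e e' p

noncomputable def eC {ι κ : Type} (e : ι → Fin 3 → ℝ) (e' : κ → Fin 3 → ℝ) (p : ι × κ) (i : Fin 3) : ℝ :=
  (1 + e p.1 i) * (1 + e' p.2 i) / ZC e e' p - 1

def sc {ι : Type} (lam : ℝ) (e : ι → Fin 3 → ℝ) : ι → Fin 3 → ℝ := fun η i => lam * e η i

end Vale.Agent.P154
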