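import Vale.Agent.P154.Gen.Fam2G
import Vale.Agent.P154.Gen.Dom2
import Vale.Agent.P154.FamStep

/-!
# P154: the combination of two good experiments is good

This is `Good.step` of `FamStep.lean` for two different families and without the scaling; copy and adapt that proof
(`Good.mean_zero` can be reused as it is; `rot2`, `swp2`, `stepKer`, `sum_w2` need versions with two families).
`ZC > 0` by `Z3_pos2` (`h.zero`, `h'.zero`, `h.ge`, `hs.1`).
-/

namespace Vale.Agent.P154

open Finset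

variable {ι κ : Type} [Fintype ι] [Fintype κ] {w : ι → ℝ} {e : ι → Fin 3 → ℝ} {w' : κ → ℝ}
  {e' : κ → Fin 3 → ℝ}

theorem ZC_pos (h : Good w e) (h' : Good w' e') (hs : Small e') (p : ι × κ) : 0 < ZC e e' p := by
  unfold ZC
  exact Z3_pos2 _ _ _ _ _ _ (h.zero p.1) (h'.zero p.2) (h.ge p.1 0) (h.ge p.1 1) (h.ge p.1 2)
    (hs.1 p.2 0) (hs.1 p.2 1) (hs.1 p.2 2)

/-- expectation of a function of the combined deviation as a double sum -/
theorem sum_wC (w : ι → ℝ) (w' : κ → ℝ) (e : ι → Fin 3 → ℝ) (e' : κ → Fin 3 → ℝ) (f : ℝ → ℝ → ℝ → ℝ) :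
    ∑ p, wC w w' e e' p * f (eC e e' p 0) (eC e e' p 1) (eC e e' p 2) =
      ∑ x, w x * ∑ y, w' y *
        (Z3 (e x 0) (e x 1) (e x 2) (e' y 0) (e' y 1) (e' y 2) *
          f ((1 + e x 0) * (1 + e' y 0) / Z3 (e x 0) (e x 1) (e x 2) (e' y 0) (e' y 1) (e' y 2) - 1)
            ((1 + e x 1) * (1 + e' y 1) / Z3 (e x 0) (e x 1) (e x 2) (e' y 0) (e' y 1) (e' y 2) - 1)
            ((1 + e x 2) * (1 + e' y 2) / Z3 (e x 0) (e x 1) (e x 2) (e' y 0) (e' y 1) (e' y 2) - 1)) := by
  rw [Fintype.sum_prod_type]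
  apply Finset.sum_congr rfl
  intro x _
  rw [Finset.mul_sum]
  apply Finset.sum_congr rfl
  intro y _
  simp only [wC, eC, ZC]
  ring

/-- simultaneous rotation in a double sum over two families -/
theorem Good.rotC (h : Good w e) (h' : Good w' e') (H : ℝ → ℝ → ℝ → ℝ → ℝ → ℝ → ℝ) :
    ∑ x, w x * ∑ y, w' y * H (e x 0) (e x 1) (e x 2) (e' y 0) (e' y 1) (e' y 2) =
      ∑ x, w x * ∑ y, w' y * H (e x 1) (e x 2) (e x 0) (e' y 1) (e' y 2) (e' y 0) := by
  calc ∑ x, w x * ∑ y, w' y * H (e x 0) (e x 1) (e x 2) (e' y 0) (e' y 1) (e' y 2)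
      = ∑ x, w x * ∑ y, w' y * H (e x 0) (e x 1) (e x 2) (e' y 1) (e' y 2) (e' y 0) := by
        apply Finset.sum_congr rfl
        intro x _
        rw [h'.rot (fun a b c => H (e x 0) (e x 1) (e x 2) a b c)]
    _ = ∑ y, w' y * ∑ x, w x * H (e x 0) (e x 1) (e x 2) (e' y 1) (e' y 2) (e' y 0) := by
        simp only [Finset.mul_sum]
        rw [Finset.sum_comm]
        apply Finset.sum_congr rfl
        intro y _
        apply Finset.sum_congr rfl
        intro x _
        ring
    _ = ∑ y, w' y * ∑ x, w x * H (e x 1) (e x 2) (e x 0) (e' y 1) (e' y 2) (e' y 0) := by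
        apply Finset.sum_congr rfl
        intro y _
        rw [h.rot (fun a b c => H a b c (e' y 1) (e' y 2) (e' y 0))]
    _ = ∑ x, w x * ∑ y, w' y * H (e x 1) (e x 2) (e x 0) (e' y 1) (e' y 2) (e' y 0) := by
        simp only [Finset.mul_sum]
        rw [Finset.sum_comm]
        apply Finset.sum_congr rfl
        intro y _
        apply Finset.sum_congr rfl
        intro x _
        ring

/-- simultaneous transposition in a double sum over two families -/
theorem Good.swpC (h : Good w e) (h' : Good w' e') (H : ℝ → ℝ → ℝ → ℝ → ℝ → ℝ → ℝ) :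
    ∑ x, w x * ∑ y, w' y * H (e x 0) (e x 1) (e x 2) (e' y 0) (e' y 1) (e' y 2) =
      ∑ x, w x * ∑ y, w' y * H (e x 0) (e x 2) (e x 1) (e' y 0) (e' y 2) (e' y 1) := by
  calc ∑ x, w x * ∑ y, w' y * H (e x 0) (e x 1) (e x 2) (e' y 0) (e' y 1) (e' y 2)
      = ∑ x, w x * ∑ y, w' y * H (e x 0) (e x 1) (e x 2) (e' y 0) (e' y 2) (e' y 1) := by
        apply Finset.sum_congr rfl
        intro x _
        rw [h'.swp (fun a b c => H (e x 0) (e x 1) (e x 2) a b c)]
    _ = ∑ y, w' y * ∑ x, w x * H (e x 0) (e x 1) (e x 2) (e' y 0) (e' y 2) (e' y 1) := by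
        simp only [Finset.mul_sum]
        rw [Finset.sum_comm]
        apply Finset.sum_congr rfl
        intro y _
        apply Finset.sum_congr rfl
        intro x _
        ring
    _ = ∑ y, w' y * ∑ x, w x * H (e x 0) (e x 2) (e x 1) (e' y 0) (e' y 2) (e' y 1) := by
        apply Finset.sum_congr rfl
        intro y _
        rw [h.swp (fun a b c => H a b c (e' y 0) (e' y 2) (e' y 1))]
    _ = ∑ x, w x * ∑ y, w' y * H (e x 0) (e x 2) (e x 1) (e' y 0) (e' y 2) (e' y 1) := by
        simp only [Finset.mul_sum]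
        rw [Finset.sum_comm]
        apply Finset.sum_congr rfl
        intro y _
        apply Finset.sum_congr rfl
        intro x _
        ring

/-- the kernel of the combined experiment as a function of six real variables -/
noncomputable def combKer (f : ℝ → ℝ → ℝ → ℝ) (x0 x1 x2 y0 y1 y2 : ℝ) : ℝ :=
  Z3 x0 x1 x2 y0 y1 y2 *
    f ((1 + x0) * (1 + y0) / Z3 x0 x1 x2 y0 y1 y2 - 1)
      ((1 + x1) * (1 + y1) / Z3 x0 x1 x2 y0 y1 y2 - 1)
      ((1 + x2) * (1 + y2) / Z3 x0 x1 x2 y0 y1 y2 - 1)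

theorem sum_wC_ker (w : ι → ℝ) (w' : κ → ℝ) (e : ι → Fin 3 → ℝ) (e' : κ → Fin 3 → ℝ)
    (f : ℝ → ℝ → ℝ → ℝ) :
    ∑ p, wC w w' e e' p * f (eC e e' p 0) (eC e e' p 1) (eC e e' p 2) =
      ∑ x, w x * ∑ y, w' y * combKer f (e x 0) (e x 1) (e x 2) (e' y 0) (e' y 1) (e' y 2) := by
  rw [sum_wC]
  rfl

theorem Good.comb (h : Good w e) (h' : Good w' e') (hs : Small e') :
    Good (wC w w' e e') (eC e e') := by
  have hZ := ZC_pos h h' hs
  obtain ⟨m0, m1, m2⟩ := h.mean_zero
  refine ⟨?_, ?_, ?_, ?_, ?_, ?_⟩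
  · intro p
    unfold wC
    exact mul_pos (mul_pos (h.pos _) (h'.pos _)) (hZ p)
  · rw [Fintype.sum_prod_type]
    have key : ∑ x, ∑ y, wC w w' e e' (x, y) =
        (∑ x, w x) * (∑ y, w' y) + 1 / 3 *
          ((∑ x, w x * e x 0) * (∑ y, w' y * e' y 0) + (∑ x, w x * e x 1) * (∑ y, w' y * e' y 1)
            + (∑ x, w x * e x 2) * (∑ y, w' y * e' y 2)) := by
      rw [Finset.sum_mul_sum, Finset.sum_mul_sum, Finset.sum_mul_sum, Finset.sum_mul_sum,
        ← Finset.sum_add_distrib, ← Finset.sum_add_distrib, Finset.mul_sum,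
        ← Finset.sum_add_distrib]
      apply Finset.sum_congr rfl
      intro x _
      rw [← Finset.sum_add_distrib, ← Finset.sum_add_distrib, Finset.mul_sum,
        ← Finset.sum_add_distrib]
      apply Finset.sum_congr rfl
      intro y _
      simp only [wC, ZC, Z3]
      ring
    rw [key, h.tot, h'.tot, m0, m1, m2]
    ring
  · intro p
    have hp := hZ p
    have z1 := h.zero p.1
    have z2 := h'.zero p.2
    have e3 : (1 + e p.1 0) * (1 + e' p.2 0) + (1 + e p.1 1) * (1 + e' p.2 1)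
        + (1 + e p.1 2) * (1 + e' p.2 2) = 3 * ZC e e' p := by
      simp only [ZC, Z3]
      have a1 : e p.1 2 = - e p.1 0 - e p.1 1 := by linarith
      have a2 : e' p.2 2 = - e' p.2 0 - e' p.2 1 := by linarith
      rw [a1, a2]
      ring
    simp only [eC]
    have : (1 + e p.1 0) * (1 + e' p.2 0) / ZC e e' p - 1
        + ((1 + e p.1 1) * (1 + e' p.2 1) / ZC e e' p - 1)
        + ((1 + e p.1 2) * (1 + e' p.2 2) / ZC e e' p - 1)
        = ((1 + e p.1 0) * (1 + e' p.2 0) + (1 + e p.1 1) * (1 + e' p.2 1)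
        + (1 + e p.1 2) * (1 + e' p.2 2)) / ZC e e' p - 3 := by ring
    rw [this, e3]
    field_simp
    ring
  · intro p i
    have hp := hZ p
    have d1 := h.ge p.1 i
    have d2 := h'.ge p.2 i
    simp only [eC]
    have : 0 ≤ (1 + e p.1 i) * (1 + e' p.2 i) / ZC e e' p := by
      apply div_nonneg _ hp.le
      apply mul_nonneg <;> linarith
    linarith
  · intro f
    rw [sum_wC_ker, sum_wC_ker w w' e e' (fun a b c => f b c a), h.rotC h']
    apply Finset.sum_congr rfl
    intro x _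
    congr 1
    apply Finset.sum_congr rfl
    intro y _
    simp only [combKer, Z3_rot]
  · intro f
    rw [sum_wC_ker, sum_wC_ker w w' e e' (fun a b c => f a c b), h.swpC h']
    apply Finset.sum_congr rfl
    intro x _
    congr 1
    apply Finset.sum_congr rfl
    intro y _
    simp only [combKer, Z3_swp]

end Vale.Agent.P154
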