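import Vale.Agent.P154.Gen.Fam2G
import Vale.Agent.P154.Gen.Chan

/-!
# P154: the channel acting on a good experiment

* `Good.sc`: `pos`, `tot` unchanged; `zero`: factor out `lam`; `ge`: `lam * e ≥ -lam ≥ -1`; `rot`/`swp`: apply `h.rot`/`h.swp` to
  `fun x y z => f (lam * x) (lam * y) (lam * z)`.
* `Small_sc`: `lam ≤ 5/7` (`lam_le`), `al3_smul`, `al3_le_one`  (this is `Good.dom` of `FamSix.lean`).
* `Xf_sc`: `al3_smul`, `Finset.mul_sum`.
* `Gf_sc`: termwise `gg3_smul_ge`, so `Gf w (sc lam e) ≥ lam^3 Gf w e ≥ 0`.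
-/

namespace Vale.Agent.P154

open Finset

variable {ι : Type} [Fintype ι] {w : ι → ℝ} {e : ι → Fin 3 → ℝ}

theorem Good.sc (h : Good w e) (lam : ℝ) (h0 : 0 ≤ lam) (h1 : lam ≤ 1) : Good w (sc lam e) := by
  refine ⟨h.pos, h.tot, ?_, ?_, ?_, ?_⟩
  · intro η
    have := h.zero η
    calc lam * e η 0 + lam * e η 1 + lam * e η 2 = lam * (e η 0 + e η 1 + e η 2) := by ring
      _ = 0 := by rw [this, mul_zero]
  · intro η i
    have := h.ge η i
    change -1 ≤ lam * e η i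
    nlinarith
  · intro f
    exact h.rot (fun x y z => f (lam * x) (lam * y) (lam * z))
  · intro f
    exact h.swp (fun x y z => f (lam * x) (lam * y) (lam * z))

theorem Small_sc (h : Good w e) (lam : ℝ) (h0 : 0 ≤ lam) (h1 : 2 * lam ^ 2 ≤ 1) : Small (sc lam e) :=
  ⟨fun η i => (h.dom lam h0 h1 η).2.1 i, fun η => (h.dom lam h0 h1 η).2.2⟩

theorem Xf_sc (w : ι → ℝ) (e : ι → Fin 3 → ℝ) (lam : ℝ) : Xf w (sc lam e) = lam ^ 2 * Xf w e := by
  unfold Xf
  rw [Finset.mul_sum]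
  refine Finset.sum_congr rfl fun η _ => ?_
  change w η * al3 (lam * e η 0) (lam * e η 1) (lam * e η 2) = _
  rw [al3_smul]
  ring

theorem Gf_sc (h : Good w e) (lam : ℝ) (h0 : 0 ≤ lam) (h1 : 2 * lam ^ 2 ≤ 1) (hG : 0 ≤ Gf w e) :
    0 ≤ Gf w (sc lam e) := by
  have hl := lam_le lam h0 h1
  have key : lam ^ 3 * Gf w e ≤ Gf w (sc lam e) := by
    unfold Gf
    rw [Finset.mul_sum]
    refine Finset.sum_le_sum fun η _ => ?_
    change _ ≤ w η * gg3 (lam * e η 0) (lam * e η 1) (lam * e η 2)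
    have h2 := gg3_smul_ge lam (e η 0) (e η 1) (e η 2) h0 hl (h.zero η) (h.ge η 0) (h.ge η 1) (h.ge η 2)
    have h3 := mul_le_mul_of_nonneg_left h2 (h.pos η).le
    calc lam ^ 3 * (w η * gg3 (e η 0) (e η 1) (e η 2))
        = w η * (lam ^ 3 * gg3 (e η 0) (e η 1) (e η 2)) := by ring
      _ ≤ _ := h3
  have : 0 ≤ lam ^ 3 * Gf w e := by positivity
  linarith

end Vale.Agent.P154
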