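import Mathlib

/-!
# P154: two elementary lemmas on pairs of fractions with denominators `D0 ± 2 W`

`frac_pair2`: `(N0 + n1 W)/(D0+2W) + (N0 - n1 W)/(D0-2W) - 2 N0/D0 = -4 W^2 (n1 D0 - 2 N0)/((D0^2-4W^2) D0) ≤ 0`, and `N0/D0 ≤ R`.
(`D0 > 0` is the half sum of the denominators.)

`pair_g`:  `1/u^2 + 1/v^2 ≥ 2/((u+v)/2)^2` (convexity) for `u = D0+2W`, `v = D0-2W`;
`1/u + 1/v = 2 D0/(u v) = 2/D0 + 2 (4W^2)/(D0 u v)`, and `Q/(u v) ≤ qb / max(u,v) ≤ qb / D0` because `Q ≤ qb * min(u,v)` and `max(u,v) ≥ D0`.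
-/

namespace Vale.Agent.P154

theorem frac_pair2 (N0 n1 D0 W R : ℝ) (hp : 0 < D0 + 2 * W) (hm : 0 < D0 - 2 * W)
    (hC : 0 ≤ n1 * D0 - 2 * N0) (hP : 0 ≤ R * D0 - N0) :
    (N0 + n1 * W) / (D0 + 2 * W) + (N0 - n1 * W) / (D0 - 2 * W) ≤ 2 * R := by
  have hD : 0 < D0 := by linarith
  have huv : 0 < (D0 + 2 * W) * (D0 - 2 * W) := mul_pos hp hm
  rw [div_add_div _ _ hp.ne' hm.ne', div_le_iff₀ huv]
  have k1 : 0 ≤ (R * D0 - N0) * ((D0 + 2 * W) * (D0 - 2 * W)) := mul_nonneg hP huv.le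
  have k2 : 0 ≤ W ^ 2 * (n1 * D0 - 2 * N0) := mul_nonneg (sq_nonneg W) hC
  have key : 0 ≤ D0 * (2 * R * ((D0 + 2 * W) * (D0 - 2 * W))
      - ((N0 + n1 * W) * (D0 - 2 * W) + (D0 + 2 * W) * (N0 - n1 * W))) := by
    nlinarith [k1, k2]
  have := nonneg_of_mul_nonneg_right key hD
  linarith

theorem pair_g (P Q D0 W qb : ℝ) (hp : 0 < D0 + 2 * W) (hm : 0 < D0 - 2 * W) (hP : 0 ≤ P)
    (hQ : 0 ≤ Q) (hqb : 0 ≤ qb) (hQp : Q ≤ qb * (D0 + 2 * W)) (hQm : Q ≤ qb * (D0 - 2 * W)) :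
    2 * (P / D0 ^ 2 - Q / D0 - qb * (4 * W ^ 2) / D0 ^ 2) ≤
      (P / (D0 + 2 * W) ^ 2 - Q / (D0 + 2 * W)) + (P / (D0 - 2 * W) ^ 2 - Q / (D0 - 2 * W)) := by
  have hD : 0 < D0 := by linarith
  set u := D0 + 2 * W with hu
  set v := D0 - 2 * W with hv
  have huv : 0 < u * v := mul_pos hp hm
  have huvD : u * v = D0 ^ 2 - 4 * W ^ 2 := by rw [hu, hv]; ring
  have huvle : u * v ≤ D0 ^ 2 := by rw [huvD]; nlinarith [sq_nonneg W]
  -- first part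
  have h1 : 2 * (P / D0 ^ 2) ≤ P / u ^ 2 + P / v ^ 2 := by
    have e1 : P / u ^ 2 + P / v ^ 2 = P * (u ^ 2 + v ^ 2) / (u * v) ^ 2 := by
      field_simp
      ring
    have e2 : 2 * (P / D0 ^ 2) = P * 2 / D0 ^ 2 := by ring
    rw [e1, e2, div_le_div_iff₀ (by positivity) (by positivity)]
    have a1 : 2 * (u * v) ≤ u ^ 2 + v ^ 2 := by nlinarith [sq_nonneg (u - v)]
    have a2 : 2 * (u * v) ^ 2 ≤ (u ^ 2 + v ^ 2) * D0 ^ 2 := by
      have b1 : 2 * (u * v) * (u * v) ≤ (u ^ 2 + v ^ 2) * (u * v) :=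
        mul_le_mul_of_nonneg_right a1 huv.le
      have b2 : (u ^ 2 + v ^ 2) * (u * v) ≤ (u ^ 2 + v ^ 2) * D0 ^ 2 :=
        mul_le_mul_of_nonneg_left huvle (by positivity)
      nlinarith [b1, b2]
    have := mul_le_mul_of_nonneg_left a2 hP
    nlinarith [this]
  -- key bound
  have hk : Q * D0 ≤ qb * (u * v) := by
    rcases le_total 0 W with hW | hW
    · have c1 : Q * D0 ≤ qb * v * D0 := mul_le_mul_of_nonneg_right hQm hD.le
      have c2 : qb * v * D0 ≤ qb * v * u :=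
        mul_le_mul_of_nonneg_left (by rw [hu]; linarith) (mul_nonneg hqb hm.le)
      nlinarith [c1, c2]
    · have c1 : Q * D0 ≤ qb * u * D0 := mul_le_mul_of_nonneg_right hQp hD.le
      have c2 : qb * u * D0 ≤ qb * u * v :=
        mul_le_mul_of_nonneg_left (by rw [hv]; linarith) (mul_nonneg hqb hp.le)
      nlinarith [c1, c2]
  have h2 : Q / u + Q / v ≤ 2 * (Q / D0) + 2 * (qb * (4 * W ^ 2) / D0 ^ 2) := by
    have e1 : Q / u + Q / v = Q * (2 * D0) / (u * v) := by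
      have : u + v = 2 * D0 := by rw [hu, hv]; ring
      rw [← this]
      field_simp
      ring
    have e2 : 2 * (Q / D0) + 2 * (qb * (4 * W ^ 2) / D0 ^ 2)
        = (2 * Q * D0 + 8 * qb * W ^ 2) / D0 ^ 2 := by
      field_simp
      ring
    rw [e1, e2, div_le_div_iff₀ huv (by positivity)]
    have c3 : W ^ 2 * (Q * D0) ≤ W ^ 2 * (qb * (u * v)) :=
      mul_le_mul_of_nonneg_left hk (sq_nonneg W)
    have e3 : D0 ^ 2 = u * v + 4 * W ^ 2 := by rw [huvD]; ring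
    have : Q * (2 * D0) * D0 ^ 2 = 2 * Q * D0 * (u * v) + 8 * (W ^ 2 * (Q * D0)) := by
      rw [e3]; ring
    rw [this]
    nlinarith [c3]
  linarith [h1, h2]

end Vale.Agent.P154
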