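import Vale.Agent.P154.Gen.PolyG
import Vale.Agent.P154.Gen.BoundG
import Vale.Agent.P154.Gen.PairG

/-!
# P154: the invariance inequality (pointwise, averaged over the six permutations)

Notation: `al, be, A, B` = `al3 a, al3 b, cu3 a, cu3 b`; `Da = dd3 a = 1 - 3 al + 2 A`, `Db` alike (`dd3_eq`); `pa = crt Da`, `pb = crt Db`;
`W = dl3 a * dl3 b / 108`, `W^2 = (al^3 - A^2)(be^3 - B^2)` (`cube_id` twice); `D0 = DF al be (A B)`, `DF al be (A B ± W) = D0 ± 2 W`.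
`S6 (Kg a) b` = (rotations of `b`) + (rotations of `(b0,b2,b1)`), each given by `rot_sum_g`
(`dl3 b0 b2 b1 = - dl3 b0 b1 b2`; `al3, cu3, dd3` symmetric):  `3 (P/Δ^2 - Q/Δ + 3/5 + (3/5) pa pb)` with `Δ = D0 ± 2W`,
`P = (9/10) Da Db (1 - al be)^2 ≥ 0`, `Q = (3/5) Da Db + (3/2) Cc`, `0 ≤ Q ≤ (21/10) Δ` (`Cc_le_DF`, `dd_le_DF`, `Cc_nonneg`).
`pair_g` with `qb = 21/10`:   `S6 ≥ 6 (P/D0^2 - Q/D0 - (21/10) 4 W^2/D0^2 + 3/5 + (3/5) pa pb)`.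
Next `pa pb - Db pa - Da pb = (pa - Da)(pb - Db) - Da Db ≥ (2/3) Da (1-Da) (2/3) Db (1-Db) - Da Db` by `crt_minorant`
(with `p = pa`, `p^3 = Da`, both factors nonnegative).  Therefore, unfolding `gg3`, `ff3`,
`3/5 + (3/5) pa pb - Db gg3 a - Da gg3 b ≥ Elow al be A B`.
Finally `P - Q D0 + Elow D0^2 - (42/5) W^2 = PG al be A B ≥ 0` (`polyG_nonneg`); divide by `D0^2 > 0`.
-/

namespace Vale.Agent.P154

/-- the part of the argument that involves the cube roots -/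
theorem Elow_le (a0 a1 a2 b0 b1 b2 : ℝ) (ha : a0 + a1 + a2 = 0) (hb : b0 + b1 + b2 = 0)
    (ha0 : -1 ≤ a0) (ha1 : -1 ≤ a1) (ha2 : -1 ≤ a2) (hb0 : -1 ≤ b0) (hb1 : -1 ≤ b1) (hb2 : -1 ≤ b2) :
    Elow (al3 a0 a1 a2) (al3 b0 b1 b2) (cu3 a0 a1 a2) (cu3 b0 b1 b2) ≤
      3 / 5 + 3 / 5 * (crt (dd3 a0 a1 a2) * crt (dd3 b0 b1 b2))
        - dd3 b0 b1 b2 * gg3 a0 a1 a2 - dd3 a0 a1 a2 * gg3 b0 b1 b2 := by
  have hDa := dd3_eq a0 a1 a2 ha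
  have hDb := dd3_eq b0 b1 b2 hb
  have hDa0 := dd3_nonneg a0 a1 a2 ha0 ha1 ha2
  have hDb0 := dd3_nonneg b0 b1 b2 hb0 hb1 hb2
  have hDa1 := dd3_le_one a0 a1 a2 ha ha0 ha1 ha2
  have hDb1 := dd3_le_one b0 b1 b2 hb hb0 hb1 hb2
  unfold Elow gg3 ff3
  rw [← hDa, ← hDb]
  generalize dd3 a0 a1 a2 = Da at *
  generalize dd3 b0 b1 b2 = Db at *
  generalize cu3 a0 a1 a2 = A at *
  generalize cu3 b0 b1 b2 = B at *
  have hpa0 := crt_nonneg Da hDa0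
  have hpb0 := crt_nonneg Db hDb0
  have hpa1 := crt_le_one Da hDa0 hDa1
  have hpb1 := crt_le_one Db hDb0 hDb1
  have hpa3 := crt_cube Da hDa0
  have hpb3 := crt_cube Db hDb0
  have hma := crt_minorant (crt Da) hpa0 hpa1
  have hmb := crt_minorant (crt Db) hpb0 hpb1
  rw [hpa3] at hma
  rw [hpb3] at hmb
  have hX0 : 0 ≤ 2 / 3 * Da * (1 - Da) :=
    mul_nonneg (mul_nonneg (by norm_num) hDa0) (by linarith)
  have hY0 : 0 ≤ 2 / 3 * Db * (1 - Db) :=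
    mul_nonneg (mul_nonneg (by norm_num) hDb0) (by linarith)
  have hprod : (2 / 3 * Da * (1 - Da)) * (2 / 3 * Db * (1 - Db)) ≤
      (crt Da - Da) * (crt Db - Db) := mul_le_mul hma hmb hY0 (le_trans hX0 hma)
  generalize crt Da = pa at *
  generalize crt Db = pb at *
  nlinarith [hprod]

/-- abstract final step -/
theorem key_gg_aux (P Q D0 W E PGv pp R T1 T2 : ℝ) (hD0 : 0 < D0)
    (hpair : 2 * (P / D0 ^ 2 - Q / D0 - 21 / 10 * (4 * W ^ 2) / D0 ^ 2) ≤ T1 + T2)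
    (hnum : P - Q * D0 + E * D0 ^ 2 - 42 / 5 * W ^ 2 = PGv) (hPG : 0 ≤ PGv)
    (hE : E ≤ 3 / 5 + 3 / 5 * pp - R) :
    6 * R ≤ 3 * (T1 + 3 / 5 + 3 / 5 * pp) + 3 * (T2 + 3 / 5 + 3 / 5 * pp) := by
  have h1 : P / D0 ^ 2 - Q / D0 - 21 / 10 * (4 * W ^ 2) / D0 ^ 2 + E = PGv / D0 ^ 2 := by
    rw [← hnum]
    field_simp
    ring
  have h2 : 0 ≤ PGv / D0 ^ 2 := div_nonneg hPG (by positivity)
  linarith

theorem key_gg (a0 a1 a2 b0 b1 b2 : ℝ) (ha : a0 + a1 + a2 = 0) (hb : b0 + b1 + b2 = 0)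
    (ha0 : -1 ≤ a0) (ha1 : -1 ≤ a1) (ha2 : -1 ≤ a2)
    (hb0 : -(5 / 7) ≤ b0) (hb1 : -(5 / 7) ≤ b1) (hb2 : -(5 / 7) ≤ b2)
    (hbe : al3 b0 b1 b2 ≤ 1 / 2) :
    6 * (dd3 b0 b1 b2 * gg3 a0 a1 a2 + dd3 a0 a1 a2 * gg3 b0 b1 b2) ≤
      S6 (Kg a0 a1 a2) b0 b1 b2 := by
  have gb0 : -1 ≤ b0 := by linarith
  have gb1 : -1 ≤ b1 := by linarith
  have gb2 : -1 ≤ b2 := by linarith
  have hb' : b0 + b2 + b1 = 0 := by linarith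
  have z1 := Z3_pos2 a0 a1 a2 b0 b1 b2 ha (by linarith) ha0 ha1 ha2 hb0 hb1 hb2
  have z2 := Z3_pos2 a0 a1 a2 b1 b2 b0 ha (by linarith) ha0 ha1 ha2 hb1 hb2 hb0
  have z3 := Z3_pos2 a0 a1 a2 b2 b0 b1 ha (by linarith) ha0 ha1 ha2 hb2 hb0 hb1
  have z4 := Z3_pos2 a0 a1 a2 b0 b2 b1 ha (by linarith) ha0 ha1 ha2 hb0 hb2 hb1
  have z5 := Z3_pos2 a0 a1 a2 b2 b1 b0 ha (by linarith) ha0 ha1 ha2 hb2 hb1 hb0
  have z6 := Z3_pos2 a0 a1 a2 b1 b0 b2 ha (by linarith) ha0 ha1 ha2 hb1 hb0 hb2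
  have s_al : al3 b0 b2 b1 = al3 b0 b1 b2 := by unfold al3; ring
  have s_cu : cu3 b0 b2 b1 = cu3 b0 b1 b2 := by unfold cu3; ring
  have s_dd : dd3 b0 b2 b1 = dd3 b0 b1 b2 := by unfold dd3; ring
  have s_dl : dl3 b0 b2 b1 = - dl3 b0 b1 b2 := by unfold dl3; ring
  have r1 := rot_sum_g a0 a1 a2 b0 b1 b2 ha hb ha0 ha1 ha2 gb0 gb1 gb2 z1 z2 z3
  have r2 := rot_sum_g a0 a1 a2 b0 b2 b1 ha hb' ha0 ha1 ha2 gb0 gb2 gb1 z4 z5 z6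
  have d1 := DF_eq a0 a1 a2 b0 b1 b2 ha hb
  have d2 := DF_eq a0 a1 a2 b0 b2 b1 ha hb'
  have c1 := Cc_le_DF a0 a1 a2 b0 b1 b2 ha hb z1 z2 z3
  have c2 := Cc_le_DF a0 a1 a2 b0 b2 b1 ha hb' z4 z5 z6
  have e1 := dd_le_DF a0 a1 a2 b0 b1 b2 ha hb ha0 ha1 ha2 gb0 gb1 gb2
  have e2 := dd_le_DF a0 a1 a2 b0 b2 b1 ha hb' ha0 ha1 ha2 gb0 gb2 gb1
  rw [s_al, s_cu, s_dd, s_dl] at r2
  rw [s_al, s_cu, s_dl] at d2 c2
  rw [s_al, s_cu, s_dd, s_dl] at e2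
  have p1 : 0 < Z3 a0 a1 a2 b0 b1 b2 * Z3 a0 a1 a2 b1 b2 b0 * Z3 a0 a1 a2 b2 b0 b1 :=
    mul_pos (mul_pos z1 z2) z3
  have p2 : 0 < Z3 a0 a1 a2 b0 b2 b1 * Z3 a0 a1 a2 b2 b1 b0 * Z3 a0 a1 a2 b1 b0 b2 :=
    mul_pos (mul_pos z4 z5) z6
  rw [d1] at p1
  rw [d2] at p2
  have hEl := Elow_le a0 a1 a2 b0 b1 b2 ha hb ha0 ha1 ha2 gb0 gb1 gb2
  have hDa := dd3_eq a0 a1 a2 ha
  have hDb := dd3_eq b0 b1 b2 hb
  have hDa0 := dd3_nonneg a0 a1 a2 ha0 ha1 ha2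
  have hDb0 := dd3_nonneg b0 b1 b2 gb0 gb1 gb2
  have hA0 := al3_nonneg a0 a1 a2
  have hB0 := al3_nonneg b0 b1 b2
  have hA1 := al3_le_one a0 a1 a2 ha ha0 ha1 ha2
  have hA2 := cu3_sq_le a0 a1 a2 ha
  have hB2 := cu3_sq_le b0 b1 b2 hb
  have hB3 := tri b0 b1 b2 hb hb0 hb1 hb2
  have ia := cube_id a0 a1 a2 ha
  have ib := cube_id b0 b1 b2 hb
  have hS : S6 (Kg a0 a1 a2) b0 b1 b2 =
      (Kg a0 a1 a2 b0 b1 b2 + Kg a0 a1 a2 b1 b2 b0 + Kg a0 a1 a2 b2 b0 b1)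
        + (Kg a0 a1 a2 b0 b2 b1 + Kg a0 a1 a2 b2 b1 b0 + Kg a0 a1 a2 b1 b0 b2) := by
    unfold S6
    ring
  rw [hS, r1, r2]
  clear hS r1 r2 d1 d2 z1 z2 z3 z4 z5 z6 s_al s_cu s_dd s_dl
  generalize crt (dd3 a0 a1 a2) * crt (dd3 b0 b1 b2) = pp at *
  generalize gg3 a0 a1 a2 = ga at *
  generalize gg3 b0 b1 b2 = gb at *
  generalize dd3 a0 a1 a2 = Da at *
  generalize dd3 b0 b1 b2 = Db at *
  generalize al3 a0 a1 a2 = al at *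
  generalize al3 b0 b1 b2 = be at *
  generalize cu3 a0 a1 a2 = A at *
  generalize cu3 b0 b1 b2 = B at *
  generalize dl3 a0 a1 a2 = da at *
  generalize dl3 b0 b1 b2 = db at *
  have f1 : DF al be (A * B + da * db / 108) = DF al be (A * B) + 2 * (da * db / 108) := by
    unfold DF
    ring
  have f2 : DF al be (A * B + da * -db / 108) = DF al be (A * B) - 2 * (da * db / 108) := by
    unfold DF
    ring
  rw [f1] at p1 c1 e1 ⊢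
  rw [f2] at p2 c2 e2 ⊢
  have hW2 : (da * db / 108) ^ 2 = (al ^ 3 - A ^ 2) * (be ^ 3 - B ^ 2) := by
    rw [ia, ib]
    ring
  have hCc0 : 0 ≤ Cc al be A B :=
    Cc_nonneg al be A B hA0 hA1 hB0 (by linarith) (by linarith) (by linarith)
  have hDD : 0 ≤ Da * Db := mul_nonneg hDa0 hDb0
  have hPG := polyG_nonneg al be A B hA0 hA1 hA2 (by linarith) hB0 hbe hB2 hB3
  have hD0 : 0 < DF al be (A * B) := by linarith
  have hpair := pair_g (9 / 10 * (Da * Db) * (1 - al * be) ^ 2)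
    (3 / 5 * (Da * Db) + 3 / 2 * Cc al be A B) (DF al be (A * B)) (da * db / 108) (21 / 10)
    p1 p2 (by positivity) (by positivity) (by norm_num) (by linarith) (by linarith)
  have hnum : 9 / 10 * (Da * Db) * (1 - al * be) ^ 2
      - (3 / 5 * (Da * Db) + 3 / 2 * Cc al be A B) * DF al be (A * B)
      + Elow al be A B * DF al be (A * B) ^ 2 - 42 / 5 * (da * db / 108) ^ 2 = PG al be A B := by
    rw [hW2, hDa, hDb]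
    unfold PG
    ring
  exact key_gg_aux _ _ _ _ _ _ pp (Db * ga + Da * gb) _ _ hD0 hpair hnum hPG (by linarith)

end Vale.Agent.P154
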