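import Vale.Agent.P154.Gen.PolyG
import Vale.Agent.P154.Gen.BoundG
import Vale.Agent.P154.Gen.PairG

/-!
# P154: the second moment inequality on the full triangle (pointwise, averaged over the six permutations)

Same scheme as `key_x` in `KeyX.lean` (look at that proof).
`S6 (K2 a) b` = (sum over the rotations of `b`) + (sum over the rotations of `(b0, b2, b1)`).
By `rot_sum` the two sums are `3 (al + be) + 3 NumF(U±) / DF(U±)` with `U± = A B ± W`, `W = dl3 a * dl3 b / 108`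
(`al3`, `cu3` are symmetric, `dl3 b0 b2 b1 = - dl3 b0 b1 b2`).  `NumF` is affine in `U` with slope `n1 = 2 (1 - al - be)`,
`DF` is affine in `U` with slope `2`; `DF(U±) > 0` by `DF_eq` and `Z3_pos2`.  Conclude with `frac_pair2` where
`N0 = NumF(AB)`, `D0 = DF(AB)`, `R = Rg`: `n1 D0 - 2 N0 = 2 Cc ≥ 0` (`Cc_eq`, `Cc_nonneg`), and `R D0 - N0 ≥ 0` is `polyX2_nonneg`
(hypotheses: `al3_nonneg`, `al3_le_one`, `cu3_sq_le`, `dd3_eq` + `dd3_nonneg`, `tri`).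
-/

namespace Vale.Agent.P154

theorem key_xg (a0 a1 a2 b0 b1 b2 : ℝ) (ha : a0 + a1 + a2 = 0) (hb : b0 + b1 + b2 = 0)
    (ha0 : -1 ≤ a0) (ha1 : -1 ≤ a1) (ha2 : -1 ≤ a2)
    (hb0 : -(5 / 7) ≤ b0) (hb1 : -(5 / 7) ≤ b1) (hb2 : -(5 / 7) ≤ b2)
    (hbe : al3 b0 b1 b2 ≤ 1 / 2) :
    S6 (K2 a0 a1 a2) b0 b1 b2 ≤
      6 * (al3 a0 a1 a2 + al3 b0 b1 b2
        + Rg (al3 a0 a1 a2) (al3 b0 b1 b2) (cu3 a0 a1 a2) (cu3 b0 b1 b2)) := by
  have hb' : b0 + b2 + b1 = 0 := by linarith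
  -- positivity of the six normalisations
  have z1 := Z3_pos2 a0 a1 a2 b0 b1 b2 ha (by linarith) ha0 ha1 ha2 hb0 hb1 hb2
  have z2 := Z3_pos2 a0 a1 a2 b1 b2 b0 ha (by linarith) ha0 ha1 ha2 hb1 hb2 hb0
  have z3 := Z3_pos2 a0 a1 a2 b2 b0 b1 ha (by linarith) ha0 ha1 ha2 hb2 hb0 hb1
  have z4 := Z3_pos2 a0 a1 a2 b0 b2 b1 ha (by linarith) ha0 ha1 ha2 hb0 hb2 hb1
  have z5 := Z3_pos2 a0 a1 a2 b2 b1 b0 ha (by linarith) ha0 ha1 ha2 hb2 hb1 hb0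
  have z6 := Z3_pos2 a0 a1 a2 b1 b0 b2 ha (by linarith) ha0 ha1 ha2 hb1 hb0 hb2
  have r1 := rot_sum a0 a1 a2 b0 b1 b2 ha hb z1 z2 z3
  have r2 := rot_sum a0 a1 a2 b0 b2 b1 ha hb' z4 z5 z6
  have d1 := DF_eq a0 a1 a2 b0 b1 b2 ha hb
  have d2 := DF_eq a0 a1 a2 b0 b2 b1 ha hb'
  have sal : al3 b0 b2 b1 = al3 b0 b1 b2 := by unfold al3; ring
  have scu : cu3 b0 b2 b1 = cu3 b0 b1 b2 := by unfold cu3; ring
  have sdl : dl3 b0 b2 b1 = -dl3 b0 b1 b2 := by unfold dl3; ring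
  rw [sal, scu, sdl] at r2 d2
  have hA0 := al3_nonneg a0 a1 a2
  have hB0 := al3_nonneg b0 b1 b2
  have hA1 := al3_le_one a0 a1 a2 ha ha0 ha1 ha2
  have hA2 := cu3_sq_le a0 a1 a2 ha
  have hB2 := cu3_sq_le b0 b1 b2 hb
  have hA3 : 0 ≤ 1 - 3 * al3 a0 a1 a2 + 2 * cu3 a0 a1 a2 := by
    rw [← dd3_eq a0 a1 a2 ha]
    exact dd3_nonneg a0 a1 a2 ha0 ha1 ha2
  have hB4 : 0 ≤ 1 - 3 * al3 b0 b1 b2 + 2 * cu3 b0 b1 b2 := by
    rw [← dd3_eq b0 b1 b2 hb]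
    exact dd3_nonneg b0 b1 b2 (by linarith) (by linarith) (by linarith)
  have hB3 := tri b0 b1 b2 hb hb0 hb1 hb2
  have p1 : 0 < Z3 a0 a1 a2 b0 b1 b2 * Z3 a0 a1 a2 b1 b2 b0 * Z3 a0 a1 a2 b2 b0 b1 :=
    mul_pos (mul_pos z1 z2) z3
  have p2 : 0 < Z3 a0 a1 a2 b0 b2 b1 * Z3 a0 a1 a2 b2 b1 b0 * Z3 a0 a1 a2 b1 b0 b2 :=
    mul_pos (mul_pos z4 z5) z6
  rw [d1] at p1
  rw [d2] at p2
  generalize al3 a0 a1 a2 = al at *
  generalize al3 b0 b1 b2 = be at *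
  generalize cu3 a0 a1 a2 = A at *
  generalize cu3 b0 b1 b2 = B at *
  generalize hW : dl3 a0 a1 a2 * dl3 b0 b1 b2 / 108 = W at *
  have hW' : dl3 a0 a1 a2 * -dl3 b0 b1 b2 / 108 = -W := by rw [← hW]; ring
  rw [hW'] at r2 p2
  have hP := polyX2_nonneg al be A B hA0 hA1 hA2 hA3 hB0 hbe hB2 hB3
  have hC := Cc_nonneg al be A B hA0 hA1 hB0 (by linarith) hA3 hB4
  have hCe := Cc_eq al be A B (A * B)
  have hC2 : 0 ≤ 2 * (1 - al - be) * DF al be (A * B) - 2 * NumF al be A B (A * B) := by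
    linarith
  have eD1 : DF al be (A * B + W) = DF al be (A * B) + 2 * W := by unfold DF; ring
  have eD2 : DF al be (A * B + -W) = DF al be (A * B) - 2 * W := by unfold DF; ring
  have eN1 : NumF al be A B (A * B + W) = NumF al be A B (A * B) + 2 * (1 - al - be) * W := by
    unfold NumF; ring
  have eN2 : NumF al be A B (A * B + -W) = NumF al be A B (A * B) - 2 * (1 - al - be) * W := by
    unfold NumF; ring
  rw [eD1] at p1 r1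
  rw [eD2] at p2 r2
  rw [eN1] at r1
  rw [eN2] at r2
  have hf := frac_pair2 (NumF al be A B (A * B)) (2 * (1 - al - be)) (DF al be (A * B)) W
    (Rg al be A B) p1 p2 hC2 hP
  have hS : S6 (K2 a0 a1 a2) b0 b1 b2 =
      (K2 a0 a1 a2 b0 b1 b2 + K2 a0 a1 a2 b1 b2 b0 + K2 a0 a1 a2 b2 b0 b1)
        + (K2 a0 a1 a2 b0 b2 b1 + K2 a0 a1 a2 b2 b1 b0 + K2 a0 a1 a2 b1 b0 b2) := by
    unfold S6; ring
  rw [hS, r1, r2]
  linarith

end Vale.Agent.P154
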