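import Vale.Agent.P154.Gen.FamComb
import Vale.Agent.P154.Gen.KeyXG
import Vale.Agent.P154.Gen.KeyGG

/-!
# P154: the two inequalities for the combination of two good experiments

Look at `FamX.lean` / `FamT.lean` (the same computation for `d = 2`).
`sum_wC` with `f = al3` gives `Xf (comb) = ∑ x, w x * ∑ y, w' y * K2 (e x) (e' y)` (definition of `K2`), with `f = gg3` it gives `Kg`.
For fixed `x`, `Good.six` for `(w', e')` turns the inner sum into `(1/6) ∑ y, w' y * S6 (K2 (e x)) (e' y)`; apply `key_xg` / `key_gg`.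

`X_comb`: `Rg al be A B = -(1/10) al be - (9/10) be * gh3 a - (13/10) (al - A) * gh3 b` (unfold `Rg`, `gh3`).  Summing with `∑ w = ∑ w' = 1`:
`Xf (comb) ≤ X + X' - (1/10) X X' - (9/10) X' (∑ w gh3 (e)) - (13/10) (∑ w (al3 - cu3)) (∑ w' gh3 (e'))`;
`∑ w gh3 ≥ ∑ w gg3 = Gf ≥ 0` (`gg3_le_gh3`), `al3 - cu3 ≥ 0` (`cu3_le_al3`), `X' ≥ 0`.

`G_comb`: `Gf (comb) ≥ (∑ w' dd3 (e')) Gf w e + (∑ w dd3 (e)) Gf w' e' ≥ 0` (`dd3_nonneg`).
-/

namespace Vale.Agent.P154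

open Finset

variable {ι κ : Type} [Fintype ι] [Fintype κ] {w : ι → ℝ} {e : ι → Fin 3 → ℝ} {w' : κ → ℝ}
  {e' : κ → Fin 3 → ℝ}

/-- the expectation of the polynomial majorant `gh3` -/
noncomputable def Hf {ι : Type} [Fintype ι] (w : ι → ℝ) (e : ι → Fin 3 → ℝ) : ℝ :=
  ∑ η, w η * gh3 (e η 0) (e η 1) (e η 2)

/-- the expectation of `dd3` -/
noncomputable def Df {ι : Type} [Fintype ι] (w : ι → ℝ) (e : ι → Fin 3 → ℝ) : ℝ :=
  ∑ η, w η * dd3 (e η 0) (e η 1) (e η 2)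

theorem Good.Gf_le_Hf (h : Good w e) : Gf w e ≤ Hf w e := by
  unfold Gf Hf
  refine Finset.sum_le_sum fun η _ => ?_
  exact mul_le_mul_of_nonneg_left
    (gg3_le_gh3 _ _ _ (h.zero η) (h.ge η 0) (h.ge η 1) (h.ge η 2)) (h.pos η).le

theorem Good.Df_nonneg (h : Good w e) : 0 ≤ Df w e := by
  unfold Df
  exact Finset.sum_nonneg fun η _ =>
    mul_nonneg (h.pos η).le (dd3_nonneg _ _ _ (h.ge η 0) (h.ge η 1) (h.ge η 2))

theorem Good.Tf_le_Xf (h : Good w e) : Tf w e ≤ Xf w e := by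
  unfold Tf Xf
  refine Finset.sum_le_sum fun η _ => ?_
  exact mul_le_mul_of_nonneg_left
    (cu3_le_al3 _ _ _ (h.zero η) (h.ge η 0) (h.ge η 1) (h.ge η 2)) (h.pos η).le

theorem Xf_comb_eq (w : ι → ℝ) (w' : κ → ℝ) (e : ι → Fin 3 → ℝ) (e' : κ → Fin 3 → ℝ) :
    Xf (wC w w' e e') (eC e e') = ∑ x, w x * ∑ y, w' y *
      K2 (e x 0) (e x 1) (e x 2) (e' y 0) (e' y 1) (e' y 2) := by
  unfold Xf
  rw [sum_wC w w' e e' al3]
  rfl

theorem Gf_comb_eq (w : ι → ℝ) (w' : κ → ℝ) (e : ι → Fin 3 → ℝ) (e' : κ → Fin 3 → ℝ) :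
    Gf (wC w w' e e') (eC e e') = ∑ x, w x * ∑ y, w' y *
      Kg (e x 0) (e x 1) (e x 2) (e' y 0) (e' y 1) (e' y 2) := by
  unfold Gf
  rw [sum_wC w w' e e' gg3]
  rfl

/-- the inner sum for `X_comb`, bounded with `key_xg` -/
theorem inner_x_le (h : Good w e) (h' : Good w' e') (hs : Small e') (x : ι) :
    ∑ y, w' y * K2 (e x 0) (e x 1) (e x 2) (e' y 0) (e' y 1) (e' y 2) ≤
      al3 (e x 0) (e x 1) (e x 2) + Xf w' e'
        - 1 / 10 * al3 (e x 0) (e x 1) (e x 2) * Xf w' e'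
        - 9 / 10 * Xf w' e' * gh3 (e x 0) (e x 1) (e x 2)
        - 13 / 10 * (al3 (e x 0) (e x 1) (e x 2) - cu3 (e x 0) (e x 1) (e x 2)) * Hf w' e' := by
  rw [h'.six (K2 (e x 0) (e x 1) (e x 2))]
  have hterm : ∀ y, w' y * S6 (K2 (e x 0) (e x 1) (e x 2)) (e' y 0) (e' y 1) (e' y 2) ≤
      w' y * (6 * (al3 (e x 0) (e x 1) (e x 2) + al3 (e' y 0) (e' y 1) (e' y 2)
        + Rg (al3 (e x 0) (e x 1) (e x 2)) (al3 (e' y 0) (e' y 1) (e' y 2))
            (cu3 (e x 0) (e x 1) (e x 2)) (cu3 (e' y 0) (e' y 1) (e' y 2)))) := by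
    intro y
    exact mul_le_mul_of_nonneg_left
      (key_xg _ _ _ _ _ _ (h.zero x) (h'.zero y) (h.ge x 0) (h.ge x 1) (h.ge x 2)
        (hs.1 y 0) (hs.1 y 1) (hs.1 y 2) (hs.2 y)) (h'.pos y).le
  have hsum := Finset.sum_le_sum (fun y (_ : y ∈ Finset.univ) => hterm y)
  refine (mul_le_mul_of_nonneg_left hsum (by norm_num : (0:ℝ) ≤ 1 / 6)).trans (le_of_eq ?_)
  have htot := h'.tot
  set p := al3 (e x 0) (e x 1) (e x 2)
  set q := cu3 (e x 0) (e x 1) (e x 2)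
  have hg : gh3 (e x 0) (e x 1) (e x 2) = q - 3 / 5 * (p - 2 / 3 * q) ^ 2 := rfl
  rw [hg]
  have hexp : ∀ y, w' y * (6 * (p + al3 (e' y 0) (e' y 1) (e' y 2)
        + Rg p (al3 (e' y 0) (e' y 1) (e' y 2)) q (cu3 (e' y 0) (e' y 1) (e' y 2)))) =
      (6 * p) * w' y
        + (6 - 6 / 10 * p - 54 / 10 * (q - 3 / 5 * (p - 2 / 3 * q) ^ 2))
            * (w' y * al3 (e' y 0) (e' y 1) (e' y 2))
        + (-(78 / 10) * (p - q)) * (w' y * gh3 (e' y 0) (e' y 1) (e' y 2)) := by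
    intro y
    unfold Rg gh3
    ring
  simp only [hexp]
  rw [Finset.sum_add_distrib, Finset.sum_add_distrib, ← Finset.mul_sum, ← Finset.mul_sum,
    ← Finset.mul_sum, htot]
  unfold Xf Hf
  ring

theorem X_comb (h : Good w e) (h' : Good w' e') (hs : Small e') (hG : 0 ≤ Gf w e) (hG' : 0 ≤ Gf w' e') :
    Xf (wC w w' e e') (eC e e') ≤ Xf w e + Xf w' e' - 1 / 10 * (Xf w e * Xf w' e') := by
  rw [Xf_comb_eq]
  have hsum := Finset.sum_le_sum (fun x (_ : x ∈ Finset.univ) =>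
    mul_le_mul_of_nonneg_left (inner_x_le h h' hs x) (h.pos x).le)
  refine hsum.trans ?_
  have htot := h.tot
  have hH : 0 ≤ Hf w e := hG.trans h.Gf_le_Hf
  have hH' : 0 ≤ Hf w' e' := hG'.trans h'.Gf_le_Hf
  have hX' : 0 ≤ Xf w' e' := h'.Xf_nonneg
  have hTX : Tf w e ≤ Xf w e := h.Tf_le_Xf
  set X' := Xf w' e' with hX'd
  set H' := Hf w' e' with hH'd
  have hexp : ∀ x, w x * (al3 (e x 0) (e x 1) (e x 2) + X'
        - 1 / 10 * al3 (e x 0) (e x 1) (e x 2) * X'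
        - 9 / 10 * X' * gh3 (e x 0) (e x 1) (e x 2)
        - 13 / 10 * (al3 (e x 0) (e x 1) (e x 2) - cu3 (e x 0) (e x 1) (e x 2)) * H') =
      X' * w x
        + (1 - 1 / 10 * X' - 13 / 10 * H') * (w x * al3 (e x 0) (e x 1) (e x 2))
        + (-(9 / 10) * X') * (w x * gh3 (e x 0) (e x 1) (e x 2))
        + (13 / 10 * H') * (w x * cu3 (e x 0) (e x 1) (e x 2)) := by
    intro x; ring
  simp only [hexp]
  rw [Finset.sum_add_distrib, Finset.sum_add_distrib, Finset.sum_add_distrib, ← Finset.mul_sum,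
    ← Finset.mul_sum, ← Finset.mul_sum, ← Finset.mul_sum, htot]
  have hXe : ∑ x, w x * al3 (e x 0) (e x 1) (e x 2) = Xf w e := rfl
  have hTe : ∑ x, w x * cu3 (e x 0) (e x 1) (e x 2) = Tf w e := rfl
  have hHe : ∑ x, w x * gh3 (e x 0) (e x 1) (e x 2) = Hf w e := rfl
  rw [hXe, hTe, hHe]
  have h1 := mul_nonneg hX' hH
  have h2 := mul_nonneg (sub_nonneg.2 hTX) hH'
  nlinarith [h1, h2]

/-- the inner sum for `G_comb`, bounded with `key_gg` -/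
theorem inner_g_ge (h : Good w e) (h' : Good w' e') (hs : Small e') (x : ι) :
    Df w' e' * gg3 (e x 0) (e x 1) (e x 2) + dd3 (e x 0) (e x 1) (e x 2) * Gf w' e' ≤
      ∑ y, w' y * Kg (e x 0) (e x 1) (e x 2) (e' y 0) (e' y 1) (e' y 2) := by
  rw [h'.six (Kg (e x 0) (e x 1) (e x 2))]
  have hterm : ∀ y, w' y * (6 * (dd3 (e' y 0) (e' y 1) (e' y 2) * gg3 (e x 0) (e x 1) (e x 2)
        + dd3 (e x 0) (e x 1) (e x 2) * gg3 (e' y 0) (e' y 1) (e' y 2))) ≤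
      w' y * S6 (Kg (e x 0) (e x 1) (e x 2)) (e' y 0) (e' y 1) (e' y 2) := by
    intro y
    exact mul_le_mul_of_nonneg_left
      (key_gg _ _ _ _ _ _ (h.zero x) (h'.zero y) (h.ge x 0) (h.ge x 1) (h.ge x 2)
        (hs.1 y 0) (hs.1 y 1) (hs.1 y 2) (hs.2 y)) (h'.pos y).le
  have hsum := Finset.sum_le_sum (fun y (_ : y ∈ Finset.univ) => hterm y)
  refine le_trans (le_of_eq ?_) (mul_le_mul_of_nonneg_left hsum (by norm_num : (0:ℝ) ≤ 1 / 6))
  set g := gg3 (e x 0) (e x 1) (e x 2)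
  set d := dd3 (e x 0) (e x 1) (e x 2)
  have hexp : ∀ y, w' y * (6 * (dd3 (e' y 0) (e' y 1) (e' y 2) * g
        + d * gg3 (e' y 0) (e' y 1) (e' y 2))) =
      (6 * g) * (w' y * dd3 (e' y 0) (e' y 1) (e' y 2))
        + (6 * d) * (w' y * gg3 (e' y 0) (e' y 1) (e' y 2)) := by
    intro y; ring
  simp only [hexp]
  rw [Finset.sum_add_distrib, ← Finset.mul_sum, ← Finset.mul_sum]
  unfold Df Gf
  ring

theorem G_comb (h : Good w e) (h' : Good w' e') (hs : Small e') (hG : 0 ≤ Gf w e) (hG' : 0 ≤ Gf w' e') :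
    0 ≤ Gf (wC w w' e e') (eC e e') := by
  rw [Gf_comb_eq]
  have hsum := Finset.sum_le_sum (fun x (_ : x ∈ Finset.univ) =>
    mul_le_mul_of_nonneg_left (inner_g_ge h h' hs x) (h.pos x).le)
  refine le_trans ?_ hsum
  have hexp : ∀ x, w x * (Df w' e' * gg3 (e x 0) (e x 1) (e x 2)
        + dd3 (e x 0) (e x 1) (e x 2) * Gf w' e') =
      Df w' e' * (w x * gg3 (e x 0) (e x 1) (e x 2))
        + Gf w' e' * (w x * dd3 (e x 0) (e x 1) (e x 2)) := by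
    intro x; ring
  simp only [hexp]
  rw [Finset.sum_add_distrib, ← Finset.mul_sum, ← Finset.mul_sum]
  have hGe : ∑ x, w x * gg3 (e x 0) (e x 1) (e x 2) = Gf w e := rfl
  have hDe : ∑ x, w x * dd3 (e x 0) (e x 1) (e x 2) = Df w e := rfl
  rw [hGe, hDe]
  exact add_nonneg (mul_nonneg h'.Df_nonneg hG) (mul_nonneg hG' h.Df_nonneg)

end Vale.Agent.P154
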