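import Vale.Agent.P154.Gen.Alg2

/-!
# P154 (all d): the harmonic functional of a merged posterior (pointwise)

`a`, `b` sum-zero with entries `> -1`; `Z = Z3 a b > 0`; `p i = (1 + a i)(1 + b i) > 0`; merged deviation `e' i = p i / Z - 1`.
* `∑ p i = 3 Z`, so `∑ e' i = 0` and by `one_sub_al3`: `1 - al3 e' = (p0 p1 + p1 p2 + p2 p0) / (3 Z^2)`; `∏ (1 + e' i) = p0 p1 p2 / Z^3`.  Hence
  `Z * ph3 e' = p0 p1 p2 / S`,  `S = (p0 p1 + p1 p2 + p2 p0) / 3 = sm3 a b`   (`harm_eq`).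
* tangent line: for `S > 0`, `m > 0`:  `1 / S ≥ (2 m - S) / m^2`  (`(S - m)^2 ≥ 0`).  With `m = Qa Qb`, `Qa = 1 - al3 a > 0`:
  `Z * ph3 e' ≥ 2 ph3 a ph3 b - hq3 a hq3 b sm3 a b`   (`harm_pt`), where `hq3 = P / Q^2`.
-/

namespace Vale.Agent.P154

noncomputable def hq3 (x y z : ℝ) : ℝ := (1 + x) * (1 + y) * (1 + z) / (1 - al3 x y z) ^ 2

noncomputable def sm3 (a0 a1 a2 b0 b1 b2 : ℝ) : ℝ :=
  ((1 + a1) * (1 + a2) * ((1 + b1) * (1 + b2)) + (1 + a2) * (1 + a0) * ((1 + b2) * (1 + b0))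
    + (1 + a0) * (1 + a1) * ((1 + b0) * (1 + b1))) / 3

theorem harm_aux (p0 p1 p2 Z : ℝ) (h0 : 0 < p0) (h1 : 0 < p1) (h2 : 0 < p2)
    (hZ : Z = (p0 + p1 + p2) / 3) :
    Z * ph3 (p0 / Z - 1) (p1 / Z - 1) (p2 / Z - 1) =
      p0 * p1 * p2 / ((p1 * p2 + p2 * p0 + p0 * p1) / 3) := by
  have hZpos : 0 < Z := by rw [hZ]; positivity
  have hsum : (p0 / Z - 1) + (p1 / Z - 1) + (p2 / Z - 1) = 0 := by
    have : p0 + p1 + p2 = 3 * Z := by rw [hZ]; ring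
    field_simp
    linarith
  have hS : 0 < p1 * p2 + p2 * p0 + p0 * p1 := by positivity
  unfold ph3
  rw [one_sub_al3 _ _ _ hsum]
  have e0 : 1 + (p0 / Z - 1) = p0 / Z := by ring
  have e1 : 1 + (p1 / Z - 1) = p1 / Z := by ring
  have e2 : 1 + (p2 / Z - 1) = p2 / Z := by ring
  rw [e0, e1, e2]
  field_simp
  ring

theorem harm_eq (a0 a1 a2 b0 b1 b2 : ℝ) (ha : a0 + a1 + a2 = 0) (hb : b0 + b1 + b2 = 0)
    (ha0 : -1 < a0) (ha1 : -1 < a1) (ha2 : -1 < a2) (hb0 : -1 < b0) (hb1 : -1 < b1)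
    (hb2 : -1 < b2) :
    Z3 a0 a1 a2 b0 b1 b2 *
      ph3 ((1 + a0) * (1 + b0) / Z3 a0 a1 a2 b0 b1 b2 - 1)
          ((1 + a1) * (1 + b1) / Z3 a0 a1 a2 b0 b1 b2 - 1)
          ((1 + a2) * (1 + b2) / Z3 a0 a1 a2 b0 b1 b2 - 1) =
      (1 + a0) * (1 + a1) * (1 + a2) * ((1 + b0) * (1 + b1) * (1 + b2)) / sm3 a0 a1 a2 b0 b1 b2 := by
  have hZ : Z3 a0 a1 a2 b0 b1 b2 =
      ((1 + a0) * (1 + b0) + (1 + a1) * (1 + b1) + (1 + a2) * (1 + b2)) / 3 := by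
    unfold Z3
    linear_combination (-(1 / 3 : ℝ)) * ha - (1 / 3 : ℝ) * hb
  have q0 : 0 < (1 + a0) * (1 + b0) := mul_pos (by linarith) (by linarith)
  have q1 : 0 < (1 + a1) * (1 + b1) := mul_pos (by linarith) (by linarith)
  have q2 : 0 < (1 + a2) * (1 + b2) := mul_pos (by linarith) (by linarith)
  rw [harm_aux _ _ _ _ q0 q1 q2 hZ]
  unfold sm3
  congr 1
  · ring
  · ring

theorem tangent_line (S m : ℝ) (hS : 0 < S) (hm : 0 < m) : (2 * m - S) / m ^ 2 ≤ 1 / S := by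
  rw [div_le_div_iff₀ (by positivity) hS]
  nlinarith [sq_nonneg (S - m)]

theorem harm_pt (a0 a1 a2 b0 b1 b2 : ℝ) (ha : a0 + a1 + a2 = 0) (hb : b0 + b1 + b2 = 0)
    (ha0 : -1 < a0) (ha1 : -1 < a1) (ha2 : -1 < a2) (hb0 : -1 < b0) (hb1 : -1 < b1)
    (hb2 : -1 < b2) :
    2 * ph3 a0 a1 a2 * ph3 b0 b1 b2 - hq3 a0 a1 a2 * hq3 b0 b1 b2 * sm3 a0 a1 a2 b0 b1 b2 ≤
      Z3 a0 a1 a2 b0 b1 b2 *
        ph3 ((1 + a0) * (1 + b0) / Z3 a0 a1 a2 b0 b1 b2 - 1)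
            ((1 + a1) * (1 + b1) / Z3 a0 a1 a2 b0 b1 b2 - 1)
            ((1 + a2) * (1 + b2) / Z3 a0 a1 a2 b0 b1 b2 - 1) := by
  rw [harm_eq a0 a1 a2 b0 b1 b2 ha hb ha0 ha1 ha2 hb0 hb1 hb2]
  have hQa : 0 < 1 - al3 a0 a1 a2 := by
    have := al3_lt_one a0 a1 a2 ha ha0 ha1 ha2; linarith
  have hQb : 0 < 1 - al3 b0 b1 b2 := by
    have := al3_lt_one b0 b1 b2 hb hb0 hb1 hb2; linarith
  have x0 : 0 < 1 + a0 := by linarith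
  have x1 : 0 < 1 + a1 := by linarith
  have x2 : 0 < 1 + a2 := by linarith
  have y0 : 0 < 1 + b0 := by linarith
  have y1 : 0 < 1 + b1 := by linarith
  have y2 : 0 < 1 + b2 := by linarith
  have hS : 0 < sm3 a0 a1 a2 b0 b1 b2 := by
    unfold sm3; positivity
  have hPa : 0 < (1 + a0) * (1 + a1) * (1 + a2) := by positivity
  have hPb : 0 < (1 + b0) * (1 + b1) * (1 + b2) := by positivity
  have ht := tangent_line (sm3 a0 a1 a2 b0 b1 b2) ((1 - al3 a0 a1 a2) * (1 - al3 b0 b1 b2)) hS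
    (mul_pos hQa hQb)
  have hmul := mul_le_mul_of_nonneg_left ht (mul_pos hPa hPb).le
  unfold ph3 hq3
  set S := sm3 a0 a1 a2 b0 b1 b2
  set Qa := 1 - al3 a0 a1 a2
  set Qb := 1 - al3 b0 b1 b2
  set Pa := (1 + a0) * (1 + a1) * (1 + a2)
  set Pb := (1 + b0) * (1 + b1) * (1 + b2)
  have e1 : 2 * (Pa / Qa) * (Pb / Qb) - Pa / Qa ^ 2 * (Pb / Qb ^ 2) * S =
      Pa * Pb * ((2 * (Qa * Qb) - S) / (Qa * Qb) ^ 2) := by
    field_simp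
  have e2 : Pa * Pb / S = Pa * Pb * (1 / S) := by ring
  rw [e1, e2]
  exact hmul

end Vale.Agent.P154
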