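import Mathlib

/-!
# P154 (all d): the two-variable polynomial in the lower bound

`Tt r s ≥ 0` on `[0,1/2]^2` (`r`, `s` stand for `al`, `be`).  Bernstein certificate, generated by a script with exact rational arithmetic.
-/

namespace Vale.Agent.P154

noncomputable def Tt (r s : ℝ) : ℝ :=
  (r * s + (1 - r) * (1 - s)) * ((1 - r) * (1 - s)) * (1 - 3 * r * s + 2 * r * (1 - s) + 2 * s * (1 - r))
    - ((1 - r) * (1 - s)) ^ 2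
    - (r * s + (1 - r) * (1 - s)) ^ 2 * (r * (1 - s) ^ 2 + s * (1 - r) ^ 2)

theorem Tt_nonneg_b0_c0 (r : ℝ) (h1 : 0 ≤ r) (h2 : r ≤ 1 / 2) :
    0 ≤ 16 * r + (-32) * r ^ 2 + 16 * r ^ 3 := by
  have hU : 0 ≤ r := by linarith
  have hV : 0 ≤ 1 / 2 - r := by linarith
  have e : 16 * r + (-32) * r ^ 2 + 16 * r ^ 3 = 128 * r * (1 / 2 - r) ^ 3 + 256 * r ^ 2 * (1 / 2 - r) ^ 2 + 160 * r ^ 3 * (1 / 2 - r) + 32 * r ^ 4 := by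
    ring
  rw [e]
  positivity

theorem Tt_nonneg_b0_c1 (r : ℝ) (h1 : 0 ≤ r) (h2 : r ≤ 1 / 2) :
    0 ≤ 8 + 16 * r + (-56) * r ^ 2 + 40 * r ^ 3 + (-8) * r ^ 4 := by
  have hU : 0 ≤ r := by linarith
  have hV : 0 ≤ 1 / 2 - r := by linarith
  have e : 8 + 16 * r + (-56) * r ^ 2 + 40 * r ^ 3 + (-8) * r ^ 4 = 128 * (1 / 2 - r) ^ 4 + 640 * r * (1 / 2 - r) ^ 3 + 928 * r ^ 2 * (1 / 2 - r) ^ 2 + 528 * r ^ 3 * (1 / 2 - r) + 104 * r ^ 4 := by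
    ring
  rw [e]
  positivity

theorem Tt_nonneg_b0_c2 (r : ℝ) (h1 : 0 ≤ r) (h2 : r ≤ 1 / 2) :
    0 ≤ 16 + (-12) * r + (-16) * r ^ 2 + 16 * r ^ 3 + (-8) * r ^ 4 := by
  have hU : 0 ≤ r := by linarith
  have hV : 0 ≤ 1 / 2 - r := by linarith
  have e : 16 + (-12) * r + (-16) * r ^ 2 + 16 * r ^ 3 + (-8) * r ^ 4 = 256 * (1 / 2 - r) ^ 4 + 928 * r * (1 / 2 - r) ^ 3 + 1184 * r ^ 2 * (1 / 2 - r) ^ 2 + 640 * r ^ 3 * (1 / 2 - r) + 120 * r ^ 4 := by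
    ring
  rw [e]
  positivity

theorem Tt_nonneg_b0_c3 (r : ℝ) (h1 : 0 ≤ r) (h2 : r ≤ 1 / 2) :
    0 ≤ 10 + (-14) * r + 4 * r ^ 2 + (-4) * r ^ 3 := by
  have hU : 0 ≤ r := by linarith
  have hV : 0 ≤ 1 / 2 - r := by linarith
  have e : 10 + (-14) * r + 4 * r ^ 2 + (-4) * r ^ 3 = 160 * (1 / 2 - r) ^ 4 + 528 * r * (1 / 2 - r) ^ 3 + 640 * r ^ 2 * (1 / 2 - r) ^ 2 + 328 * r ^ 3 * (1 / 2 - r) + 56 * r ^ 4 := by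
    ring
  rw [e]
  positivity

theorem Tt_nonneg_b0_c4 (r : ℝ) (h1 : 0 ≤ r) (h2 : r ≤ 1 / 2) :
    0 ≤ 2 + (-3) * r := by
  have hU : 0 ≤ r := by linarith
  have hV : 0 ≤ 1 / 2 - r := by linarith
  have e : 2 + (-3) * r = 32 * (1 / 2 - r) ^ 4 + 104 * r * (1 / 2 - r) ^ 3 + 120 * r ^ 2 * (1 / 2 - r) ^ 2 + 56 * r ^ 3 * (1 / 2 - r) + 8 * r ^ 4 := by
    ring
  rw [e]
  positivity

theorem Tt_nonneg_b0 (r s : ℝ) (h1 : 0 ≤ r) (h2 : r ≤ 1 / 2) (h3 : 0 ≤ s) (h4 : s ≤ 1 / 2) :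
    0 ≤ Tt r s := by
  have hU : 0 ≤ s := by linarith
  have hV : 0 ≤ 1 / 2 - s := by linarith
  have e : Tt r s = (16 * r + (-32) * r ^ 2 + 16 * r ^ 3) * ((1 / 2 - s) ^ 4) + (8 + 16 * r + (-56) * r ^ 2 + 40 * r ^ 3 + (-8) * r ^ 4) * (s * (1 / 2 - s) ^ 3) + (16 + (-12) * r + (-16) * r ^ 2 + 16 * r ^ 3 + (-8) * r ^ 4) * (s ^ 2 * (1 / 2 - s) ^ 2) + (10 + (-14) * r + 4 * r ^ 2 + (-4) * r ^ 3) * (s ^ 3 * (1 / 2 - s)) + (2 + (-3) * r) * (s ^ 4) := by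
    unfold Tt
    ring
  rw [e]
  have c0 := Tt_nonneg_b0_c0 r h1 h2
  have c1 := Tt_nonneg_b0_c1 r h1 h2
  have c2 := Tt_nonneg_b0_c2 r h1 h2
  have c3 := Tt_nonneg_b0_c3 r h1 h2
  have c4 := Tt_nonneg_b0_c4 r h1 h2
  positivity

theorem Tt_nonneg (r s : ℝ) (h1 : 0 ≤ r) (h2 : r ≤ 1 / 2) (h3 : 0 ≤ s) (h4 : s ≤ 1 / 2) :
    0 ≤ Tt r s := by
  exact Tt_nonneg_b0 r s h1 h2 h3 h4

end Vale.Agent.P154
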