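import Vale.Agent.P154.Gen.Alg2
import Vale.Agent.P154.Gen.LowPoly

/-!
# P154 (all d): the lower bound for the rotation sum, abstract form

`N = NumF al be A B U + 2 al be DF al be U` with `U = A B + da db / 108`, `A^2 + da^2/108 = al^3`, `B^2 + db^2/108 = be^3`.
With `Q = 1 - al`, `Qw = 1 - be`, `Sg = al be + Q Qw`:
`al be Q Qw Sg N = (al be Q Qw - Sg (be Qw A + al Q B))^2 + Sg^2 (be Qw da + al Q db)^2 / 108 + al^2 be^2 Tt al be`   (`low_id`):
unfold everything; `linear_combination c1 * hA + c2 * hB` with `c1 = ∓ Sg^2 be^2 Qw^2`, `c2 = ∓ Sg^2 al^2 Q^2`.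
`low_key`: if `al = 0` then `A = 0`, `da = 0` (from `hA`), so `N = 0`; the same if `be = 0`; otherwise `al be Q Qw Sg > 0`, and the right side of
`low_id` is `≥ 0` by `Tt_nonneg`.
-/

namespace Vale.Agent.P154

theorem low_id (al A da be B db : ℝ) (hA : A ^ 2 + da ^ 2 / 108 = al ^ 3)
    (hB : B ^ 2 + db ^ 2 / 108 = be ^ 3) :
    al * be * ((1 - al) * (1 - be)) * (al * be + (1 - al) * (1 - be)) *
        (NumF al be A B (A * B + da * db / 108) + 2 * al * be * DF al be (A * B + da * db / 108)) =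
      (al * be * ((1 - al) * (1 - be))
          - (al * be + (1 - al) * (1 - be)) * (be * (1 - be) * A + al * (1 - al) * B)) ^ 2
        + (al * be + (1 - al) * (1 - be)) ^ 2 * (be * (1 - be) * da + al * (1 - al) * db) ^ 2 / 108
        + al ^ 2 * be ^ 2 * Tt al be := by
  unfold NumF DF Tt
  linear_combination
    (-((al * be + (1 - al) * (1 - be)) ^ 2 * be ^ 2 * (1 - be) ^ 2)) * hA
      + (-((al * be + (1 - al) * (1 - be)) ^ 2 * al ^ 2 * (1 - al) ^ 2)) * hB

theorem low_key (al A da be B db : ℝ) (hA : A ^ 2 + da ^ 2 / 108 = al ^ 3)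
    (hB : B ^ 2 + db ^ 2 / 108 = be ^ 3) (ha0 : 0 ≤ al) (ha1 : al ≤ 1 / 2) (hb0 : 0 ≤ be)
    (hb1 : be ≤ 1 / 2) :
    0 ≤ NumF al be A B (A * B + da * db / 108) + 2 * al * be * DF al be (A * B + da * db / 108) := by
  rcases eq_or_lt_of_le ha0 with h0 | hapos
  · -- `al = 0`
    subst h0
    have h1 : A ^ 2 + da ^ 2 / 108 = 0 := by rw [hA]; ring
    have hA0 : A = 0 := by
      have : A ^ 2 = 0 := by nlinarith [sq_nonneg A, sq_nonneg da]
      exact pow_eq_zero_iff (two_ne_zero) |>.mp this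
    have hd0 : da = 0 := by
      have : da ^ 2 = 0 := by nlinarith [sq_nonneg A, sq_nonneg da]
      exact pow_eq_zero_iff (two_ne_zero) |>.mp this
    subst hA0; subst hd0
    unfold NumF DF
    apply le_of_eq
    ring
  rcases eq_or_lt_of_le hb0 with h0 | hbpos
  · -- `be = 0`
    subst h0
    have h1 : B ^ 2 + db ^ 2 / 108 = 0 := by rw [hB]; ring
    have hB0 : B = 0 := by
      have : B ^ 2 = 0 := by nlinarith [sq_nonneg B, sq_nonneg db]
      exact pow_eq_zero_iff (two_ne_zero) |>.mp this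
    have hd0 : db = 0 := by
      have : db ^ 2 = 0 := by nlinarith [sq_nonneg B, sq_nonneg db]
      exact pow_eq_zero_iff (two_ne_zero) |>.mp this
    subst hB0; subst hd0
    unfold NumF DF
    apply le_of_eq
    ring
  have hid := low_id al A da be B db hA hB
  have hT := Tt_nonneg al be ha0 ha1 hb0 hb1
  have hQ : 0 < 1 - al := by linarith
  have hQw : 0 < 1 - be := by linarith
  have hc : 0 < al * be * ((1 - al) * (1 - be)) * (al * be + (1 - al) * (1 - be)) := by positivity
  have hr : 0 ≤ (al * be * ((1 - al) * (1 - be))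
          - (al * be + (1 - al) * (1 - be)) * (be * (1 - be) * A + al * (1 - al) * B)) ^ 2
        + (al * be + (1 - al) * (1 - be)) ^ 2 * (be * (1 - be) * da + al * (1 - al) * db) ^ 2 / 108
        + al ^ 2 * be ^ 2 * Tt al be := by positivity
  rw [← hid] at hr
  exact nonneg_of_mul_nonneg_right hr hc

end Vale.Agent.P154
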