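import Vale.Agent.P154.Gen.LowKey

/-!
# P154 (all d): lower bounds for `K2` summed over the rotations / the six permutations

* `K2_ge`: with `Z = Z3 a b > 0`, `p i = (1 + a i)(1 + b i)`, `e' i = p i / Z - 1`:
  `al3 e' - al3 a - (1/3) ∑ a i (e' i - a i) = al3 (e' - a) ≥ 0`; multiply by `Z`:
  `K2 a b ≥ (1/3) ∑ a i (1 + a i)(1 + b i) - Z al3 a`   (uses `∑ a i = 0`, `∑ (a i)^2 = 6 al3 a`).
* `rot_ge_al`: add `K2_ge` for the three rotations of `b`: `∑_rot (1 + b (i+j)) = 3`, `∑_rot Z = 3`, total `∑ (a i)^2 - 3 al = 3 al`.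
* `rot_low`: if `al3 a ≥ 1/2` then `al + be - 2 al be ≤ al` and `rot_ge_al`; otherwise `rot_sum`, `low_key` with `da = dl3 a`, `db = dl3 b`
  (`cube_id`), `DF > 0` (`DF_eq`, `Z3_pos`): `NumF / DF ≥ - 2 al be`.
* `key_low`: two rotation sums, as in `key_up`.
-/

namespace Vale.Agent.P154

theorem K2_ge (a0 a1 a2 b0 b1 b2 : ℝ) (ha : a0 + a1 + a2 = 0) (hb : b0 + b1 + b2 = 0)
    (hZ : 0 < Z3 a0 a1 a2 b0 b1 b2) :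
    (a0 * (1 + a0) * (1 + b0) + a1 * (1 + a1) * (1 + b1) + a2 * (1 + a2) * (1 + b2)) / 3
      - Z3 a0 a1 a2 b0 b1 b2 * al3 a0 a1 a2 ≤ K2 a0 a1 a2 b0 b1 b2 := by
  have hsum : (1 + a0) * (1 + b0) + (1 + a1) * (1 + b1) + (1 + a2) * (1 + b2)
      = 3 * Z3 a0 a1 a2 b0 b1 b2 := by
    unfold Z3
    linear_combination ha + hb
  rw [K2_eq a0 a1 a2 b0 b1 b2 ha hb hZ, le_div_iff₀ hZ]
  unfold N2 al3
  generalize Z3 a0 a1 a2 b0 b1 b2 = Z at hZ hsum ⊢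
  have key : (((1 + a0) * (1 + b0)) ^ 2 + ((1 + a1) * (1 + b1)) ^ 2 + ((1 + a2) * (1 + b2)) ^ 2
        - 3 * Z ^ 2) / 6
      - ((a0 * (1 + a0) * (1 + b0) + a1 * (1 + a1) * (1 + b1) + a2 * (1 + a2) * (1 + b2)) / 3
        - Z * ((a0 ^ 2 + a1 ^ 2 + a2 ^ 2) / 6)) * Z
      = (((1 + a0) * (1 + b0) - Z * (1 + a0)) ^ 2 + ((1 + a1) * (1 + b1) - Z * (1 + a1)) ^ 2
        + ((1 + a2) * (1 + b2) - Z * (1 + a2)) ^ 2) / 6 := by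
    linear_combination (Z / 3) * hsum - (Z ^ 2 / 3) * ha
  have hpos : 0 ≤ (((1 + a0) * (1 + b0) - Z * (1 + a0)) ^ 2
        + ((1 + a1) * (1 + b1) - Z * (1 + a1)) ^ 2
        + ((1 + a2) * (1 + b2) - Z * (1 + a2)) ^ 2) / 6 := by positivity
  linarith

theorem rot_ge_al (a0 a1 a2 b0 b1 b2 : ℝ) (ha : a0 + a1 + a2 = 0) (hb : b0 + b1 + b2 = 0)
    (h0 : 0 < Z3 a0 a1 a2 b0 b1 b2) (h1 : 0 < Z3 a0 a1 a2 b1 b2 b0)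
    (h2 : 0 < Z3 a0 a1 a2 b2 b0 b1) :
    3 * al3 a0 a1 a2 ≤ K2 a0 a1 a2 b0 b1 b2 + K2 a0 a1 a2 b1 b2 b0 + K2 a0 a1 a2 b2 b0 b1 := by
  have hb1 : b1 + b2 + b0 = 0 := by linarith
  have hb2 : b2 + b0 + b1 = 0 := by linarith
  have k0 := K2_ge a0 a1 a2 b0 b1 b2 ha hb h0
  have k1 := K2_ge a0 a1 a2 b1 b2 b0 ha hb1 h1
  have k2 := K2_ge a0 a1 a2 b2 b0 b1 ha hb2 h2
  have e : ((a0 * (1 + a0) * (1 + b0) + a1 * (1 + a1) * (1 + b1) + a2 * (1 + a2) * (1 + b2)) / 3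
        - Z3 a0 a1 a2 b0 b1 b2 * al3 a0 a1 a2)
      + ((a0 * (1 + a0) * (1 + b1) + a1 * (1 + a1) * (1 + b2) + a2 * (1 + a2) * (1 + b0)) / 3
        - Z3 a0 a1 a2 b1 b2 b0 * al3 a0 a1 a2)
      + ((a0 * (1 + a0) * (1 + b2) + a1 * (1 + a1) * (1 + b0) + a2 * (1 + a2) * (1 + b1)) / 3
        - Z3 a0 a1 a2 b2 b0 b1 * al3 a0 a1 a2) = 3 * al3 a0 a1 a2 := by
    unfold Z3 al3
    linear_combination ((a0 * (1 + a0) + a1 * (1 + a1) + a2 * (1 + a2)) / 3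
      - (a0 + a1 + a2) / 3 * ((a0 ^ 2 + a1 ^ 2 + a2 ^ 2) / 6)) * hb + ha
  linarith

theorem rot_low (a0 a1 a2 b0 b1 b2 : ℝ) (ha : a0 + a1 + a2 = 0) (hb : b0 + b1 + b2 = 0)
    (ha0 : -1 < a0) (ha1 : -1 < a1) (ha2 : -1 < a2) (hb0 : -1 < b0) (hb1 : -1 < b1) (hb2 : -1 < b2)
    (hbe : al3 b0 b1 b2 ≤ 1 / 2) :
    3 * (al3 a0 a1 a2 + al3 b0 b1 b2 - 2 * al3 a0 a1 a2 * al3 b0 b1 b2) ≤
      K2 a0 a1 a2 b0 b1 b2 + K2 a0 a1 a2 b1 b2 b0 + K2 a0 a1 a2 b2 b0 b1 := by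
  have hb' : b1 + b2 + b0 = 0 := by linarith
  have hb'' : b2 + b0 + b1 = 0 := by linarith
  have h0 := Z3_pos a0 a1 a2 b0 b1 b2 ha hb ha0 ha1 ha2 hb0 hb1 hb2
  have h1 := Z3_pos a0 a1 a2 b1 b2 b0 ha hb' ha0 ha1 ha2 hb1 hb2 hb0
  have h2 := Z3_pos a0 a1 a2 b2 b0 b1 ha hb'' ha0 ha1 ha2 hb2 hb0 hb1
  have hal := al3_nonneg a0 a1 a2
  have hbe0 := al3_nonneg b0 b1 b2
  rcases le_total (1 / 2) (al3 a0 a1 a2) with hh | hh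
  · have k := rot_ge_al a0 a1 a2 b0 b1 b2 ha hb h0 h1 h2
    have : 0 ≤ al3 b0 b1 b2 * (2 * al3 a0 a1 a2 - 1) := mul_nonneg hbe0 (by linarith)
    nlinarith
  · rw [rot_sum a0 a1 a2 b0 b1 b2 ha hb h0 h1 h2]
    have hA : cu3 a0 a1 a2 ^ 2 + dl3 a0 a1 a2 ^ 2 / 108 = al3 a0 a1 a2 ^ 3 := by
      have := cube_id a0 a1 a2 ha
      linarith
    have hB : cu3 b0 b1 b2 ^ 2 + dl3 b0 b1 b2 ^ 2 / 108 = al3 b0 b1 b2 ^ 3 := by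
      have := cube_id b0 b1 b2 hb
      linarith
    have hk := low_key (al3 a0 a1 a2) (cu3 a0 a1 a2) (dl3 a0 a1 a2) (al3 b0 b1 b2)
      (cu3 b0 b1 b2) (dl3 b0 b1 b2) hA hB hal hh hbe0 hbe
    have hD : 0 < DF (al3 a0 a1 a2) (al3 b0 b1 b2)
        (cu3 a0 a1 a2 * cu3 b0 b1 b2 + dl3 a0 a1 a2 * dl3 b0 b1 b2 / 108) := by
      rw [← DF_eq a0 a1 a2 b0 b1 b2 ha hb]
      exact mul_pos (mul_pos h0 h1) h2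
    have hq : -(2 * al3 a0 a1 a2 * al3 b0 b1 b2) ≤
        NumF (al3 a0 a1 a2) (al3 b0 b1 b2) (cu3 a0 a1 a2) (cu3 b0 b1 b2)
            (cu3 a0 a1 a2 * cu3 b0 b1 b2 + dl3 a0 a1 a2 * dl3 b0 b1 b2 / 108) /
          DF (al3 a0 a1 a2) (al3 b0 b1 b2)
            (cu3 a0 a1 a2 * cu3 b0 b1 b2 + dl3 a0 a1 a2 * dl3 b0 b1 b2 / 108) := by
      rw [le_div_iff₀ hD]
      linarith
    linarith

theorem key_low (a0 a1 a2 b0 b1 b2 : ℝ) (ha : a0 + a1 + a2 = 0) (hb : b0 + b1 + b2 = 0)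
    (ha0 : -1 < a0) (ha1 : -1 < a1) (ha2 : -1 < a2) (hb0 : -1 < b0) (hb1 : -1 < b1) (hb2 : -1 < b2)
    (hbe : al3 b0 b1 b2 ≤ 1 / 2) :
    6 * (al3 a0 a1 a2 + al3 b0 b1 b2 - 2 * al3 a0 a1 a2 * al3 b0 b1 b2) ≤
      S6 (K2 a0 a1 a2) b0 b1 b2 := by
  have hs : al3 b0 b2 b1 = al3 b0 b1 b2 := by
    unfold al3
    ring
  have k1 := rot_low a0 a1 a2 b0 b1 b2 ha hb ha0 ha1 ha2 hb0 hb1 hb2 hbe
  have k2 := rot_low a0 a1 a2 b0 b2 b1 ha (by linarith) ha0 ha1 ha2 hb0 hb2 hb1 (by rw [hs]; exact hbe)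
  rw [hs] at k2
  unfold S6
  linarith

end Vale.Agent.P154
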