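import Vale.Agent.P154.Gen.TreeG
import Vale.Agent.P154.Conv
import Vale.Agent.P154.FamTV

/-!
# P154: nonreconstruction for three colours on the `d`-ary tree whenever `0 ≤ lam`, `d lam^2 ≤ 1`

`seq_zero_d`: if `lam = 0` then `x (n+1) ≤ 0`, so `x (n+1) = 0` for all `n` (`tendsto_atTop_of_eventually_const` or
`tendsto_add_atTop_iff_nat`); otherwise `x (n+1) ≤ x n - (lam^4/10) (x n)^2` and `seq_zero` applies.
-/

namespace Vale.Agent.P154

open Filter Topology

theorem seq_zero_d (x : ℕ → ℝ) (d : ℕ) (lam : ℝ) (hl1 : d * lam ^ 2 ≤ 1) (h0 : ∀ n, 0 ≤ x n)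
    (hs : ∀ n, x (n + 1) ≤ d * (lam ^ 2 * x n) - 1 / 10 * (lam ^ 2 * x n) ^ 2) :
    Tendsto x atTop (𝓝 0) := by
  by_cases h : lam = 0
  · have hz : ∀ n, x (n + 1) = 0 := by
      intro n
      have := hs n
      rw [h] at this
      have h2 := h0 (n + 1)
      apply le_antisymm _ h2
      simpa using this
    rw [← tendsto_add_atTop_iff_nat 1]
    simp only [hz]
    exact tendsto_const_nhds
  · have hpos : 0 < lam ^ 4 := by positivity
    apply seq_zero x (1 / 10 * lam ^ 4) (by positivity) h0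
    intro n
    have h1 := hs n
    have h2 : d * lam ^ 2 * x n ≤ 1 * x n := mul_le_mul_of_nonneg_right hl1 (h0 n)
    have h3 : (lam ^ 2 * x n) ^ 2 = lam ^ 4 * x n ^ 2 := by ring
    rw [h3] at h1
    linarith

theorem two_le_of (d : ℕ) (hd : 2 ≤ d) (lam : ℝ) (h1 : d * lam ^ 2 ≤ 1) : 2 * lam ^ 2 ≤ 1 := by
  have : (2 : ℝ) ≤ d := by exact_mod_cast hd
  nlinarith [sq_nonneg lam]

theorem dary_nonreconstruction (d : ℕ) (hd : 2 ≤ d) (lam : ℝ) (h0 : 0 ≤ lam) (h1 : d * lam ^ 2 ≤ 1) :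
    Tendsto (fun n => aTV 3 d lam n) atTop (𝓝 0) := by
  have h2 := two_le_of d hd lam h1
  have hx : Tendsto (fun n => Xf (marg 3 d lam n) (evd d lam n)) atTop (𝓝 0) :=
    seq_zero_d _ d lam h1 (fun n => (treed_good d lam h0 h2 n).1.Xf_nonneg)
      (fun n => treed_X_step d hd lam h0 h2 n)
  refine tendsto_of_sq_le _ _ ?_ ?_ hx
  · intro n
    rw [aTVd_eq]
    refine Finset.sum_nonneg (fun η _ => ?_)
    have := ((treed_good d lam h0 h2 n).1.pos η).le
    positivity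
  · intro n
    rw [aTVd_eq]
    exact (treed_good d lam h0 h2 n).1.tv_sq_le

end Vale.Agent.P154
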