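import Vale.Agent.P154.Gen.Pow

/-!
# P154 (all d): invariants of `n` conditionally independent copies

`Good.pow`: induction on `n`.  `n = 0`: `pow_zero_good`.  Step: by `pow_succ_w`, `pow_succ_e`, `powEquiv_apply`,
`wP v g (n+1) = fun η => wM (wP v g n) v (eP g n) g (powEquiv κ n η)` and the same for `eP`; use `Good.of_equiv`, `Xf_equiv`, `Hf_equiv` and
`Good.merge`, `Inter.merge`, `Good.H_merge`, `Good.X_merge_le'` with `(w, e) = (wP v g n, eP g n)`.
Bounds: put `x = Xf v g` (`0 ≤ x ≤ 1/2` by `hb`, `k.tot`, `k.pos`), `x_n = Xf (wP v g n) (eP g n) ≥ 0`.  Then `x_{n+1} ≤ x_n (1 - x/10) + x`.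
So `x_{n+1} ≤ x_n + x ≤ (n+1) x`.  For `n + 1 = 2`: `x_1 ≤ x` gives `x_2 ≤ x (1 - x/10) + x`.  For `n + 1 ≥ 3`: `x_{n+1} ≤ x_n + x ≤ n x - x^2/10 + x`.
-/

namespace Vale.Agent.P154

open Finset

variable {κ : Type} [Fintype κ] {v : κ → ℝ} {g : κ → Fin 3 → ℝ}

theorem Good.Xf_nonneg' {ι : Type} [Fintype ι] {w : ι → ℝ} {e : ι → Fin 3 → ℝ} (h : Good w e) :
    0 ≤ Xf w e := by
  unfold Xf
  exact Finset.sum_nonneg (fun η _ => mul_nonneg (h.pos η).le (al3_nonneg _ _ _))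

theorem Good.Xf_le_half' (k : Good v g) (hb : ∀ ξ, al3 (g ξ 0) (g ξ 1) (g ξ 2) ≤ 1 / 2) :
    Xf v g ≤ 1 / 2 := by
  unfold Xf
  calc ∑ η, v η * al3 (g η 0) (g η 1) (g η 2) ≤ ∑ η, v η * (1 / 2) :=
        Finset.sum_le_sum (fun η _ => mul_le_mul_of_nonneg_left (hb η) (k.pos η).le)
    _ = 1 / 2 := by rw [← Finset.sum_mul, k.tot, one_mul]

/-- all the invariants of `k` copies -/
theorem Good.pow (k : Good v g) (hg : Inter g) (hb : ∀ ξ, al3 (g ξ 0) (g ξ 1) (g ξ 2) ≤ 1 / 2)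
    (hH : 0 ≤ Hf v g) (n : ℕ) :
    Good (wP v g n) (eP g n) ∧ Inter (eP g n) ∧ 0 ≤ Hf (wP v g n) (eP g n) ∧
      Xf (wP v g n) (eP g n) ≤ n * Xf v g ∧
      (2 ≤ n → Xf (wP v g n) (eP g n) ≤ n * Xf v g - 1 / 10 * Xf v g ^ 2) := by
  have hx0 : 0 ≤ Xf v g := k.Xf_nonneg'
  have hx1 : Xf v g ≤ 1 / 2 := k.Xf_le_half' hb
  induction n with
  | zero =>
    obtain ⟨h1, h2, h3, h4⟩ := pow_zero_good v g
    refine ⟨h1, h2, h3.ge, ?_, ?_⟩
    · rw [h4]
      simp
    · intro h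
      omega
  | succ n ih =>
    obtain ⟨G, I, H, X1, X2⟩ := ih
    have hw : wP v g (n + 1) = fun η => wM (wP v g n) v (eP g n) g (powEquiv κ n η) := by
      funext η
      rw [powEquiv_apply]
      exact pow_succ_w k.zero hg v n η
    have he : eP g (n + 1) = fun η => eM (eP g n) g (powEquiv κ n η) := by
      funext η
      rw [powEquiv_apply]
      exact pow_succ_e k.zero hg n η
    have hxn : 0 ≤ Xf (wP v g n) (eP g n) := G.Xf_nonneg'
    have hX : Xf (wP v g (n + 1)) (eP g (n + 1)) ≤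
        Xf (wP v g n) (eP g n) + Xf v g - 1 / 10 * Xf (wP v g n) (eP g n) * Xf v g := by
      rw [hw, he, Xf_equiv (powEquiv κ n)]
      exact G.X_merge_le' k I hg hb H hH
    have hprod : 0 ≤ Xf (wP v g n) (eP g n) * Xf v g := mul_nonneg hxn hx0
    refine ⟨?_, ?_, ?_, ?_, ?_⟩
    · rw [hw, he]
      exact Good.of_equiv (powEquiv κ n) (G.merge k I hg)
    · rw [he]
      intro η i
      exact (Inter.merge G k I hg) (powEquiv κ n η) i
    · rw [hw, he, Hf_equiv (powEquiv κ n)]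
      exact G.H_merge k I hg hb H hH
    · push_cast
      nlinarith
    · intro h2
      push_cast
      rcases Nat.lt_or_ge n 2 with hn | hn
      · have hn1 : n = 1 := by omega
        subst hn1
        have X1' : Xf (wP v g 1) (eP g 1) ≤ Xf v g := by simpa using X1
        have hfac : 0 ≤ 1 - 1 / 10 * Xf v g := by linarith
        have := mul_le_mul_of_nonneg_right X1' hfac
        push_cast
        nlinarith
      · have := X2 hn
        nlinarith

end Vale.Agent.P154
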