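import Vale.Agent.P154.Gen.TreeGen2
import Vale.Agent.P154.Gen.Pow2
import Vale.Agent.P154.FamTV
import Vale.Agent.P154.Conv

/-!
# P154 (all d): nonreconstruction for three colours on every `d`-ary tree, `0 ≤ lam`, `d lam^2 ≤ 1`

* `lam_sq_le`: `d ≥ 2` and `d lam^2 ≤ 1` give `lam^2 ≤ 1/2`, hence `lam < 1`.
* `treed_inv`: induction on `n`.  Invariant: `Good (marg n) (evd n)` and `0 ≤ Hf (marg n) (eC lam (evd n))`.
  Step: `ν = (marg n, eC lam (evd n))` is `Good` (`Good.chan`), `Inter` (`Good.chan_inter`), has `al3 ≤ lam^2 ≤ 1/2` (`Good.al3_chan_le`).  By `Good.pow`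
  the experiment `(wP .. d, eP .. d)`, which is `(marg (n+1), evd (n+1))` by `margd_succ`, `evd_succ`, is `Good`, `Inter`, has `0 ≤ Hf`; `Good.Hf_chan`.
* `treed_X_step`: last component of `Good.pow` and `Xf_chan`.
* `seq_zero_d`: as `seq_zero'` in `Conv`.
-/

namespace Vale.Agent.P154

open Filter Topology

theorem lam_sq_le (d : ℕ) (hd : 2 ≤ d) (lam : ℝ) (h1 : (d : ℝ) * lam ^ 2 ≤ 1) : lam ^ 2 ≤ 1 / 2 := by
  have h2 : (2 : ℝ) ≤ d := by exact_mod_cast hd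
  have h3 : (2 : ℝ) * lam ^ 2 ≤ (d : ℝ) * lam ^ 2 :=
    mul_le_mul_of_nonneg_right h2 (sq_nonneg lam)
  linarith

theorem lam_lt_one (d : ℕ) (hd : 2 ≤ d) (lam : ℝ) (h1 : (d : ℝ) * lam ^ 2 ≤ 1) : lam < 1 := by
  have h2 := lam_sq_le d hd lam h1
  nlinarith [sq_nonneg (lam - 1)]

/-- everything `Good.pow` gives for one level of the tree -/
theorem treed_pow (d : ℕ) (hd : 2 ≤ d) (lam : ℝ) (h0 : 0 ≤ lam) (h1 : (d : ℝ) * lam ^ 2 ≤ 1) (n : ℕ)
    (hG : Good (marg 3 d lam n) (evd d lam n))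
    (hH : 0 ≤ Hf (marg 3 d lam n) (eC lam (evd d lam n))) :
    Good (marg 3 d lam (n + 1)) (evd d lam (n + 1)) ∧ Inter (evd d lam (n + 1)) ∧
      0 ≤ Hf (marg 3 d lam (n + 1)) (evd d lam (n + 1)) ∧
      Xf (marg 3 d lam (n + 1)) (evd d lam (n + 1)) ≤
        d * Xf (marg 3 d lam n) (eC lam (evd d lam n))
          - 1 / 10 * Xf (marg 3 d lam n) (eC lam (evd d lam n)) ^ 2 := by
  have hl1 : lam < 1 := lam_lt_one d hd lam h1
  have hsq := lam_sq_le d hd lam h1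
  have hp := Good.pow (hG.chan lam h0 hl1.le) (hG.chan_inter lam h0 hl1)
    (fun ξ => (hG.al3_chan_le lam ξ).trans hsq) hH d
  rw [← margd_succ d lam n hG, ← evd_succ d lam h0 hl1 n hG] at hp
  exact ⟨hp.1, hp.2.1, hp.2.2.1, hp.2.2.2.2 hd⟩

theorem treed_inv (d : ℕ) (hd : 2 ≤ d) (lam : ℝ) (h0 : 0 ≤ lam) (h1 : (d : ℝ) * lam ^ 2 ≤ 1) (n : ℕ) :
    Good (marg 3 d lam n) (evd d lam n) ∧ 0 ≤ Hf (marg 3 d lam n) (eC lam (evd d lam n)) := by
  have hl1 : lam < 1 := lam_lt_one d hd lam h1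
  induction n with
  | zero => exact ⟨based_good d lam, based_H d lam h0 hl1⟩
  | succ n ih =>
    obtain ⟨hG, hI, hH, -⟩ := treed_pow d hd lam h0 h1 n ih.1 ih.2
    refine ⟨hG, le_trans ?_ (hG.Hf_chan hI lam h0 hl1.le)⟩
    positivity

theorem treed_X_step (d : ℕ) (hd : 2 ≤ d) (lam : ℝ) (h0 : 0 ≤ lam) (h1 : (d : ℝ) * lam ^ 2 ≤ 1)
    (n : ℕ) :
    Xf (marg 3 d lam (n + 1)) (evd d lam (n + 1)) ≤
      (d : ℝ) * lam ^ 2 * Xf (marg 3 d lam n) (evd d lam n)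
        - 1 / 10 * lam ^ 4 * Xf (marg 3 d lam n) (evd d lam n) ^ 2 := by
  have ih := treed_inv d hd lam h0 h1 n
  have h := (treed_pow d hd lam h0 h1 n ih.1 ih.2).2.2.2
  rw [Xf_chan] at h
  calc _ ≤ _ := h
    _ = _ := by ring

theorem seq_zero_d (x : ℕ → ℝ) (D lam : ℝ) (hl0 : 0 ≤ lam) (hρ : D * lam ^ 2 ≤ 1)
    (h0 : ∀ n, 0 ≤ x n) (hs : ∀ n, x (n + 1) ≤ D * lam ^ 2 * x n - 1 / 10 * lam ^ 4 * x n ^ 2) :
    Tendsto x atTop (𝓝 0) := by
  rcases hl0.eq_or_lt with h | h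
  · have hz : ∀ n, x (n + 1) = 0 := by
      intro n
      have := hs n
      rw [← h] at this
      have h2 := h0 (n + 1)
      apply le_antisymm _ h2
      simpa using this
    rw [← tendsto_add_atTop_iff_nat 1]
    simp only [hz]
    exact tendsto_const_nhds
  · apply seq_zero x (1 / 10 * lam ^ 4) (by positivity) h0
    intro n
    have h1 := hs n
    have h2 : D * lam ^ 2 * x n ≤ 1 * x n := mul_le_mul_of_nonneg_right hρ (h0 n)
    linarith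

theorem regular_nonreconstruction (d : ℕ) (hd : 2 ≤ d) (lam : ℝ) (h0 : 0 ≤ lam)
    (h1 : (d : ℝ) * lam ^ 2 ≤ 1) : Tendsto (fun n => aTV 3 d lam n) atTop (𝓝 0) := by
  have hx : Tendsto (fun n => Xf (marg 3 d lam n) (evd d lam n)) atTop (𝓝 0) :=
    seq_zero_d _ d lam h0 h1 (fun n => (treed_inv d hd lam h0 h1 n).1.Xf_nonneg)
      (fun n => treed_X_step d hd lam h0 h1 n)
  refine tendsto_of_sq_le _ _ ?_ ?_ hx
  · intro n
    rw [aTVd_eq]
    refine Finset.sum_nonneg (fun η _ => ?_)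
    have := ((treed_inv d hd lam h0 h1 n).1.pos η).le
    positivity
  · intro n
    rw [aTVd_eq]
    exact (treed_inv d hd lam h0 h1 n).1.tv_sq_le

end Vale.Agent.P154
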