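import Vale.Agent.P154.Gen.MergeGood
import Vale.Agent.P154.Gen.HarmPt

/-!
# P154 (all d): the harmonic functional is supermultiplicative

`Ff (merged) = ∑ η ξ, w η v ξ Z ph3 (e') ≥ ∑ η ξ, w η v ξ (2 ph3 (e η) ph3 (g ξ) - hq3 (e η) hq3 (g ξ) sm3 (e η) (g ξ))`  by `harm_pt`.
The first sum is `2 Ff Ff'`.  For the second, `sm3 a b = (1/3) ∑ i u i (a) u i (b)` with `u 0 (a) = (1 + a1)(1 + a2)` etc., so it equals
`(1/3) ∑ i (∑ η, w η hq3 (e η) u i (e η)) (∑ ξ, v ξ hq3 (g ξ) u i (g ξ))`.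
`Good.hq_u`: by `h.rot` (applied to `fun x y z => hq3 x y z * ((1 + y) * (1 + z))`; `hq3` is invariant under rotation of its arguments) the three sums
`∑ η, w η hq3 (e η) u i (e η)` agree; their sum is `∑ w hq3 * 3 Q = 3 Ff` (`one_sub_al3`; `hq3 * (1 - al3) = ph3` as `al3 < 1`).  So each is `Ff`.
Total: `2 Ff Ff' - (1/3) * 3 * Ff Ff' = Ff Ff'`.
-/

namespace Vale.Agent.P154

open Finset

variable {ι κ : Type} [Fintype ι] [Fintype κ] {w : ι → ℝ} {e : ι → Fin 3 → ℝ} {v : κ → ℝ}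
  {g : κ → Fin 3 → ℝ}

theorem hq3_rot (x y z : ℝ) : hq3 y z x = hq3 x y z := by
  unfold hq3 al3
  have h1 : (1 + y) * (1 + z) * (1 + x) = (1 + x) * (1 + y) * (1 + z) := by ring
  have h2 : y ^ 2 + z ^ 2 + x ^ 2 = x ^ 2 + y ^ 2 + z ^ 2 := by ring
  rw [h1, h2]

theorem hq3_mul (x y z : ℝ) (hlt : al3 x y z < 1) :
    hq3 x y z * (1 - al3 x y z) = ph3 x y z := by
  unfold hq3 ph3
  have hne : (1 - al3 x y z) ≠ 0 := by
    intro h0
    linarith
  field_simp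

theorem Good.hq_u (h : Good w e) (he : Inter e) :
    (∑ η, w η * (hq3 (e η 0) (e η 1) (e η 2) * ((1 + e η 1) * (1 + e η 2))) = Ff w e) ∧
    (∑ η, w η * (hq3 (e η 0) (e η 1) (e η 2) * ((1 + e η 2) * (1 + e η 0))) = Ff w e) ∧
    (∑ η, w η * (hq3 (e η 0) (e η 1) (e η 2) * ((1 + e η 0) * (1 + e η 1))) = Ff w e) := by
  have r1 : ∑ η, w η * (hq3 (e η 0) (e η 1) (e η 2) * ((1 + e η 1) * (1 + e η 2))) =
      ∑ η, w η * (hq3 (e η 0) (e η 1) (e η 2) * ((1 + e η 2) * (1 + e η 0))) := by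
    have := h.rot (fun x y z => hq3 x y z * ((1 + y) * (1 + z)))
    simp only [hq3_rot] at this
    exact this
  have r2 : ∑ η, w η * (hq3 (e η 0) (e η 1) (e η 2) * ((1 + e η 2) * (1 + e η 0))) =
      ∑ η, w η * (hq3 (e η 0) (e η 1) (e η 2) * ((1 + e η 0) * (1 + e η 1))) := by
    have := h.rot (fun x y z => hq3 x y z * ((1 + z) * (1 + x)))
    simp only [hq3_rot] at this
    exact this
  have tot : ∑ η, w η * (hq3 (e η 0) (e η 1) (e η 2) * ((1 + e η 1) * (1 + e η 2))) +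
      ∑ η, w η * (hq3 (e η 0) (e η 1) (e η 2) * ((1 + e η 2) * (1 + e η 0))) +
      ∑ η, w η * (hq3 (e η 0) (e η 1) (e η 2) * ((1 + e η 0) * (1 + e η 1))) = 3 * Ff w e := by
    unfold Ff
    rw [← Finset.sum_add_distrib, ← Finset.sum_add_distrib, Finset.mul_sum]
    apply Finset.sum_congr rfl
    intro η _
    have hlt := al3_lt_one _ _ _ (h.zero η) (he η 0) (he η 1) (he η 2)
    have hm := hq3_mul _ _ _ hlt
    have hq := one_sub_al3 _ _ _ (h.zero η)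
    rw [← hm, hq]
    ring
  refine ⟨?_, ?_, ?_⟩ <;> linarith

theorem Good.F_merge (h : Good w e) (k : Good v g) (he : Inter e) (hg : Inter g) :
    Ff w e * Ff v g ≤ Ff (wM w v e g) (eM e g) := by
  obtain ⟨a0, a1, a2⟩ := h.hq_u he
  obtain ⟨b0, b1, b2⟩ := k.hq_u hg
  have key : ∑ x, ∑ y, w x * v y *
      (2 * ph3 (e x 0) (e x 1) (e x 2) * ph3 (g y 0) (g y 1) (g y 2)
        - hq3 (e x 0) (e x 1) (e x 2) * hq3 (g y 0) (g y 1) (g y 2)
          * sm3 (e x 0) (e x 1) (e x 2) (g y 0) (g y 1) (g y 2)) =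
      2 * ((∑ x, w x * ph3 (e x 0) (e x 1) (e x 2)) * (∑ y, v y * ph3 (g y 0) (g y 1) (g y 2)))
      - 1 / 3 *
        ((∑ η, w η * (hq3 (e η 0) (e η 1) (e η 2) * ((1 + e η 1) * (1 + e η 2)))) *
            (∑ η, v η * (hq3 (g η 0) (g η 1) (g η 2) * ((1 + g η 1) * (1 + g η 2))))
          + (∑ η, w η * (hq3 (e η 0) (e η 1) (e η 2) * ((1 + e η 2) * (1 + e η 0)))) *
            (∑ η, v η * (hq3 (g η 0) (g η 1) (g η 2) * ((1 + g η 2) * (1 + g η 0))))
          + (∑ η, w η * (hq3 (e η 0) (e η 1) (e η 2) * ((1 + e η 0) * (1 + e η 1)))) *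
            (∑ η, v η * (hq3 (g η 0) (g η 1) (g η 2) * ((1 + g η 0) * (1 + g η 1))))) := by
    rw [Finset.sum_mul_sum, Finset.sum_mul_sum, Finset.sum_mul_sum, Finset.sum_mul_sum,
      ← Finset.sum_add_distrib, ← Finset.sum_add_distrib, Finset.mul_sum, Finset.mul_sum,
      ← Finset.sum_sub_distrib]
    apply Finset.sum_congr rfl
    intro x _
    rw [← Finset.sum_add_distrib, ← Finset.sum_add_distrib, Finset.mul_sum, Finset.mul_sum,
      ← Finset.sum_sub_distrib]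
    apply Finset.sum_congr rfl
    intro y _
    simp only [sm3]
    ring
  have low : ∑ x, ∑ y, w x * v y *
      (2 * ph3 (e x 0) (e x 1) (e x 2) * ph3 (g y 0) (g y 1) (g y 2)
        - hq3 (e x 0) (e x 1) (e x 2) * hq3 (g y 0) (g y 1) (g y 2)
          * sm3 (e x 0) (e x 1) (e x 2) (g y 0) (g y 1) (g y 2)) ≤
      Ff (wM w v e g) (eM e g) := by
    unfold Ff
    rw [sum_wM w v e g ph3]
    apply Finset.sum_le_sum
    intro x _
    apply Finset.sum_le_sum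
    intro y _
    apply mul_le_mul_of_nonneg_left _ (mul_pos (h.pos x) (k.pos y)).le
    exact harm_pt _ _ _ _ _ _ (h.zero x) (k.zero y) (he x 0) (he x 1) (he x 2)
      (hg y 0) (hg y 1) (hg y 2)
  rw [key, a0, a1, a2, b0, b1, b2] at low
  have e1 : (∑ x, w x * ph3 (e x 0) (e x 1) (e x 2)) = Ff w e := rfl
  have e2 : (∑ y, v y * ph3 (g y 0) (g y 1) (g y 2)) = Ff v g := rfl
  rw [e1, e2] at low
  linarith

end Vale.Agent.P154
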