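import Vale.Agent.P154.Gen.Fam2
import Vale.Agent.P154.FamStep

/-!
# P154 (all d): the merged experiment is again `Good`

This is `FamStep` (`Good.step`) for two different experiments and without the channel; the proof there can be copied almost
verbatim (`Good.mean_zero`, `Good.rot2` have to be restated for two families `(w, e)` on `ι` and `(v, g)` on `κ`).
* `ZM_pos`: `Z3_pos`.
* `pos`: product of positives.  `tot`: `∑ w v (1 + (1/3) ∑ i, e i g i) = 1 + (1/3) ∑ i (∑ w e i)(∑ v g i) = 1` (`Good.mean_zero`).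
* `zero`: `∑ i (1 + e i)(1 + g i) = 3 Z`.   `ge` and `Inter.merge`: `(1 + e i)(1 + g i) / Z > 0`.
* `rot`, `swp`: simultaneous rotation / transposition of both arguments (apply `h.rot` in `η` for fixed `ξ`, then `k.rot` in `ξ`).
-/

namespace Vale.Agent.P154

open Finset

variable {ι κ : Type} [Fintype ι] [Fintype κ] {w : ι → ℝ} {e : ι → Fin 3 → ℝ} {v : κ → ℝ}
  {g : κ → Fin 3 → ℝ}

theorem ZM_pos (h : Good w e) (k : Good v g) (he : Inter e) (hg : Inter g) (p : ι × κ) :
    0 < ZM e g p := by
  unfold ZM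
  exact Z3_pos _ _ _ _ _ _ (h.zero p.1) (k.zero p.2) (he p.1 0) (he p.1 1) (he p.1 2)
    (hg p.2 0) (hg p.2 1) (hg p.2 2)

/-- simultaneous rotation in a double sum over two families -/
theorem Good.rotM (h : Good w e) (k : Good v g) (H : ℝ → ℝ → ℝ → ℝ → ℝ → ℝ → ℝ) :
    ∑ x, ∑ y, w x * v y * H (e x 0) (e x 1) (e x 2) (g y 0) (g y 1) (g y 2) =
      ∑ x, ∑ y, w x * v y * H (e x 1) (e x 2) (e x 0) (g y 1) (g y 2) (g y 0) := by
  calc ∑ x, ∑ y, w x * v y * H (e x 0) (e x 1) (e x 2) (g y 0) (g y 1) (g y 2)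
      = ∑ x, w x * ∑ y, v y * H (e x 0) (e x 1) (e x 2) (g y 0) (g y 1) (g y 2) := by
        apply Finset.sum_congr rfl
        intro x _
        rw [Finset.mul_sum]
        apply Finset.sum_congr rfl
        intro y _
        ring
    _ = ∑ x, w x * ∑ y, v y * H (e x 0) (e x 1) (e x 2) (g y 1) (g y 2) (g y 0) := by
        apply Finset.sum_congr rfl
        intro x _
        rw [k.rot (fun a b c => H (e x 0) (e x 1) (e x 2) a b c)]
    _ = ∑ y, v y * ∑ x, w x * H (e x 0) (e x 1) (e x 2) (g y 1) (g y 2) (g y 0) := by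
        simp only [Finset.mul_sum]
        rw [Finset.sum_comm]
        apply Finset.sum_congr rfl
        intro y _
        apply Finset.sum_congr rfl
        intro x _
        ring
    _ = ∑ y, v y * ∑ x, w x * H (e x 1) (e x 2) (e x 0) (g y 1) (g y 2) (g y 0) := by
        apply Finset.sum_congr rfl
        intro y _
        rw [h.rot (fun a b c => H a b c (g y 1) (g y 2) (g y 0))]
    _ = ∑ x, ∑ y, w x * v y * H (e x 1) (e x 2) (e x 0) (g y 1) (g y 2) (g y 0) := by
        simp only [Finset.mul_sum]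
        rw [Finset.sum_comm]
        apply Finset.sum_congr rfl
        intro y _
        apply Finset.sum_congr rfl
        intro x _
        ring

/-- simultaneous transposition in a double sum over two families -/
theorem Good.swpM (h : Good w e) (k : Good v g) (H : ℝ → ℝ → ℝ → ℝ → ℝ → ℝ → ℝ) :
    ∑ x, ∑ y, w x * v y * H (e x 0) (e x 1) (e x 2) (g y 0) (g y 1) (g y 2) =
      ∑ x, ∑ y, w x * v y * H (e x 0) (e x 2) (e x 1) (g y 0) (g y 2) (g y 1) := by
  calc ∑ x, ∑ y, w x * v y * H (e x 0) (e x 1) (e x 2) (g y 0) (g y 1) (g y 2)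
      = ∑ x, w x * ∑ y, v y * H (e x 0) (e x 1) (e x 2) (g y 0) (g y 1) (g y 2) := by
        apply Finset.sum_congr rfl
        intro x _
        rw [Finset.mul_sum]
        apply Finset.sum_congr rfl
        intro y _
        ring
    _ = ∑ x, w x * ∑ y, v y * H (e x 0) (e x 1) (e x 2) (g y 0) (g y 2) (g y 1) := by
        apply Finset.sum_congr rfl
        intro x _
        rw [k.swp (fun a b c => H (e x 0) (e x 1) (e x 2) a b c)]
    _ = ∑ y, v y * ∑ x, w x * H (e x 0) (e x 1) (e x 2) (g y 0) (g y 2) (g y 1) := by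
        simp only [Finset.mul_sum]
        rw [Finset.sum_comm]
        apply Finset.sum_congr rfl
        intro y _
        apply Finset.sum_congr rfl
        intro x _
        ring
    _ = ∑ y, v y * ∑ x, w x * H (e x 0) (e x 2) (e x 1) (g y 0) (g y 2) (g y 1) := by
        apply Finset.sum_congr rfl
        intro y _
        rw [h.swp (fun a b c => H a b c (g y 0) (g y 2) (g y 1))]
    _ = ∑ x, ∑ y, w x * v y * H (e x 0) (e x 2) (e x 1) (g y 0) (g y 2) (g y 1) := by
        simp only [Finset.mul_sum]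
        rw [Finset.sum_comm]
        apply Finset.sum_congr rfl
        intro y _
        apply Finset.sum_congr rfl
        intro x _
        ring

/-- the kernel of the merged experiment as a function of six real variables -/
noncomputable def mergeKer (f : ℝ → ℝ → ℝ → ℝ) (x0 x1 x2 y0 y1 y2 : ℝ) : ℝ :=
  Z3 x0 x1 x2 y0 y1 y2 *
    f ((1 + x0) * (1 + y0) / Z3 x0 x1 x2 y0 y1 y2 - 1)
      ((1 + x1) * (1 + y1) / Z3 x0 x1 x2 y0 y1 y2 - 1)
      ((1 + x2) * (1 + y2) / Z3 x0 x1 x2 y0 y1 y2 - 1)

theorem sum_wM (w : ι → ℝ) (v : κ → ℝ) (e : ι → Fin 3 → ℝ) (g : κ → Fin 3 → ℝ)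
    (f : ℝ → ℝ → ℝ → ℝ) :
    ∑ p, wM w v e g p * f (eM e g p 0) (eM e g p 1) (eM e g p 2) =
      ∑ x, ∑ y, w x * v y * mergeKer f (e x 0) (e x 1) (e x 2) (g y 0) (g y 1) (g y 2) := by
  rw [Fintype.sum_prod_type]
  apply Finset.sum_congr rfl
  intro x _
  apply Finset.sum_congr rfl
  intro y _
  simp only [wM, eM, ZM, mergeKer]
  ring

theorem Good.merge (h : Good w e) (k : Good v g) (he : Inter e) (hg : Inter g) :
    Good (wM w v e g) (eM e g) := by
  have hZ := ZM_pos h k he hg
  obtain ⟨m0, m1, m2⟩ := h.mean_zero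
  refine ⟨?_, ?_, ?_, ?_, ?_, ?_⟩
  · intro p
    unfold wM
    exact mul_pos (mul_pos (h.pos _) (k.pos _)) (hZ p)
  · rw [Fintype.sum_prod_type]
    have key : ∑ x, ∑ y, wM w v e g (x, y) =
        (∑ x, w x) * (∑ y, v y) + 1 / 3 *
          ((∑ x, w x * e x 0) * (∑ y, v y * g y 0) + (∑ x, w x * e x 1) * (∑ y, v y * g y 1)
            + (∑ x, w x * e x 2) * (∑ y, v y * g y 2)) := by
      rw [Finset.sum_mul_sum, Finset.sum_mul_sum, Finset.sum_mul_sum, Finset.sum_mul_sum,
        ← Finset.sum_add_distrib, ← Finset.sum_add_distrib, Finset.mul_sum,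
        ← Finset.sum_add_distrib]
      apply Finset.sum_congr rfl
      intro x _
      rw [← Finset.sum_add_distrib, ← Finset.sum_add_distrib, Finset.mul_sum,
        ← Finset.sum_add_distrib]
      apply Finset.sum_congr rfl
      intro y _
      simp only [wM, ZM, Z3]
      ring
    rw [key, h.tot, k.tot, m0, m1, m2]
    ring
  · intro p
    have hp := hZ p
    have z1 := h.zero p.1
    have z2 := k.zero p.2
    have e3 : (1 + e p.1 0) * (1 + g p.2 0) + (1 + e p.1 1) * (1 + g p.2 1)
        + (1 + e p.1 2) * (1 + g p.2 2) = 3 * ZM e g p := by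
      simp only [ZM, Z3]
      have a1 : e p.1 2 = - e p.1 0 - e p.1 1 := by linarith
      have a2 : g p.2 2 = - g p.2 0 - g p.2 1 := by linarith
      rw [a1, a2]
      ring
    simp only [eM]
    have : (1 + e p.1 0) * (1 + g p.2 0) / ZM e g p - 1
        + ((1 + e p.1 1) * (1 + g p.2 1) / ZM e g p - 1)
        + ((1 + e p.1 2) * (1 + g p.2 2) / ZM e g p - 1)
        = ((1 + e p.1 0) * (1 + g p.2 0) + (1 + e p.1 1) * (1 + g p.2 1)
        + (1 + e p.1 2) * (1 + g p.2 2)) / ZM e g p - 3 := by ring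
    rw [this, e3]
    field_simp
    ring
  · intro p i
    have hp := hZ p
    have d1 := he p.1 i
    have d2 := hg p.2 i
    simp only [eM]
    have : 0 ≤ (1 + e p.1 i) * (1 + g p.2 i) / ZM e g p := by
      apply div_nonneg _ hp.le
      apply mul_nonneg <;> linarith
    linarith
  · intro f
    rw [sum_wM, sum_wM w v e g (fun a b c => f b c a), h.rotM k]
    apply Finset.sum_congr rfl
    intro x _
    apply Finset.sum_congr rfl
    intro y _
    simp only [mergeKer, Z3_rot]
  · intro f
    rw [sum_wM, sum_wM w v e g (fun a b c => f a c b), h.swpM k]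
    apply Finset.sum_congr rfl
    intro x _
    apply Finset.sum_congr rfl
    intro y _
    simp only [mergeKer, Z3_swp]

theorem Inter.merge (h : Good w e) (k : Good v g) (he : Inter e) (hg : Inter g) :
    Inter (eM e g) := by
  intro p i
  have hp := ZM_pos h k he hg p
  have d1 := he p.1 i
  have d2 := hg p.2 i
  simp only [eM]
  have : 0 < (1 + e p.1 i) * (1 + g p.2 i) / ZM e g p := by
    apply div_pos _ hp
    apply mul_pos <;> linarith
  linarith

end Vale.Agent.P154
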