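import Vale.Agent.P154.Gen.MergeX
import Vale.Agent.P154.Gen.MergeF

/-!
# P154 (all d): the class `0 ≤ Hf` is stable under merging

* `Good.Ff_eq`: `ph3_eq` termwise and `∑ w = 1`:  `Ff = 2 Hf + 1 - 2 Xf`.   `Good.Ff_nonneg`: `ph3_nonneg`.   `Good.Pf_nonneg`: `p03_nonneg`, `al3_le_one`.
* `Good.H_merge`: write `F = Ff w e`, `F' = Ff v g`, `x = Xf w e`, `x' = Xf v g`, and `H''`, `F''`, `x''` for the merged experiment (which is `Good` and `Inter`).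
  `2 H'' = F'' - 1 + 2 x'' ≥ F F' - 1 + 2 (x + x' - 2 x x') = F F' - (1 - 2x)(1 - 2x')`, and with `F = 2H + 1 - 2x`, `F' = 2H' + 1 - 2x'`:
  `F F' - (1 - 2x)(1 - 2x') = 2 H' F + 2 H (1 - 2 x') ≥ 0`.
-/

namespace Vale.Agent.P154

open Finset

variable {ι κ : Type} [Fintype ι] [Fintype κ] {w : ι → ℝ} {e : ι → Fin 3 → ℝ} {v : κ → ℝ}
  {g : κ → Fin 3 → ℝ}

theorem Good.Ff_eq (h : Good w e) (he : Inter e) : Ff w e = 2 * Hf w e + 1 - 2 * Xf w e := by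
  unfold Ff Hf Xf
  have h1 : ∀ η, w η * ph3 (e η 0) (e η 1) (e η 2) =
      2 * (w η * ah3 (e η 0) (e η 1) (e η 2)) + w η - 2 * (w η * al3 (e η 0) (e η 1) (e η 2)) := by
    intro η
    rw [ph3_eq _ _ _ (h.zero η) (al3_lt_one _ _ _ (h.zero η) (he η 0) (he η 1) (he η 2))]
    ring
  simp only [h1]
  rw [Finset.sum_sub_distrib, Finset.sum_add_distrib, ← Finset.mul_sum, ← Finset.mul_sum, h.tot]

theorem Good.Ff_nonneg (h : Good w e) (he : Inter e) : 0 ≤ Ff w e := by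
  unfold Ff
  exact Finset.sum_nonneg fun η _ => mul_nonneg (h.pos η).le
    (ph3_nonneg _ _ _ (h.zero η) (he η 0) (he η 1) (he η 2))

theorem Good.Pf_nonneg (h : Good w e) : 0 ≤ Pf w e := by
  unfold Pf
  exact Finset.sum_nonneg fun η _ => mul_nonneg (h.pos η).le
    (p03_nonneg _ (al3_nonneg _ _ _)
      (al3_le_one _ _ _ (h.zero η) (h.ge η 0) (h.ge η 1) (h.ge η 2)))

theorem Good.Xf_le_half (k : Good v g) (hb : ∀ ξ, al3 (g ξ 0) (g ξ 1) (g ξ 2) ≤ 1 / 2) :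
    Xf v g ≤ 1 / 2 := by
  unfold Xf
  calc ∑ ξ, v ξ * al3 (g ξ 0) (g ξ 1) (g ξ 2) ≤ ∑ ξ, v ξ * (1 / 2) :=
        Finset.sum_le_sum fun ξ _ => mul_le_mul_of_nonneg_left (hb ξ) (k.pos ξ).le
    _ = 1 / 2 := by rw [← Finset.sum_mul, k.tot, one_mul]

theorem Good.H_merge (h : Good w e) (k : Good v g) (he : Inter e) (hg : Inter g)
    (hb : ∀ ξ, al3 (g ξ 0) (g ξ 1) (g ξ 2) ≤ 1 / 2) (hH : 0 ≤ Hf w e) (hH' : 0 ≤ Hf v g) :
    0 ≤ Hf (wM w v e g) (eM e g) := by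
  have e1 := h.Ff_eq he
  have e2 := k.Ff_eq hg
  have e3 := (h.merge k he hg).Ff_eq (Inter.merge h k he hg)
  have f1 := h.Ff_nonneg he
  have m1 := h.F_merge k he hg
  have m2 := h.X_merge_ge k he hg hb
  have x2 := k.Xf_le_half hb
  have p1 : 0 ≤ Hf v g * Ff w e := mul_nonneg hH' f1
  have p2 : 0 ≤ Hf w e * (1 - 2 * Xf v g) := mul_nonneg hH (by linarith)
  have id1 : Ff w e * Ff v g - (1 - 2 * Xf w e) * (1 - 2 * Xf v g) =
      2 * (Hf v g * Ff w e) + 2 * (Hf w e * (1 - 2 * Xf v g)) := by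
    rw [e2]
    have : Ff w e - (1 - 2 * Xf w e) = 2 * Hf w e := by rw [e1]; ring
    linear_combination (1 - 2 * Xf v g) * this
  nlinarith

/-- the form of the upper bound used in the induction -/
theorem Good.X_merge_le' (h : Good w e) (k : Good v g) (he : Inter e) (hg : Inter g)
    (hb : ∀ ξ, al3 (g ξ 0) (g ξ 1) (g ξ 2) ≤ 1 / 2) (hH : 0 ≤ Hf w e) (hH' : 0 ≤ Hf v g) :
    Xf (wM w v e g) (eM e g) ≤ Xf w e + Xf v g - 1 / 10 * Xf w e * Xf v g := by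
  have m := h.X_merge_le k he hg hb
  have p1 : 0 ≤ Pf v g * Hf w e := mul_nonneg k.Pf_nonneg hH
  have p2 : 0 ≤ Pf w e * Hf v g := mul_nonneg h.Pf_nonneg hH'
  linarith

end Vale.Agent.P154
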