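import Vale.Agent.P154.Gen.UpKey2

/-!
# P154 (all d): upper bound for `K2` summed over the rotations / the six permutations

`a`, `b` sum-zero vectors with entries `> -1`, `al3 b ≤ 1/2`.  Put `r = √(al3 a)`, `s = √(al3 b)` (`Real.sq_sqrt`, `al3_nonneg`), `A = cu3 a`, `B = cu3 b`,
`U = A B + dl3 a dl3 b / 108`.
* `|A| ≤ r^3`: `A^2 ≤ al^3 = (r^3)^2` (`cu3_sq_le`, `abs_le_of_sq_le_sq`).
* `U_le`: by `cube_id`, `al^3 = A^2 + da^2/108`, `be^3 = B^2 + db^2/108`; Cauchy-Schwarz `(A B + da db/108)^2 ≤ al^3 be^3 = (r^3 s^3)^2`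
  (difference `= (A db - B da)^2 / 108`).
* `r < 1` from `al3_lt_one`; `s ≤ 5/7` from `s^2 ≤ 1/2 ≤ (5/7)^2`.
* `hP`, `hPw`: `prod_eq` and positivity of the three factors.  `DF > 0`: `DF_eq` and `Z3_pos`.
* `rot_up`: `rot_sum` and `up_key` (rewrite `r^2 = al3 a`, `s^2 = al3 b`, unfold `ah3`).
* `key_up`: `S6` is the sum over the rotations of `b` plus the sum over the rotations of `(b0, b2, b1)`; `al3`, `cu3`, `ah3` are symmetric.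
-/

namespace Vale.Agent.P154

theorem U_le (a0 a1 a2 b0 b1 b2 : ℝ) (ha : a0 + a1 + a2 = 0) (hb : b0 + b1 + b2 = 0) :
    cu3 a0 a1 a2 * cu3 b0 b1 b2 + dl3 a0 a1 a2 * dl3 b0 b1 b2 / 108 ≤
      Real.sqrt (al3 a0 a1 a2) ^ 3 * Real.sqrt (al3 b0 b1 b2) ^ 3 := by
  have h1 := cube_id a0 a1 a2 ha
  have h2 := cube_id b0 b1 b2 hb
  have hr := Real.sq_sqrt (al3_nonneg a0 a1 a2)
  have hs := Real.sq_sqrt (al3_nonneg b0 b1 b2)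
  have hr0 := Real.sqrt_nonneg (al3 a0 a1 a2)
  have hs0 := Real.sqrt_nonneg (al3 b0 b1 b2)
  generalize Real.sqrt (al3 a0 a1 a2) = r at *
  generalize Real.sqrt (al3 b0 b1 b2) = s at *
  generalize al3 a0 a1 a2 = al at *
  generalize al3 b0 b1 b2 = be at *
  generalize cu3 a0 a1 a2 = A at *
  generalize cu3 b0 b1 b2 = B at *
  generalize dl3 a0 a1 a2 = da at *
  generalize dl3 b0 b1 b2 = db at *
  have hsq : (A * B + da * db / 108) ^ 2 ≤ (r ^ 3 * s ^ 3) ^ 2 := by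
    have e1 : (r ^ 3 * s ^ 3) ^ 2 = al ^ 3 * be ^ 3 := by
      rw [← hr, ← hs]; ring
    have e2 : al ^ 3 = A ^ 2 + da ^ 2 / 108 := by linarith
    have e3 : be ^ 3 = B ^ 2 + db ^ 2 / 108 := by linarith
    rw [e1, e2, e3]
    have : (A ^ 2 + da ^ 2 / 108) * (B ^ 2 + db ^ 2 / 108) - (A * B + da * db / 108) ^ 2
        = (A * db - B * da) ^ 2 / 108 := by ring
    have h3 : 0 ≤ (A * db - B * da) ^ 2 / 108 := by positivity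
    linarith
  exact le_trans (le_abs_self _) (abs_le_of_sq_le_sq hsq (by positivity))

/-- `|cu3| ≤ (sqrt al3)^3`. -/
theorem cu3_abs_le (a0 a1 a2 : ℝ) (ha : a0 + a1 + a2 = 0) :
    |cu3 a0 a1 a2| ≤ Real.sqrt (al3 a0 a1 a2) ^ 3 := by
  have h1 := cu3_sq_le a0 a1 a2 ha
  have hr := Real.sq_sqrt (al3_nonneg a0 a1 a2)
  have hr0 := Real.sqrt_nonneg (al3 a0 a1 a2)
  apply abs_le_of_sq_le_sq _ (by positivity)
  have e1 : (Real.sqrt (al3 a0 a1 a2) ^ 3) ^ 2 = (Real.sqrt (al3 a0 a1 a2) ^ 2) ^ 3 := by ring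
  rw [e1, hr]
  exact h1

theorem rot_up (a0 a1 a2 b0 b1 b2 : ℝ) (ha : a0 + a1 + a2 = 0) (hb : b0 + b1 + b2 = 0)
    (ha0 : -1 < a0) (ha1 : -1 < a1) (ha2 : -1 < a2) (hb0 : -1 < b0) (hb1 : -1 < b1) (hb2 : -1 < b2)
    (hbe : al3 b0 b1 b2 ≤ 1 / 2) :
    K2 a0 a1 a2 b0 b1 b2 + K2 a0 a1 a2 b1 b2 b0 + K2 a0 a1 a2 b2 b0 b1 ≤
      3 * (al3 a0 a1 a2 + al3 b0 b1 b2 - 1 / 10 * al3 a0 a1 a2 * al3 b0 b1 b2
        - p03 (al3 b0 b1 b2) * ah3 a0 a1 a2 - p03 (al3 a0 a1 a2) * ah3 b0 b1 b2) := by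
  have z1 := Z3_pos a0 a1 a2 b0 b1 b2 ha hb ha0 ha1 ha2 hb0 hb1 hb2
  have z2 := Z3_pos a0 a1 a2 b1 b2 b0 ha (by linarith) ha0 ha1 ha2 hb1 hb2 hb0
  have z3 := Z3_pos a0 a1 a2 b2 b0 b1 ha (by linarith) ha0 ha1 ha2 hb2 hb0 hb1
  have r1 := rot_sum a0 a1 a2 b0 b1 b2 ha hb z1 z2 z3
  have d1 := DF_eq a0 a1 a2 b0 b1 b2 ha hb
  have p1 : 0 < Z3 a0 a1 a2 b0 b1 b2 * Z3 a0 a1 a2 b1 b2 b0 * Z3 a0 a1 a2 b2 b0 b1 :=
    mul_pos (mul_pos z1 z2) z3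
  rw [d1] at p1
  have hU := U_le a0 a1 a2 b0 b1 b2 ha hb
  have hAabs := abs_le.1 (cu3_abs_le a0 a1 a2 ha)
  have hBabs := abs_le.1 (cu3_abs_le b0 b1 b2 hb)
  have hr := Real.sq_sqrt (al3_nonneg a0 a1 a2)
  have hs := Real.sq_sqrt (al3_nonneg b0 b1 b2)
  have hr0 := Real.sqrt_nonneg (al3 a0 a1 a2)
  have hs0 := Real.sqrt_nonneg (al3 b0 b1 b2)
  have hal1 := al3_lt_one a0 a1 a2 ha ha0 ha1 ha2
  have hPa : 0 ≤ 1 - 3 * al3 a0 a1 a2 + 2 * cu3 a0 a1 a2 := by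
    rw [← prod_eq a0 a1 a2 ha]
    exact mul_nonneg (mul_nonneg (by linarith) (by linarith)) (by linarith)
  have hPb : 0 ≤ 1 - 3 * al3 b0 b1 b2 + 2 * cu3 b0 b1 b2 := by
    rw [← prod_eq b0 b1 b2 hb]
    exact mul_nonneg (mul_nonneg (by linarith) (by linarith)) (by linarith)
  rw [r1]
  unfold ah3
  generalize cu3 a0 a1 a2 * cu3 b0 b1 b2 + dl3 a0 a1 a2 * dl3 b0 b1 b2 / 108 = U at *
  generalize cu3 a0 a1 a2 = A at *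
  generalize cu3 b0 b1 b2 = B at *
  generalize Real.sqrt (al3 a0 a1 a2) = r at *
  generalize Real.sqrt (al3 b0 b1 b2) = s at *
  clear r1 d1
  generalize al3 a0 a1 a2 = al at *
  generalize al3 b0 b1 b2 = be at *
  subst hr
  subst hs
  have hr1 : r < 1 := by nlinarith
  have hs1 : s ≤ 5 / 7 := by nlinarith
  have hk := up_key r s A B U hr0 hr1 hs0 hs1 hAabs.1 hAabs.2 hBabs.1 hBabs.2 hU hPa hPb p1
  linarith

theorem key_up (a0 a1 a2 b0 b1 b2 : ℝ) (ha : a0 + a1 + a2 = 0) (hb : b0 + b1 + b2 = 0)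
    (ha0 : -1 < a0) (ha1 : -1 < a1) (ha2 : -1 < a2) (hb0 : -1 < b0) (hb1 : -1 < b1) (hb2 : -1 < b2)
    (hbe : al3 b0 b1 b2 ≤ 1 / 2) :
    S6 (K2 a0 a1 a2) b0 b1 b2 ≤
      6 * (al3 a0 a1 a2 + al3 b0 b1 b2 - 1 / 10 * al3 a0 a1 a2 * al3 b0 b1 b2
        - p03 (al3 b0 b1 b2) * ah3 a0 a1 a2 - p03 (al3 a0 a1 a2) * ah3 b0 b1 b2) := by
  have sal : al3 b0 b2 b1 = al3 b0 b1 b2 := by unfold al3; ring
  have scu : cu3 b0 b2 b1 = cu3 b0 b1 b2 := by unfold cu3; ring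
  have sah : ah3 b0 b2 b1 = ah3 b0 b1 b2 := by unfold ah3; rw [sal, scu]
  have h1 := rot_up a0 a1 a2 b0 b1 b2 ha hb ha0 ha1 ha2 hb0 hb1 hb2 hbe
  have h2 := rot_up a0 a1 a2 b0 b2 b1 ha (by linarith) ha0 ha1 ha2 hb0 hb2 hb1 (by rw [sal]; exact hbe)
  rw [sal, sah] at h2
  have hS : S6 (K2 a0 a1 a2) b0 b1 b2 =
      (K2 a0 a1 a2 b0 b1 b2 + K2 a0 a1 a2 b1 b2 b0 + K2 a0 a1 a2 b2 b0 b1)
        + (K2 a0 a1 a2 b0 b2 b1 + K2 a0 a1 a2 b2 b1 b0 + K2 a0 a1 a2 b1 b0 b2) := by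
    unfold S6; ring
  rw [hS]
  linarith

end Vale.Agent.P154
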