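import Vale.Agent.P154.Gen.MergeGood
import Vale.Agent.P154.Gen.UpRot
import Vale.Agent.P154.Gen.LowRot

/-!
# P154 (all d): the second moment of a merged experiment

`Xf (wM ..) (eM ..) = ∑ η, ∑ ξ, w η v ξ K2 (e η) (g ξ)`  (`Fintype.sum_prod_type`, definition of `K2`).  For fixed `η`, `Good.six` for `(v, g)` with
`f = K2 (e η)` replaces `K2 (e η) (g ξ)` by `(1/6) S6 (K2 (e η)) (g ξ)`.  Then `key_up` / `key_low` termwise (weights `≥ 0`) and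
`∑ w = 1`, `∑ v = 1`, `Finset.sum_mul_sum`.   Compare `FamX` (`Good.X_step`), which has the same structure.
-/

namespace Vale.Agent.P154

open Finset

variable {ι κ : Type} [Fintype ι] [Fintype κ] {w : ι → ℝ} {e : ι → Fin 3 → ℝ} {v : κ → ℝ}
  {g : κ → Fin 3 → ℝ}

theorem Xf_merge_eq (k : Good v g) (w : ι → ℝ) (e : ι → Fin 3 → ℝ) :
    Xf (wM w v e g) (eM e g) =
      ∑ η, ∑ ξ, w η * v ξ * ((1 / 6) * S6 (K2 (e η 0) (e η 1) (e η 2)) (g ξ 0) (g ξ 1) (g ξ 2)) := by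
  unfold Xf
  rw [Fintype.sum_prod_type]
  refine Finset.sum_congr rfl fun η _ => ?_
  have hs := k.six (K2 (e η 0) (e η 1) (e η 2))
  have h1 : ∑ ξ, wM w v e g (η, ξ) * al3 (eM e g (η, ξ) 0) (eM e g (η, ξ) 1) (eM e g (η, ξ) 2) =
      w η * ∑ ξ, v ξ * K2 (e η 0) (e η 1) (e η 2) (g ξ 0) (g ξ 1) (g ξ 2) := by
    rw [Finset.mul_sum]
    refine Finset.sum_congr rfl fun ξ _ => ?_
    simp only [wM, eM, ZM, K2]
    ring
  rw [h1, hs, Finset.mul_sum, Finset.mul_sum]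
  refine Finset.sum_congr rfl fun ξ _ => ?_
  ring

/-- double sum of a bilinear expression in four functionals -/
theorem merge_sum_aux (w : ι → ℝ) (v : κ → ℝ) (hw : ∑ η, w η = 1) (hv : ∑ ξ, v ξ = 1)
    (p q r : ι → ℝ) (p' q' r' : κ → ℝ) (c : ℝ) :
    ∑ η, ∑ ξ, w η * v ξ * (p η + p' ξ - c * p η * p' ξ - q' ξ * r η - q η * r' ξ) =
      (∑ η, w η * p η) + (∑ ξ, v ξ * p' ξ) - c * (∑ η, w η * p η) * (∑ ξ, v ξ * p' ξ)
        - (∑ ξ, v ξ * q' ξ) * (∑ η, w η * r η) - (∑ η, w η * q η) * (∑ ξ, v ξ * r' ξ) := by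
  have hexp : ∀ η ξ, w η * v ξ * (p η + p' ξ - c * p η * p' ξ - q' ξ * r η - q η * r' ξ) =
      (w η * p η) * v ξ + w η * (v ξ * p' ξ) - c * ((w η * p η) * (v ξ * p' ξ))
        - (w η * r η) * (v ξ * q' ξ) - (w η * q η) * (v ξ * r' ξ) := by
    intro η ξ; ring
  simp only [hexp, Finset.sum_sub_distrib, Finset.sum_add_distrib, ← Finset.mul_sum,
    ← Finset.sum_mul, hw, hv]
  ring

theorem Good.X_merge_le (h : Good w e) (k : Good v g) (he : Inter e) (hg : Inter g)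
    (hb : ∀ ξ, al3 (g ξ 0) (g ξ 1) (g ξ 2) ≤ 1 / 2) :
    Xf (wM w v e g) (eM e g) ≤
      Xf w e + Xf v g - 1 / 10 * Xf w e * Xf v g - Pf v g * Hf w e - Pf w e * Hf v g := by
  rw [Xf_merge_eq k w e]
  have hterm : ∀ η ξ,
      w η * v ξ * ((1 / 6) * S6 (K2 (e η 0) (e η 1) (e η 2)) (g ξ 0) (g ξ 1) (g ξ 2)) ≤
      w η * v ξ * (al3 (e η 0) (e η 1) (e η 2) + al3 (g ξ 0) (g ξ 1) (g ξ 2)
        - 1 / 10 * al3 (e η 0) (e η 1) (e η 2) * al3 (g ξ 0) (g ξ 1) (g ξ 2)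
        - p03 (al3 (g ξ 0) (g ξ 1) (g ξ 2)) * ah3 (e η 0) (e η 1) (e η 2)
        - p03 (al3 (e η 0) (e η 1) (e η 2)) * ah3 (g ξ 0) (g ξ 1) (g ξ 2)) := by
    intro η ξ
    have hk := key_up _ _ _ _ _ _ (h.zero η) (k.zero ξ) (he η 0) (he η 1) (he η 2)
      (hg ξ 0) (hg ξ 1) (hg ξ 2) (hb ξ)
    refine mul_le_mul_of_nonneg_left ?_ (mul_nonneg (h.pos η).le (k.pos ξ).le)
    linarith
  have hsum := Finset.sum_le_sum (fun η (_ : η ∈ Finset.univ) =>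
    Finset.sum_le_sum (fun ξ (_ : ξ ∈ Finset.univ) => hterm η ξ))
  refine hsum.trans (le_of_eq ?_)
  exact merge_sum_aux w v h.tot k.tot (fun η => al3 (e η 0) (e η 1) (e η 2))
    (fun η => p03 (al3 (e η 0) (e η 1) (e η 2))) (fun η => ah3 (e η 0) (e η 1) (e η 2))
    (fun ξ => al3 (g ξ 0) (g ξ 1) (g ξ 2)) (fun ξ => p03 (al3 (g ξ 0) (g ξ 1) (g ξ 2)))
    (fun ξ => ah3 (g ξ 0) (g ξ 1) (g ξ 2)) (1 / 10)

theorem Good.X_merge_ge (h : Good w e) (k : Good v g) (he : Inter e) (hg : Inter g)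
    (hb : ∀ ξ, al3 (g ξ 0) (g ξ 1) (g ξ 2) ≤ 1 / 2) :
    Xf w e + Xf v g - 2 * Xf w e * Xf v g ≤ Xf (wM w v e g) (eM e g) := by
  rw [Xf_merge_eq k w e]
  have hterm : ∀ η ξ,
      w η * v ξ * (al3 (e η 0) (e η 1) (e η 2) + al3 (g ξ 0) (g ξ 1) (g ξ 2)
        - 2 * al3 (e η 0) (e η 1) (e η 2) * al3 (g ξ 0) (g ξ 1) (g ξ 2)
        - (0 : ℝ) * (0 : ℝ) - (0 : ℝ) * (0 : ℝ)) ≤
      w η * v ξ * ((1 / 6) * S6 (K2 (e η 0) (e η 1) (e η 2)) (g ξ 0) (g ξ 1) (g ξ 2)) := by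
    intro η ξ
    have hk := key_low _ _ _ _ _ _ (h.zero η) (k.zero ξ) (he η 0) (he η 1) (he η 2)
      (hg ξ 0) (hg ξ 1) (hg ξ 2) (hb ξ)
    refine mul_le_mul_of_nonneg_left ?_ (mul_nonneg (h.pos η).le (k.pos ξ).le)
    linarith
  have hsum := Finset.sum_le_sum (fun η (_ : η ∈ Finset.univ) =>
    Finset.sum_le_sum (fun ξ (_ : ξ ∈ Finset.univ) => hterm η ξ))
  refine le_trans (le_of_eq ?_) hsum
  have haux := merge_sum_aux w v h.tot k.tot (fun η => al3 (e η 0) (e η 1) (e η 2))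
    (fun _ => (0 : ℝ)) (fun _ => (0 : ℝ))
    (fun ξ => al3 (g ξ 0) (g ξ 1) (g ξ 2)) (fun _ => (0 : ℝ)) (fun _ => (0 : ℝ)) 2
  rw [haux]
  unfold Xf
  simp

end Vale.Agent.P154
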