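import Vale.Agent.P154.Gen.CG00
import Vale.Agent.P154.Gen.CG01
import Vale.Agent.P154.Gen.CG02
import Vale.Agent.P154.Gen.CG03
import Vale.Agent.P154.Gen.CG10
import Vale.Agent.P154.Gen.CG11
import Vale.Agent.P154.Gen.CG12
import Vale.Agent.P154.Gen.CG13
import Vale.Agent.P154.Gen.CG20
import Vale.Agent.P154.Gen.CG21
import Vale.Agent.P154.Gen.CG22
import Vale.Agent.P154.Gen.CG23
import Vale.Agent.P154.Gen.CG30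
import Vale.Agent.P154.Gen.CG31
import Vale.Agent.P154.Gen.CG32
import Vale.Agent.P154.Gen.CG33

namespace Vale.Agent.P154


theorem qG_row0 (x be y : ℝ) (hx0 : -(1 / 2) ≤ x) (hx1 : x ≤ 1) (hy0 : -(5 / 14) ≤ y) (hy1 : y ≤ 5 / 7)
    (hb1 : y ^ 2 ≤ be) (hb2 : be * (15 / 7 - 2 * y) ≤ 125 / 343) :
    0 ≤ bw0 (qG00 x y) (qG10 x y) (qG20 x y) (qG30 x y) (x ^ 2) (3 - 2 * x) 1 + bw0 (qG01 x y) (qG11 x y) (qG21 x y) (qG31 x y) (x ^ 2) (3 - 2 * x) 1 * be + bw0 (qG02 x y) (qG12 x y) (qG22 x y) (qG32 x y) (x ^ 2) (3 - 2 * x) 1 * be ^ 2 + bw0 (qG03 x y) (qG13 x y) (qG23 x y) (qG33 x y) (x ^ 2) (3 - 2 * x) 1 * be ^ 3 := by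
  apply cubic_bern _ _ _ _ be (y ^ 2) (15 / 7 - 2 * y) (125 / 343) (by linarith) (by linarith) (by linarith)
  · rw [← cG00_eq]; exact cG00_nonneg x y hx0 hx1 hy0 hy1
  · rw [← cG01_eq]; exact cG01_nonneg x y hx0 hx1 hy0 hy1
  · rw [← cG02_eq]; exact cG02_nonneg x y hx0 hx1 hy0 hy1
  · rw [← cG03_eq]; exact cG03_nonneg x y hx0 hx1 hy0 hy1

theorem qG_row1 (x be y : ℝ) (hx0 : -(1 / 2) ≤ x) (hx1 : x ≤ 1) (hy0 : -(5 / 14) ≤ y) (hy1 : y ≤ 5 / 7)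
    (hb1 : y ^ 2 ≤ be) (hb2 : be * (15 / 7 - 2 * y) ≤ 125 / 343) :
    0 ≤ bw1 (qG00 x y) (qG10 x y) (qG20 x y) (qG30 x y) (x ^ 2) (3 - 2 * x) 1 + bw1 (qG01 x y) (qG11 x y) (qG21 x y) (qG31 x y) (x ^ 2) (3 - 2 * x) 1 * be + bw1 (qG02 x y) (qG12 x y) (qG22 x y) (qG32 x y) (x ^ 2) (3 - 2 * x) 1 * be ^ 2 + bw1 (qG03 x y) (qG13 x y) (qG23 x y) (qG33 x y) (x ^ 2) (3 - 2 * x) 1 * be ^ 3 := by
  apply cubic_bern _ _ _ _ be (y ^ 2) (15 / 7 - 2 * y) (125 / 343) (by linarith) (by linarith) (by linarith)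
  · rw [← cG10_eq]; exact cG10_nonneg x y hx0 hx1 hy0 hy1
  · rw [← cG11_eq]; exact cG11_nonneg x y hx0 hx1 hy0 hy1
  · rw [← cG12_eq]; exact cG12_nonneg x y hx0 hx1 hy0 hy1
  · rw [← cG13_eq]; exact cG13_nonneg x y hx0 hx1 hy0 hy1

theorem qG_row2 (x be y : ℝ) (hx0 : -(1 / 2) ≤ x) (hx1 : x ≤ 1) (hy0 : -(5 / 14) ≤ y) (hy1 : y ≤ 5 / 7)
    (hb1 : y ^ 2 ≤ be) (hb2 : be * (15 / 7 - 2 * y) ≤ 125 / 343) :
    0 ≤ bw2 (qG00 x y) (qG10 x y) (qG20 x y) (qG30 x y) (x ^ 2) (3 - 2 * x) 1 + bw2 (qG01 x y) (qG11 x y) (qG21 x y) (qG31 x y) (x ^ 2) (3 - 2 * x) 1 * be + bw2 (qG02 x y) (qG12 x y) (qG22 x y) (qG32 x y) (x ^ 2) (3 - 2 * x) 1 * be ^ 2 + bw2 (qG03 x y) (qG13 x y) (qG23 x y) (qG33 x y) (x ^ 2) (3 - 2 * x) 1 * be ^ 3 := by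
  apply cubic_bern _ _ _ _ be (y ^ 2) (15 / 7 - 2 * y) (125 / 343) (by linarith) (by linarith) (by linarith)
  · rw [← cG20_eq]; exact cG20_nonneg x y hx0 hx1 hy0 hy1
  · rw [← cG21_eq]; exact cG21_nonneg x y hx0 hx1 hy0 hy1
  · rw [← cG22_eq]; exact cG22_nonneg x y hx0 hx1 hy0 hy1
  · rw [← cG23_eq]; exact cG23_nonneg x y hx0 hx1 hy0 hy1

theorem qG_row3 (x be y : ℝ) (hx0 : -(1 / 2) ≤ x) (hx1 : x ≤ 1) (hy0 : -(5 / 14) ≤ y) (hy1 : y ≤ 5 / 7)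
    (hb1 : y ^ 2 ≤ be) (hb2 : be * (15 / 7 - 2 * y) ≤ 125 / 343) :
    0 ≤ bw3 (qG00 x y) (qG10 x y) (qG20 x y) (qG30 x y) (x ^ 2) (3 - 2 * x) 1 + bw3 (qG01 x y) (qG11 x y) (qG21 x y) (qG31 x y) (x ^ 2) (3 - 2 * x) 1 * be + bw3 (qG02 x y) (qG12 x y) (qG22 x y) (qG32 x y) (x ^ 2) (3 - 2 * x) 1 * be ^ 2 + bw3 (qG03 x y) (qG13 x y) (qG23 x y) (qG33 x y) (x ^ 2) (3 - 2 * x) 1 * be ^ 3 := by
  apply cubic_bern _ _ _ _ be (y ^ 2) (15 / 7 - 2 * y) (125 / 343) (by linarith) (by linarith) (by linarith)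
  · rw [← cG30_eq]; exact cG30_nonneg x y hx0 hx1 hy0 hy1
  · rw [← cG31_eq]; exact cG31_nonneg x y hx0 hx1 hy0 hy1
  · rw [← cG32_eq]; exact cG32_nonneg x y hx0 hx1 hy0 hy1
  · rw [← cG33_eq]; exact cG33_nonneg x y hx0 hx1 hy0 hy1

theorem qG_nonneg (al x be y : ℝ) (hx0 : -(1 / 2) ≤ x) (hx1 : x ≤ 1) (hy0 : -(5 / 14) ≤ y) (hy1 : y ≤ 5 / 7)
    (ha1 : x ^ 2 ≤ al) (ha2 : al * (3 - 2 * x) ≤ 1) (hb1 : y ^ 2 ≤ be) (hb2 : be * (15 / 7 - 2 * y) ≤ 125 / 343) :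
    0 ≤ qG al x be y := by
  have e : qG al x be y =
      (qG00 x y + qG01 x y * be + qG02 x y * be ^ 2 + qG03 x y * be ^ 3) + (qG10 x y + qG11 x y * be + qG12 x y * be ^ 2 + qG13 x y * be ^ 3) * al + (qG20 x y + qG21 x y * be + qG22 x y * be ^ 2 + qG23 x y * be ^ 3) * al ^ 2 + (qG30 x y + qG31 x y * be + qG32 x y * be ^ 2 + qG33 x y * be ^ 3) * al ^ 3 := by
    unfold qG; ring
  rw [e]
  apply cubic_bern _ _ _ _ al (x ^ 2) (3 - 2 * x) 1 (by linarith) (by linarith) (by linarith)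
  · have h := qG_row0 x be y hx0 hx1 hy0 hy1 hb1 hb2
    refine le_of_le_of_eq h ?_
    unfold bw0; ring
  · have h := qG_row1 x be y hx0 hx1 hy0 hy1 hb1 hb2
    refine le_of_le_of_eq h ?_
    unfold bw1; ring
  · have h := qG_row2 x be y hx0 hx1 hy0 hy1 hb1 hb2
    refine le_of_le_of_eq h ?_
    unfold bw2; ring
  · have h := qG_row3 x be y hx0 hx1 hy0 hy1 hb1 hb2
    refine le_of_le_of_eq h ?_
    unfold bw3; ring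

end Vale.Agent.P154
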