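import Vale.Agent.P154.Gen.CX00
import Vale.Agent.P154.Gen.CX01
import Vale.Agent.P154.Gen.CX02
import Vale.Agent.P154.Gen.CX10
import Vale.Agent.P154.Gen.CX11
import Vale.Agent.P154.Gen.CX12
import Vale.Agent.P154.Gen.CX20
import Vale.Agent.P154.Gen.CX21
import Vale.Agent.P154.Gen.CX22

namespace Vale.Agent.P154


theorem qX_row0 (x be y : ℝ) (hx0 : -(1 / 2) ≤ x) (hx1 : x ≤ 1) (hy0 : -(5 / 14) ≤ y) (hy1 : y ≤ 5 / 7)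
    (hb1 : y ^ 2 ≤ be) (hb2 : be * (15 / 7 - 2 * y) ≤ 125 / 343) :
    0 ≤ bv0 (qX00 x y) (qX10 x y) (qX20 x y) (x ^ 2) (3 - 2 * x) 1 + bv0 (qX01 x y) (qX11 x y) (qX21 x y) (x ^ 2) (3 - 2 * x) 1 * be + bv0 (qX02 x y) (qX12 x y) (qX22 x y) (x ^ 2) (3 - 2 * x) 1 * be ^ 2 := by
  apply quad_bern _ _ _ be (y ^ 2) (15 / 7 - 2 * y) (125 / 343) (by linarith) (by linarith) (by linarith)
  · rw [← cX00_eq]; exact cX00_nonneg x y hx0 hx1 hy0 hy1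
  · rw [← cX01_eq]; exact cX01_nonneg x y hx0 hx1 hy0 hy1
  · rw [← cX02_eq]; exact cX02_nonneg x y hx0 hx1 hy0 hy1

theorem qX_row1 (x be y : ℝ) (hx0 : -(1 / 2) ≤ x) (hx1 : x ≤ 1) (hy0 : -(5 / 14) ≤ y) (hy1 : y ≤ 5 / 7)
    (hb1 : y ^ 2 ≤ be) (hb2 : be * (15 / 7 - 2 * y) ≤ 125 / 343) :
    0 ≤ bv1 (qX00 x y) (qX10 x y) (qX20 x y) (x ^ 2) (3 - 2 * x) 1 + bv1 (qX01 x y) (qX11 x y) (qX21 x y) (x ^ 2) (3 - 2 * x) 1 * be + bv1 (qX02 x y) (qX12 x y) (qX22 x y) (x ^ 2) (3 - 2 * x) 1 * be ^ 2 := by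
  apply quad_bern _ _ _ be (y ^ 2) (15 / 7 - 2 * y) (125 / 343) (by linarith) (by linarith) (by linarith)
  · rw [← cX10_eq]; exact cX10_nonneg x y hx0 hx1 hy0 hy1
  · rw [← cX11_eq]; exact cX11_nonneg x y hx0 hx1 hy0 hy1
  · rw [← cX12_eq]; exact cX12_nonneg x y hx0 hx1 hy0 hy1

theorem qX_row2 (x be y : ℝ) (hx0 : -(1 / 2) ≤ x) (hx1 : x ≤ 1) (hy0 : -(5 / 14) ≤ y) (hy1 : y ≤ 5 / 7)
    (hb1 : y ^ 2 ≤ be) (hb2 : be * (15 / 7 - 2 * y) ≤ 125 / 343) :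
    0 ≤ bv2 (qX00 x y) (qX10 x y) (qX20 x y) (x ^ 2) (3 - 2 * x) 1 + bv2 (qX01 x y) (qX11 x y) (qX21 x y) (x ^ 2) (3 - 2 * x) 1 * be + bv2 (qX02 x y) (qX12 x y) (qX22 x y) (x ^ 2) (3 - 2 * x) 1 * be ^ 2 := by
  apply quad_bern _ _ _ be (y ^ 2) (15 / 7 - 2 * y) (125 / 343) (by linarith) (by linarith) (by linarith)
  · rw [← cX20_eq]; exact cX20_nonneg x y hx0 hx1 hy0 hy1
  · rw [← cX21_eq]; exact cX21_nonneg x y hx0 hx1 hy0 hy1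
  · rw [← cX22_eq]; exact cX22_nonneg x y hx0 hx1 hy0 hy1

theorem qX_nonneg (al x be y : ℝ) (hx0 : -(1 / 2) ≤ x) (hx1 : x ≤ 1) (hy0 : -(5 / 14) ≤ y) (hy1 : y ≤ 5 / 7)
    (ha1 : x ^ 2 ≤ al) (ha2 : al * (3 - 2 * x) ≤ 1) (hb1 : y ^ 2 ≤ be) (hb2 : be * (15 / 7 - 2 * y) ≤ 125 / 343) :
    0 ≤ qX al x be y := by
  have e : qX al x be y =
      (qX00 x y + qX01 x y * be + qX02 x y * be ^ 2) + (qX10 x y + qX11 x y * be + qX12 x y * be ^ 2) * al + (qX20 x y + qX21 x y * be + qX22 x y * be ^ 2) * al ^ 2 := by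
    unfold qX; ring
  rw [e]
  apply quad_bern _ _ _ al (x ^ 2) (3 - 2 * x) 1 (by linarith) (by linarith) (by linarith)
  · have h := qX_row0 x be y hx0 hx1 hy0 hy1 hb1 hb2
    refine le_of_le_of_eq h ?_
    unfold bv0; ring
  · have h := qX_row1 x be y hx0 hx1 hy0 hy1 hb1 hb2
    refine le_of_le_of_eq h ?_
    unfold bv1; ring
  · have h := qX_row2 x be y hx0 hx1 hy0 hy1 hb1 hb2
    refine le_of_le_of_eq h ?_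
    unfold bv2; ring

end Vale.Agent.P154
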