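import Vale.Agent.P154.Gen.Alg2G
import Vale.Agent.P154.Gen.QG
import Vale.Agent.P154.Gen.QX

namespace Vale.Agent.P154

theorem PG_eq (al x be y : ℝ) : PG al be (al * x) (be * y) = al * be * qG al x be y := by
  unfold PG Elow Cc DF qG qG00 qG01 qG02 qG03 qG10 qG11 qG12 qG13 qG20 qG21 qG22 qG23 qG30 qG31 qG32 qG33
  ring

theorem RX_eq (al x be y : ℝ) :
    Rg al be (al * x) (be * y) * DF al be (al * x * (be * y))
      - NumF al be (al * x) (be * y) (al * x * (be * y)) = al * be * qX al x be y := by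
  unfold Rg DF NumF qX qX00 qX01 qX02 qX10 qX11 qX12 qX20 qX21 qX22
  ring

/-- The polynomial inequality behind the invariance of `E gg3 ≥ 0`. -/
theorem polyG_nonneg (al be A B : ℝ) (ha0 : 0 ≤ al) (ha1 : al ≤ 1) (ha2 : A ^ 2 ≤ al ^ 3)
    (ha3 : 0 ≤ 1 - 3 * al + 2 * A) (hb0 : 0 ≤ be) (hb1 : be ≤ 1 / 2)
    (hb2 : B ^ 2 ≤ be ^ 3) (hb3 : 0 ≤ 2 * B - 15 / 7 * be + 125 / 343) :
    0 ≤ PG al be A B := by
  rcases ha0.eq_or_lt with h | hal
  · subst h
    have hA : A = 0 := by
      have : A ^ 2 ≤ 0 := by simpa using ha2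
      exact pow_eq_zero_iff (two_ne_zero) |>.1 (le_antisymm this (sq_nonneg A))
    subst hA
    have h := PG_eq 0 0 be (B / be)
    rcases hb0.eq_or_lt with h' | hbe
    · subst h'
      have hB : B = 0 := by
        have : B ^ 2 ≤ 0 := by simpa using hb2
        exact pow_eq_zero_iff (two_ne_zero) |>.1 (le_antisymm this (sq_nonneg B))
      subst hB
      simp only [zero_mul, mul_zero] at h
      rw [h]
    · have eB : be * (B / be) = B := by field_simp
      rw [eB] at h
      simp only [zero_mul, mul_zero] at h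
      rw [h]
  rcases hb0.eq_or_lt with h | hbe
  · subst h
    have hB : B = 0 := by
      have : B ^ 2 ≤ 0 := by simpa using hb2
      exact pow_eq_zero_iff (two_ne_zero) |>.1 (le_antisymm this (sq_nonneg B))
    subst hB
    have eA : al * (A / al) = A := by field_simp
    have h := PG_eq al (A / al) 0 0
    rw [eA] at h
    simp only [zero_mul, mul_zero] at h
    rw [h]
  have hB1 := A_le be B hb0 hb1 hb2
  have hB2 := A_ge be B hb0 hb1 hb2 hb3
  have eA : al * (A / al) = A := by field_simp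
  have eB : be * (B / be) = B := by field_simp
  have hxx : (A / al) ^ 2 ≤ al := by
    rw [div_pow, div_le_iff₀ (by positivity)]
    calc A ^ 2 ≤ al ^ 3 := ha2
      _ = al * al ^ 2 := by ring
  have hyy : (B / be) ^ 2 ≤ be := by
    rw [div_pow, div_le_iff₀ (by positivity)]
    calc B ^ 2 ≤ be ^ 3 := hb2
      _ = be * be ^ 2 := by ring
  have hx1 : A / al ≤ 1 := by
    have h1 : (A / al) ^ 2 ≤ 1 := le_trans hxx ha1
    nlinarith [sq_nonneg (A / al - 1), sq_nonneg (A / al + 1)]
  have hTa : al * (3 - 2 * (A / al)) ≤ 1 := by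
    have : al * (3 - 2 * (A / al)) = 3 * al - 2 * (al * (A / al)) := by ring
    rw [this, eA]
    linarith
  have hx0 : -(1 / 2) ≤ A / al := by
    by_contra hcon
    rw [not_le] at hcon
    have h3 : 0 < 3 - 2 * (A / al) := by linarith
    have h4 : (A / al) ^ 2 * (3 - 2 * (A / al)) ≤ 1 :=
      le_trans (mul_le_mul_of_nonneg_right hxx h3.le) hTa
    have h5 : 0 < (1 - A / al) ^ 2 := by
      have : 0 < 1 - A / al := by linarith
      positivity
    have h6 : (1 - A / al) ^ 2 * (1 + 2 * (A / al)) < 0 :=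
      mul_neg_of_pos_of_neg h5 (by linarith)
    nlinarith
  have hy0 : -(5 / 14) ≤ B / be := by
    rw [le_div_iff₀ hbe]
    linarith
  have hy1 : B / be ≤ 5 / 7 := by
    rw [div_le_iff₀ hbe]
    linarith
  have hTb : be * (15 / 7 - 2 * (B / be)) ≤ 125 / 343 := by
    have : be * (15 / 7 - 2 * (B / be)) = 15 / 7 * be - 2 * (be * (B / be)) := by ring
    rw [this, eB]
    linarith
  have hq := qG_nonneg al (A / al) be (B / be) hx0 hx1 hy0 hy1 hxx hTa hyy hTb
  have hP := PG_eq al (A / al) be (B / be)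
  rw [eA, eB] at hP
  rw [hP]
  exact mul_nonneg (mul_nonneg ha0 hb0) hq

/-- The polynomial inequality behind the second moment inequality. -/
theorem polyX2_nonneg (al be A B : ℝ) (ha0 : 0 ≤ al) (ha1 : al ≤ 1) (ha2 : A ^ 2 ≤ al ^ 3)
    (ha3 : 0 ≤ 1 - 3 * al + 2 * A) (hb0 : 0 ≤ be) (hb1 : be ≤ 1 / 2)
    (hb2 : B ^ 2 ≤ be ^ 3) (hb3 : 0 ≤ 2 * B - 15 / 7 * be + 125 / 343) :
    0 ≤ Rg al be A B * DF al be (A * B) - NumF al be A B (A * B) := by
  rcases ha0.eq_or_lt with h | hal
  · subst h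
    have hA : A = 0 := by
      have : A ^ 2 ≤ 0 := by simpa using ha2
      exact pow_eq_zero_iff (two_ne_zero) |>.1 (le_antisymm this (sq_nonneg A))
    subst hA
    unfold Rg DF NumF
    simp
  rcases hb0.eq_or_lt with h | hbe
  · subst h
    have hB : B = 0 := by
      have : B ^ 2 ≤ 0 := by simpa using hb2
      exact pow_eq_zero_iff (two_ne_zero) |>.1 (le_antisymm this (sq_nonneg B))
    subst hB
    unfold Rg DF NumF
    simp
  have hB1 := A_le be B hb0 hb1 hb2
  have hB2 := A_ge be B hb0 hb1 hb2 hb3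
  have eA : al * (A / al) = A := by field_simp
  have eB : be * (B / be) = B := by field_simp
  have hxx : (A / al) ^ 2 ≤ al := by
    rw [div_pow, div_le_iff₀ (by positivity)]
    calc A ^ 2 ≤ al ^ 3 := ha2
      _ = al * al ^ 2 := by ring
  have hyy : (B / be) ^ 2 ≤ be := by
    rw [div_pow, div_le_iff₀ (by positivity)]
    calc B ^ 2 ≤ be ^ 3 := hb2
      _ = be * be ^ 2 := by ring
  have hx1 : A / al ≤ 1 := by
    have h1 : (A / al) ^ 2 ≤ 1 := le_trans hxx ha1
    nlinarith [sq_nonneg (A / al - 1), sq_nonneg (A / al + 1)]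
  have hTa : al * (3 - 2 * (A / al)) ≤ 1 := by
    have : al * (3 - 2 * (A / al)) = 3 * al - 2 * (al * (A / al)) := by ring
    rw [this, eA]
    linarith
  have hx0 : -(1 / 2) ≤ A / al := by
    by_contra hcon
    rw [not_le] at hcon
    have h3 : 0 < 3 - 2 * (A / al) := by linarith
    have h4 : (A / al) ^ 2 * (3 - 2 * (A / al)) ≤ 1 :=
      le_trans (mul_le_mul_of_nonneg_right hxx h3.le) hTa
    have h5 : 0 < (1 - A / al) ^ 2 := by
      have : 0 < 1 - A / al := by linarith
      positivity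
    have h6 : (1 - A / al) ^ 2 * (1 + 2 * (A / al)) < 0 :=
      mul_neg_of_pos_of_neg h5 (by linarith)
    nlinarith
  have hy0 : -(5 / 14) ≤ B / be := by
    rw [le_div_iff₀ hbe]
    linarith
  have hy1 : B / be ≤ 5 / 7 := by
    rw [div_le_iff₀ hbe]
    linarith
  have hTb : be * (15 / 7 - 2 * (B / be)) ≤ 125 / 343 := by
    have : be * (15 / 7 - 2 * (B / be)) = 15 / 7 * be - 2 * (be * (B / be)) := by ring
    rw [this, eB]
    linarith
  have hq := qX_nonneg al (A / al) be (B / be) hx0 hx1 hy0 hy1 hxx hTa hyy hTb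
  have hP := RX_eq al (A / al) be (B / be)
  rw [eA, eB] at hP
  rw [hP]
  exact mul_nonneg (mul_nonneg ha0 hb0) hq

end Vale.Agent.P154
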