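import Vale.Agent.P154.Gen.MergeH

/-!
# P154 (all d): `k` conditionally independent copies of one experiment

`(v, g)` an experiment on `κ`.  The experiment made of `k` copies lives on `Fin k → κ`:
`LP g k η i = ∏ j, (1 + g (η j) i)`, `ZP = (LP 0 + LP 1 + LP 2) / 3`, weight `wP = (∏ j, v (η j)) * ZP`, deviation `eP i = LP i / ZP - 1`.
* `pow_succ_w`, `pow_succ_e`: with `Fin.prod_univ_succ`: `LP (k+1) η i = (1 + g (η 0) i) * LP k (Fin.tail η) i`; since `∑ i, g (η 0) i = 0` and `∑ i, eP i = 0`,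
  `ZM (eP g k) g (Fin.tail η, η 0) = (1/3) ∑ i (1 + eP i)(1 + g i) = ZP (k+1) η / ZP k (Fin.tail η)`  (needs `ZP k > 0`: all factors `1 + g > 0`).
* `powEquiv`: `η ↦ (Fin.tail η, η 0)`, built from `Fin.consEquiv` / `Equiv.piFinSucc` and `Equiv.prodComm`.
* `pow_zero_*`: `Fin 0 → κ` has one element, `LP = 1`, `ZP = 1`, `wP = 1`, `eP = 0`.
* `Good.pow`: induction on `k` with `Good.merge`, `Inter.merge`, `Good.H_merge`, `Good.X_merge_le'`, `Good.of_equiv`, `Xf_equiv` (and the analogous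
  transport of `Hf`, `Inter`).   For the bound: `x_{k+1} ≤ x_k (1 - x/10) + x` with `x = Xf v g ∈ [0, 1/2]`.
-/

namespace Vale.Agent.P154

open Finset

noncomputable def LP {κ : Type} (g : κ → Fin 3 → ℝ) (k : ℕ) (η : Fin k → κ) (i : Fin 3) : ℝ :=
  ∏ j, (1 + g (η j) i)

noncomputable def ZP {κ : Type} (g : κ → Fin 3 → ℝ) (k : ℕ) (η : Fin k → κ) : ℝ :=
  (LP g k η 0 + LP g k η 1 + LP g k η 2) / 3

noncomputable def wP {κ : Type} (v : κ → ℝ) (g : κ → Fin 3 → ℝ) (k : ℕ) (η : Fin k → κ) : ℝ :=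
  (∏ j, v (η j)) * ZP g k η

noncomputable def eP {κ : Type} (g : κ → Fin 3 → ℝ) (k : ℕ) (η : Fin k → κ) (i : Fin 3) : ℝ :=
  LP g k η i / ZP g k η - 1

variable {κ : Type} [Fintype κ] {v : κ → ℝ} {g : κ → Fin 3 → ℝ}

def powEquiv (κ : Type) (k : ℕ) : (Fin (k + 1) → κ) ≃ (Fin k → κ) × κ :=
  (Fin.consEquiv (fun _ => κ)).symm.trans (Equiv.prodComm _ _)

theorem powEquiv_apply (k : ℕ) (η : Fin (k + 1) → κ) : powEquiv κ k η = (Fin.tail η, η 0) := by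
  rfl

theorem LP_succ (g : κ → Fin 3 → ℝ) (k : ℕ) (η : Fin (k + 1) → κ) (i : Fin 3) :
    LP g (k + 1) η i = (1 + g (η 0) i) * LP g k (Fin.tail η) i := by
  unfold LP
  rw [Fin.prod_univ_succ]
  rfl

theorem LP_pos (hg : Inter g) (k : ℕ) (η : Fin k → κ) (i : Fin 3) : 0 < LP g k η i := by
  unfold LP
  refine Finset.prod_pos fun j _ => ?_
  have := hg (η j) i
  linarith

theorem ZP_pos (hg : Inter g) (k : ℕ) (η : Fin k → κ) : 0 < ZP g k η := by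
  unfold ZP
  have h0 := LP_pos hg k η 0
  have h1 := LP_pos hg k η 1
  have h2 := LP_pos hg k η 2
  positivity

theorem ZM_pow (hz : ∀ ξ, g ξ 0 + g ξ 1 + g ξ 2 = 0) (hg : Inter g) (k : ℕ)
    (η : Fin (k + 1) → κ) :
    ZM (eP g k) g (Fin.tail η, η 0) = ZP g (k + 1) η / ZP g k (Fin.tail η) := by
  have hZ := ZP_pos hg k (Fin.tail η)
  have hz0 := hz (η 0)
  have hZd : ZP g k (Fin.tail η)
      = (LP g k (Fin.tail η) 0 + LP g k (Fin.tail η) 1 + LP g k (Fin.tail η) 2) / 3 := rfl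
  have hZs : ZP g (k + 1) η
      = ((1 + g (η 0) 0) * LP g k (Fin.tail η) 0 + (1 + g (η 0) 1) * LP g k (Fin.tail η) 1
        + (1 + g (η 0) 2) * LP g k (Fin.tail η) 2) / 3 := by
    unfold ZP
    rw [LP_succ, LP_succ, LP_succ]
  unfold ZM Z3 eP
  simp only
  rw [hZs]
  set Z := ZP g k (Fin.tail η) with hZdef
  set L0 := LP g k (Fin.tail η) 0
  set L1 := LP g k (Fin.tail η) 1
  set L2 := LP g k (Fin.tail η) 2
  set a := g (η 0) 0
  set b := g (η 0) 1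
  set c := g (η 0) 2
  have hne : Z ≠ 0 := ne_of_gt hZ
  field_simp
  have hc : c = -a - b := by linarith
  rw [hZd, hc]
  ring

theorem pow_succ_w (hz : ∀ ξ, g ξ 0 + g ξ 1 + g ξ 2 = 0) (hg : Inter g) (v : κ → ℝ) (k : ℕ)
    (η : Fin (k + 1) → κ) :
    wP v g (k + 1) η = wM (wP v g k) v (eP g k) g (Fin.tail η, η 0) := by
  have hZ := ZP_pos hg k (Fin.tail η)
  have hne : ZP g k (Fin.tail η) ≠ 0 := ne_of_gt hZ
  unfold wM
  rw [ZM_pow hz hg]
  unfold wP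
  rw [Fin.prod_univ_succ]
  simp only
  have : ∏ j : Fin k, v (η j.succ) = ∏ j : Fin k, v (Fin.tail η j) := rfl
  rw [this]
  field_simp

theorem pow_succ_e (hz : ∀ ξ, g ξ 0 + g ξ 1 + g ξ 2 = 0) (hg : Inter g) (k : ℕ)
    (η : Fin (k + 1) → κ) :
    eP g (k + 1) η = eM (eP g k) g (Fin.tail η, η 0) := by
  have hZ := ZP_pos hg k (Fin.tail η)
  have hne : ZP g k (Fin.tail η) ≠ 0 := ne_of_gt hZ
  have hZ' := ZP_pos hg (k + 1) η
  have hne' : ZP g (k + 1) η ≠ 0 := ne_of_gt hZ'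
  funext i
  unfold eM
  rw [ZM_pow hz hg]
  unfold eP
  rw [LP_succ]
  simp only
  field_simp
  ring

theorem wP_zero (v : κ → ℝ) (g : κ → Fin 3 → ℝ) (η : Fin 0 → κ) : wP v g 0 η = 1 := by
  simp [wP, ZP, LP]
  norm_num

theorem eP_zero (g : κ → Fin 3 → ℝ) (η : Fin 0 → κ) (i : Fin 3) : eP g 0 η i = 0 := by
  simp [eP, ZP, LP]
  norm_num

theorem pow_zero_good (v : κ → ℝ) (g : κ → Fin 3 → ℝ) :
    Good (wP v g 0) (eP g 0) ∧ Inter (eP g 0) ∧ Hf (wP v g 0) (eP g 0) = 0 ∧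
      Xf (wP v g 0) (eP g 0) = 0 := by
  refine ⟨⟨?_, ?_, ?_, ?_, ?_, ?_⟩, ?_, ?_, ?_⟩
  · intro η
    rw [wP_zero]
    norm_num
  · simp [wP_zero]
  · intro η
    simp [eP_zero]
  · intro η i
    rw [eP_zero]
    norm_num
  · intro f
    simp [eP_zero]
  · intro f
    simp [eP_zero]
  · intro η i
    rw [eP_zero]
    norm_num
  · simp [Hf, eP_zero, wP_zero, ah3, cu3, al3]
  · simp [Xf, eP_zero, wP_zero, al3]

theorem Hf_equiv {ι κ' : Type} [Fintype ι] [Fintype κ'] (φ : κ' ≃ ι) (w : ι → ℝ)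
    (e : ι → Fin 3 → ℝ) : Hf (fun k => w (φ k)) (fun k => e (φ k)) = Hf w e := by
  unfold Hf
  exact Equiv.sum_comp φ (fun η => w η * ah3 (e η 0) (e η 1) (e η 2))

end Vale.Agent.P154
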