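import Vale.Agent.P154.Gen.Bern

/-!
# P154: the polynomial `qX` behind the second moment inequality, as a polynomial in `al`, `be`
(file produced by a script; the coefficients are exact rationals)
-/

namespace Vale.Agent.P154


noncomputable def qX00 (x y : ℝ) : ℝ :=
    (9/10) + (7/10) * y + (11/10) * x + (-7/10) * x * y

noncomputable def qX01 (x y : ℝ) : ℝ :=
    (-61/50) + (-26/25) * y + (26/75) * y ^ 2 + (-139/50) * x + (76/25) * x * y +
    (-26/75) * x * y ^ 2

noncomputable def qX02 (x y : ℝ) : ℝ :=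
    0

noncomputable def qX10 (x y : ℝ) : ℝ :=
    (-73/50) + (-2) * y + (-18/25) * x + 2 * x * y + (6/25) * x ^ 2

noncomputable def qX11 (x y : ℝ) : ℝ :=
    (13/10) + (39/10) * y + (27/10) * x + (-41/10) * x * y + (-13/5) * x * y ^ 2 +
    (-9/5) * x ^ 2 * y + (13/5) * x ^ 2 * y ^ 2

noncomputable def qX12 (x y : ℝ) : ℝ :=
    (-117/50) + (78/25) * y + (-26/25) * y ^ 2 + (117/50) * x + (-39/25) * x * y +
    (-26/25) * x * y ^ 2 + (52/75) * x * y ^ 3 + (-39/25) * x ^ 2 * y + (52/25) * x ^ 2 * y ^ 2 +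
    (-52/75) * x ^ 2 * y ^ 3

noncomputable def qX20 (x y : ℝ) : ℝ :=
    0

noncomputable def qX21 (x y : ℝ) : ℝ :=
    (-81/50) + (54/25) * x + (27/25) * x * y + (-18/25) * x ^ 2 + (-36/25) * x ^ 2 * y +
    (12/25) * x ^ 3 * y

noncomputable def qX22 (x y : ℝ) : ℝ :=
    0

noncomputable def qX (al x be y : ℝ) : ℝ :=
    qX00 x y + qX01 x y * be + qX02 x y * be ^ 2 + qX10 x y * al + qX11 x y * al * be +
    qX12 x y * al * be ^ 2 + qX20 x y * al ^ 2 + qX21 x y * al ^ 2 * be +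
    qX22 x y * al ^ 2 * be ^ 2

end Vale.Agent.P154
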