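import Vale.Agent.P154.Gen.Crt
import Vale.Agent.P154.RotSum
import Vale.Agent.P154.Ell

/-!
# P154: exact sum of `Kg` over the three rotations

Write `Z = Z3 a b`, `Da = dd3 a`, `Db = dd3 b`, `pa = crt Da`, `pb = crt Db`, `F` the combined deviation, `1 + F i = (1+a i)(1+b i)/Z`.
* `dd3 F = Da Db / Z^3`, so `crt (dd3 F) = pa pb / Z` (`crt_mul`, `crt_div_cube`).
* `Z * cu3 F = K3 a b = (Da Db / Z^2 - Z + 3 N2 / Z)/2` (`K3_eq` in `Ell.lean`; there `Da Db` is written out as a product).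
* hence `Kg_eq`.
* `Z3_rot_sum`, `Z3_rot_e2`: polynomial identities (substitute `a2 = -a0-a1`, `b2 = -b0-b1`, unfold, `ring`).
* `inv_sq_sum`: for positive reals with `x+y+z = 3`: `1/x^2+1/y^2+1/z^2 = ((xy+yz+zx)^2 - 6xyz)/(xyz)^2`.
* `rot_sum_g`: sum `Kg_eq` over the rotations; `∑ Z = 3`; `∑ N2/Z = ∑ K2` is given by `rot_sum` (with `K2_eq`); `Z Z' Z'' = DF ..` by `DF_eq`;
  `(1 - al - be) DF - NumF = Cc` (`Cc_eq`).  `dd3`, `al3`, `cu3` are invariant under rotation of the arguments.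
-/

namespace Vale.Agent.P154

theorem Cc_eq (al be A B U : ℝ) : (1 - al - be) * DF al be U - NumF al be A B U = Cc al be A B := by
  unfold DF NumF Cc
  ring

theorem Z3_rot_sum (a0 a1 a2 b0 b1 b2 : ℝ) (ha : a0 + a1 + a2 = 0) (hb : b0 + b1 + b2 = 0) :
    Z3 a0 a1 a2 b0 b1 b2 + Z3 a0 a1 a2 b1 b2 b0 + Z3 a0 a1 a2 b2 b0 b1 = 3 := by
  obtain rfl : a2 = -a0 - a1 := by linarith
  obtain rfl : b2 = -b0 - b1 := by linarith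
  unfold Z3
  ring

theorem Z3_rot_e2 (a0 a1 a2 b0 b1 b2 : ℝ) (ha : a0 + a1 + a2 = 0) (hb : b0 + b1 + b2 = 0) :
    Z3 a0 a1 a2 b0 b1 b2 * Z3 a0 a1 a2 b1 b2 b0 + Z3 a0 a1 a2 b1 b2 b0 * Z3 a0 a1 a2 b2 b0 b1
      + Z3 a0 a1 a2 b2 b0 b1 * Z3 a0 a1 a2 b0 b1 b2 = 3 - 3 * (al3 a0 a1 a2 * al3 b0 b1 b2) := by
  obtain rfl : a2 = -a0 - a1 := by linarith
  obtain rfl : b2 = -b0 - b1 := by linarith
  unfold Z3 al3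
  ring

theorem inv_sq_sum (x y z : ℝ) (hx : 0 < x) (hy : 0 < y) (hz : 0 < z) (hs : x + y + z = 3) :
    1 / x ^ 2 + 1 / y ^ 2 + 1 / z ^ 2 = ((x * y + y * z + z * x) ^ 2 - 6 * (x * y * z)) / (x * y * z) ^ 2 := by
  have ex : x ≠ 0 := hx.ne'
  have ey : y ≠ 0 := hy.ne'
  have ez : z ≠ 0 := hz.ne'
  have h : (x * y + y * z + z * x) ^ 2 - 6 * (x * y * z)
      = y ^ 2 * z ^ 2 + x ^ 2 * z ^ 2 + x ^ 2 * y ^ 2 := by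
    linear_combination (2 * x * y * z) * hs
  rw [h]
  field_simp

theorem dd3_comb (a0 a1 a2 b0 b1 b2 Z : ℝ) (hZ : 0 < Z) :
    dd3 ((1 + a0) * (1 + b0) / Z - 1) ((1 + a1) * (1 + b1) / Z - 1) ((1 + a2) * (1 + b2) / Z - 1)
      = dd3 a0 a1 a2 * dd3 b0 b1 b2 / Z ^ 3 := by
  have e : Z ≠ 0 := hZ.ne'
  unfold dd3
  field_simp
  ring

theorem Kg_eq (a0 a1 a2 b0 b1 b2 : ℝ) (ha : a0 + a1 + a2 = 0) (hb : b0 + b1 + b2 = 0)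
    (ha0 : -1 ≤ a0) (ha1 : -1 ≤ a1) (ha2 : -1 ≤ a2) (hb0 : -1 ≤ b0) (hb1 : -1 ≤ b1) (hb2 : -1 ≤ b2)
    (hZ : 0 < Z3 a0 a1 a2 b0 b1 b2) :
    Kg a0 a1 a2 b0 b1 b2 =
      3 / 10 * (dd3 a0 a1 a2 * dd3 b0 b1 b2) * (1 / Z3 a0 a1 a2 b0 b1 b2 ^ 2)
        + 3 / 5 * Z3 a0 a1 a2 b0 b1 b2
        - 3 / 2 * (Z3 a0 a1 a2 b0 b1 b2 - K2 a0 a1 a2 b0 b1 b2)
        + 3 / 5 * (crt (dd3 a0 a1 a2) * crt (dd3 b0 b1 b2)) := by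
  have hDa : 0 ≤ dd3 a0 a1 a2 := dd3_nonneg a0 a1 a2 ha0 ha1 ha2
  have hDb : 0 ≤ dd3 b0 b1 b2 := dd3_nonneg b0 b1 b2 hb0 hb1 hb2
  have hK3 := K3_eq a0 a1 a2 b0 b1 b2 ha hb hZ
  have hK2 := K2_eq a0 a1 a2 b0 b1 b2 ha hb hZ
  have hdd := dd3_comb a0 a1 a2 b0 b1 b2 (Z3 a0 a1 a2 b0 b1 b2) hZ
  have hcrt : crt (dd3 a0 a1 a2 * dd3 b0 b1 b2 / Z3 a0 a1 a2 b0 b1 b2 ^ 3)
      = crt (dd3 a0 a1 a2) * crt (dd3 b0 b1 b2) / Z3 a0 a1 a2 b0 b1 b2 := by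
    rw [crt_div_cube _ _ (mul_nonneg hDa hDb) hZ, crt_mul _ _ hDa hDb]
  have hKg : Kg a0 a1 a2 b0 b1 b2 = K3 a0 a1 a2 b0 b1 b2
      - 3 / 5 * (Z3 a0 a1 a2 b0 b1 b2 *
        ((2 + dd3 a0 a1 a2 * dd3 b0 b1 b2 / Z3 a0 a1 a2 b0 b1 b2 ^ 3) / 3
          - crt (dd3 a0 a1 a2) * crt (dd3 b0 b1 b2) / Z3 a0 a1 a2 b0 b1 b2)) := by
    unfold Kg gg3 ff3 K3
    rw [hdd, hcrt]
    ring
  have hD : (1 + a0) * (1 + a1) * (1 + a2) * ((1 + b0) * (1 + b1) * (1 + b2))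
      = dd3 a0 a1 a2 * dd3 b0 b1 b2 := by
    unfold dd3
    ring
  rw [hKg, hK3, hK2, hD]
  generalize crt (dd3 a0 a1 a2) * crt (dd3 b0 b1 b2) = pp
  generalize dd3 a0 a1 a2 * dd3 b0 b1 b2 = DD
  generalize N2 a0 a1 a2 b0 b1 b2 = n
  generalize Z3 a0 a1 a2 b0 b1 b2 = Z at hZ
  have e : Z ≠ 0 := hZ.ne'
  field_simp
  ring

theorem dd3_rot (x y z : ℝ) : dd3 y z x = dd3 x y z := by
  unfold dd3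
  ring

theorem rot_sum_g (a0 a1 a2 b0 b1 b2 : ℝ) (ha : a0 + a1 + a2 = 0) (hb : b0 + b1 + b2 = 0)
    (ha0 : -1 ≤ a0) (ha1 : -1 ≤ a1) (ha2 : -1 ≤ a2) (hb0 : -1 ≤ b0) (hb1 : -1 ≤ b1) (hb2 : -1 ≤ b2)
    (h0 : 0 < Z3 a0 a1 a2 b0 b1 b2) (h1 : 0 < Z3 a0 a1 a2 b1 b2 b0)
    (h2 : 0 < Z3 a0 a1 a2 b2 b0 b1) :
    Kg a0 a1 a2 b0 b1 b2 + Kg a0 a1 a2 b1 b2 b0 + Kg a0 a1 a2 b2 b0 b1 =
      3 * (9 / 10 * (dd3 a0 a1 a2 * dd3 b0 b1 b2) * (1 - al3 a0 a1 a2 * al3 b0 b1 b2) ^ 2 /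
            DF (al3 a0 a1 a2) (al3 b0 b1 b2)
              (cu3 a0 a1 a2 * cu3 b0 b1 b2 + dl3 a0 a1 a2 * dl3 b0 b1 b2 / 108) ^ 2
          - (3 / 5 * (dd3 a0 a1 a2 * dd3 b0 b1 b2)
              + 3 / 2 * Cc (al3 a0 a1 a2) (al3 b0 b1 b2) (cu3 a0 a1 a2) (cu3 b0 b1 b2)) /
            DF (al3 a0 a1 a2) (al3 b0 b1 b2)
              (cu3 a0 a1 a2 * cu3 b0 b1 b2 + dl3 a0 a1 a2 * dl3 b0 b1 b2 / 108)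
          + 3 / 5 + 3 / 5 * (crt (dd3 a0 a1 a2) * crt (dd3 b0 b1 b2))) := by
  have hb1' : b1 + b2 + b0 = 0 := by linarith
  have hb2' : b2 + b0 + b1 = 0 := by linarith
  rw [Kg_eq a0 a1 a2 b0 b1 b2 ha hb ha0 ha1 ha2 hb0 hb1 hb2 h0,
    Kg_eq a0 a1 a2 b1 b2 b0 ha hb1' ha0 ha1 ha2 hb1 hb2 hb0 h1,
    Kg_eq a0 a1 a2 b2 b0 b1 ha hb2' ha0 ha1 ha2 hb2 hb0 hb1 h2]
  have r1 : dd3 b1 b2 b0 = dd3 b0 b1 b2 := dd3_rot b0 b1 b2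
  have r2 : dd3 b2 b0 b1 = dd3 b0 b1 b2 := by
    unfold dd3
    ring
  rw [r1, r2]
  have hS := Z3_rot_sum a0 a1 a2 b0 b1 b2 ha hb
  have hE := Z3_rot_e2 a0 a1 a2 b0 b1 b2 ha hb
  have hD := DF_eq a0 a1 a2 b0 b1 b2 ha hb
  have hK := rot_sum a0 a1 a2 b0 b1 b2 ha hb h0 h1 h2
  have hI := inv_sq_sum _ _ _ h0 h1 h2 hS
  have hC := Cc_eq (al3 a0 a1 a2) (al3 b0 b1 b2) (cu3 a0 a1 a2) (cu3 b0 b1 b2)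
    (cu3 a0 a1 a2 * cu3 b0 b1 b2 + dl3 a0 a1 a2 * dl3 b0 b1 b2 / 108)
  have hDpos : 0 < DF (al3 a0 a1 a2) (al3 b0 b1 b2)
      (cu3 a0 a1 a2 * cu3 b0 b1 b2 + dl3 a0 a1 a2 * dl3 b0 b1 b2 / 108) := by
    rw [← hD]
    positivity
  rw [hE, hD] at hI
  rw [← hC]
  generalize DF (al3 a0 a1 a2) (al3 b0 b1 b2)
      (cu3 a0 a1 a2 * cu3 b0 b1 b2 + dl3 a0 a1 a2 * dl3 b0 b1 b2 / 108) = D at *
  generalize NumF (al3 a0 a1 a2) (al3 b0 b1 b2) (cu3 a0 a1 a2) (cu3 b0 b1 b2)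
      (cu3 a0 a1 a2 * cu3 b0 b1 b2 + dl3 a0 a1 a2 * dl3 b0 b1 b2 / 108) = NF at *
  generalize crt (dd3 a0 a1 a2) * crt (dd3 b0 b1 b2) = pp
  generalize dd3 a0 a1 a2 * dd3 b0 b1 b2 = DD
  generalize K2 a0 a1 a2 b0 b1 b2 = k0 at *
  generalize K2 a0 a1 a2 b1 b2 b0 = k1 at *
  generalize K2 a0 a1 a2 b2 b0 b1 = k2 at *
  generalize 1 / Z3 a0 a1 a2 b0 b1 b2 ^ 2 = i0 at *
  generalize 1 / Z3 a0 a1 a2 b1 b2 b0 ^ 2 = i1 at *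
  generalize 1 / Z3 a0 a1 a2 b2 b0 b1 ^ 2 = i2 at *
  generalize Z3 a0 a1 a2 b0 b1 b2 = z0 at *
  generalize Z3 a0 a1 a2 b1 b2 b0 = z1 at *
  generalize Z3 a0 a1 a2 b2 b0 b1 = z2 at *
  generalize al3 a0 a1 a2 = al at *
  generalize al3 b0 b1 b2 = be at *
  have e : D ≠ 0 := hDpos.ne'
  have hsum : 3 / 10 * DD * i0 + 3 / 5 * z0 - 3 / 2 * (z0 - k0) + 3 / 5 * pp
      + (3 / 10 * DD * i1 + 3 / 5 * z1 - 3 / 2 * (z1 - k1) + 3 / 5 * pp)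
      + (3 / 10 * DD * i2 + 3 / 5 * z2 - 3 / 2 * (z2 - k2) + 3 / 5 * pp)
      = 3 / 10 * DD * (i0 + i1 + i2) - 9 / 10 * (z0 + z1 + z2) + 3 / 2 * (k0 + k1 + k2)
        + 9 / 5 * pp := by ring
  rw [hsum, hI, hS, hK]
  field_simp
  ring

end Vale.Agent.P154
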