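import Vale.Agent.P154.Gen.FamXG
import Vale.Agent.P154.Gen.FamSc
import Vale.Agent.P154.FamEquiv

/-!
# P154: the experiment seen by a vertex with `k` children

`(w, e)` on `ι` is the experiment of one child (posterior of the child's colour given its subtree).  The parent of `k` independent copies,
each read through the channel `lam`, sees the experiment `(ws lam w e k, es lam e k)` on `Fin k → ι`.

* `star_succ_w`, `star_succ_e`: with `η : Fin (k+1) → ι`, `Fin.prod_univ_succ` splits off the factor `j = 0`; the remaining product over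
  `j.succ` is the product for `Fin.tail η = fun j => η j.succ`.  Since `∏_j (1 + lam e (tail η j) i) = Zs k (tail η) * (1 + es k (tail η) i)`
  (needs `Zs k (tail η) ≠ 0`) and both `es k (tail η)` and `lam e (η 0)` sum to zero over `i`,
  `Zs (k+1) η = Zs k (tail η) * Z3 (es k (tail η)) (lam e (η 0))`.  (`Fin.sum_univ_three`.)
* `Zs_pos`: every factor `1 + lam * e .. ≥ 1 - lam > 0`.
-/

namespace Vale.Agent.P154

open Finset

noncomputable def Zs {ι : Type} (lam : ℝ) (e : ι → Fin 3 → ℝ) (k : ℕ) (η : Fin k → ι) : ℝ :=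
  (1 / 3) * ∑ i : Fin 3, ∏ j : Fin k, (1 + lam * e (η j) i)

noncomputable def ws {ι : Type} (lam : ℝ) (w : ι → ℝ) (e : ι → Fin 3 → ℝ) (k : ℕ) (η : Fin k → ι) : ℝ :=
  (∏ j : Fin k, w (η j)) * Zs lam e k η

noncomputable def es {ι : Type} (lam : ℝ) (e : ι → Fin 3 → ℝ) (k : ℕ) (η : Fin k → ι) (i : Fin 3) : ℝ :=
  (∏ j : Fin k, (1 + lam * e (η j) i)) / Zs lam e k η - 1

variable {ι : Type} [Fintype ι] {w : ι → ℝ} {e : ι → Fin 3 → ℝ}

theorem fac_pos (h : Good w e) (lam : ℝ) (h0 : 0 ≤ lam) (h1 : 2 * lam ^ 2 ≤ 1) (x : ι) (i : Fin 3) :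
    0 < 1 + lam * e x i := by
  have hl : lam ≤ 5 / 7 := lam_le lam h0 h1
  have hg : -1 ≤ e x i := h.ge x i
  nlinarith [mul_nonneg h0 (by linarith : (0 : ℝ) ≤ e x i + 1)]

theorem Zs_pos (h : Good w e) (lam : ℝ) (h0 : 0 ≤ lam) (h1 : 2 * lam ^ 2 ≤ 1) (k : ℕ) (η : Fin k → ι) :
    0 < Zs lam e k η := by
  unfold Zs
  have hp : ∀ i : Fin 3, 0 < ∏ j : Fin k, (1 + lam * e (η j) i) := fun i =>
    Finset.prod_pos (fun j _ => fac_pos h lam h0 h1 (η j) i)
  have hs : 0 < ∑ i : Fin 3, ∏ j : Fin k, (1 + lam * e (η j) i) :=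
    Finset.sum_pos (fun i _ => hp i) Finset.univ_nonempty
  positivity

theorem es_sum_zero (h : Good w e) (lam : ℝ) (h0 : 0 ≤ lam) (h1 : 2 * lam ^ 2 ≤ 1) (k : ℕ)
    (η : Fin k → ι) : es lam e k η 0 + es lam e k η 1 + es lam e k η 2 = 0 := by
  have hZ : 0 < Zs lam e k η := Zs_pos h lam h0 h1 k η
  have hdef : Zs lam e k η = (1 / 3) * ((∏ j : Fin k, (1 + lam * e (η j) 0))
      + (∏ j : Fin k, (1 + lam * e (η j) 1)) + ∏ j : Fin k, (1 + lam * e (η j) 2)) := by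
    unfold Zs
    rw [Fin.sum_univ_three]
  unfold es
  generalize Zs lam e k η = Z at hZ hdef
  generalize (∏ j : Fin k, (1 + lam * e (η j) 0)) = q0 at hdef ⊢
  generalize (∏ j : Fin k, (1 + lam * e (η j) 1)) = q1 at hdef ⊢
  generalize (∏ j : Fin k, (1 + lam * e (η j) 2)) = q2 at hdef ⊢
  have e0 : Z ≠ 0 := hZ.ne'
  field_simp
  linarith

theorem Zs_succ (h : Good w e) (lam : ℝ) (h0 : 0 ≤ lam) (h1 : 2 * lam ^ 2 ≤ 1) (k : ℕ)
    (η : Fin (k + 1) → ι) :
    Zs lam e (k + 1) η =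
      Zs lam e k (fun j => η j.succ) * ZC (es lam e k) (sc lam e) (fun j => η j.succ, η 0) := by
  have hZ : 0 < Zs lam e k (fun j => η j.succ) := Zs_pos h lam h0 h1 k _
  have hdef : Zs lam e k (fun j => η j.succ) = (1 / 3) * ((∏ j : Fin k, (1 + lam * e (η j.succ) 0))
      + (∏ j : Fin k, (1 + lam * e (η j.succ) 1)) + ∏ j : Fin k, (1 + lam * e (η j.succ) 2)) := by
    unfold Zs
    rw [Fin.sum_univ_three]
  have hz := h.zero (η 0)
  have hL : Zs lam e (k + 1) η = (1 / 3) * ((1 + lam * e (η 0) 0) * (∏ j : Fin k, (1 + lam * e (η j.succ) 0))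
      + (1 + lam * e (η 0) 1) * (∏ j : Fin k, (1 + lam * e (η j.succ) 1))
      + (1 + lam * e (η 0) 2) * ∏ j : Fin k, (1 + lam * e (η j.succ) 2)) := by
    unfold Zs
    rw [Fin.sum_univ_three, Fin.prod_univ_succ, Fin.prod_univ_succ, Fin.prod_univ_succ]
  rw [hL]
  unfold ZC Z3 es sc
  simp only []
  generalize Zs lam e k (fun j => η j.succ) = Z at hZ hdef ⊢
  generalize (∏ j : Fin k, (1 + lam * e (η j.succ) 0)) = q0 at hdef ⊢
  generalize (∏ j : Fin k, (1 + lam * e (η j.succ) 1)) = q1 at hdef ⊢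
  generalize (∏ j : Fin k, (1 + lam * e (η j.succ) 2)) = q2 at hdef ⊢
  generalize e (η 0) 0 = x0 at hz ⊢
  generalize e (η 0) 1 = x1 at hz ⊢
  generalize e (η 0) 2 = x2 at hz ⊢
  have e0 : Z ≠ 0 := hZ.ne'
  obtain rfl : x2 = -x0 - x1 := by linarith
  field_simp
  linear_combination (-3 : ℝ) * hdef

theorem star_succ_w (h : Good w e) (lam : ℝ) (h0 : 0 ≤ lam) (h1 : 2 * lam ^ 2 ≤ 1) (k : ℕ)
    (η : Fin (k + 1) → ι) :
    ws lam w e (k + 1) η =
      wC (ws lam w e k) w (es lam e k) (sc lam e) (fun j => η j.succ, η 0) := by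
  unfold ws wC
  rw [Zs_succ h lam h0 h1 k η, Fin.prod_univ_succ]
  simp only []
  ring

theorem star_succ_e (h : Good w e) (lam : ℝ) (h0 : 0 ≤ lam) (h1 : 2 * lam ^ 2 ≤ 1) (k : ℕ)
    (η : Fin (k + 1) → ι) :
    es lam e (k + 1) η = eC (es lam e k) (sc lam e) (fun j => η j.succ, η 0) := by
  funext i
  have hZ : 0 < Zs lam e k (fun j => η j.succ) := Zs_pos h lam h0 h1 k _
  have hZ1 : 0 < Zs lam e (k + 1) η := Zs_pos h lam h0 h1 (k + 1) η
  have hS := Zs_succ h lam h0 h1 k η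
  have hes : es lam e k (fun j => η j.succ) i
      = (∏ j : Fin k, (1 + lam * e (η j.succ) i)) / Zs lam e k (fun j => η j.succ) - 1 := rfl
  have hL : es lam e (k + 1) η i
      = ((1 + lam * e (η 0) i) * ∏ j : Fin k, (1 + lam * e (η j.succ) i)) / Zs lam e (k + 1) η - 1 := by
    unfold es
    rw [Fin.prod_univ_succ]
  have hR : eC (es lam e k) (sc lam e) (fun j => η j.succ, η 0) i
      = (1 + es lam e k (fun j => η j.succ) i) * (1 + lam * e (η 0) i)
        / ZC (es lam e k) (sc lam e) (fun j => η j.succ, η 0) - 1 := rfl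
  rw [hL, hR, hes]
  rw [hS] at hZ1 ⊢
  generalize ZC (es lam e k) (sc lam e) (fun j => η j.succ, η 0) = C at hZ1 ⊢
  generalize Zs lam e k (fun j => η j.succ) = Z at hZ hZ1 ⊢
  have e0 : Z ≠ 0 := hZ.ne'
  have e1 : C ≠ 0 := by
    intro hC
    rw [hC] at hZ1
    simp at hZ1
  field_simp
  ring

end Vale.Agent.P154
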