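import Vale.Agent.P154.Gen.Star

/-!
# P154: induction over the number of children

`star_zero`: `Fin 0 → ι` has exactly one element, all products are empty: `Zs = 1`, `ws = 1`, `es = 0`; `al3 0 0 0 = 0`, `gg3_zero`.
`Gf_equiv`: `Equiv.sum_comp` (as `Xf_equiv` in `FamEquiv.lean`).
`star_step`: the bijection `φ : (Fin (k+1) → ι) ≃ (Fin k → ι) × ι`, `φ η = (fun j => η j.succ, η 0)`
(`(Equiv.piFinSucc k ι).trans (Equiv.prodComm _ _)`, or `Fin.consEquiv`/`Fin.insertNthEquiv`), `star_succ_w`, `star_succ_e` (via `funext`) identify the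
star with `k+1` children with the transport along `φ` of the combination of the star with `k` children and the message `(w, sc lam e)`.
Then `Good.of_equiv`, `Xf_equiv`, `Gf_equiv`, `Good.comb`, `X_comb`, `G_comb`, `Good.sc`, `Small_sc`, `Xf_sc`, `Gf_sc`.
`star_all`: induction on `k`.  Put `y = lam^2 * Xf w e ≥ 0`, `y ≤ 1/2 · 1`; `X_{k+1} ≤ X_k + y - (1/10) X_k y`.
`X_0 = 0`, `X_1 ≤ y`; `X_2 ≤ X_1 (1 - y/10) + y ≤ 2y - y^2/10`; for `k ≥ 2`: `X_{k+1} ≤ X_k + y` since `X_k, y ≥ 0`.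
(`Xf w e ≤ 1` follows from `al3_le_one` and `tot`; it is only needed for `1 - y/10 ≥ 0`.)
-/

namespace Vale.Agent.P154

open Finset

variable {ι : Type} [Fintype ι] {w : ι → ℝ} {e : ι → Fin 3 → ℝ}

theorem Gf_equiv {κ : Type} [Fintype κ] (φ : κ ≃ ι) (w : ι → ℝ) (e : ι → Fin 3 → ℝ) :
    Gf (fun k => w (φ k)) (fun k => e (φ k)) = Gf w e := by
  unfold Gf
  exact Equiv.sum_comp φ (fun η => w η * gg3 (e η 0) (e η 1) (e η 2))

theorem Zs_zero' {ι : Type} (lam : ℝ) (e : ι → Fin 3 → ℝ) (η : Fin 0 → ι) : Zs lam e 0 η = 1 := by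
  unfold Zs
  simp

theorem ws_zero' {ι : Type} (lam : ℝ) (w : ι → ℝ) (e : ι → Fin 3 → ℝ) (η : Fin 0 → ι) :
    ws lam w e 0 η = 1 := by
  unfold ws
  rw [Zs_zero']
  simp

theorem es_zero' {ι : Type} (lam : ℝ) (e : ι → Fin 3 → ℝ) (η : Fin 0 → ι) (i : Fin 3) :
    es lam e 0 η i = 0 := by
  unfold es
  rw [Zs_zero']
  simp

theorem star_zero (lam : ℝ) (w : ι → ℝ) (e : ι → Fin 3 → ℝ) :
    Good (ws lam w e 0) (es lam e 0) ∧ Xf (ws lam w e 0) (es lam e 0) = 0 ∧
      Gf (ws lam w e 0) (es lam e 0) = 0 := by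
  refine ⟨⟨?_, ?_, ?_, ?_, ?_, ?_⟩, ?_, ?_⟩
  · intro η
    rw [ws_zero']
    exact one_pos
  · simp [ws_zero']
  · intro η
    simp [es_zero']
  · intro η i
    rw [es_zero']
    norm_num
  · intro f
    simp [es_zero']
  · intro f
    simp [es_zero']
  · unfold Xf
    simp [es_zero', al3]
  · unfold Gf
    simp [es_zero', gg3_zero]

/-- the bijection splitting off the first child -/
def starEquiv (ι : Type) (k : ℕ) : (Fin (k + 1) → ι) ≃ (Fin k → ι) × ι where
  toFun η := (fun j => η j.succ, η 0)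
  invFun p := Fin.cons p.2 p.1
  left_inv η := by
    funext j
    refine Fin.cases ?_ (fun i => ?_) j
    · simp
    · simp
  right_inv p := by
    simp

theorem star_step (h : Good w e) (hG : 0 ≤ Gf w e) (lam : ℝ) (h0 : 0 ≤ lam) (h1 : 2 * lam ^ 2 ≤ 1) (k : ℕ)
    (hk : Good (ws lam w e k) (es lam e k)) (hkG : 0 ≤ Gf (ws lam w e k) (es lam e k)) :
    Good (ws lam w e (k + 1)) (es lam e (k + 1)) ∧ 0 ≤ Gf (ws lam w e (k + 1)) (es lam e (k + 1)) ∧
      Xf (ws lam w e (k + 1)) (es lam e (k + 1)) ≤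
        Xf (ws lam w e k) (es lam e k) + lam ^ 2 * Xf w e
          - 1 / 10 * (Xf (ws lam w e k) (es lam e k) * (lam ^ 2 * Xf w e)) := by
  have hl : lam ≤ 1 := le_trans (lam_le lam h0 h1) (by norm_num)
  have hsc : Good w (sc lam e) := h.sc lam h0 hl
  have hsm : Small (sc lam e) := Small_sc h lam h0 h1
  have hGs : 0 ≤ Gf w (sc lam e) := Gf_sc h lam h0 h1 hG
  have hw : ws lam w e (k + 1) =
      fun η => wC (ws lam w e k) w (es lam e k) (sc lam e) (starEquiv ι k η) :=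
    funext (fun η => star_succ_w h lam h0 h1 k η)
  have he : es lam e (k + 1) =
      fun η => eC (es lam e k) (sc lam e) (starEquiv ι k η) :=
    funext (fun η => star_succ_e h lam h0 h1 k η)
  rw [hw, he]
  refine ⟨Good.of_equiv (starEquiv ι k) (Good.comb hk hsc hsm), ?_, ?_⟩
  · rw [Gf_equiv (starEquiv ι k)]
    exact G_comb hk hsc hsm hkG hGs
  · rw [Xf_equiv (starEquiv ι k)]
    have := X_comb hk hsc hsm hkG hGs
    rw [Xf_sc] at this
    exact this

theorem Good.Xf_le_one' (h : Good w e) : Xf w e ≤ 1 := by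
  unfold Xf
  calc ∑ η, w η * al3 (e η 0) (e η 1) (e η 2) ≤ ∑ η, w η * 1 := by
        apply Finset.sum_le_sum
        intro η _
        exact mul_le_mul_of_nonneg_left
          (al3_le_one _ _ _ (h.zero η) (h.ge η 0) (h.ge η 1) (h.ge η 2)) (h.pos η).le
    _ = 1 := by
        simp [h.tot]

theorem star_all (h : Good w e) (hG : 0 ≤ Gf w e) (lam : ℝ) (h0 : 0 ≤ lam) (h1 : 2 * lam ^ 2 ≤ 1) (k : ℕ) :
    Good (ws lam w e k) (es lam e k) ∧ 0 ≤ Gf (ws lam w e k) (es lam e k) ∧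
      Xf (ws lam w e k) (es lam e k) ≤ k * (lam ^ 2 * Xf w e) ∧
      (2 ≤ k → Xf (ws lam w e k) (es lam e k) ≤
        k * (lam ^ 2 * Xf w e) - 1 / 10 * (lam ^ 2 * Xf w e) ^ 2) := by
  have hX0 : 0 ≤ Xf w e := h.Xf_nonneg
  have hX1 : Xf w e ≤ 1 := h.Xf_le_one'
  have hy0 : 0 ≤ lam ^ 2 * Xf w e := mul_nonneg (sq_nonneg lam) hX0
  have hy1 : lam ^ 2 * Xf w e ≤ 1 := by nlinarith [sq_nonneg lam]
  induction k with
  | zero =>
    obtain ⟨g, x, gg⟩ := star_zero lam w e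
    refine ⟨g, gg.ge, ?_, ?_⟩
    · rw [x]
      simp
    · intro hk
      omega
  | succ k ih =>
    obtain ⟨g, gg, x1, x2⟩ := ih
    obtain ⟨g', gg', x'⟩ := star_step h hG lam h0 h1 k g gg
    have hXk : 0 ≤ Xf (ws lam w e k) (es lam e k) := g.Xf_nonneg
    set y := lam ^ 2 * Xf w e with hy
    set X := Xf (ws lam w e k) (es lam e k) with hXdef
    refine ⟨g', gg', ?_, ?_⟩
    · push_cast
      nlinarith [mul_nonneg hXk hy0]
    · intro hk
      push_cast
      rcases Nat.lt_or_ge k 2 with hlt | hge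
      · have hk1 : k = 1 := by omega
        subst hk1
        push_cast at x1 ⊢
        -- X ≤ y, X' ≤ X (1 - y/10) + y
        nlinarith [mul_nonneg hXk hy0, mul_le_mul_of_nonneg_right x1 (by linarith : (0:ℝ) ≤ 1 - y / 10)]
      · have := x2 hge
        nlinarith [mul_nonneg hXk hy0]

end Vale.Agent.P154
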