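import Vale.Agent.P154.Defs
import Vale.Agent.P154.Gen.Fam2G
import Vale.Agent.P154.Gen.Crt

/-!
# P154: deviations of the posterior on the `d`-ary tree; the base case

This is `TreeBase.lean` with `2` replaced by a general `d` (copy and adapt), plus the value of `Gf` at the leaves.
`evd d lam n η i = 3 * post i η - 1`.
Base case: `Conf 3 d 0 = Fin 3` (definitionally), `marg = 1/3`, `evd η i = 3 * 1{η = i} - 1`; `Gf = 3/5 ≥ 0` by `gg3_vertex`.
`aTVd_eq`: `|post - 1/3| = |evd| / 3`, `Fin.sum_univ_three`.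
-/

namespace Vale.Agent.P154

open Finset

noncomputable def evd (d : ℕ) (lam : ℝ) (n : ℕ) (η : Conf 3 d n) (i : Fin 3) : ℝ :=
  3 * post 3 d lam n i η - 1

theorem sum_confd_zero (d : ℕ) (f : Conf 3 d 0 → ℝ) :
    ∑ η, f η = f (0 : Fin 3) + f (1 : Fin 3) + f (2 : Fin 3) :=
  Fin.sum_univ_three f

theorem likd_zero (d : ℕ) (lam : ℝ) (i η : Fin 3) :
    lik 3 d lam 0 i η = if η = i then 1 else 0 := rfl

theorem margd_zero (d : ℕ) (lam : ℝ) (η : Fin 3) : marg 3 d lam 0 η = 1 / 3 := by
  unfold marg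
  rw [Fin.sum_univ_three, likd_zero, likd_zero, likd_zero]
  fin_cases η <;> simp

theorem evd_zero (d : ℕ) (lam : ℝ) (η i : Fin 3) :
    evd d lam 0 η i = 3 * (if η = i then 1 else 0) - 1 := by
  unfold evd post
  rw [margd_zero, likd_zero]
  push_cast
  ring

theorem based_good (d : ℕ) (lam : ℝ) : Good (marg 3 d lam 0) (evd d lam 0) := by
  refine ⟨?_, ?_, ?_, ?_, ?_, ?_⟩
  · intro η
    have h := margd_zero d lam η
    rw [h]
    norm_num
  · rw [sum_confd_zero, margd_zero, margd_zero, margd_zero]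
    norm_num
  · intro η
    have h : ∀ η : Fin 3, evd d lam 0 η 0 + evd d lam 0 η 1 + evd d lam 0 η 2 = 0 := by
      intro η
      rw [evd_zero, evd_zero, evd_zero]
      fin_cases η <;> simp <;> norm_num
    exact h η
  · intro η i
    have h := evd_zero d lam η i
    rw [h]
    split_ifs <;> norm_num
  · intro f
    rw [sum_confd_zero, sum_confd_zero]
    simp only [evd_zero, margd_zero]
    simp
    ring
  · intro f
    rw [sum_confd_zero, sum_confd_zero]
    simp only [evd_zero, margd_zero]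
    simp
    ring

theorem evd_zero_same (d : ℕ) (lam : ℝ) (η : Fin 3) : evd d lam 0 η η = 2 := by
  rw [evd_zero, if_pos rfl]
  norm_num

theorem evd_zero_ne (d : ℕ) (lam : ℝ) (η i : Fin 3) (h : η ≠ i) : evd d lam 0 η i = -1 := by
  rw [evd_zero, if_neg h]
  norm_num

theorem based_G (d : ℕ) (lam : ℝ) : 0 ≤ Gf (marg 3 d lam 0) (evd d lam 0) := by
  obtain ⟨g0, g1, g2⟩ := gg3_vertex
  unfold Gf
  rw [sum_confd_zero, margd_zero, margd_zero, margd_zero,
    evd_zero_same d lam 0, evd_zero_same d lam 1, evd_zero_same d lam 2,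
    evd_zero_ne d lam 0 1 (by decide), evd_zero_ne d lam 0 2 (by decide),
    evd_zero_ne d lam 1 0 (by decide), evd_zero_ne d lam 1 2 (by decide),
    evd_zero_ne d lam 2 0 (by decide), evd_zero_ne d lam 2 1 (by decide), g0, g1, g2]
  norm_num

/-- `aTV` in terms of the deviations: `|post - 1/3| = |evd| / 3`. -/
theorem aTVd_eq (d : ℕ) (lam : ℝ) (n : ℕ) :
    aTV 3 d lam n =
      ∑ η, marg 3 d lam n η * ((1 / 6) * (|evd d lam n η 0| + |evd d lam n η 1| + |evd d lam n η 2|)) := by
  unfold aTV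
  refine Finset.sum_congr rfl fun η _ => ?_
  rw [Fin.sum_univ_three]
  have key : ∀ i, |evd d lam n η i| = 3 * |post 3 d lam n i η - 1 / ((3 : ℕ) : ℝ)| := by
    intro i
    unfold evd
    have h3 : 3 * post 3 d lam n i η - 1 = 3 * (post 3 d lam n i η - 1 / ((3 : ℕ) : ℝ)) := by
      push_cast; ring
    rw [h3, abs_mul]
    norm_num
  rw [key, key, key]
  ring

end Vale.Agent.P154
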