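import Vale.Agent.P154.Gen.TreeSuccG
import Vale.Agent.P154.Gen.StarInd

/-!
# P154: the `d`-ary tree with three colours as an iteration of the star experiment

By `margd_succ`, `evd_succ` (and `funext`): `marg (n+1) = ws lam (marg n) (evd n) d`, `evd (n+1) = es lam (evd n) d`
(`Conf 3 d (n+1)` is definitionally `Fin d → Conf 3 d n`, and its `Fintype` instance is definitionally the Pi instance).
`treed_good`: induction on `n` with `based_good`, `based_G`, `star_all`.
`treed_X_step`: the last component of `star_all` with `k = d ≥ 2`.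
-/

namespace Vale.Agent.P154

open Finset

theorem margd_succ_fun (d : ℕ) (lam : ℝ) (n : ℕ) (h : Good (marg 3 d lam n) (evd d lam n)) :
    marg 3 d lam (n + 1) = ws lam (marg 3 d lam n) (evd d lam n) d := by
  funext η
  exact margd_succ d lam n h η

theorem evd_succ_fun (d : ℕ) (lam : ℝ) (h0 : 0 ≤ lam) (h1 : 2 * lam ^ 2 ≤ 1) (n : ℕ)
    (h : Good (marg 3 d lam n) (evd d lam n)) :
    evd d lam (n + 1) = es lam (evd d lam n) d := by
  funext η
  exact evd_succ d lam h0 h1 n h η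

theorem treed_good (d : ℕ) (lam : ℝ) (h0 : 0 ≤ lam) (h1 : 2 * lam ^ 2 ≤ 1) (n : ℕ) :
    Good (marg 3 d lam n) (evd d lam n) ∧ 0 ≤ Gf (marg 3 d lam n) (evd d lam n) := by
  induction n with
  | zero => exact ⟨based_good d lam, based_G d lam⟩
  | succ n ih =>
    obtain ⟨hg, hG⟩ := ih
    have hs := star_all hg hG lam h0 h1 d
    rw [margd_succ_fun d lam n hg, evd_succ_fun d lam h0 h1 n hg]
    exact ⟨hs.1, hs.2.1⟩

theorem treed_X_step (d : ℕ) (hd : 2 ≤ d) (lam : ℝ) (h0 : 0 ≤ lam) (h1 : 2 * lam ^ 2 ≤ 1) (n : ℕ) :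
    Xf (marg 3 d lam (n + 1)) (evd d lam (n + 1)) ≤
      d * (lam ^ 2 * Xf (marg 3 d lam n) (evd d lam n))
        - 1 / 10 * (lam ^ 2 * Xf (marg 3 d lam n) (evd d lam n)) ^ 2 := by
  obtain ⟨hg, hG⟩ := treed_good d lam h0 h1 n
  have hs := star_all hg hG lam h0 h1 d
  rw [margd_succ_fun d lam n hg, evd_succ_fun d lam h0 h1 n hg]
  exact hs.2.2.2 hd

end Vale.Agent.P154
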