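import Vale.Agent.P154.Defs
import Vale.Agent.P154.Gen.Pow
import Vale.Agent.P154.Gen.ChanGood

/-!
# P154 (all d): the `d`-ary tree with three colours as an iteration of channel and `d` copies

This generalises `TreeBase`, `TreeSucc` (written for `d = 2`) to arbitrary `d`; the proofs there can be copied.
`evd d lam n η i = 3 * post i η - 1`.
* base: `Conf 3 d 0 = Fin 3` definitionally, `marg = 1/3`, `evd η i = 3 * 1{η = i} - 1`.
  `based_H`: through the channel the deviation is a permutation of (2 lam, -lam, -lam): `al3 = lam^2`, `cu3 = lam^3`,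
  `ah3 = (lam^3 - lam^4) / (1 - lam^2) ≥ 0` for `0 ≤ lam < 1`.
* `likd_eq`, `msgd_eq`: as `lik_eq`, `msg_eq`.
* `margd_succ`, `evd_succ`: `lik (n+1) i η = ∏ k, marg n (η k) * (1 + lam * evd n (η k) i) = (∏ k, marg n (η k)) * LP (eC lam (evd n)) d η i`
  (`Finset.prod_mul_distrib`), then unfold `marg`, `post`, `wP`, `eP`, `ZP`.  `Conf 3 d (n+1)` is definitionally `Fin d → Conf 3 d n`
  and its `Fintype` instance is definitionally the Pi instance.
-/

namespace Vale.Agent.P154

open Finset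

noncomputable def evd (d : ℕ) (lam : ℝ) (n : ℕ) (η : Conf 3 d n) (i : Fin 3) : ℝ :=
  3 * post 3 d lam n i η - 1

theorem sum_confg_zero (d : ℕ) (f : Conf 3 d 0 → ℝ) :
    ∑ η, f η = f (0 : Fin 3) + f (1 : Fin 3) + f (2 : Fin 3) :=
  Fin.sum_univ_three f

theorem likg_zero (d : ℕ) (lam : ℝ) (i η : Fin 3) :
    lik 3 d lam 0 i η = if η = i then 1 else 0 := rfl

theorem margg_zero (d : ℕ) (lam : ℝ) (η : Fin 3) : marg 3 d lam 0 η = 1 / 3 := by
  unfold marg
  rw [Fin.sum_univ_three, likg_zero, likg_zero, likg_zero]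
  fin_cases η <;> simp

theorem evg_zero (d : ℕ) (lam : ℝ) (η i : Fin 3) :
    evd d lam 0 η i = 3 * (if η = i then 1 else 0) - 1 := by
  unfold evd post
  rw [margg_zero, likg_zero]
  push_cast
  ring

theorem evg_zero_same (d : ℕ) (lam : ℝ) (η : Fin 3) : evd d lam 0 η η = 2 := by
  rw [evg_zero, if_pos rfl]
  norm_num

theorem evg_zero_ne (d : ℕ) (lam : ℝ) (η i : Fin 3) (h : η ≠ i) : evd d lam 0 η i = -1 := by
  rw [evg_zero, if_neg h]
  norm_num

theorem based_good (d : ℕ) (lam : ℝ) : Good (marg 3 d lam 0) (evd d lam 0) := by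
  refine ⟨?_, ?_, ?_, ?_, ?_, ?_⟩
  · intro η
    have h := margg_zero d lam η
    rw [h]
    norm_num
  · rw [sum_confg_zero, margg_zero, margg_zero, margg_zero]
    norm_num
  · intro η
    have h : ∀ η : Fin 3, evd d lam 0 η 0 + evd d lam 0 η 1 + evd d lam 0 η 2 = 0 := by
      intro η
      rw [evg_zero, evg_zero, evg_zero]
      fin_cases η <;> simp <;> norm_num
    exact h η
  · intro η i
    have h := evg_zero d lam η i
    rw [h]
    split_ifs <;> norm_num
  · intro f
    rw [sum_confg_zero, sum_confg_zero]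
    simp only [evg_zero, margg_zero]
    simp
    ring
  · intro f
    rw [sum_confg_zero, sum_confg_zero]
    simp only [evg_zero, margg_zero]
    simp
    ring

/-- the value of `ah3` at the three permutations of (2 lam, -lam, -lam) is nonnegative -/
theorem ah3_vertex_nonneg (lam : ℝ) (h0 : 0 ≤ lam) (h1 : lam < 1) :
    0 ≤ ah3 (lam * 2) (lam * -1) (lam * -1) ∧ 0 ≤ ah3 (lam * -1) (lam * 2) (lam * -1) ∧
      0 ≤ ah3 (lam * -1) (lam * -1) (lam * 2) := by
  have hl2 : lam ^ 2 < 1 := by nlinarith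
  have hnum : 0 ≤ lam ^ 3 - (lam ^ 2) ^ 2 := by
    have : lam ^ 3 - (lam ^ 2) ^ 2 = lam ^ 3 * (1 - lam) := by ring
    rw [this]
    have h3 : 0 ≤ lam ^ 3 := by positivity
    exact mul_nonneg h3 (by linarith)
  have hden : 0 ≤ 1 - lam ^ 2 := by linarith
  have a1 : al3 (lam * 2) (lam * -1) (lam * -1) = lam ^ 2 := by unfold al3; ring
  have a2 : al3 (lam * -1) (lam * 2) (lam * -1) = lam ^ 2 := by unfold al3; ring
  have a3 : al3 (lam * -1) (lam * -1) (lam * 2) = lam ^ 2 := by unfold al3; ring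
  have c1 : cu3 (lam * 2) (lam * -1) (lam * -1) = lam ^ 3 := by unfold cu3; ring
  have c2 : cu3 (lam * -1) (lam * 2) (lam * -1) = lam ^ 3 := by unfold cu3; ring
  have c3 : cu3 (lam * -1) (lam * -1) (lam * 2) = lam ^ 3 := by unfold cu3; ring
  unfold ah3
  rw [a1, a2, a3, c1, c2, c3]
  exact ⟨div_nonneg hnum hden, div_nonneg hnum hden, div_nonneg hnum hden⟩

theorem based_H (d : ℕ) (lam : ℝ) (h0 : 0 ≤ lam) (h1 : lam < 1) :
    0 ≤ Hf (marg 3 d lam 0) (eC lam (evd d lam 0)) := by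
  obtain ⟨g0, g1, g2⟩ := ah3_vertex_nonneg lam h0 h1
  unfold Hf eC
  rw [sum_confg_zero, margg_zero, margg_zero, margg_zero,
    evg_zero_same d lam 0, evg_zero_same d lam 1, evg_zero_same d lam 2,
    evg_zero_ne d lam 0 1 (by decide), evg_zero_ne d lam 0 2 (by decide),
    evg_zero_ne d lam 1 0 (by decide), evg_zero_ne d lam 1 2 (by decide),
    evg_zero_ne d lam 2 0 (by decide), evg_zero_ne d lam 2 1 (by decide)]
  linarith

theorem aTVd_eq (d : ℕ) (lam : ℝ) (n : ℕ) :
    aTV 3 d lam n =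
      ∑ η, marg 3 d lam n η *
        ((1 / 6) * (|evd d lam n η 0| + |evd d lam n η 1| + |evd d lam n η 2|)) := by
  unfold aTV
  refine Finset.sum_congr rfl fun η _ => ?_
  rw [Fin.sum_univ_three]
  have key : ∀ i, |evd d lam n η i| = 3 * |post 3 d lam n i η - 1 / ((3 : ℕ) : ℝ)| := by
    intro i
    unfold evd
    have h3 : 3 * post 3 d lam n i η - 1 = 3 * (post 3 d lam n i η - 1 / ((3 : ℕ) : ℝ)) := by
      push_cast; ring
    rw [h3, abs_mul]
    norm_num
  rw [key, key, key]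
  ring

end Vale.Agent.P154
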