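import Vale.Agent.P154.Gen.TreeGen

/-!
# P154 (all d): one level of the `d`-ary tree

Generalises `TreeSucc` (`d = 2`); copy `lik_eq`, `msg_eq` with `d` in place of `2`.
`lik (n+1) i η = ∏ k, ∑ j, potts i j * lik n j (η k) = ∏ k, marg n (η k) * (1 + lam * evd n (η k) i) = (∏ k, marg n (η k)) * LP (eC lam (evd n)) d η i`
(`rfl`, `Finset.prod_congr`, `Finset.prod_mul_distrib`), then unfold `marg`, `post`, `evd`, `wP`, `eP`, `ZP` (`Fin.sum_univ_three`).
For `evd_succ` one needs `∏ k, marg n (η k) ≠ 0` (`Finset.prod_pos`, `Good.pos`) and `ZP > 0` (`ZP_pos` with `Good.chan_inter`).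
`Conf 3 d (n+1)` is definitionally `Fin d → Conf 3 d n`.
-/

namespace Vale.Agent.P154

open Finset

theorem likd_eq (d : ℕ) (lam : ℝ) (n : ℕ) (h : Good (marg 3 d lam n) (evd d lam n))
    (η : Conf 3 d n) (i : Fin 3) :
    lik 3 d lam n i η = marg 3 d lam n η * (1 + evd d lam n η i) := by
  have hp := (h.pos η).ne'
  unfold evd post
  push_cast
  field_simp
  ring

theorem msgd_eq (d : ℕ) (lam : ℝ) (n : ℕ) (h : Good (marg 3 d lam n) (evd d lam n))
    (η : Conf 3 d n) (i : Fin 3) :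
    ∑ j : Fin 3, potts 3 lam i j * lik 3 d lam n j η =
      marg 3 d lam n η * (1 + lam * evd d lam n η i) := by
  have hm : marg 3 d lam n η =
      (lik 3 d lam n 0 η + lik 3 d lam n 1 η + lik 3 d lam n 2 η) / 3 := by
    unfold marg
    rw [Fin.sum_univ_three]
    push_cast
    ring
  have hl := likd_eq d lam n h η i
  have h2 : marg 3 d lam n η * (1 + lam * evd d lam n η i) =
      lam * lik 3 d lam n i η + (1 - lam) * marg 3 d lam n η := by
    rw [hl]; ring
  rw [h2, hm, Fin.sum_univ_three]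
  unfold potts
  fin_cases i <;> simp <;> ring

theorem likd_succ (d : ℕ) (lam : ℝ) (n : ℕ) (h : Good (marg 3 d lam n) (evd d lam n))
    (η : Conf 3 d (n + 1)) (i : Fin 3) :
    lik 3 d lam (n + 1) i η =
      (∏ k : Fin d, marg 3 d lam n (η k)) * LP (eC lam (evd d lam n)) d η i := by
  have : lik 3 d lam (n + 1) i η =
      ∏ k : Fin d, ∑ j : Fin 3, potts 3 lam i j * lik 3 d lam n j (η k) := rfl
  rw [this]
  unfold LP
  rw [← Finset.prod_mul_distrib]
  refine Finset.prod_congr rfl fun k _ => ?_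
  rw [msgd_eq d lam n h]
  rfl

theorem margd_succ_apply (d : ℕ) (lam : ℝ) (n : ℕ) (h : Good (marg 3 d lam n) (evd d lam n))
    (η : Conf 3 d (n + 1)) :
    marg 3 d lam (n + 1) η = wP (marg 3 d lam n) (eC lam (evd d lam n)) d η := by
  have : marg 3 d lam (n + 1) η = ∑ i : Fin 3, (1 / ((3 : ℕ) : ℝ)) * lik 3 d lam (n + 1) i η := rfl
  rw [this, Fin.sum_univ_three, likd_succ d lam n h, likd_succ d lam n h, likd_succ d lam n h]
  unfold wP ZP
  push_cast
  ring

theorem margd_succ (d : ℕ) (lam : ℝ) (n : ℕ) (h : Good (marg 3 d lam n) (evd d lam n)) :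
    marg 3 d lam (n + 1) = wP (marg 3 d lam n) (eC lam (evd d lam n)) d := by
  funext η
  exact margd_succ_apply d lam n h η

theorem evd_succ (d : ℕ) (lam : ℝ) (h0 : 0 ≤ lam) (h1 : lam < 1) (n : ℕ)
    (h : Good (marg 3 d lam n) (evd d lam n)) :
    evd d lam (n + 1) = eP (eC lam (evd d lam n)) d := by
  funext η i
  have hZ : ZP (eC lam (evd d lam n)) d η ≠ 0 := (ZP_pos (h.chan_inter lam h0 h1) d η).ne'
  have hp : (∏ k : Fin d, marg 3 d lam n (η k)) ≠ 0 :=
    (Finset.prod_pos fun k _ => h.pos (η k)).ne'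
  have : evd d lam (n + 1) η i =
      3 * ((1 / ((3 : ℕ) : ℝ)) * lik 3 d lam (n + 1) i η / marg 3 d lam (n + 1) η) - 1 := rfl
  rw [this, margd_succ_apply d lam n h, likd_succ d lam n h]
  unfold wP eP
  push_cast
  field_simp

end Vale.Agent.P154
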