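import Vale.Agent.P154.Gen.TreeBaseG
import Vale.Agent.P154.Gen.Star

/-!
# P154: one level of the `d`-ary tree, pointwise

This is the file `TreeSucc` for general `d` (copy and adapt).
`lik n i η = marg n η * (1 + evd n η i)` since `marg n η > 0` (`Good.pos`).
The message of a child: `∑ j, potts 3 lam i j * lik n j η = marg n η * (1 + lam * evd n η i)` (uses `∑ i, evd = 0`, `Good.zero`;
`Fin.sum_univ_three`, `fin_cases i`).
Hence for `η : Conf 3 d (n+1) = Fin d → Conf 3 d n`:
`lik (n+1) i η = (∏ k, marg n (η k)) * ∏ k, (1 + lam * evd n (η k) i)`  (`Finset.prod_mul_distrib`),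
`marg (n+1) η = ws lam (marg n) (evd n) d η`, `evd (n+1) η = es lam (evd n) d η` (`Zs_pos` and `∏ marg > 0` for the division).
-/

namespace Vale.Agent.P154

open Finset

theorem likd_eq (d : ℕ) (lam : ℝ) (n : ℕ) (h : Good (marg 3 d lam n) (evd d lam n))
    (η : Conf 3 d n) (i : Fin 3) :
    lik 3 d lam n i η = marg 3 d lam n η * (1 + evd d lam n η i) := by
  have hp := (h.pos η).ne'
  unfold evd post
  push_cast
  field_simp
  ring

theorem msgd_eq (d : ℕ) (lam : ℝ) (n : ℕ) (h : Good (marg 3 d lam n) (evd d lam n))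
    (η : Conf 3 d n) (i : Fin 3) :
    ∑ j : Fin 3, potts 3 lam i j * lik 3 d lam n j η =
      marg 3 d lam n η * (1 + lam * evd d lam n η i) := by
  have hm : marg 3 d lam n η =
      (lik 3 d lam n 0 η + lik 3 d lam n 1 η + lik 3 d lam n 2 η) / 3 := by
    unfold marg
    rw [Fin.sum_univ_three]
    push_cast
    ring
  have hl := likd_eq d lam n h η i
  have h2 : marg 3 d lam n η * (1 + lam * evd d lam n η i) =
      lam * lik 3 d lam n i η + (1 - lam) * marg 3 d lam n η := by
    rw [hl]; ring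
  rw [h2, hm, Fin.sum_univ_three]
  unfold potts
  fin_cases i <;> simp <;> ring

theorem likd_succ (d : ℕ) (lam : ℝ) (n : ℕ) (h : Good (marg 3 d lam n) (evd d lam n))
    (η : Conf 3 d (n + 1)) (i : Fin 3) :
    lik 3 d lam (n + 1) i η =
      (∏ k : Fin d, marg 3 d lam n (η k)) * ∏ k : Fin d, (1 + lam * evd d lam n (η k) i) := by
  have : lik 3 d lam (n + 1) i η =
      ∏ k : Fin d, ∑ j : Fin 3, potts 3 lam i j * lik 3 d lam n j (η k) := rfl
  rw [this, ← Finset.prod_mul_distrib]
  exact Finset.prod_congr rfl fun k _ => msgd_eq d lam n h (η k) i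

theorem margd_succ (d : ℕ) (lam : ℝ) (n : ℕ) (h : Good (marg 3 d lam n) (evd d lam n))
    (η : Conf 3 d (n + 1)) :
    marg 3 d lam (n + 1) η = ws lam (marg 3 d lam n) (evd d lam n) d η := by
  have : marg 3 d lam (n + 1) η = ∑ i : Fin 3, (1 / ((3 : ℕ) : ℝ)) * lik 3 d lam (n + 1) i η := rfl
  rw [this, Fin.sum_univ_three, likd_succ d lam n h, likd_succ d lam n h, likd_succ d lam n h]
  simp only [ws, Zs]
  rw [Fin.sum_univ_three]
  push_cast
  ring

theorem evd_succ (d : ℕ) (lam : ℝ) (h0 : 0 ≤ lam) (h1 : 2 * lam ^ 2 ≤ 1) (n : ℕ)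
    (h : Good (marg 3 d lam n) (evd d lam n)) (η : Conf 3 d (n + 1)) :
    evd d lam (n + 1) η = es lam (evd d lam n) d η := by
  funext i
  have hZ := (Zs_pos h lam h0 h1 d η).ne'
  have hp : (∏ k : Fin d, marg 3 d lam n (η k)) ≠ 0 :=
    (Finset.prod_pos fun k _ => h.pos (η k)).ne'
  have : evd d lam (n + 1) η i =
      3 * ((1 / ((3 : ℕ) : ℝ)) * lik 3 d lam (n + 1) i η / marg 3 d lam (n + 1) η) - 1 := rfl
  rw [this, margd_succ d lam n h, likd_succ d lam n h]
  simp only [ws, es]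
  push_cast
  field_simp

end Vale.Agent.P154
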