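import Mathlib

/-!
# P154 (all d): four polynomial inequalities in two variables

`Ev r s R S` with `R = ± r`, `S = ± s` is nonnegative on `[0,1] x [0,5/7]`.  Each proof is a Bernstein certificate of degree (6,6) on
one or several boxes: first in the variable `s` (coefficients are polynomials in `r`), then each coefficient in the variable `r`.
Generated by a script with exact rational arithmetic.
-/

namespace Vale.Agent.P154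

noncomputable def Ev (r s R S : ℝ) : ℝ :=
  (1 - 3 * r ^ 2 * s ^ 2 + 2 * r ^ 3 * s ^ 3) *
      (9 / 10 * (1 + R) * (1 + S) - (3 / 5 + 3 / 4 * (1 - s ^ 2)) * R * (1 + S)
        - (3 / 5 + 3 / 4 * (1 - r ^ 2)) * S * (1 + R))
    + 2 * (1 - r ^ 2) * (1 - s ^ 2) * (R + S + 2 * R * S - (1 + R) * (1 + S) * r * s)

theorem Ev_pp_b0_c0 (r : ℝ) (h1 : 0 ≤ r) (h2 : r ≤ 1) :
    0 ≤ 1058841 / 156250 + 3647119 / 312500 * r + (-235298 / 15625) * r ^ 3 := by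
  have hU : 0 ≤ r := by linarith
  have hV : 0 ≤ 1 - r := by linarith
  have e : 1058841 / 156250 + 3647119 / 312500 * r + (-235298 / 15625) * r ^ 3 = 1058841 / 156250 * (1 - r) ^ 6 + 16353211 / 312500 * r * (1 - r) ^ 5 + 2000033 / 12500 * r ^ 2 * (1 - r) ^ 4 + 7411887 / 31250 * r ^ 3 * (1 - r) ^ 3 + 2705927 / 15625 * r ^ 4 * (1 - r) ^ 2 + 16823807 / 312500 * r ^ 5 * (1 - r) + 1058841 / 312500 * r ^ 6 := by
    ring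
  rw [e]
  positivity

theorem Ev_pp_b0_c1 (r : ℝ) (h1 : 0 ≤ r) (h2 : r ≤ 1) :
    0 ≤ 15311177 / 312500 + 11109427 / 156250 * r + (-218491 / 12500) * r ^ 2 + (-6067327 / 62500) * r ^ 3 + 33614 / 3125 * r ^ 4 := by
  have hU : 0 ≤ r := by linarith
  have hV : 0 ≤ 1 - r := by linarith
  have e : 15311177 / 312500 + 11109427 / 156250 * r + (-218491 / 12500) * r ^ 2 + (-6067327 / 62500) * r ^ 3 + 33614 / 3125 * r ^ 4 = 15311177 / 312500 * (1 - r) ^ 6 + 28521479 / 78125 * r * (1 - r) ^ 5 + 6705993 / 6250 * r ^ 2 * (1 - r) ^ 4 + 95245269 / 62500 * r ^ 3 * (1 - r) ^ 3 + 16571702 / 15625 * r ^ 4 * (1 - r) ^ 2 + 96825127 / 312500 * r ^ 5 * (1 - r) + 5092521 / 312500 * r ^ 6 := by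
    ring
  rw [e]
  positivity

theorem Ev_pp_b0_c2 (r : ℝ) (h1 : 0 ≤ r) (h2 : r ≤ 1) :
    0 ≤ 8958131 / 62500 + 2624293 / 15625 * r + (-1318149 / 12500) * r ^ 2 + (-746711 / 3125) * r ^ 3 + 38416 / 625 * r ^ 4 := by
  have hU : 0 ≤ r := by linarith
  have hV : 0 ≤ 1 - r := by linarith
  have e : 8958131 / 62500 + 2624293 / 15625 * r + (-1318149 / 12500) * r ^ 2 + (-746711 / 3125) * r ^ 3 + 38416 / 625 * r ^ 4 = 8958131 / 62500 * (1 - r) ^ 6 + 32122979 / 31250 * r * (1 - r) ^ 5 + 9013354 / 3125 * r ^ 2 * (1 - r) ^ 4 + 12141857 / 3125 * r ^ 3 * (1 - r) ^ 3 + 31767631 / 12500 * r ^ 4 * (1 - r) ^ 2 + 21376103 / 31250 * r ^ 5 * (1 - r) + 885969 / 31250 * r ^ 6 := by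
    ring
  rw [e]
  positivity

theorem Ev_pp_b0_c3 (r : ℝ) (h1 : 0 ≤ r) (h2 : r ≤ 1) :
    0 ≤ 6668949 / 31250 + 11925081 / 62500 * r + (-2904181 / 12500) * r ^ 2 + (-326193 / 1250) * r ^ 3 + 62083 / 500 * r ^ 4 + (-3087 / 500) * r ^ 5 := by
  have hU : 0 ≤ r := by linarith
  have hV : 0 ≤ 1 - r := by linarith
  have e : 6668949 / 31250 + 11925081 / 62500 * r + (-2904181 / 12500) * r ^ 2 + (-326193 / 1250) * r ^ 3 + 62083 / 500 * r ^ 4 + (-3087 / 500) * r ^ 5 = 6668949 / 31250 * (1 - r) ^ 6 + 91952469 / 62500 * r * (1 - r) ^ 5 + 24517297 / 6250 * r ^ 2 * (1 - r) ^ 4 + 623231 / 125 * r ^ 3 * (1 - r) ^ 3 + 7641011 / 2500 * r ^ 4 * (1 - r) ^ 2 + 23887549 / 31250 * r ^ 5 * (1 - r) + 451731 / 15625 * r ^ 6 := by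
    ring
  rw [e]
  positivity

theorem Ev_pp_b0_c4 (r : ℝ) (h1 : 0 ≤ r) (h2 : r ≤ 1) :
    0 ≤ 2633554 / 15625 + 3266781 / 31250 * r + (-2939559 / 12500) * r ^ 2 + (-1301979 / 12500) * r ^ 3 + 250733 / 2500 * r ^ 4 + (-7791 / 500) * r ^ 5 + 147 / 50 * r ^ 6 := by
  have hU : 0 ≤ r := by linarith
  have hV : 0 ≤ 1 - r := by linarith
  have e : 2633554 / 15625 + 3266781 / 31250 * r + (-2939559 / 12500) * r ^ 2 + (-1301979 / 12500) * r ^ 3 + 250733 / 2500 * r ^ 4 + (-7791 / 500) * r ^ 5 + 147 / 50 * r ^ 6 = 2633554 / 15625 * (1 - r) ^ 6 + 34869429 / 31250 * r * (1 - r) ^ 5 + 35196651 / 12500 * r ^ 2 * (1 - r) ^ 4 + 42143773 / 12500 * r ^ 3 * (1 - r) ^ 3 + 12190073 / 6250 * r ^ 4 * (1 - r) ^ 2 + 7278754 / 15625 * r ^ 5 * (1 - r) + 334572 / 15625 * r ^ 6 := by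
    ring
  rw [e]
  positivity

theorem Ev_pp_b0_c5 (r : ℝ) (h1 : 0 ≤ r) (h2 : r ≤ 1) :
    0 ≤ 20586517 / 312500 + 7191289 / 312500 * r + (-336679 / 3125) * r ^ 2 + 166222 / 15625 * r ^ 3 + 55671 / 2500 * r ^ 4 + (-6321 / 500) * r ^ 5 + 147 / 25 * r ^ 6 := by
  have hU : 0 ≤ r := by linarith
  have hV : 0 ≤ 1 - r := by linarith
  have e : 20586517 / 312500 + 7191289 / 312500 * r + (-336679 / 3125) * r ^ 2 + 166222 / 15625 * r ^ 3 + 55671 / 2500 * r ^ 4 + (-6321 / 500) * r ^ 5 + 147 / 25 * r ^ 6 = 20586517 / 312500 * (1 - r) ^ 6 + 130710391 / 312500 * r * (1 - r) ^ 5 + 3110863 / 3125 * r ^ 2 * (1 - r) ^ 4 + 35229607 / 31250 * r ^ 3 * (1 - r) ^ 3 + 9781772 / 15625 * r ^ 4 * (1 - r) ^ 2 + 11186098 / 78125 * r ^ 5 * (1 - r) + 570024 / 78125 * r ^ 6 := by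
    ring
  rw [e]
  positivity

theorem Ev_pp_b0_c6 (r : ℝ) (h1 : 0 ≤ r) (h2 : r ≤ 1) :
    0 ≤ 3007767 / 312500 + 234759 / 312500 * r + (-10584 / 625) * r ^ 2 + 336609 / 31250 * r ^ 3 + (-38349 / 12500) * r ^ 4 + (-1617 / 500) * r ^ 5 + 147 / 50 * r ^ 6 := by
  have hU : 0 ≤ r := by linarith
  have hV : 0 ≤ 1 - r := by linarith
  have e : 3007767 / 312500 + 234759 / 312500 * r + (-10584 / 625) * r ^ 2 + 336609 / 31250 * r ^ 3 + (-38349 / 12500) * r ^ 4 + (-1617 / 500) * r ^ 5 + 147 / 50 * r ^ 6 = 3007767 / 312500 * (1 - r) ^ 6 + 18281361 / 312500 * r * (1 - r) ^ 5 + 409983 / 3125 * r ^ 2 * (1 - r) ^ 4 + 2235051 / 15625 * r ^ 3 * (1 - r) ^ 3 + 1242582 / 15625 * r ^ 4 * (1 - r) ^ 2 + 1305648 / 78125 * r ^ 5 * (1 - r) + 66504 / 78125 * r ^ 6 := by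
    ring
  rw [e]
  positivity

theorem Ev_pp_b0 (r s : ℝ) (h1 : 0 ≤ r) (h2 : r ≤ 1) (h3 : 0 ≤ s) (h4 : s ≤ 5 / 7) :
    0 ≤ Ev r s r s := by
  have hU : 0 ≤ s := by linarith
  have hV : 0 ≤ 5 / 7 - s := by linarith
  have e : Ev r s r s = (1058841 / 156250 + 3647119 / 312500 * r + (-235298 / 15625) * r ^ 3) * ((5 / 7 - s) ^ 6) + (15311177 / 312500 + 11109427 / 156250 * r + (-218491 / 12500) * r ^ 2 + (-6067327 / 62500) * r ^ 3 + 33614 / 3125 * r ^ 4) * (s * (5 / 7 - s) ^ 5) + (8958131 / 62500 + 2624293 / 15625 * r + (-1318149 / 12500) * r ^ 2 + (-746711 / 3125) * r ^ 3 + 38416 / 625 * r ^ 4) * (s ^ 2 * (5 / 7 - s) ^ 4) + (6668949 / 31250 + 11925081 / 62500 * r + (-2904181 / 12500) * r ^ 2 + (-326193 / 1250) * r ^ 3 + 62083 / 500 * r ^ 4 + (-3087 / 500) * r ^ 5) * (s ^ 3 * (5 / 7 - s) ^ 3) + (2633554 / 15625 + 3266781 / 31250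 * r + (-2939559 / 12500) * r ^ 2 + (-1301979 / 12500) * r ^ 3 + 250733 / 2500 * r ^ 4 + (-7791 / 500) * r ^ 5 + 147 / 50 * r ^ 6) * (s ^ 4 * (5 / 7 - s) ^ 2) + (20586517 / 312500 + 7191289 / 312500 * r + (-336679 / 3125) * r ^ 2 + 166222 / 15625 * r ^ 3 + 55671 / 2500 * r ^ 4 + (-6321 / 500) * r ^ 5 + 147 / 25 * r ^ 6) * (s ^ 5 * (5 / 7 - s)) + (3007767 / 312500 + 234759 / 312500 * r + (-10584 / 625) * r ^ 2 + 336609 / 31250 * r ^ 3 + (-38349 / 12500) * r ^ 4 + (-1617 / 500) * r ^ 5 + 147 / 50 * r ^ 6) * (s ^ 6) := by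
    unfold Ev
    ring
  rw [e]
  have c0 := Ev_pp_b0_c0 r h1 h2
  have c1 := Ev_pp_b0_c1 r h1 h2
  have c2 := Ev_pp_b0_c2 r h1 h2
  have c3 := Ev_pp_b0_c3 r h1 h2
  have c4 := Ev_pp_b0_c4 r h1 h2
  have c5 := Ev_pp_b0_c5 r h1 h2
  have c6 := Ev_pp_b0_c6 r h1 h2
  positivity

theorem Ev_pp (r s : ℝ) (h1 : 0 ≤ r) (h2 : r ≤ 1) (h3 : 0 ≤ s) (h4 : s ≤ 5 / 7) :
    0 ≤ Ev r s r s := by
  exact Ev_pp_b0 r s h1 h2 h3 h4

theorem Ev_pm_b0_c0 (r : ℝ) (h1 : 0 ≤ r) (h2 : r ≤ 1 / 2) :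
    0 ≤ 1058841 / 156250 + 3647119 / 312500 * r + (-235298 / 15625) * r ^ 3 := by
  have hU : 0 ≤ r := by linarith
  have hV : 0 ≤ 1 / 2 - r := by linarith
  have e : 1058841 / 156250 + 3647119 / 312500 * r + (-235298 / 15625) * r ^ 3 = 33882912 / 78125 * (1 / 2 - r) ^ 6 + 232474424 / 78125 * r * (1 / 2 - r) ^ 5 + 130825688 / 15625 * r ^ 2 * (1 / 2 - r) ^ 4 + 192003168 / 15625 * r ^ 3 * (1 / 2 - r) ^ 3 + 154355488 / 15625 * r ^ 4 * (1 / 2 - r) ^ 2 + 320946472 / 78125 * r ^ 5 * (1 / 2 - r) + 53647944 / 78125 * r ^ 6 := by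
    ring
  rw [e]
  positivity

theorem Ev_pm_b0_c1 (r : ℝ) (h1 : 0 ≤ r) (h2 : r ≤ 1 / 2) :
    0 ≤ 10101007 / 312500 + 7411887 / 156250 * r + (-50421 / 12500) * r ^ 2 + (-3882417 / 62500) * r ^ 3 + 33614 / 3125 * r ^ 4 := by
  have hU : 0 ≤ r := by linarith
  have hV : 0 ≤ 1 / 2 - r := by linarith
  have e : 10101007 / 312500 + 7411887 / 156250 * r + (-50421 / 12500) * r ^ 2 + (-3882417 / 62500) * r ^ 3 + 33614 / 3125 * r ^ 4 = 161616112 / 78125 * (1 / 2 - r) ^ 6 + 1088286864 / 78125 * r * (1 / 2 - r) ^ 5 + 602430108 / 15625 * r ^ 2 * (1 / 2 - r) ^ 4 + 871846318 / 15625 * r ^ 3 * (1 / 2 - r) ^ 3 + 693355978 / 15625 * r ^ 4 * (1 / 2 - r) ^ 2 + 1432729522 / 78125 * r ^ 5 * (1 / 2 - r) + 239701434 / 78125 * r ^ 6 := by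
    ring
  rw [e]
  positivity

theorem Ev_pm_b0_c2 (r : ℝ) (h1 : 0 ≤ r) (h2 : r ≤ 1 / 2) :
    0 ≤ 3747961 / 62500 + 1015623 / 15625 * r + (-285719 / 12500) * r ^ 2 + (-497007 / 6250) * r ^ 3 + 28812 / 625 * r ^ 4 := by
  have hU : 0 ≤ r := by linarith
  have hV : 0 ≤ 1 / 2 - r := by linarith
  have e : 3747961 / 62500 + 1015623 / 15625 * r + (-285719 / 12500) * r ^ 2 + (-497007 / 6250) * r ^ 3 + 28812 / 625 * r ^ 4 = 59967376 / 15625 * (1 / 2 - r) ^ 6 + 392304192 / 15625 * r * (1 / 2 - r) ^ 5 + 211259188 / 3125 * r ^ 2 * (1 / 2 - r) ^ 4 + 298309844 / 3125 * r ^ 3 * (1 / 2 - r) ^ 3 + 9306276 / 125 * r ^ 4 * (1 / 2 - r) ^ 2 + 475388396 / 15625 * r ^ 5 * (1 / 2 - r) + 79693992 / 15625 * r ^ 6 := by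
    ring
  rw [e]
  positivity

theorem Ev_pm_b0_c3 (r : ℝ) (h1 : 0 ≤ r) (h2 : r ≤ 1 / 2) :
    0 ≤ 1801779 / 31250 + 2091271 / 62500 * r + (-684971 / 12500) * r ^ 2 + (-30527 / 1250) * r ^ 3 + 187621 / 2500 * r ^ 4 + 3087 / 500 * r ^ 5 := by
  have hU : 0 ≤ r := by linarith
  have hV : 0 ≤ 1 / 2 - r := by linarith
  have e : 1801779 / 31250 + 2091271 / 62500 * r + (-684971 / 12500) * r ^ 2 + (-30527 / 1250) * r ^ 3 + 187621 / 2500 * r ^ 4 + 3087 / 500 * r ^ 5 = 57656928 / 15625 * (1 / 2 - r) ^ 6 + 362671736 / 15625 * r * (1 / 2 - r) ^ 5 + 186961068 / 3125 * r ^ 2 * (1 / 2 - r) ^ 4 + 252517972 / 3125 * r ^ 3 * (1 / 2 - r) ^ 3 + 189098301 / 3125 * r ^ 4 * (1 / 2 - r) ^ 2 + 750421231 / 31250 * r ^ 5 * (1 / 2 - r) + 125036877 / 31250 * r ^ 6 := by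
    ring
  rw [e]
  positivity

theorem Ev_pm_b0_c4 (r : ℝ) (h1 : 0 ≤ r) (h2 : r ≤ 1 / 2) :
    0 ≤ 542969 / 15625 + 90013 / 15625 * r + (-893809 / 12500) * r ^ 2 + 122941 / 12500 * r ^ 3 + 167727 / 2500 * r ^ 4 + 7791 / 500 * r ^ 5 + (-147 / 50) * r ^ 6 := by
  have hU : 0 ≤ r := by linarith
  have hV : 0 ≤ 1 / 2 - r := by linarith
  have e : 542969 / 15625 + 90013 / 15625 * r + (-893809 / 12500) * r ^ 2 + 122941 / 12500 * r ^ 3 + 167727 / 2500 * r ^ 4 + 7791 / 500 * r ^ 5 + (-147 / 50) * r ^ 6 = 34750016 / 15625 * (1 / 2 - r) ^ 6 + 211380512 / 15625 * r * (1 / 2 - r) ^ 5 + 103555228 / 3125 * r ^ 2 * (1 / 2 - r) ^ 4 + 130705834 / 3125 * r ^ 3 * (1 / 2 - r) ^ 3 + 18027149 / 625 * r ^ 4 * (1 / 2 - r) ^ 2 + 327917947 / 31250 * r ^ 5 * (1 / 2 - r) + 25617837 / 15625 * r ^ 6 := by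
    ring
  rw [e]
  positivity

theorem Ev_pm_b0_c5 (r : ℝ) (h1 : 0 ≤ r) (h2 : r ≤ 1 / 2) :
    0 ≤ 4825667 / 312500 + 1245139 / 312500 * r + (-155869 / 3125) * r ^ 2 + (-27503 / 15625) * r ^ 3 + 104377 / 2500 * r ^ 4 + 6321 / 500 * r ^ 5 + (-147 / 25) * r ^ 6 := by
  have hU : 0 ≤ r := by linarith
  have hV : 0 ≤ 1 / 2 - r := by linarith
  have e : 4825667 / 312500 + 1245139 / 312500 * r + (-155869 / 3125) * r ^ 2 + (-27503 / 15625) * r ^ 3 + 104377 / 2500 * r ^ 4 + 6321 / 500 * r ^ 5 + (-147 / 25) * r ^ 6 = 77210672 / 78125 * (1 / 2 - r) ^ 6 + 473225144 / 78125 * r * (1 / 2 - r) ^ 5 + 229123608 / 15625 * r ^ 2 * (1 / 2 - r) ^ 4 + 278666808 / 15625 * r ^ 3 * (1 / 2 - r) ^ 3 + 178686473 / 15625 * r ^ 4 * (1 / 2 - r) ^ 2 + 576896789 / 156250 * r ^ 5 * (1 / 2 - r) + 76574253 / 156250 * r ^ 6 := by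
    ring
  rw [e]
  positivity

theorem Ev_pm_b0_c6 (r : ℝ) (h1 : 0 ≤ r) (h2 : r ≤ 1 / 2) :
    0 ≤ 1227597 / 312500 + 765429 / 312500 * r + (-8967 / 625) * r ^ 2 + (-111111 / 31250) * r ^ 3 + 160821 / 12500 * r ^ 4 + 1617 / 500 * r ^ 5 + (-147 / 50) * r ^ 6 := by
  have hU : 0 ≤ r := by linarith
  have hV : 0 ≤ 1 / 2 - r := by linarith
  have e : 1227597 / 312500 + 765429 / 312500 * r + (-8967 / 625) * r ^ 2 + (-111111 / 31250) * r ^ 3 + 160821 / 12500 * r ^ 4 + 1617 / 500 * r ^ 5 + (-147 / 50) * r ^ 6 = 19641552 / 78125 * (1 / 2 - r) ^ 6 + 123972744 / 78125 * r * (1 / 2 - r) ^ 5 + 61461288 / 15625 * r ^ 2 * (1 / 2 - r) ^ 4 + 76021428 / 15625 * r ^ 3 * (1 / 2 - r) ^ 3 + 49121493 / 15625 * r ^ 4 * (1 / 2 - r) ^ 2 + 157220349 / 156250 * r ^ 5 * (1 / 2 - r) + 9904914 / 78125 * r ^ 6 := by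
    ring
  rw [e]
  positivity

theorem Ev_pm_b0 (r s : ℝ) (h1 : 0 ≤ r) (h2 : r ≤ 1 / 2) (h3 : 0 ≤ s) (h4 : s ≤ 5 / 7) :
    0 ≤ Ev r s r (-s) := by
  have hU : 0 ≤ s := by linarith
  have hV : 0 ≤ 5 / 7 - s := by linarith
  have e : Ev r s r (-s) = (1058841 / 156250 + 3647119 / 312500 * r + (-235298 / 15625) * r ^ 3) * ((5 / 7 - s) ^ 6) + (10101007 / 312500 + 7411887 / 156250 * r + (-50421 / 12500) * r ^ 2 + (-3882417 / 62500) * r ^ 3 + 33614 / 3125 * r ^ 4) * (s * (5 / 7 - s) ^ 5) + (3747961 / 62500 + 1015623 / 15625 * r + (-285719 / 12500) * r ^ 2 + (-497007 / 6250) * r ^ 3 + 28812 / 625 * r ^ 4) * (s ^ 2 * (5 / 7 - s) ^ 4) + (1801779 / 31250 + 2091271 / 62500 * r + (-684971 / 12500) * r ^ 2 + (-30527 / 1250) * r ^ 3 + 187621 / 2500 * r ^ 4 + 3087 / 500 * r ^ 5) * (s ^ 3 * (5 / 7 - s) ^ 3) + (542969 / 15625 + 90013 / 15625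 * r + (-893809 / 12500) * r ^ 2 + 122941 / 12500 * r ^ 3 + 167727 / 2500 * r ^ 4 + 7791 / 500 * r ^ 5 + (-147 / 50) * r ^ 6) * (s ^ 4 * (5 / 7 - s) ^ 2) + (4825667 / 312500 + 1245139 / 312500 * r + (-155869 / 3125) * r ^ 2 + (-27503 / 15625) * r ^ 3 + 104377 / 2500 * r ^ 4 + 6321 / 500 * r ^ 5 + (-147 / 25) * r ^ 6) * (s ^ 5 * (5 / 7 - s)) + (1227597 / 312500 + 765429 / 312500 * r + (-8967 / 625) * r ^ 2 + (-111111 / 31250) * r ^ 3 + 160821 / 12500 * r ^ 4 + 1617 / 500 * r ^ 5 + (-147 / 50) * r ^ 6) * (s ^ 6) := by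
    unfold Ev
    ring
  rw [e]
  have c0 := Ev_pm_b0_c0 r h1 h2
  have c1 := Ev_pm_b0_c1 r h1 h2
  have c2 := Ev_pm_b0_c2 r h1 h2
  have c3 := Ev_pm_b0_c3 r h1 h2
  have c4 := Ev_pm_b0_c4 r h1 h2
  have c5 := Ev_pm_b0_c5 r h1 h2
  have c6 := Ev_pm_b0_c6 r h1 h2
  positivity

theorem Ev_pm_b1_c0 (r : ℝ) (h1 : 1 / 2 ≤ r) (h2 : r ≤ 1) :
    0 ≤ 1058841 / 156250 + 3647119 / 312500 * r + (-235298 / 15625) * r ^ 3 := by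
  have hU : 0 ≤ r - 1 / 2 := by linarith
  have hV : 0 ≤ 1 - r := by linarith
  have e : 1058841 / 156250 + 3647119 / 312500 * r + (-235298 / 15625) * r ^ 3 = 53647944 / 78125 * (1 - r) ^ 6 + 322828856 / 78125 * (r - 1 / 2) * (1 - r) ^ 5 + 156237872 / 15625 * (r - 1 / 2) ^ 2 * (1 - r) ^ 4 + 192003168 / 15625 * (r - 1 / 2) ^ 3 * (1 - r) ^ 3 + 123296152 / 15625 * (r - 1 / 2) ^ 4 * (1 - r) ^ 2 + 185414824 / 78125 * (r - 1 / 2) ^ 5 * (1 - r) + 16941456 / 78125 * (r - 1 / 2) ^ 6 := by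
    ring
  rw [e]
  positivity

theorem Ev_pm_b1_c1 (r : ℝ) (h1 : 1 / 2 ≤ r) (h2 : r ≤ 1) :
    0 ≤ 10101007 / 312500 + 7411887 / 156250 * r + (-50421 / 12500) * r ^ 2 + (-3882417 / 62500) * r ^ 3 + 33614 / 3125 * r ^ 4 := by
  have hU : 0 ≤ r - 1 / 2 := by linarith
  have hV : 0 ≤ 1 - r := by linarith
  have e : 10101007 / 312500 + 7411887 / 156250 * r + (-50421 / 12500) * r ^ 2 + (-3882417 / 62500) * r ^ 3 + 33614 / 3125 * r ^ 4 = 239701434 / 78125 * (1 - r) ^ 6 + 1443687686 / 78125 * (r - 1 / 2) * (1 - r) ^ 5 + 704314142 / 15625 * (r - 1 / 2) ^ 2 * (1 - r) ^ 4 + 883611218 / 15625 * (r - 1 / 2) ^ 3 * (1 - r) ^ 3 + 593892152 / 15625 * (r - 1 / 2) ^ 4 * (1 - r) ^ 2 + 990806264 / 78125 * (r - 1 / 2) ^ 5 * (1 - r) + 121817136 / 78125 * (r - 1 / 2) ^ 6 := by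
    ring
  rw [e]
  positivity

theorem Ev_pm_b1_c2 (r : ℝ) (h1 : 1 / 2 ≤ r) (h2 : r ≤ 1) :
    0 ≤ 3747961 / 62500 + 1015623 / 15625 * r + (-285719 / 12500) * r ^ 2 + (-497007 / 6250) * r ^ 3 + 28812 / 625 * r ^ 4 := by
  have hU : 0 ≤ r - 1 / 2 := by linarith
  have hV : 0 ≤ 1 - r := by linarith
  have e : 3747961 / 62500 + 1015623 / 15625 * r + (-285719 / 12500) * r ^ 2 + (-497007 / 6250) * r ^ 3 + 28812 / 625 * r ^ 4 = 79693992 / 15625 * (1 - r) ^ 6 + 480939508 / 15625 * (r - 1 / 2) * (1 - r) ^ 5 + 238208012 / 3125 * (r - 1 / 2) ^ 2 * (1 - r) ^ 4 + 310045932 / 3125 * (r - 1 / 2) ^ 3 * (1 - r) ^ 3 + 224263004 / 3125 * (r - 1 / 2) ^ 4 * (1 - r) ^ 2 + 429567712 / 15625 * (r - 1 / 2) ^ 5 * (1 - r) + 68687808 / 15625 * (r - 1 / 2) ^ 6 := by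
    ring
  rw [e]
  positivity

theorem Ev_pm_b1_c3 (r : ℝ) (h1 : 1 / 2 ≤ r) (h2 : r ≤ 1) :
    0 ≤ 1801779 / 31250 + 2091271 / 62500 * r + (-684971 / 12500) * r ^ 2 + (-30527 / 1250) * r ^ 3 + 187621 / 2500 * r ^ 4 + 3087 / 500 * r ^ 5 := by
  have hU : 0 ≤ r - 1 / 2 := by linarith
  have hV : 0 ≤ 1 - r := by linarith
  have e : 1801779 / 31250 + 2091271 / 62500 * r + (-684971 / 12500) * r ^ 2 + (-30527 / 1250) * r ^ 3 + 187621 / 2500 * r ^ 4 + 3087 / 500 * r ^ 5 = 125036877 / 31250 * (1 - r) ^ 6 + 750021293 / 31250 * (r - 1 / 2) * (1 - r) ^ 5 + 188898332 / 3125 * (r - 1 / 2) ^ 2 * (1 - r) ^ 4 + 259173544 / 3125 * (r - 1 / 2) ^ 3 * (1 - r) ^ 3 + 41545532 / 625 * (r - 1 / 2) ^ 4 * (1 - r) ^ 2 + 467890416 / 15625 * (r - 1 / 2) ^ 5 * (1 - r) + 93120384 / 15625 * (r - 1 / 2) ^ 6 := by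
    ring
  rw [e]
  positivity

theorem Ev_pm_b1_c4 (r : ℝ) (h1 : 1 / 2 ≤ r) (h2 : r ≤ 1) :
    0 ≤ 542969 / 15625 + 90013 / 15625 * r + (-893809 / 12500) * r ^ 2 + 122941 / 12500 * r ^ 3 + 167727 / 2500 * r ^ 4 + 7791 / 500 * r ^ 5 + (-147 / 50) * r ^ 6 := by
  have hU : 0 ≤ r - 1 / 2 := by linarith
  have hV : 0 ≤ 1 - r := by linarith
  have e : 542969 / 15625 + 90013 / 15625 * r + (-893809 / 12500) * r ^ 2 + 122941 / 12500 * r ^ 3 + 167727 / 2500 * r ^ 4 + 7791 / 500 * r ^ 5 + (-147 / 50) * r ^ 6 = 25617837 / 15625 * (1 - r) ^ 6 + 286910141 / 31250 * (r - 1 / 2) * (1 - r) ^ 5 + 69631842 / 3125 * (r - 1 / 2) ^ 2 * (1 - r) ^ 4 + 98479122 / 3125 * (r - 1 / 2) ^ 3 * (1 - r) ^ 3 + 88890704 / 3125 * (r - 1 / 2) ^ 4 * (1 - r) ^ 2 + 241000032 / 15625 * (r - 1 / 2) ^ 5 * (1 - r) + 58574208 / 15625 * (r - 1 / 2) ^ 6 := by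
    ring
  rw [e]
  positivity

theorem Ev_pm_b1_c5 (r : ℝ) (h1 : 1 / 2 ≤ r) (h2 : r ≤ 1) :
    0 ≤ 4825667 / 312500 + 1245139 / 312500 * r + (-155869 / 3125) * r ^ 2 + (-27503 / 15625) * r ^ 3 + 104377 / 2500 * r ^ 4 + 6321 / 500 * r ^ 5 + (-147 / 25) * r ^ 6 := by
  have hU : 0 ≤ r - 1 / 2 := by linarith
  have hV : 0 ≤ 1 - r := by linarith
  have e : 4825667 / 312500 + 1245139 / 312500 * r + (-155869 / 3125) * r ^ 2 + (-27503 / 15625) * r ^ 3 + 104377 / 2500 * r ^ 4 + 6321 / 500 * r ^ 5 + (-147 / 25) * r ^ 6 = 76574253 / 156250 * (1 - r) ^ 6 + 341994247 / 156250 * (r - 1 / 2) * (1 - r) ^ 5 + 61235202 / 15625 * (r - 1 / 2) ^ 2 * (1 - r) ^ 4 + 68425868 / 15625 * (r - 1 / 2) ^ 3 * (1 - r) ^ 3 + 68205872 / 15625 * (r - 1 / 2) ^ 4 * (1 - r) ^ 2 + 254330944 / 78125 * (r - 1 / 2) ^ 5 * (1 - r) + 81505536 / 78125 * (r - 1 / 2) ^ 6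 := by
    ring
  rw [e]
  positivity

theorem Ev_pm_b1_c6 (r : ℝ) (h1 : 1 / 2 ≤ r) (h2 : r ≤ 1) :
    0 ≤ 1227597 / 312500 + 765429 / 312500 * r + (-8967 / 625) * r ^ 2 + (-111111 / 31250) * r ^ 3 + 160821 / 12500 * r ^ 4 + 1617 / 500 * r ^ 5 + (-147 / 50) * r ^ 6 := by
  have hU : 0 ≤ r - 1 / 2 := by linarith
  have hV : 0 ≤ 1 - r := by linarith
  have e : 1227597 / 312500 + 765429 / 312500 * r + (-8967 / 625) * r ^ 2 + (-111111 / 31250) * r ^ 3 + 160821 / 12500 * r ^ 4 + 1617 / 500 * r ^ 5 + (-147 / 50) * r ^ 6 = 9904914 / 78125 * (1 - r) ^ 6 + 80497587 / 156250 * (r - 1 / 2) * (1 - r) ^ 5 + 10760112 / 15625 * (r - 1 / 2) ^ 2 * (1 - r) ^ 4 + 5026368 / 15625 * (r - 1 / 2) ^ 3 * (1 - r) ^ 3 + 1921632 / 15625 * (r - 1 / 2) ^ 4 * (1 - r) ^ 2 + 16335744 / 78125 * (r - 1 / 2) ^ 5 * (1 - r) + 8173056 / 78125 * (r - 1 / 2) ^ 6 := by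
    ring
  rw [e]
  positivity

theorem Ev_pm_b1 (r s : ℝ) (h1 : 1 / 2 ≤ r) (h2 : r ≤ 1) (h3 : 0 ≤ s) (h4 : s ≤ 5 / 7) :
    0 ≤ Ev r s r (-s) := by
  have hU : 0 ≤ s := by linarith
  have hV : 0 ≤ 5 / 7 - s := by linarith
  have e : Ev r s r (-s) = (1058841 / 156250 + 3647119 / 312500 * r + (-235298 / 15625) * r ^ 3) * ((5 / 7 - s) ^ 6) + (10101007 / 312500 + 7411887 / 156250 * r + (-50421 / 12500) * r ^ 2 + (-3882417 / 62500) * r ^ 3 + 33614 / 3125 * r ^ 4) * (s * (5 / 7 - s) ^ 5) + (3747961 / 62500 + 1015623 / 15625 * r + (-285719 / 12500) * r ^ 2 + (-497007 / 6250) * r ^ 3 + 28812 / 625 * r ^ 4) * (s ^ 2 * (5 / 7 - s) ^ 4) + (1801779 / 31250 + 2091271 / 62500 * r + (-684971 / 12500) * r ^ 2 + (-30527 / 1250) * r ^ 3 + 187621 / 2500 * r ^ 4 + 3087 / 500 * r ^ 5) * (s ^ 3 * (5 / 7 - s) ^ 3) + (542969 / 15625 + 90013 / 15625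 * r + (-893809 / 12500) * r ^ 2 + 122941 / 12500 * r ^ 3 + 167727 / 2500 * r ^ 4 + 7791 / 500 * r ^ 5 + (-147 / 50) * r ^ 6) * (s ^ 4 * (5 / 7 - s) ^ 2) + (4825667 / 312500 + 1245139 / 312500 * r + (-155869 / 3125) * r ^ 2 + (-27503 / 15625) * r ^ 3 + 104377 / 2500 * r ^ 4 + 6321 / 500 * r ^ 5 + (-147 / 25) * r ^ 6) * (s ^ 5 * (5 / 7 - s)) + (1227597 / 312500 + 765429 / 312500 * r + (-8967 / 625) * r ^ 2 + (-111111 / 31250) * r ^ 3 + 160821 / 12500 * r ^ 4 + 1617 / 500 * r ^ 5 + (-147 / 50) * r ^ 6) * (s ^ 6) := by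
    unfold Ev
    ring
  rw [e]
  have c0 := Ev_pm_b1_c0 r h1 h2
  have c1 := Ev_pm_b1_c1 r h1 h2
  have c2 := Ev_pm_b1_c2 r h1 h2
  have c3 := Ev_pm_b1_c3 r h1 h2
  have c4 := Ev_pm_b1_c4 r h1 h2
  have c5 := Ev_pm_b1_c5 r h1 h2
  have c6 := Ev_pm_b1_c6 r h1 h2
  positivity

theorem Ev_pm (r s : ℝ) (h1 : 0 ≤ r) (h2 : r ≤ 1) (h3 : 0 ≤ s) (h4 : s ≤ 5 / 7) :
    0 ≤ Ev r s r (-s) := by
  rcases le_total r (1 / 2) with k2 | k2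
  · 
    exact Ev_pm_b0 r s h1 k2 h3 h4
  · 
    exact Ev_pm_b1 r s k2 h2 h3 h4

theorem Ev_mp_b0_c0 (r : ℝ) (h1 : 0 ≤ r) (h2 : r ≤ 1 / 2) :
    0 ≤ 1058841 / 156250 + (-3647119 / 312500) * r + 235298 / 15625 * r ^ 3 := by
  have hU : 0 ≤ r := by linarith
  have hV : 0 ≤ 1 / 2 - r := by linarith
  have e : 1058841 / 156250 + (-3647119 / 312500) * r + 235298 / 15625 * r ^ 3 = 33882912 / 78125 * (1 / 2 - r) ^ 6 + 34824104 / 15625 * r * (1 / 2 - r) ^ 5 + 72471784 / 15625 * r ^ 2 * (1 / 2 - r) ^ 4 + 79060128 / 15625 * r ^ 3 * (1 / 2 - r) ^ 3 + 48941984 / 15625 * r ^ 4 * (1 / 2 - r) ^ 2 + 85648472 / 78125 * r ^ 5 * (1 / 2 - r) + 2823576 / 15625 * r ^ 6 := by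
    ring
  rw [e]
  positivity

theorem Ev_mp_b0_c1 (r : ℝ) (h1 : 0 ≤ r) (h2 : r ≤ 1 / 2) :
    0 ≤ 15311177 / 312500 + (-14470827 / 156250) * r + 50421 / 12500 * r ^ 2 + 7411887 / 62500 * r ^ 3 + (-33614 / 3125) * r ^ 4 := by
  have hU : 0 ≤ r := by linarith
  have hV : 0 ≤ 1 / 2 - r := by linarith
  have e : 15311177 / 312500 + (-14470827 / 156250) * r + 50421 / 12500 * r ^ 2 + 7411887 / 62500 * r ^ 3 + (-33614 / 3125) * r ^ 4 = 244978832 / 78125 * (1 / 2 - r) ^ 6 + 247667952 / 15625 * r * (1 / 2 - r) ^ 5 + 504411684 / 15625 * r ^ 2 * (1 / 2 - r) ^ 4 + 535706318 / 15625 * r ^ 3 * (1 / 2 - r) ^ 3 + 321719594 / 15625 * r ^ 4 * (1 / 2 - r) ^ 2 + 548009042 / 78125 * r ^ 5 * (1 / 2 - r) + 17849034 / 15625 * r ^ 6 := by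
    ring
  rw [e]
  positivity

theorem Ev_mp_b0_c2 (r : ℝ) (h1 : 0 ≤ r) (h2 : r ≤ 1 / 2) :
    0 ≤ 8958131 / 62500 + (-4545093 / 15625) * r + 218491 / 12500 * r ^ 2 + 1130871 / 3125 * r ^ 3 + (-38416 / 625) * r ^ 4 := by
  have hU : 0 ≤ r := by linarith
  have hV : 0 ≤ 1 / 2 - r := by linarith
  have e : 8958131 / 62500 + (-4545093 / 15625) * r + 218491 / 12500 * r ^ 2 + 1130871 / 3125 * r ^ 3 + (-38416 / 625) * r ^ 4 = 143330096 / 15625 * (1 / 2 - r) ^ 6 + 28581504 / 625 * r * (1 / 2 - r) ^ 5 + 285421276 / 3125 * r ^ 2 * (1 / 2 - r) ^ 4 + 294977256 / 3125 * r ^ 3 * (1 / 2 - r) ^ 3 + 170720704 / 3125 * r ^ 4 * (1 / 2 - r) ^ 2 + 278266296 / 15625 * r ^ 5 * (1 / 2 - r) + 8730036 / 3125 * r ^ 6 := by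
    ring
  rw [e]
  positivity

theorem Ev_mp_b0_c3 (r : ℝ) (h1 : 0 ≤ r) (h2 : r ≤ 1 / 2) :
    0 ≤ 6668949 / 31250 + (-28526281 / 62500) * r + 416059 / 12500 * r ^ 2 + 134113 / 250 * r ^ 3 + (-68257 / 500) * r ^ 4 + 3087 / 500 * r ^ 5 := by
  have hU : 0 ≤ r := by linarith
  have hV : 0 ≤ 1 / 2 - r := by linarith
  have e : 6668949 / 31250 + (-28526281 / 62500) * r + 416059 / 12500 * r ^ 2 + 134113 / 250 * r ^ 3 + (-68257 / 500) * r ^ 4 + 3087 / 500 * r ^ 5 = 213406368 / 15625 * (1 / 2 - r) ^ 6 + 210445592 / 3125 * r * (1 / 2 - r) ^ 5 + 413673092 / 3125 * r ^ 2 * (1 / 2 - r) ^ 4 + 83454644 / 625 * r ^ 3 * (1 / 2 - r) ^ 3 + 232311499 / 3125 * r ^ 4 * (1 / 2 - r) ^ 2 + 713939751 / 31250 * r ^ 5 * (1 / 2 - r) + 4178769 / 1250 * r ^ 6 := by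
    ring
  rw [e]
  positivity

theorem Ev_mp_b0_c4 (r : ℝ) (h1 : 0 ≤ r) (h2 : r ≤ 1 / 2) :
    0 ≤ 2633554 / 15625 + (-11596781 / 31250) * r + 392441 / 12500 * r ^ 2 + 4960319 / 12500 * r ^ 3 + (-343343 / 2500) * r ^ 4 + 10731 / 500 * r ^ 5 + (-147 / 50) * r ^ 6 := by
  have hU : 0 ≤ r := by linarith
  have hV : 0 ≤ 1 / 2 - r := by linarith
  have e : 2633554 / 15625 + (-11596781 / 31250) * r + 392441 / 12500 * r ^ 2 + 4960319 / 12500 * r ^ 3 + (-343343 / 2500) * r ^ 4 + 10731 / 500 * r ^ 5 + (-147 / 50) * r ^ 6 = 168547456 / 15625 * (1 / 2 - r) ^ 6 + 165147248 / 3125 * r * (1 / 2 - r) ^ 5 + 321663636 / 3125 * r ^ 2 * (1 / 2 - r) ^ 4 + 319292526 / 3125 * r ^ 3 * (1 / 2 - r) ^ 3 + 172009159 / 3125 * r ^ 4 * (1 / 2 - r) ^ 2 + 494501287 / 31250 * r ^ 5 * (1 / 2 - r) + 6498429 / 3125 * r ^ 6 := by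
    ring
  rw [e]
  positivity

theorem Ev_mp_b0_c5 (r : ℝ) (h1 : 0 ≤ r) (h2 : r ≤ 1 / 2) :
    0 ≤ 20586517 / 312500 + (-44823289 / 312500) * r + 39641 / 3125 * r ^ 2 + 2068178 / 15625 * r ^ 3 + (-148281 / 2500) * r ^ 4 + 12201 / 500 * r ^ 5 + (-147 / 25) * r ^ 6 := by
  have hU : 0 ≤ r := by linarith
  have hV : 0 ≤ 1 / 2 - r := by linarith
  have e : 20586517 / 312500 + (-44823289 / 312500) * r + 39641 / 3125 * r ^ 2 + 2068178 / 15625 * r ^ 3 + (-148281 / 2500) * r ^ 4 + 12201 / 500 * r ^ 5 + (-147 / 25) * r ^ 6 = 329384272 / 78125 * (1 / 2 - r) ^ 6 + 323543864 / 15625 * r * (1 / 2 - r) ^ 5 + 632737784 / 15625 * r ^ 2 * (1 / 2 - r) ^ 4 + 629595008 / 15625 * r ^ 3 * (1 / 2 - r) ^ 3 + 335937119 / 15625 * r ^ 4 * (1 / 2 - r) ^ 2 + 923447189 / 156250 * r ^ 5 * (1 / 2 - r) + 21679917 / 31250 * r ^ 6 := by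
    ring
  rw [e]
  positivity

theorem Ev_mp_b0_c6 (r : ℝ) (h1 : 0 ≤ r) (h2 : r ≤ 1 / 2) :
    0 ≤ 3007767 / 312500 + (-5879559 / 312500) * r + 3528 / 3125 * r ^ 2 + 426321 / 31250 * r ^ 3 + (-116001 / 12500) * r ^ 4 + 4557 / 500 * r ^ 5 + (-147 / 50) * r ^ 6 := by
  have hU : 0 ≤ r := by linarith
  have hV : 0 ≤ 1 / 2 - r := by linarith
  have e : 3007767 / 312500 + (-5879559 / 312500) * r + 3528 / 3125 * r ^ 2 + 426321 / 31250 * r ^ 3 + (-116001 / 12500) * r ^ 4 + 4557 / 500 * r ^ 5 + (-147 / 50) * r ^ 6 = 48124272 / 78125 * (1 / 2 - r) ^ 6 + 48341832 / 15625 * r * (1 / 2 - r) ^ 5 + 97618584 / 15625 * r ^ 2 * (1 / 2 - r) ^ 4 + 101258388 / 15625 * r ^ 3 * (1 / 2 - r) ^ 3 + 56529159 / 15625 * r ^ 4 * (1 / 2 - r) ^ 2 + 160822689 / 156250 * r ^ 5 * (1 / 2 - r) + 1863954 / 15625 * r ^ 6 := by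
    ring
  rw [e]
  positivity

theorem Ev_mp_b0 (r s : ℝ) (h1 : 0 ≤ r) (h2 : r ≤ 1 / 2) (h3 : 0 ≤ s) (h4 : s ≤ 5 / 7) :
    0 ≤ Ev r s (-r) s := by
  have hU : 0 ≤ s := by linarith
  have hV : 0 ≤ 5 / 7 - s := by linarith
  have e : Ev r s (-r) s = (1058841 / 156250 + (-3647119 / 312500) * r + 235298 / 15625 * r ^ 3) * ((5 / 7 - s) ^ 6) + (15311177 / 312500 + (-14470827 / 156250) * r + 50421 / 12500 * r ^ 2 + 7411887 / 62500 * r ^ 3 + (-33614 / 3125) * r ^ 4) * (s * (5 / 7 - s) ^ 5) + (8958131 / 62500 + (-4545093 / 15625) * r + 218491 / 12500 * r ^ 2 + 1130871 / 3125 * r ^ 3 + (-38416 / 625) * r ^ 4) * (s ^ 2 * (5 / 7 - s) ^ 4) + (6668949 / 31250 + (-28526281 / 62500) * r + 416059 / 12500 * r ^ 2 + 134113 / 250 * r ^ 3 + (-68257 / 500) * r ^ 4 + 3087 / 500 * r ^ 5) * (s ^ 3 * (5 / 7 - s) ^ 3) + (2633554 / 15625 + (-11596781 /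 31250) * r + 392441 / 12500 * r ^ 2 + 4960319 / 12500 * r ^ 3 + (-343343 / 2500) * r ^ 4 + 10731 / 500 * r ^ 5 + (-147 / 50) * r ^ 6) * (s ^ 4 * (5 / 7 - s) ^ 2) + (20586517 / 312500 + (-44823289 / 312500) * r + 39641 / 3125 * r ^ 2 + 2068178 / 15625 * r ^ 3 + (-148281 / 2500) * r ^ 4 + 12201 / 500 * r ^ 5 + (-147 / 25) * r ^ 6) * (s ^ 5 * (5 / 7 - s)) + (3007767 / 312500 + (-5879559 / 312500) * r + 3528 / 3125 * r ^ 2 + 426321 / 31250 * r ^ 3 + (-116001 / 12500) * r ^ 4 + 4557 / 500 * r ^ 5 + (-147 / 50) * r ^ 6) * (s ^ 6) := by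
    unfold Ev
    ring
  rw [e]
  have c0 := Ev_mp_b0_c0 r h1 h2
  have c1 := Ev_mp_b0_c1 r h1 h2
  have c2 := Ev_mp_b0_c2 r h1 h2
  have c3 := Ev_mp_b0_c3 r h1 h2
  have c4 := Ev_mp_b0_c4 r h1 h2
  have c5 := Ev_mp_b0_c5 r h1 h2
  have c6 := Ev_mp_b0_c6 r h1 h2
  positivity

theorem Ev_mp_b1_c0 (r : ℝ) (h1 : 1 / 2 ≤ r) (h2 : r ≤ 1) :
    0 ≤ 1058841 / 156250 + (-3647119 / 312500) * r + 235298 / 15625 * r ^ 3 := by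
  have hU : 0 ≤ r - 1 / 2 := by linarith
  have hV : 0 ≤ 1 - r := by linarith
  have e : 1058841 / 156250 + (-3647119 / 312500) * r + 235298 / 15625 * r ^ 3 = 2823576 / 15625 * (1 - r) ^ 6 + 83766088 / 78125 * (r - 1 / 2) * (1 - r) ^ 5 + 1882384 / 625 * (r - 1 / 2) ^ 2 * (1 - r) ^ 4 + 79060128 / 15625 * (r - 1 / 2) ^ 3 * (1 - r) ^ 3 + 16000264 / 3125 * (r - 1 / 2) ^ 4 * (1 - r) ^ 2 + 44236024 / 15625 * (r - 1 / 2) ^ 5 * (1 - r) + 50824368 / 78125 * (r - 1 / 2) ^ 6 := by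
    ring
  rw [e]
  positivity

theorem Ev_mp_b1_c1 (r : ℝ) (h1 : 1 / 2 ≤ r) (h2 : r ≤ 1) :
    0 ≤ 15311177 / 312500 + (-14470827 / 156250) * r + 50421 / 12500 * r ^ 2 + 7411887 / 62500 * r ^ 3 + (-33614 / 3125) * r ^ 4 := by
  have hU : 0 ≤ r - 1 / 2 := by linarith
  have hV : 0 ≤ 1 - r := by linarith
  have e : 15311177 / 312500 + (-14470827 / 156250) * r + 50421 / 12500 * r ^ 2 + 7411887 / 62500 * r ^ 3 + (-33614 / 3125) * r ^ 4 = 17849034 / 15625 * (1 - r) ^ 6 + 522932998 / 78125 * (r - 1 / 2) * (1 - r) ^ 5 + 11865742 / 625 * (r - 1 / 2) ^ 2 * (1 - r) ^ 4 + 509823538 / 15625 * (r - 1 / 2) ^ 3 * (1 - r) ^ 3 + 105413504 / 3125 * (r - 1 / 2) ^ 4 * (1 - r) ^ 2 + 295399832 / 15625 * (r - 1 / 2) ^ 5 * (1 - r) + 341249328 / 78125 * (r - 1 / 2) ^ 6 := by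
    ring
  rw [e]
  positivity

theorem Ev_mp_b1_c2 (r : ℝ) (h1 : 1 / 2 ≤ r) (h2 : r ≤ 1) :
    0 ≤ 8958131 / 62500 + (-4545093 / 15625) * r + 218491 / 12500 * r ^ 2 + 1130871 / 3125 * r ^ 3 + (-38416 / 625) * r ^ 4 := by
  have hU : 0 ≤ r - 1 / 2 := by linarith
  have hV : 0 ≤ 1 - r := by linarith
  have e : 8958131 / 62500 + (-4545093 / 15625) * r + 218491 / 12500 * r ^ 2 + 1130871 / 3125 * r ^ 3 + (-38416 / 625) * r ^ 4 = 8730036 / 3125 * (1 - r) ^ 6 + 245535864 / 15625 * (r - 1 / 2) * (1 - r) ^ 5 + 137990272 / 3125 * (r - 1 / 2) ^ 2 * (1 - r) ^ 4 + 241463768 / 3125 * (r - 1 / 2) ^ 3 * (1 - r) ^ 3 + 51160508 / 625 * (r - 1 / 2) ^ 4 * (1 - r) ^ 2 + 146019216 / 3125 * (r - 1 / 2) ^ 5 * (1 - r) + 170336544 / 15625 * (r - 1 / 2) ^ 6 := by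
    ring
  rw [e]
  positivity

theorem Ev_mp_b1_c3 (r : ℝ) (h1 : 1 / 2 ≤ r) (h2 : r ≤ 1) :
    0 ≤ 6668949 / 31250 + (-28526281 / 62500) * r + 416059 / 12500 * r ^ 2 + 134113 / 250 * r ^ 3 + (-68257 / 500) * r ^ 4 + 3087 / 500 * r ^ 5 := by
  have hU : 0 ≤ r - 1 / 2 := by linarith
  have hV : 0 ≤ 1 - r := by linarith
  have e : 6668949 / 31250 + (-28526281 / 62500) * r + 416059 / 12500 * r ^ 2 + 134113 / 250 * r ^ 3 + (-68257 / 500) * r ^ 4 + 3087 / 500 * r ^ 5 = 4178769 / 1250 * (1 - r) ^ 6 + 539690949 / 31250 * (r - 1 / 2) * (1 - r) ^ 5 + 145187098 / 3125 * (r - 1 / 2) ^ 2 * (1 - r) ^ 4 + 256967368 / 3125 * (r - 1 / 2) ^ 3 * (1 - r) ^ 3 + 56250628 / 625 * (r - 1 / 2) ^ 4 * (1 - r) ^ 2 + 165227216 / 3125 * (r - 1 / 2) ^ 5 * (1 - r) + 196382592 / 15625 * (r - 1 / 2) ^ 6 := by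
    ring
  rw [e]
  positivity

theorem Ev_mp_b1_c4 (r : ℝ) (h1 : 1 / 2 ≤ r) (h2 : r ≤ 1) :
    0 ≤ 2633554 / 15625 + (-11596781 / 31250) * r + 392441 / 12500 * r ^ 2 + 4960319 / 12500 * r ^ 3 + (-343343 / 2500) * r ^ 4 + 10731 / 500 * r ^ 5 + (-147 / 50) * r ^ 6 := by
  have hU : 0 ≤ r - 1 / 2 := by linarith
  have hV : 0 ≤ 1 - r := by linarith
  have e : 2633554 / 15625 + (-11596781 / 31250) * r + 392441 / 12500 * r ^ 2 + 4960319 / 12500 * r ^ 3 + (-343343 / 2500) * r ^ 4 + 10731 / 500 * r ^ 5 + (-147 / 50) * r ^ 6 = 6498429 / 3125 * (1 - r) ^ 6 + 285310193 / 31250 * (r - 1 / 2) * (1 - r) ^ 5 + 67413612 / 3125 * (r - 1 / 2) ^ 2 * (1 - r) ^ 4 + 118524238 / 3125 * (r - 1 / 2) ^ 3 * (1 - r) ^ 3 + 27548192 / 625 * (r - 1 / 2) ^ 4 * (1 - r) ^ 2 + 85978144 / 3125 * (r - 1 / 2) ^ 5 * (1 - r) + 106856064 / 15625 * (r - 1 / 2) ^ 6 :=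 by
    ring
  rw [e]
  positivity

theorem Ev_mp_b1_c5 (r : ℝ) (h1 : 1 / 2 ≤ r) (h2 : r ≤ 1) :
    0 ≤ 20586517 / 312500 + (-44823289 / 312500) * r + 39641 / 3125 * r ^ 2 + 2068178 / 15625 * r ^ 3 + (-148281 / 2500) * r ^ 4 + 12201 / 500 * r ^ 5 + (-147 / 25) * r ^ 6 := by
  have hU : 0 ≤ r - 1 / 2 := by linarith
  have hV : 0 ≤ 1 - r := by linarith
  have e : 20586517 / 312500 + (-44823289 / 312500) * r + 39641 / 3125 * r ^ 2 + 2068178 / 15625 * r ^ 3 + (-148281 / 2500) * r ^ 4 + 12201 / 500 * r ^ 5 + (-147 / 25) * r ^ 6 = 21679917 / 31250 * (1 - r) ^ 6 + 377347831 / 156250 * (r - 1 / 2) * (1 - r) ^ 5 + 12577488 / 3125 * (r - 1 / 2) ^ 2 * (1 - r) ^ 4 + 98506548 / 15625 * (r - 1 / 2) ^ 3 * (1 - r) ^ 3 + 26334224 / 3125 * (r - 1 / 2) ^ 4 * (1 - r) ^ 2 + 95949504 / 15625 * (r - 1 / 2) ^ 5 * (1 - r) + 133502208 / 78125 * (r - 1 /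 2) ^ 6 := by
    ring
  rw [e]
  positivity

theorem Ev_mp_b1_c6 (r : ℝ) (h1 : 1 / 2 ≤ r) (h2 : r ≤ 1) :
    0 ≤ 3007767 / 312500 + (-5879559 / 312500) * r + 3528 / 3125 * r ^ 2 + 426321 / 31250 * r ^ 3 + (-116001 / 12500) * r ^ 4 + 4557 / 500 * r ^ 5 + (-147 / 50) * r ^ 6 := by
  have hU : 0 ≤ r - 1 / 2 := by linarith
  have hV : 0 ≤ 1 - r := by linarith
  have e : 3007767 / 312500 + (-5879559 / 312500) * r + 3528 / 3125 * r ^ 2 + 426321 / 31250 * r ^ 3 + (-116001 / 12500) * r ^ 4 + 4557 / 500 * r ^ 5 + (-147 / 50) * r ^ 6 = 1863954 / 15625 * (1 - r) ^ 6 + 62851791 / 156250 * (r - 1 / 2) * (1 - r) ^ 5 + 1508742 / 3125 * (r - 1 / 2) ^ 2 * (1 - r) ^ 4 + 5916768 / 15625 * (r - 1 / 2) ^ 3 * (1 - r) ^ 3 + 1507104 / 3125 * (r - 1 / 2) ^ 4 * (1 - r) ^ 2 + 7262592 / 15625 * (r - 1 / 2) ^ 5 * (1 - r) + 12377088 / 78125 * (r - 1 / 2) ^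 6 := by
    ring
  rw [e]
  positivity

theorem Ev_mp_b1 (r s : ℝ) (h1 : 1 / 2 ≤ r) (h2 : r ≤ 1) (h3 : 0 ≤ s) (h4 : s ≤ 5 / 7) :
    0 ≤ Ev r s (-r) s := by
  have hU : 0 ≤ s := by linarith
  have hV : 0 ≤ 5 / 7 - s := by linarith
  have e : Ev r s (-r) s = (1058841 / 156250 + (-3647119 / 312500) * r + 235298 / 15625 * r ^ 3) * ((5 / 7 - s) ^ 6) + (15311177 / 312500 + (-14470827 / 156250) * r + 50421 / 12500 * r ^ 2 + 7411887 / 62500 * r ^ 3 + (-33614 / 3125) * r ^ 4) * (s * (5 / 7 - s) ^ 5) + (8958131 / 62500 + (-4545093 / 15625) * r + 218491 / 12500 * r ^ 2 + 1130871 / 3125 * r ^ 3 + (-38416 / 625) * r ^ 4) * (s ^ 2 * (5 / 7 - s) ^ 4) + (6668949 / 31250 + (-28526281 / 62500) * r + 416059 / 12500 * r ^ 2 + 134113 / 250 * r ^ 3 + (-68257 / 500) * r ^ 4 + 3087 / 500 * r ^ 5) * (s ^ 3 * (5 / 7 - s) ^ 3) + (2633554 / 15625 + (-11596781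 / 31250) * r + 392441 / 12500 * r ^ 2 + 4960319 / 12500 * r ^ 3 + (-343343 / 2500) * r ^ 4 + 10731 / 500 * r ^ 5 + (-147 / 50) * r ^ 6) * (s ^ 4 * (5 / 7 - s) ^ 2) + (20586517 / 312500 + (-44823289 / 312500) * r + 39641 / 3125 * r ^ 2 + 2068178 / 15625 * r ^ 3 + (-148281 / 2500) * r ^ 4 + 12201 / 500 * r ^ 5 + (-147 / 25) * r ^ 6) * (s ^ 5 * (5 / 7 - s)) + (3007767 / 312500 + (-5879559 / 312500) * r + 3528 / 3125 * r ^ 2 + 426321 / 31250 * r ^ 3 + (-116001 / 12500) * r ^ 4 + 4557 / 500 * r ^ 5 + (-147 / 50) * r ^ 6) * (s ^ 6) := by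
    unfold Ev
    ring
  rw [e]
  have c0 := Ev_mp_b1_c0 r h1 h2
  have c1 := Ev_mp_b1_c1 r h1 h2
  have c2 := Ev_mp_b1_c2 r h1 h2
  have c3 := Ev_mp_b1_c3 r h1 h2
  have c4 := Ev_mp_b1_c4 r h1 h2
  have c5 := Ev_mp_b1_c5 r h1 h2
  have c6 := Ev_mp_b1_c6 r h1 h2
  positivity

theorem Ev_mp (r s : ℝ) (h1 : 0 ≤ r) (h2 : r ≤ 1) (h3 : 0 ≤ s) (h4 : s ≤ 5 / 7) :
    0 ≤ Ev r s (-r) s := by
  rcases le_total r (1 / 2) with k2 | k2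
  · 
    exact Ev_mp_b0 r s h1 k2 h3 h4
  · 
    exact Ev_mp_b1 r s k2 h2 h3 h4

theorem Ev_mm_b0_c0 (r : ℝ) (h1 : 0 ≤ r) (h2 : r ≤ 1 / 2) :
    0 ≤ 1058841 / 156250 + (-3647119 / 312500) * r + 235298 / 15625 * r ^ 3 := by
  have hU : 0 ≤ r := by linarith
  have hV : 0 ≤ 1 / 2 - r := by linarith
  have e : 1058841 / 156250 + (-3647119 / 312500) * r + 235298 / 15625 * r ^ 3 = 33882912 / 78125 * (1 / 2 - r) ^ 6 + 34824104 / 15625 * r * (1 / 2 - r) ^ 5 + 72471784 / 15625 * r ^ 2 * (1 / 2 - r) ^ 4 + 79060128 / 15625 * r ^ 3 * (1 / 2 - r) ^ 3 + 48941984 / 15625 * r ^ 4 * (1 / 2 - r) ^ 2 + 85648472 / 78125 * r ^ 5 * (1 / 2 - r) + 2823576 / 15625 * r ^ 6 := by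
    ring
  rw [e]
  positivity

theorem Ev_mm_b0_c1 (r : ℝ) (h1 : 0 ≤ r) (h2 : r ≤ 1 / 2) :
    0 ≤ 10101007 / 312500 + (-10773287 / 156250) * r + 218491 / 12500 * r ^ 2 + 5226977 / 62500 * r ^ 3 + (-33614 / 3125) * r ^ 4 := by
  have hU : 0 ≤ r := by linarith
  have hV : 0 ≤ 1 / 2 - r := by linarith
  have e : 10101007 / 312500 + (-10773287 / 156250) * r + 218491 / 12500 * r ^ 2 + 5226977 / 62500 * r ^ 3 + (-33614 / 3125) * r ^ 4 = 161616112 / 78125 * (1 / 2 - r) ^ 6 + 159464816 / 15625 * r * (1 / 2 - r) ^ 5 + 316845564 / 15625 * r ^ 2 * (1 / 2 - r) ^ 4 + 329652498 / 15625 * r ^ 3 * (1 / 2 - r) ^ 3 + 197011654 / 15625 * r ^ 4 * (1 / 2 - r) ^ 2 + 345316622 / 78125 * r ^ 5 * (1 / 2 - r) + 12000198 / 15625 * r ^ 6 := by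
    ring
  rw [e]
  positivity

theorem Ev_mm_b0_c2 (r : ℝ) (h1 : 0 ≤ r) (h2 : r ≤ 1 / 2) :
    0 ≤ 3747961 / 62500 + (-2456223 / 15625) * r + 866761 / 12500 * r ^ 2 + 1073247 / 6250 * r ^ 3 + (-28812 / 625) * r ^ 4 := by
  have hU : 0 ≤ r := by linarith
  have hV : 0 ≤ 1 / 2 - r := by linarith
  have e : 3747961 / 62500 + (-2456223 / 15625) * r + 866761 / 12500 * r ^ 2 + 1073247 / 6250 * r ^ 3 + (-28812 / 625) * r ^ 4 = 59967376 / 15625 * (1 / 2 - r) ^ 6 + 56241024 / 3125 * r * (1 / 2 - r) ^ 5 + 104770036 / 3125 * r ^ 2 * (1 / 2 - r) ^ 4 + 100832396 / 3125 * r ^ 3 * (1 / 2 - r) ^ 3 + 55808844 / 3125 * r ^ 4 * (1 / 2 - r) ^ 2 + 94781876 / 15625 * r ^ 5 * (1 / 2 - r) + 691488 / 625 * r ^ 6 := by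
    ring
  rw [e]
  positivity

theorem Ev_mm_b0_c3 (r : ℝ) (h1 : 0 ≤ r) (h2 : r ≤ 1 / 2) :
    0 ≤ 1801779 / 31250 + (-11009271 / 62500) * r + 1098629 / 12500 * r ^ 2 + 44247 / 250 * r ^ 3 + (-156751 / 2500) * r ^ 4 + (-3087 / 500) * r ^ 5 := by
  have hU : 0 ≤ r := by linarith
  have hV : 0 ≤ 1 / 2 - r := by linarith
  have e : 1801779 / 31250 + (-11009271 / 62500) * r + 1098629 / 12500 * r ^ 2 + 44247 / 250 * r ^ 3 + (-156751 / 2500) * r ^ 4 + (-3087 / 500) * r ^ 5 = 57656928 / 15625 * (1 / 2 - r) ^ 6 + 10314696 / 625 * r * (1 / 2 - r) ^ 5 + 89291132 / 3125 * r ^ 2 * (1 / 2 - r) ^ 4 + 15296428 / 625 * r ^ 3 * (1 / 2 - r) ^ 3 + 35679889 / 3125 * r ^ 4 * (1 / 2 - r) ^ 2 + 103602121 / 31250 * r ^ 5 * (1 / 2 - r) + 3826851 / 6250 * r ^ 6 := by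
    ring
  rw [e]
  positivity

theorem Ev_mm_b0_c4 (r : ℝ) (h1 : 0 ≤ r) (h2 : r ≤ 1 / 2) :
    0 ≤ 542969 / 15625 + (-1618813 / 15625) * r + 329231 / 12500 * r ^ 2 + 1514639 / 12500 * r ^ 3 + (-75117 / 2500) * r ^ 4 + (-10731 / 500) * r ^ 5 + 147 / 50 * r ^ 6 := by
  have hU : 0 ≤ r := by linarith
  have hV : 0 ≤ 1 / 2 - r := by linarith
  have e : 542969 / 15625 + (-1618813 / 15625) * r + 329231 / 12500 * r ^ 2 + 1514639 / 12500 * r ^ 3 + (-75117 / 2500) * r ^ 4 + (-10731 / 500) * r ^ 5 + 147 / 50 * r ^ 6 = 34750016 / 15625 * (1 / 2 - r) ^ 6 + 31339616 / 3125 * r * (1 / 2 - r) ^ 5 + 53764956 / 3125 * r ^ 2 * (1 / 2 - r) ^ 4 + 43693006 / 3125 * r ^ 3 * (1 / 2 - r) ^ 3 + 17259809 / 3125 * r ^ 4 * (1 / 2 - r) ^ 2 + 33682257 / 31250 * r ^ 5 * (1 / 2 - r) + 435267 / 3125 * r ^ 6 := by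
    ring
  rw [e]
  positivity

theorem Ev_mm_b0_c5 (r : ℝ) (h1 : 0 ≤ r) (h2 : r ≤ 1 / 2) :
    0 ≤ 4825667 / 312500 + (-10261139 / 312500) * r + (-65709 / 3125) * r ^ 2 + 1051603 / 15625 * r ^ 3 + (-11767 / 2500) * r ^ 4 + (-12201 / 500) * r ^ 5 + 147 / 25 * r ^ 6 := by
  have hU : 0 ≤ r := by linarith
  have hV : 0 ≤ 1 / 2 - r := by linarith
  have e : 4825667 / 312500 + (-10261139 / 312500) * r + (-65709 / 3125) * r ^ 2 + 1051603 / 15625 * r ^ 3 + (-11767 / 2500) * r ^ 4 + (-12201 / 500) * r ^ 5 + 147 / 25 * r ^ 6 = 77210672 / 78125 * (1 / 2 - r) ^ 6 + 76234984 / 15625 * r * (1 / 2 - r) ^ 5 + 144286184 / 15625 * r ^ 2 * (1 / 2 - r) ^ 4 + 132050408 / 15625 * r ^ 3 * (1 / 2 - r) ^ 3 + 60857769 / 15625 * r ^ 4 * (1 / 2 - r) ^ 2 + 134243739 / 156250 * r ^ 5 * (1 / 2 - r) + 2431107 / 31250 * r ^ 6 := by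
    ring
  rw [e]
  positivity

theorem Ev_mm_b0_c6 (r : ℝ) (h1 : 0 ≤ r) (h2 : r ≤ 1 / 2) :
    0 ≤ 1227597 / 312500 + (-1706229 / 312500) * r + (-35427 / 3125) * r ^ 2 + 624141 / 31250 * r ^ 3 + (-6471 / 12500) * r ^ 4 + (-4557 / 500) * r ^ 5 + 147 / 50 * r ^ 6 := by
  have hU : 0 ≤ r := by linarith
  have hV : 0 ≤ 1 / 2 - r := by linarith
  have e : 1227597 / 312500 + (-1706229 / 312500) * r + (-35427 / 3125) * r ^ 2 + 624141 / 31250 * r ^ 3 + (-6471 / 12500) * r ^ 4 + (-4557 / 500) * r ^ 5 + 147 / 50 * r ^ 6 = 19641552 / 78125 * (1 / 2 - r) ^ 6 + 20839896 / 15625 * r * (1 / 2 - r) ^ 5 + 42440664 / 15625 * r ^ 2 * (1 / 2 - r) ^ 4 + 42426468 / 15625 * r ^ 3 * (1 / 2 - r) ^ 3 + 22077369 / 15625 * r ^ 4 * (1 / 2 - r) ^ 2 + 57235599 / 156250 * r ^ 5 * (1 / 2 - r) + 589518 / 15625 * r ^ 6 := by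
    ring
  rw [e]
  positivity

theorem Ev_mm_b0 (r s : ℝ) (h1 : 0 ≤ r) (h2 : r ≤ 1 / 2) (h3 : 0 ≤ s) (h4 : s ≤ 5 / 7) :
    0 ≤ Ev r s (-r) (-s) := by
  have hU : 0 ≤ s := by linarith
  have hV : 0 ≤ 5 / 7 - s := by linarith
  have e : Ev r s (-r) (-s) = (1058841 / 156250 + (-3647119 / 312500) * r + 235298 / 15625 * r ^ 3) * ((5 / 7 - s) ^ 6) + (10101007 / 312500 + (-10773287 / 156250) * r + 218491 / 12500 * r ^ 2 + 5226977 / 62500 * r ^ 3 + (-33614 / 3125) * r ^ 4) * (s * (5 / 7 - s) ^ 5) + (3747961 / 62500 + (-2456223 / 15625) * r + 866761 / 12500 * r ^ 2 + 1073247 / 6250 * r ^ 3 + (-28812 / 625) * r ^ 4) * (s ^ 2 * (5 / 7 - s) ^ 4) + (1801779 / 31250 + (-11009271 / 62500) * r + 1098629 / 12500 * r ^ 2 + 44247 / 250 * r ^ 3 + (-156751 / 2500) * r ^ 4 + (-3087 / 500) * r ^ 5) * (s ^ 3 * (5 / 7 - s) ^ 3) + (542969 / 15625 + (-1618813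 / 15625) * r + 329231 / 12500 * r ^ 2 + 1514639 / 12500 * r ^ 3 + (-75117 / 2500) * r ^ 4 + (-10731 / 500) * r ^ 5 + 147 / 50 * r ^ 6) * (s ^ 4 * (5 / 7 - s) ^ 2) + (4825667 / 312500 + (-10261139 / 312500) * r + (-65709 / 3125) * r ^ 2 + 1051603 / 15625 * r ^ 3 + (-11767 / 2500) * r ^ 4 + (-12201 / 500) * r ^ 5 + 147 / 25 * r ^ 6) * (s ^ 5 * (5 / 7 - s)) + (1227597 / 312500 + (-1706229 / 312500) * r + (-35427 / 3125) * r ^ 2 + 624141 / 31250 * r ^ 3 + (-6471 / 12500) * r ^ 4 + (-4557 / 500) * r ^ 5 + 147 / 50 * r ^ 6) * (s ^ 6) := by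
    unfold Ev
    ring
  rw [e]
  have c0 := Ev_mm_b0_c0 r h1 h2
  have c1 := Ev_mm_b0_c1 r h1 h2
  have c2 := Ev_mm_b0_c2 r h1 h2
  have c3 := Ev_mm_b0_c3 r h1 h2
  have c4 := Ev_mm_b0_c4 r h1 h2
  have c5 := Ev_mm_b0_c5 r h1 h2
  have c6 := Ev_mm_b0_c6 r h1 h2
  positivity

theorem Ev_mm_b1_c0 (r : ℝ) (h1 : 1 / 2 ≤ r) (h2 : r ≤ 1) :
    0 ≤ 33882912 / 78125 + (-58353904 / 78125) * r + 15059072 / 15625 * r ^ 3 := by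
  have hU : 0 ≤ r - 1 / 2 := by linarith
  have hV : 0 ≤ 1 - r := by linarith
  have e : 33882912 / 78125 + (-58353904 / 78125) * r + 15059072 / 15625 * r ^ 3 = 180708864 / 15625 * (1 - r) ^ 6 + 5361029632 / 78125 * (r - 1 / 2) * (1 - r) ^ 5 + 120472576 / 625 * (r - 1 / 2) ^ 2 * (1 - r) ^ 4 + 5059848192 / 15625 * (r - 1 / 2) ^ 3 * (1 - r) ^ 3 + 1024016896 / 3125 * (r - 1 / 2) ^ 4 * (1 - r) ^ 2 + 2831105536 / 15625 * (r - 1 / 2) ^ 5 * (1 - r) + 3252759552 / 78125 * (r - 1 / 2) ^ 6 := by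
    ring
  rw [e]
  positivity

theorem Ev_mm_b1_c1 (r : ℝ) (h1 : 1 / 2 ≤ r) (h2 : r ≤ 1) :
    0 ≤ 182456792 / 78125 + (-347434304 / 78125) * r + 1747928 / 3125 * r ^ 2 + 86993032 / 15625 * r ^ 3 + (-1075648 / 3125) * r ^ 4 := by
  have hU : 0 ≤ r - 1 / 2 := by linarith
  have hV : 0 ≤ 1 - r := by linarith
  have e : 182456792 / 78125 + (-347434304 / 78125) * r + 1747928 / 3125 * r ^ 2 + 86993032 / 15625 * r ^ 3 + (-1075648 / 3125) * r ^ 4 = 926132928 / 15625 * (1 - r) ^ 6 + 28073337152 / 78125 * (r - 1 / 2) * (1 - r) ^ 5 + 3255986496 / 3125 * (r - 1 / 2) ^ 2 * (1 - r) ^ 4 + 28105606592 / 15625 * (r - 1 / 2) ^ 3 * (1 - r) ^ 3 + 5774078464 / 3125 * (r - 1 / 2) ^ 4 * (1 - r) ^ 2 + 641086208 / 625 * (r - 1 / 2) ^ 5 * (1 - r) + 18354857472 / 78125 * (r - 1 / 2) ^ 6 := by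
    ring
  rw [e]
  positivity

theorem Ev_mm_b1_c2 (r : ℝ) (h1 : 1 / 2 ≤ r) (h2 : r ≤ 1) :
    0 ≤ 80808056 / 15625 + (-169251292 / 15625) * r + 7836864 / 3125 * r ^ 2 + 40788188 / 3125 * r ^ 3 + (-998816 / 625) * r ^ 4 := by
  have hU : 0 ≤ r - 1 / 2 := by linarith
  have hV : 0 ≤ 1 - r := by linarith
  have e : 80808056 / 15625 + (-169251292 / 15625) * r + 7836864 / 3125 * r ^ 2 + 40788188 / 3125 * r ^ 3 + (-998816 / 625) * r ^ 4 = 382853856 / 3125 * (1 - r) ^ 6 + 11818528736 / 15625 * (r - 1 / 2) * (1 - r) ^ 5 + 7060169312 / 3125 * (r - 1 / 2) ^ 2 * (1 - r) ^ 4 + 2501419424 / 625 * (r - 1 / 2) ^ 3 * (1 - r) ^ 3 + 521381952 / 125 * (r - 1 / 2) ^ 4 * (1 - r) ^ 2 + 7267077888 / 3125 * (r - 1 / 2) ^ 5 * (1 - r) + 8301543936 / 15625 * (r - 1 / 2) ^ 6 := by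
    ring
  rw [e]
  positivity

theorem Ev_mm_b1_c3 (r : ℝ) (h1 : 1 / 2 ≤ r) (h2 : r ≤ 1) :
    0 ≤ 94536288 / 15625 + (-215980926 / 15625) * r + 13501166 / 3125 * r ^ 2 + 50034096 / 3125 * r ^ 3 + (-354662 / 125) * r ^ 4 + (-6174 / 125) * r ^ 5 := by
  have hU : 0 ≤ r - 1 / 2 := by linarith
  have hV : 0 ≤ 1 - r := by linarith
  have e : 94536288 / 15625 + (-215980926 / 15625) * r + 13501166 / 3125 * r ^ 2 + 50034096 / 3125 * r ^ 3 + (-354662 / 125) * r ^ 4 + (-6174 / 125) * r ^ 5 = 408303084 / 3125 * (1 - r) ^ 6 + 12784939468 / 15625 * (r - 1 / 2) * (1 - r) ^ 5 + 7861345968 / 3125 * (r - 1 / 2) ^ 2 * (1 - r) ^ 4 + 14296887584 / 3125 * (r - 1 / 2) ^ 3 * (1 - r) ^ 3 + 3026181984 / 625 * (r - 1 / 2) ^ 4 * (1 - r) ^ 2 + 8481111296 / 3125 * (r - 1 / 2) ^ 5 * (1 - r) + 9672139008 / 15625 * (r - 1 / 2) ^ 6 := by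
    ring
  rw [e]
  positivity

theorem Ev_mm_b1_c4 (r : ℝ) (h1 : 1 / 2 ≤ r) (h2 : r ≤ 1) :
    0 ≤ 62025376 / 15625 + (-152486922 / 15625) * r + 11010594 / 3125 * r ^ 2 + 34308183 / 3125 * r ^ 3 + (-301154 / 125) * r ^ 4 + (-19992 / 125) * r ^ 5 + 294 / 25 * r ^ 6 := by
  have hU : 0 ≤ r - 1 / 2 := by linarith
  have hV : 0 ≤ 1 - r := by linarith
  have e : 62025376 / 15625 + (-152486922 / 15625) * r + 11010594 / 3125 * r ^ 2 + 34308183 / 3125 * r ^ 3 + (-301154 / 125) * r ^ 4 + (-19992 / 125) * r ^ 5 + 294 / 25 * r ^ 6 = 47513046 / 625 * (1 - r) ^ 6 + 7499856896 / 15625 * (r - 1 / 2) * (1 - r) ^ 5 + 4745807192 / 3125 * (r - 1 / 2) ^ 2 * (1 - r) ^ 4 + 1775912488 / 625 * (r - 1 / 2) ^ 3 * (1 - r) ^ 3 + 1913103472 / 625 * (r - 1 / 2) ^ 4 * (1 - r) ^ 2 + 5400331552 / 3125 * (r - 1 / 2) ^ 5 * (1 - r) + 6155061696 / 15625 * (r - 1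 / 2) ^ 6 := by
    ring
  rw [e]
  positivity

theorem Ev_mm_b1_c5 (r : ℝ) (h1 : 1 / 2 ≤ r) (h2 : r ≤ 1) :
    0 ≤ 109384072 / 78125 + (-283133074 / 78125) * r + 4125506 / 3125 * r ^ 2 + 127249969 / 31250 * r ^ 3 + (-613851 / 625) * r ^ 4 + (-21462 / 125) * r ^ 5 + 588 / 25 * r ^ 6 := by
  have hU : 0 ≤ r - 1 / 2 := by linarith
  have hV : 0 ≤ 1 - r := by linarith
  have e : 109384072 / 78125 + (-283133074 / 78125) * r + 4125506 / 3125 * r ^ 2 + 127249969 / 31250 * r ^ 3 + (-613851 / 625) * r ^ 4 + (-21462 / 125) * r ^ 5 + 588 / 25 * r ^ 6 = 360721704 / 15625 * (1 - r) ^ 6 + 11345981192 / 78125 * (r - 1 / 2) * (1 - r) ^ 5 + 1475148528 / 3125 * (r - 1 / 2) ^ 2 * (1 - r) ^ 4 + 14242596732 / 15625 * (r - 1 / 2) ^ 3 * (1 - r) ^ 3 + 3134354216 / 3125 * (r - 1 / 2) ^ 4 * (1 - r) ^ 2 + 8933911056 / 15625 * (r - 1 / 2) ^ 5 * (1 - r) +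 10189180512 / 78125 * (r - 1 / 2) ^ 6 := by
    ring
  rw [e]
  positivity

theorem Ev_mm_b1_c6 (r : ℝ) (h1 : 1 / 2 ≤ r) (h2 : r ≤ 1) :
    0 ≤ 16472232 / 78125 + (-43427034 / 78125) * r + 527142 / 3125 * r ^ 2 + 20495139 / 31250 * r ^ 3 + (-967671 / 6250) * r ^ 4 + (-7644 / 125) * r ^ 5 + 294 / 25 * r ^ 6 := by
  have hU : 0 ≤ r - 1 / 2 := by linarith
  have hV : 0 ≤ 1 - r := by linarith
  have e : 16472232 / 78125 + (-43427034 / 78125) * r + 527142 / 3125 * r ^ 2 + 20495139 / 31250 * r ^ 3 + (-967671 / 6250) * r ^ 4 + (-7644 / 125) * r ^ 5 + 294 / 25 * r ^ 6 = 45659508 / 15625 * (1 - r) ^ 6 + 1395745392 / 78125 * (r - 1 / 2) * (1 - r) ^ 5 + 184910358 / 3125 * (r - 1 / 2) ^ 2 * (1 - r) ^ 4 + 1847745252 / 15625 * (r - 1 / 2) ^ 3 * (1 - r) ^ 3 + 417209544 / 3125 * (r - 1 / 2) ^ 4 * (1 - r) ^ 2 + 1927152 / 25 * (r - 1 / 2) ^ 5 *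 (1 - r) + 1376445312 / 78125 * (r - 1 / 2) ^ 6 := by
    ring
  rw [e]
  positivity

theorem Ev_mm_b1 (r s : ℝ) (h1 : 1 / 2 ≤ r) (h2 : r ≤ 1) (h3 : 0 ≤ s) (h4 : s ≤ 5 / 14) :
    0 ≤ Ev r s (-r) (-s) := by
  have hU : 0 ≤ s := by linarith
  have hV : 0 ≤ 5 / 14 - s := by linarith
  have e : Ev r s (-r) (-s) = (33882912 / 78125 + (-58353904 / 78125) * r + 15059072 / 15625 * r ^ 3) * ((5 / 14 - s) ^ 6) + (182456792 / 78125 + (-347434304 / 78125) * r + 1747928 / 3125 * r ^ 2 + 86993032 / 15625 * r ^ 3 + (-1075648 / 3125) * r ^ 4) * (s * (5 / 14 - s) ^ 5) + (80808056 / 15625 + (-169251292 / 15625) * r + 7836864 / 3125 * r ^ 2 + 40788188 / 3125 * r ^ 3 + (-998816 / 625) * r ^ 4) * (s ^ 2 * (5 / 14 - s) ^ 4) + (94536288 / 15625 + (-215980926 / 15625) * r + 13501166 / 3125 * r ^ 2 + 50034096 / 3125 * r ^ 3 + (-354662 / 125) * r ^ 4 +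 (-6174 / 125) * r ^ 5) * (s ^ 3 * (5 / 14 - s) ^ 3) + (62025376 / 15625 + (-152486922 / 15625) * r + 11010594 / 3125 * r ^ 2 + 34308183 / 3125 * r ^ 3 + (-301154 / 125) * r ^ 4 + (-19992 / 125) * r ^ 5 + 294 / 25 * r ^ 6) * (s ^ 4 * (5 / 14 - s) ^ 2) + (109384072 / 78125 + (-283133074 / 78125) * r + 4125506 / 3125 * r ^ 2 + 127249969 / 31250 * r ^ 3 + (-613851 / 625) * r ^ 4 + (-21462 / 125) * r ^ 5 + 588 / 25 * r ^ 6) * (s ^ 5 * (5 / 14 - s)) + (16472232 / 78125 + (-43427034 / 78125) * r + 527142 / 3125 * r ^ 2 + 20495139 / 31250 * r ^ 3 + (-967671 / 6250) * r ^ 4 + (-7644 / 125) * r ^ 5 + 294 / 25 * r ^ 6) * (s ^ 6) := by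
    unfold Ev
    ring
  rw [e]
  have c0 := Ev_mm_b1_c0 r h1 h2
  have c1 := Ev_mm_b1_c1 r h1 h2
  have c2 := Ev_mm_b1_c2 r h1 h2
  have c3 := Ev_mm_b1_c3 r h1 h2
  have c4 := Ev_mm_b1_c4 r h1 h2
  have c5 := Ev_mm_b1_c5 r h1 h2
  have c6 := Ev_mm_b1_c6 r h1 h2
  positivity

theorem Ev_mm_b2_c0 (r : ℝ) (h1 : 1 / 2 ≤ r) (h2 : r ≤ 3 / 4) :
    0 ≤ 16472232 / 78125 + (-43427034 / 78125) * r + 527142 / 3125 * r ^ 2 + 20495139 / 31250 * r ^ 3 + (-967671 / 6250) * r ^ 4 + (-7644 / 125) * r ^ 5 + 294 / 25 * r ^ 6 := by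
  have hU : 0 ≤ r - 1 / 2 := by linarith
  have hV : 0 ≤ 3 / 4 - r := by linarith
  have e : 16472232 / 78125 + (-43427034 / 78125) * r + 527142 / 3125 * r ^ 2 + 20495139 / 31250 * r ^ 3 + (-967671 / 6250) * r ^ 4 + (-7644 / 125) * r ^ 5 + 294 / 25 * r ^ 6 = 2922208512 / 15625 * (3 / 4 - r) ^ 6 + 88496980224 / 78125 * (r - 1 / 2) * (3 / 4 - r) ^ 5 + 48083036832 / 15625 * (r - 1 / 2) ^ 2 * (3 / 4 - r) ^ 4 + 74005066848 / 15625 * (r - 1 / 2) ^ 3 * (3 / 4 - r) ^ 3 + 13322382096 / 3125 * (r - 1 / 2) ^ 4 * (3 / 4 - r) ^ 2 + 32575421592 / 15625 * (r - 1 / 2) ^ 5 * (3 / 4 - r) + 33314562054 / 78125 * (r - 1 / 2) ^ 6 := by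
    ring
  rw [e]
  positivity

theorem Ev_mm_b2_c1 (r : ℝ) (h1 : 1 / 2 ≤ r) (h2 : r ≤ 3 / 4) :
    0 ≤ 88282712 / 78125 + (-237991334 / 78125) * r + 2200198 / 3125 * r ^ 2 + 118691699 / 31250 * r ^ 3 + (-2736771 / 3125) * r ^ 4 + (-70266 / 125) * r ^ 5 + 588 / 5 * r ^ 6 := by
  have hU : 0 ≤ r - 1 / 2 := by linarith
  have hV : 0 ≤ 3 / 4 - r := by linarith
  have e : 88282712 / 78125 + (-237991334 / 78125) * r + 2200198 / 3125 * r ^ 2 + 118691699 / 31250 * r ^ 3 + (-2736771 / 3125) * r ^ 4 + (-70266 / 125) * r ^ 5 + 588 / 5 * r ^ 6 = 11980313088 / 15625 * (3 / 4 - r) ^ 6 + 352599528704 / 78125 * (r - 1 / 2) * (3 / 4 - r) ^ 5 + 190875651712 / 15625 * (r - 1 / 2) ^ 2 * (3 / 4 - r) ^ 4 + 298845092128 / 15625 * (r - 1 / 2) ^ 3 * (3 / 4 - r) ^ 3 + 55263141104 / 3125 * (r - 1 / 2) ^ 4 * (3 / 4 - r) ^ 2 + 138868008328 / 15625 * (r -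 1 / 2) ^ 5 * (3 / 4 - r) + 145315866884 / 78125 * (r - 1 / 2) ^ 6 := by
    ring
  rw [e]
  positivity

theorem Ev_mm_b2_c2 (r : ℝ) (h1 : 1 / 2 ≤ r) (h2 : r ≤ 3 / 4) :
    0 ≤ 40924016 / 15625 + (-107345182 / 15625) * r + 1384054 / 3125 * r ^ 2 + 30029048 / 3125 * r ^ 3 + (-1173286 / 625) * r ^ 4 + (-264012 / 125) * r ^ 5 + 12054 / 25 * r ^ 6 := by
  have hU : 0 ≤ r - 1 / 2 := by linarith
  have hV : 0 ≤ 3 / 4 - r := by linarith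
  have e : 40924016 / 15625 + (-107345182 / 15625) * r + 1384054 / 3125 * r ^ 2 + 30029048 / 3125 * r ^ 3 + (-1173286 / 625) * r ^ 4 + (-264012 / 125) * r ^ 5 + 12054 / 25 * r ^ 6 = 4098298752 / 3125 * (3 / 4 - r) ^ 6 + 111293336192 / 15625 * (r - 1 / 2) * (3 / 4 - r) ^ 5 + 57701142048 / 3125 * (r - 1 / 2) ^ 2 * (3 / 4 - r) ^ 4 + 18107971776 / 625 * (r - 1 / 2) ^ 3 * (3 / 4 - r) ^ 3 + 86257445576 / 3125 * (r - 1 / 2) ^ 4 * (3 / 4 - r) ^ 2 + 44988018824 / 3125 * (r - 1 / 2) ^ 5 * (3 / 4 - r) + 48655826582 / 15625 * (r - 1 / 2) ^ 6 := by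
    ring
  rw [e]
  positivity

theorem Ev_mm_b2_c3 (r : ℝ) (h1 : 1 / 2 ≤ r) (h2 : r ≤ 3 / 4) :
    0 ≤ 53705568 / 15625 + (-128514946 / 15625) * r + (-6093934 / 3125) * r ^ 2 + 43353716 / 3125 * r ^ 3 + (-1201546 / 625) * r ^ 4 + (-518322 / 125) * r ^ 5 + 25872 / 25 * r ^ 6 := by
  have hU : 0 ≤ r - 1 / 2 := by linarith
  have hV : 0 ≤ 3 / 4 - r := by linarith
  have e : 53705568 / 15625 + (-128514946 / 15625) * r + (-6093934 / 3125) * r ^ 2 + 43353716 / 3125 * r ^ 3 + (-1201546 / 625) * r ^ 4 + (-518322 / 125) * r ^ 5 + 25872 / 25 * r ^ 6 = 864632064 / 625 * (3 / 4 - r) ^ 6 + 100364803456 / 15625 * (r - 1 / 2) * (3 / 4 - r) ^ 5 + 44927794176 / 3125 * (r - 1 / 2) ^ 2 * (3 / 4 - r) ^ 4 + 65894576576 / 3125 * (r - 1 / 2) ^ 3 * (3 / 4 - r) ^ 3 + 63578761104 / 3125 * (r - 1 / 2) ^ 4 * (3 / 4 - r) ^ 2 + 34746103448 / 3125 * (r - 1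 / 2) ^ 5 * (3 / 4 - r) + 39435795576 / 15625 * (r - 1 / 2) ^ 6 := by
    ring
  rw [e]
  positivity

theorem Ev_mm_b2_c4 (r : ℝ) (h1 : 1 / 2 ≤ r) (h2 : r ≤ 3 / 4) :
    0 ≤ 42721336 / 15625 + (-87420312 / 15625) * r + (-12442276 / 3125) * r ^ 2 + 37863588 / 3125 * r ^ 3 + (-122692 / 125) * r ^ 4 + (-560364 / 125) * r ^ 5 + 30576 / 25 * r ^ 6 := by
  have hU : 0 ≤ r - 1 / 2 := by linarith
  have hV : 0 ≤ 3 / 4 - r := by linarith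
  have e : 42721336 / 15625 + (-87420312 / 15625) * r + (-12442276 / 3125) * r ^ 2 + 37863588 / 3125 * r ^ 3 + (-122692 / 125) * r ^ 4 + (-560364 / 125) * r ^ 5 + 30576 / 25 * r ^ 6 = 3501439488 / 3125 * (3 / 4 - r) ^ 6 + 70618781952 / 15625 * (r - 1 / 2) * (3 / 4 - r) ^ 5 + 24708109568 / 3125 * (r - 1 / 2) ^ 2 * (3 / 4 - r) ^ 4 + 5604876672 / 625 * (r - 1 / 2) ^ 3 * (3 / 4 - r) ^ 3 + 24160343456 / 3125 * (r - 1 / 2) ^ 4 * (3 / 4 - r) ^ 2 + 2691931536 / 625 * (r - 1 / 2) ^ 5 * (3 / 4 - r) + 16208634592 / 15625 * (r - 1 / 2) ^ 6 := by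
    ring
  rw [e]
  positivity

theorem Ev_mm_b2_c5 (r : ℝ) (h1 : 1 / 2 ≤ r) (h2 : r ≤ 3 / 4) :
    0 ≤ 97529992 / 78125 + (-163988104 / 78125) * r + (-8904672 / 3125) * r ^ 2 + 93568832 / 15625 * r ^ 3 + (-781288 / 3125) * r ^ 4 + (-316344 / 125) * r ^ 5 + 18816 / 25 * r ^ 6 := by
  have hU : 0 ≤ r - 1 / 2 := by linarith
  have hV : 0 ≤ 3 / 4 - r := by linarith
  have e : 97529992 / 78125 + (-163988104 / 78125) * r + (-8904672 / 3125) * r ^ 2 + 93568832 / 15625 * r ^ 3 + (-781288 / 3125) * r ^ 4 + (-316344 / 125) * r ^ 5 + 18816 / 25 * r ^ 6 = 9733450752 / 15625 * (3 / 4 - r) ^ 6 + 193444729344 / 78125 * (r - 1 / 2) * (3 / 4 - r) ^ 5 + 60643986432 / 15625 * (r - 1 / 2) ^ 2 * (3 / 4 - r) ^ 4 + 51398603008 / 15625 * (r - 1 / 2) ^ 3 * (3 / 4 - r) ^ 3 + 1211238592 / 625 * (r - 1 / 2) ^ 4 * (3 / 4 - r) ^ 2 + 13880989472 / 15625 *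 (r - 1 / 2) ^ 5 * (3 / 4 - r) + 16609481824 / 78125 * (r - 1 / 2) ^ 6 := by
    ring
  rw [e]
  positivity

theorem Ev_mm_b2_c6 (r : ℝ) (h1 : 1 / 2 ≤ r) (h2 : r ≤ 3 / 4) :
    0 ≤ 19641552 / 78125 + (-27299664 / 78125) * r + (-2267328 / 3125) * r ^ 2 + 19972512 / 15625 * r ^ 3 + (-103536 / 3125) * r ^ 4 + (-72912 / 125) * r ^ 5 + 4704 / 25 * r ^ 6 := by
  have hU : 0 ≤ r - 1 / 2 := by linarith
  have hV : 0 ≤ 3 / 4 - r := by linarith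
  have e : 19641552 / 78125 + (-27299664 / 78125) * r + (-2267328 / 3125) * r ^ 2 + 19972512 / 15625 * r ^ 3 + (-103536 / 3125) * r ^ 4 + (-72912 / 125) * r ^ 5 + 4704 / 25 * r ^ 6 = 2414665728 / 15625 * (3 / 4 - r) ^ 6 + 50050704384 / 78125 * (r - 1 / 2) * (3 / 4 - r) ^ 5 + 16188314112 / 15625 * (r - 1 / 2) ^ 2 * (3 / 4 - r) ^ 4 + 13169299968 / 15625 * (r - 1 / 2) ^ 3 * (3 / 4 - r) ^ 3 + 242519808 / 625 * (r - 1 / 2) ^ 4 * (3 / 4 - r) ^ 2 + 1807460928 / 15625 * (r - 1 / 2) ^ 5 * (3 / 4 - r) + 1619333664 / 78125 * (r - 1 / 2) ^ 6 := by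
    ring
  rw [e]
  positivity

theorem Ev_mm_b2 (r s : ℝ) (h1 : 1 / 2 ≤ r) (h2 : r ≤ 3 / 4) (h3 : 5 / 14 ≤ s) (h4 : s ≤ 5 / 7) :
    0 ≤ Ev r s (-r) (-s) := by
  have hU : 0 ≤ s - 5 / 14 := by linarith
  have hV : 0 ≤ 5 / 7 - s := by linarith
  have e : Ev r s (-r) (-s) = (16472232 / 78125 + (-43427034 / 78125) * r + 527142 / 3125 * r ^ 2 + 20495139 / 31250 * r ^ 3 + (-967671 / 6250) * r ^ 4 + (-7644 / 125) * r ^ 5 + 294 / 25 * r ^ 6) * ((5 / 7 - s) ^ 6) + (88282712 / 78125 + (-237991334 / 78125) * r + 2200198 / 3125 * r ^ 2 + 118691699 / 31250 * r ^ 3 + (-2736771 / 3125) * r ^ 4 + (-70266 / 125) * r ^ 5 + 588 / 5 * r ^ 6) * ((s - 5 / 14) * (5 / 7 - s) ^ 5) + (40924016 / 15625 + (-107345182 / 15625) * r + 1384054 / 3125 * r ^ 2 + 30029048 / 3125 * r ^ 3 + (-1173286 / 625) * r ^ 4 + (-264012 / 125) * r ^ 5 + 12054 / 25 * r ^ 6)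 * ((s - 5 / 14) ^ 2 * (5 / 7 - s) ^ 4) + (53705568 / 15625 + (-128514946 / 15625) * r + (-6093934 / 3125) * r ^ 2 + 43353716 / 3125 * r ^ 3 + (-1201546 / 625) * r ^ 4 + (-518322 / 125) * r ^ 5 + 25872 / 25 * r ^ 6) * ((s - 5 / 14) ^ 3 * (5 / 7 - s) ^ 3) + (42721336 / 15625 + (-87420312 / 15625) * r + (-12442276 / 3125) * r ^ 2 + 37863588 / 3125 * r ^ 3 + (-122692 / 125) * r ^ 4 + (-560364 / 125) * r ^ 5 + 30576 / 25 * r ^ 6) * ((s - 5 / 14) ^ 4 * (5 / 7 - s) ^ 2) + (97529992 / 78125 + (-163988104 / 78125) * r + (-8904672 / 3125) * r ^ 2 + 93568832 / 15625 * r ^ 3 + (-781288 / 3125) * r ^ 4 + (-316344 / 125) * r ^ 5 + 18816 / 25 * r ^ 6) * ((s - 5 / 14) ^ 5 * (5 / 7 - s)) + (19641552 / 78125 + (-27299664 / 78125) * r + (-2267328 / 3125) * r ^ 2 + 19972512 / 15625 * r ^ 3 + (-103536 / 3125) * r ^ 4 + (-72912 / 125) * r ^ 5 + 4704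 / 25 * r ^ 6) * ((s - 5 / 14) ^ 6) := by
    unfold Ev
    ring
  rw [e]
  have c0 := Ev_mm_b2_c0 r h1 h2
  have c1 := Ev_mm_b2_c1 r h1 h2
  have c2 := Ev_mm_b2_c2 r h1 h2
  have c3 := Ev_mm_b2_c3 r h1 h2
  have c4 := Ev_mm_b2_c4 r h1 h2
  have c5 := Ev_mm_b2_c5 r h1 h2
  have c6 := Ev_mm_b2_c6 r h1 h2
  positivity

theorem Ev_mm_b3_c0 (r : ℝ) (h1 : 3 / 4 ≤ r) (h2 : r ≤ 1) :
    0 ≤ 16472232 / 78125 + (-43427034 / 78125) * r + 527142 / 3125 * r ^ 2 + 20495139 / 31250 * r ^ 3 + (-967671 / 6250) * r ^ 4 + (-7644 / 125) * r ^ 5 + 294 / 25 * r ^ 6 := by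
  have hU : 0 ≤ r - 3 / 4 := by linarith
  have hV : 0 ≤ 1 - r := by linarith
  have e : 16472232 / 78125 + (-43427034 / 78125) * r + 527142 / 3125 * r ^ 2 + 20495139 / 31250 * r ^ 3 + (-967671 / 6250) * r ^ 4 + (-7644 / 125) * r ^ 5 + 294 / 25 * r ^ 6 = 33314562054 / 78125 * (1 - r) ^ 6 + 236897636688 / 78125 * (r - 3 / 4) * (1 - r) ^ 5 + 140632439208 / 15625 * (r - 3 / 4) ^ 2 * (1 - r) ^ 4 + 44387867808 / 3125 * (r - 3 / 4) ^ 3 * (1 - r) ^ 3 + 195803738496 / 15625 * (r - 3 / 4) ^ 4 * (1 - r) ^ 2 + 456992699904 / 78125 * (r - 3 / 4) ^ 5 * (1 - r) + 88092499968 / 78125 * (r - 3 / 4) ^ 6 := by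
    ring
  rw [e]
  positivity

theorem Ev_mm_b3_c1 (r : ℝ) (h1 : 3 / 4 ≤ r) (h2 : r ≤ 1) :
    0 ≤ 88282712 / 78125 + (-237991334 / 78125) * r + 2200198 / 3125 * r ^ 2 + 118691699 / 31250 * r ^ 3 + (-2736771 / 3125) * r ^ 4 + (-70266 / 125) * r ^ 5 + 588 / 5 * r ^ 6 := by
  have hU : 0 ≤ r - 3 / 4 := by linarith
  have hV : 0 ≤ 1 - r := by linarith
  have e : 88282712 / 78125 + (-237991334 / 78125) * r + 2200198 / 3125 * r ^ 2 + 118691699 / 31250 * r ^ 3 + (-2736771 / 3125) * r ^ 4 + (-70266 / 125) * r ^ 5 + 588 / 5 * r ^ 6 = 145315866884 / 78125 * (1 - r) ^ 6 + 1049450360968 / 78125 * (r - 3 / 4) * (1 - r) ^ 5 + 631426024848 / 15625 * (r - 3 / 4) ^ 2 * (1 - r) ^ 4 + 40282718368 / 625 * (r - 3 / 4) ^ 3 * (1 - r) ^ 3 + 895102975616 / 15625 * (r - 3 / 4) ^ 4 * (1 - r) ^ 2 + 2098163971584 / 78125 * (r - 3 / 4) ^ 5 * (1 - r) + 405002446848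 / 78125 * (r - 3 / 4) ^ 6 := by
    ring
  rw [e]
  positivity

theorem Ev_mm_b3_c2 (r : ℝ) (h1 : 3 / 4 ≤ r) (h2 : r ≤ 1) :
    0 ≤ 40924016 / 15625 + (-107345182 / 15625) * r + 1384054 / 3125 * r ^ 2 + 30029048 / 3125 * r ^ 3 + (-1173286 / 625) * r ^ 4 + (-264012 / 125) * r ^ 5 + 12054 / 25 * r ^ 6 := by
  have hU : 0 ≤ r - 3 / 4 := by linarith
  have hV : 0 ≤ 1 - r := by linarith
  have e : 40924016 / 15625 + (-107345182 / 15625) * r + 1384054 / 3125 * r ^ 2 + 30029048 / 3125 * r ^ 3 + (-1173286 / 625) * r ^ 4 + (-264012 / 125) * r ^ 5 + 12054 / 25 * r ^ 6 = 48655826582 / 15625 * (1 - r) ^ 6 + 358929824864 / 15625 * (r - 3 / 4) * (1 - r) ^ 5 + 44049435264 / 625 * (r - 3 / 4) ^ 2 * (1 - r) ^ 4 + 356985403392 / 3125 * (r - 3 / 4) ^ 3 * (1 - r) ^ 3 + 321078852608 / 3125 * (r - 3 / 4) ^ 4 * (1 - r) ^ 2 + 758240438272 / 15625 * (r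 - 3 / 4) ^ 5 * (1 - r) + 146818842624 / 15625 * (r - 3 / 4) ^ 6 := by
    ring
  rw [e]
  positivity

theorem Ev_mm_b3_c3 (r : ℝ) (h1 : 3 / 4 ≤ r) (h2 : r ≤ 1) :
    0 ≤ 53705568 / 15625 + (-128514946 / 15625) * r + (-6093934 / 3125) * r ^ 2 + 43353716 / 3125 * r ^ 3 + (-1201546 / 625) * r ^ 4 + (-518322 / 125) * r ^ 5 + 25872 / 25 * r ^ 6 := by
  have hU : 0 ≤ r - 3 / 4 := by linarith
  have hV : 0 ≤ 1 - r := by linarith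
  have e : 53705568 / 15625 + (-128514946 / 15625) * r + (-6093934 / 3125) * r ^ 2 + 43353716 / 3125 * r ^ 3 + (-1201546 / 625) * r ^ 4 + (-518322 / 125) * r ^ 5 + 25872 / 25 * r ^ 6 = 39435795576 / 15625 * (1 - r) ^ 6 + 299499029672 / 15625 * (r - 3 / 4) * (1 - r) ^ 5 + 189347273536 / 3125 * (r - 3 / 4) ^ 2 * (1 - r) ^ 4 + 314836832768 / 3125 * (r - 3 / 4) ^ 3 * (1 - r) ^ 3 + 288680513024 / 3125 * (r - 3 / 4) ^ 4 * (1 - r) ^ 2 + 690349633536 / 15625 * (r - 3 / 4) ^ 5 * (1 - r) + 134474268672 / 15625 * (r - 3 / 4) ^ 6 := by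
    ring
  rw [e]
  positivity

theorem Ev_mm_b3_c4 (r : ℝ) (h1 : 3 / 4 ≤ r) (h2 : r ≤ 1) :
    0 ≤ 42721336 / 15625 + (-87420312 / 15625) * r + (-12442276 / 3125) * r ^ 2 + 37863588 / 3125 * r ^ 3 + (-122692 / 125) * r ^ 4 + (-560364 / 125) * r ^ 5 + 30576 / 25 * r ^ 6 := by
  have hU : 0 ≤ r - 3 / 4 := by linarith
  have hV : 0 ≤ 1 - r := by linarith
  have e : 42721336 / 15625 + (-87420312 / 15625) * r + (-12442276 / 3125) * r ^ 2 + 37863588 / 3125 * r ^ 3 + (-122692 / 125) * r ^ 4 + (-560364 / 125) * r ^ 5 + 30576 / 25 * r ^ 6 = 16208634592 / 15625 * (1 - r) ^ 6 + 127205326704 / 15625 * (r - 3 / 4) * (1 - r) ^ 5 + 16813476352 / 625 * (r - 3 / 4) ^ 2 * (1 - r) ^ 4 + 145548364032 / 3125 * (r - 3 / 4) ^ 3 * (1 - r) ^ 3 + 137651898368 / 3125 * (r - 3 / 4) ^ 4 * (1 - r) ^ 2 + 335930130432 / 15625 * (r - 3 / 4) ^ 5 * (1 - r) + 66091352064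 / 15625 * (r - 3 / 4) ^ 6 := by
    ring
  rw [e]
  positivity

theorem Ev_mm_b3_c5 (r : ℝ) (h1 : 3 / 4 ≤ r) (h2 : r ≤ 1) :
    0 ≤ 97529992 / 78125 + (-163988104 / 78125) * r + (-8904672 / 3125) * r ^ 2 + 93568832 / 15625 * r ^ 3 + (-781288 / 3125) * r ^ 4 + (-316344 / 125) * r ^ 5 + 18816 / 25 * r ^ 6 := by
  have hU : 0 ≤ r - 3 / 4 := by linarith
  have hV : 0 ≤ 1 - r := by linarith
  have e : 97529992 / 78125 + (-163988104 / 78125) * r + (-8904672 / 3125) * r ^ 2 + 93568832 / 15625 * r ^ 3 + (-781288 / 3125) * r ^ 4 + (-316344 / 125) * r ^ 5 + 18816 / 25 * r ^ 6 = 16609481824 / 78125 * (1 - r) ^ 6 + 129908834528 / 78125 * (r - 3 / 4) * (1 - r) ^ 5 + 90784851968 / 15625 * (r - 3 / 4) ^ 2 * (1 - r) ^ 4 + 33422590976 / 3125 * (r - 3 / 4) ^ 3 * (1 - r) ^ 3 + 165771493376 / 15625 * (r - 3 / 4) ^ 4 * (1 - r) ^ 2 + 417097908224 /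 78125 * (r - 3 / 4) ^ 5 * (1 - r) + 83239108608 / 78125 * (r - 3 / 4) ^ 6 := by
    ring
  rw [e]
  positivity

theorem Ev_mm_b3_c6 (r : ℝ) (h1 : 3 / 4 ≤ r) (h2 : r ≤ 1) :
    0 ≤ 19641552 / 78125 + (-27299664 / 78125) * r + (-2267328 / 3125) * r ^ 2 + 19972512 / 15625 * r ^ 3 + (-103536 / 3125) * r ^ 4 + (-72912 / 125) * r ^ 5 + 4704 / 25 * r ^ 6 := by
  have hU : 0 ≤ r - 3 / 4 := by linarith
  have hV : 0 ≤ 1 - r := by linarith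
  have e : 19641552 / 78125 + (-27299664 / 78125) * r + (-2267328 / 3125) * r ^ 2 + 19972512 / 15625 * r ^ 3 + (-103536 / 3125) * r ^ 4 + (-72912 / 125) * r ^ 5 + 4704 / 25 * r ^ 6 = 1619333664 / 78125 * (1 - r) ^ 6 + 10394699328 / 78125 * (r - 3 / 4) * (1 - r) ^ 5 + 7420389888 / 15625 * (r - 3 / 4) ^ 2 * (1 - r) ^ 4 + 2970980352 / 3125 * (r - 3 / 4) ^ 3 * (1 - r) ^ 3 + 15815540736 / 15625 * (r - 3 / 4) ^ 4 * (1 - r) ^ 2 + 41564504064 / 78125 * (r - 3 / 4) ^ 5 * (1 - r) + 8449425408 / 78125 * (r - 3 / 4) ^ 6 := by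
    ring
  rw [e]
  positivity

theorem Ev_mm_b3 (r s : ℝ) (h1 : 3 / 4 ≤ r) (h2 : r ≤ 1) (h3 : 5 / 14 ≤ s) (h4 : s ≤ 5 / 7) :
    0 ≤ Ev r s (-r) (-s) := by
  have hU : 0 ≤ s - 5 / 14 := by linarith
  have hV : 0 ≤ 5 / 7 - s := by linarith
  have e : Ev r s (-r) (-s) = (16472232 / 78125 + (-43427034 / 78125) * r + 527142 / 3125 * r ^ 2 + 20495139 / 31250 * r ^ 3 + (-967671 / 6250) * r ^ 4 + (-7644 / 125) * r ^ 5 + 294 / 25 * r ^ 6) * ((5 / 7 - s) ^ 6) + (88282712 / 78125 + (-237991334 / 78125) * r + 2200198 / 3125 * r ^ 2 + 118691699 / 31250 * r ^ 3 + (-2736771 / 3125) * r ^ 4 + (-70266 / 125) * r ^ 5 + 588 / 5 * r ^ 6) * ((s - 5 / 14) * (5 / 7 - s) ^ 5) + (40924016 / 15625 + (-107345182 / 15625) * r + 1384054 / 3125 * r ^ 2 + 30029048 / 3125 * r ^ 3 + (-1173286 / 625) * r ^ 4 + (-264012 / 125) * r ^ 5 + 12054 / 25 * r ^ 6) *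 ((s - 5 / 14) ^ 2 * (5 / 7 - s) ^ 4) + (53705568 / 15625 + (-128514946 / 15625) * r + (-6093934 / 3125) * r ^ 2 + 43353716 / 3125 * r ^ 3 + (-1201546 / 625) * r ^ 4 + (-518322 / 125) * r ^ 5 + 25872 / 25 * r ^ 6) * ((s - 5 / 14) ^ 3 * (5 / 7 - s) ^ 3) + (42721336 / 15625 + (-87420312 / 15625) * r + (-12442276 / 3125) * r ^ 2 + 37863588 / 3125 * r ^ 3 + (-122692 / 125) * r ^ 4 + (-560364 / 125) * r ^ 5 + 30576 / 25 * r ^ 6) * ((s - 5 / 14) ^ 4 * (5 / 7 - s) ^ 2) + (97529992 / 78125 + (-163988104 / 78125) * r + (-8904672 / 3125) * r ^ 2 + 93568832 / 15625 * r ^ 3 + (-781288 / 3125) * r ^ 4 + (-316344 / 125) * r ^ 5 + 18816 / 25 * r ^ 6) * ((s - 5 / 14) ^ 5 * (5 / 7 - s)) + (19641552 / 78125 + (-27299664 / 78125) * r + (-2267328 / 3125) * r ^ 2 + 19972512 / 15625 * r ^ 3 + (-103536 / 3125) * r ^ 4 + (-72912 / 125) * r ^ 5 + 4704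 / 25 * r ^ 6) * ((s - 5 / 14) ^ 6) := by
    unfold Ev
    ring
  rw [e]
  have c0 := Ev_mm_b3_c0 r h1 h2
  have c1 := Ev_mm_b3_c1 r h1 h2
  have c2 := Ev_mm_b3_c2 r h1 h2
  have c3 := Ev_mm_b3_c3 r h1 h2
  have c4 := Ev_mm_b3_c4 r h1 h2
  have c5 := Ev_mm_b3_c5 r h1 h2
  have c6 := Ev_mm_b3_c6 r h1 h2
  positivity

theorem Ev_mm (r s : ℝ) (h1 : 0 ≤ r) (h2 : r ≤ 1) (h3 : 0 ≤ s) (h4 : s ≤ 5 / 7) :
    0 ≤ Ev r s (-r) (-s) := by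
  rcases le_total r (1 / 2) with k2 | k2
  · 
    exact Ev_mm_b0 r s h1 k2 h3 h4
  · 
    rcases le_total s (5 / 14) with k4 | k4
    · 
      exact Ev_mm_b1 r s k2 h2 h3 k4
    · 
      rcases le_total r (3 / 4) with k6 | k6
      · 
        exact Ev_mm_b2 r s k2 k6 k4 h4
      · 
        exact Ev_mm_b3 r s k6 h2 k4 h4

end Vale.Agent.P154
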