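import Vale.Agent.P154.Gen.Alg2
import Vale.Agent.P154.Gen.UpPoly

/-!
# P154 (all d): the upper bound for the rotation sum, abstract form

Variables: `al = r^2`, `be = s^2`, `A`, `B`, `U`, `t = DF al be U`.  Put `Q = 1 - al`, `Qw = 1 - be`.
`NXq al A be B t` is `Q Qw` times the numerator of
`- al be / 10 - p03 be (A - al^2)/Q - p03 al (B - be^2)/Qw - NumF / DF`   (see `NXq_eq`).
* `NXq` is affine in `t`, and for fixed `t` affine in `(A, B)` (no product `A B`).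
* `NXq_zero`: at `t = 0` it equals `Q Qw (2 be Qw (A - al^2) + 2 al Q (B - be^2) + Q Qw (1 - 3 al be))` and
  `2 (A - al^2) ≥ Q (2 al - 1)` by `hP`, the same for `B`; the bracket is then `≥ Q Qw (be (2 al - 1) + al (2 be - 1) + 1 - 3 al be) = (Q Qw)^2`.
* `NXq_vertex`: polynomial identity (`rcases` on the two signs, `subst`, `unfold NXq p03 Ev`, `ring`).




-/

namespace Vale.Agent.P154

noncomputable def NXq (al A be B t : ℝ) : ℝ :=
  t * ((9 / 10 * al * be - (1 - al) * (1 - be)) * ((1 - al) * (1 - be))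
        - p03 be * (A - al ^ 2) * (1 - be) - p03 al * (B - be ^ 2) * (1 - al))
    + (1 - al) * (1 - be) * (2 * be * (1 - be) * (A - al ^ 2) + 2 * al * (1 - al) * (B - be ^ 2)
        + (1 - al) * (1 - be) * (1 - 3 * al * be))

theorem aff_nonneg (c0 c1 x lo hi : ℝ) (hlo : lo ≤ x) (hhi : x ≤ hi) (h1 : 0 ≤ c0 + c1 * lo)
    (h2 : 0 ≤ c0 + c1 * hi) : 0 ≤ c0 + c1 * x := by
  rcases le_total 0 c1 with hc | hc
  · have h3 : c1 * lo ≤ c1 * x := mul_le_mul_of_nonneg_left hlo hc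
    linarith
  · have h3 : c1 * hi ≤ c1 * x := mul_le_mul_of_nonpos_left hhi hc
    linarith

theorem NXq_zero (al A be B : ℝ) (ha0 : 0 ≤ al) (ha1 : al ≤ 1) (hb0 : 0 ≤ be) (hb1 : be ≤ 1)
    (hP : 0 ≤ 1 - 3 * al + 2 * A) (hPw : 0 ≤ 1 - 3 * be + 2 * B) : 0 ≤ NXq al A be B 0 := by
  have hQ : 0 ≤ 1 - al := by linarith
  have hQw : 0 ≤ 1 - be := by linarith
  have hQQ : 0 ≤ (1 - al) * (1 - be) := mul_nonneg hQ hQw
  have e : NXq al A be B 0 = (1 - al) * (1 - be) *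
      (be * (1 - be) * (1 - 3 * al + 2 * A) + al * (1 - al) * (1 - 3 * be + 2 * B)
        + ((1 - al) * (1 - be)) ^ 2) := by
    unfold NXq
    ring
  rw [e]
  have h1 : 0 ≤ be * (1 - be) * (1 - 3 * al + 2 * A) := mul_nonneg (mul_nonneg hb0 hQw) hP
  have h2 : 0 ≤ al * (1 - al) * (1 - 3 * be + 2 * B) := mul_nonneg (mul_nonneg ha0 hQ) hPw
  have h3 : 0 ≤ ((1 - al) * (1 - be)) ^ 2 := sq_nonneg _
  exact mul_nonneg hQQ (by linarith)

theorem NXq_vertex (r s R S : ℝ) (hR : R = r ∨ R = -r) (hS : S = s ∨ S = -s) :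
    NXq (r ^ 2) (R ^ 3) (s ^ 2) (S ^ 3) (1 - 3 * r ^ 2 * s ^ 2 + 2 * r ^ 3 * s ^ 3)
      = (1 - R) * (1 - S) * r ^ 2 * s ^ 2 * Ev r s R S := by
  rcases hR with rfl | rfl <;> rcases hS with rfl | rfl <;> unfold NXq p03 Ev <;> ring

theorem NXq_eq (al A be B U : ℝ) (ha : al ≠ 1) (hb : be ≠ 1) :
    NXq al A be B (DF al be U) = (1 - al) * (1 - be) *
      (-NumF al be A B U - (1 / 10 * al * be + p03 be * ((A - al ^ 2) / (1 - al))
        + p03 al * ((B - be ^ 2) / (1 - be))) * DF al be U) := by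
  have ha' : 1 - al ≠ 0 := sub_ne_zero.2 (Ne.symm ha)
  have hb' : 1 - be ≠ 0 := sub_ne_zero.2 (Ne.symm hb)
  have e1 : (1 - al) * ((A - al ^ 2) / (1 - al)) = A - al ^ 2 := by
    field_simp
  have e2 : (1 - be) * ((B - be ^ 2) / (1 - be)) = B - be ^ 2 := by
    field_simp
  have e : (1 - al) * (1 - be) *
      (-NumF al be A B U - (1 / 10 * al * be + p03 be * ((A - al ^ 2) / (1 - al))
        + p03 al * ((B - be ^ 2) / (1 - be))) * DF al be U)
      = (1 - al) * (1 - be) * (-NumF al be A B U - 1 / 10 * al * be * DF al be U)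
        - p03 be * (1 - be) * ((1 - al) * ((A - al ^ 2) / (1 - al))) * DF al be U
        - p03 al * (1 - al) * ((1 - be) * ((B - be ^ 2) / (1 - be))) * DF al be U := by
    ring
  rw [e, e1, e2]
  unfold NXq NumF DF
  ring

end Vale.Agent.P154
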