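import Vale.Agent.P154.Gen.UpKey

/-!
# P154 (all d): the upper bound for the rotation sum, abstract form (second half)

See the header of `UpKey`.
* `NXq_tmax`: use `aff_nonneg` twice (first in `A`, then in `B`): write `NXq .. = c0 + c1 * A` by `unfold NXq; ring`.  The four vertex values are
  `≥ 0` by `NXq_vertex` and `Ev_pp`, `Ev_pm`, `Ev_mp`, `Ev_mm`  (note `(-r)^3 = -r^3`, `1 - R ≥ 0`, `1 - S ≥ 0`).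
* `NXq_nonneg`: affine in `t` on `[0, tmax]` (`aff_nonneg`, `NXq_zero`, `NXq_tmax`).
* `up_key`: `t = DF (r^2) (s^2) U` satisfies `0 < t ≤ tmax` (by `hU`, unfold `DF`); `NXq_eq` and `NXq_nonneg` give
  `0 ≤ Q Qw (-NumF - c t)`, `Q Qw > 0`, so `NumF ≤ -c t`; divide by `t` (`div_le_iff₀`).
-/

namespace Vale.Agent.P154

theorem NXq_affA (al A be B t : ℝ) :
    NXq al A be B t = NXq al 0 be B t
      + (-(t * p03 be * (1 - be)) + (1 - al) * (1 - be) * (2 * be * (1 - be))) * A := by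
  unfold NXq
  ring

theorem NXq_affB (al A be B t : ℝ) :
    NXq al A be B t = NXq al A be 0 t
      + (-(t * p03 al * (1 - al)) + (1 - al) * (1 - be) * (2 * al * (1 - al))) * B := by
  unfold NXq
  ring

theorem NXq_afft (al A be B t : ℝ) :
    NXq al A be B t = NXq al A be B 0
      + ((9 / 10 * al * be - (1 - al) * (1 - be)) * ((1 - al) * (1 - be))
        - p03 be * (A - al ^ 2) * (1 - be) - p03 al * (B - be ^ 2) * (1 - al)) * t := by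
  unfold NXq
  ring

theorem NXq_stepA (al A be B t lo hi : ℝ) (h1 : lo ≤ A) (h2 : A ≤ hi)
    (k1 : 0 ≤ NXq al lo be B t) (k2 : 0 ≤ NXq al hi be B t) : 0 ≤ NXq al A be B t := by
  rw [NXq_affA] at k1 k2 ⊢
  exact aff_nonneg _ _ A lo hi h1 h2 k1 k2

theorem NXq_stepB (al A be B t lo hi : ℝ) (h1 : lo ≤ B) (h2 : B ≤ hi)
    (k1 : 0 ≤ NXq al A be lo t) (k2 : 0 ≤ NXq al A be hi t) : 0 ≤ NXq al A be B t := by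
  rw [NXq_affB] at k1 k2 ⊢
  exact aff_nonneg _ _ B lo hi h1 h2 k1 k2

theorem NXq_tmax (r s A B : ℝ) (hr0 : 0 ≤ r) (hr1 : r ≤ 1) (hs0 : 0 ≤ s) (hs1 : s ≤ 5 / 7)
    (hA1 : -r ^ 3 ≤ A) (hA2 : A ≤ r ^ 3) (hB1 : -s ^ 3 ≤ B) (hB2 : B ≤ s ^ 3) :
    0 ≤ NXq (r ^ 2) A (s ^ 2) B (1 - 3 * r ^ 2 * s ^ 2 + 2 * r ^ 3 * s ^ 3) := by
  have hr2 : 0 ≤ r ^ 2 := sq_nonneg r
  have hs2 : 0 ≤ s ^ 2 := sq_nonneg s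
  have a1 : (0:ℝ) ≤ 1 - r := by linarith
  have a2 : (0:ℝ) ≤ 1 - -r := by linarith
  have b1 : (0:ℝ) ≤ 1 - s := by linarith
  have b2 : (0:ℝ) ≤ 1 - -s := by linarith
  have vpp : 0 ≤ NXq (r ^ 2) (r ^ 3) (s ^ 2) (s ^ 3) (1 - 3 * r ^ 2 * s ^ 2 + 2 * r ^ 3 * s ^ 3) := by
    rw [NXq_vertex r s r s (Or.inl rfl) (Or.inl rfl)]
    have := Ev_pp r s hr0 hr1 hs0 hs1
    positivity
  have vpm : 0 ≤ NXq (r ^ 2) (r ^ 3) (s ^ 2) (-s ^ 3) (1 - 3 * r ^ 2 * s ^ 2 + 2 * r ^ 3 * s ^ 3) := by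
    have e : -s ^ 3 = (-s) ^ 3 := by ring
    rw [e, NXq_vertex r s r (-s) (Or.inl rfl) (Or.inr rfl)]
    have := Ev_pm r s hr0 hr1 hs0 hs1
    positivity
  have vmp : 0 ≤ NXq (r ^ 2) (-r ^ 3) (s ^ 2) (s ^ 3) (1 - 3 * r ^ 2 * s ^ 2 + 2 * r ^ 3 * s ^ 3) := by
    have e : -r ^ 3 = (-r) ^ 3 := by ring
    rw [e, NXq_vertex r s (-r) s (Or.inr rfl) (Or.inl rfl)]
    have := Ev_mp r s hr0 hr1 hs0 hs1
    positivity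
  have vmm : 0 ≤ NXq (r ^ 2) (-r ^ 3) (s ^ 2) (-s ^ 3) (1 - 3 * r ^ 2 * s ^ 2 + 2 * r ^ 3 * s ^ 3) := by
    have e : -r ^ 3 = (-r) ^ 3 := by ring
    have e' : -s ^ 3 = (-s) ^ 3 := by ring
    rw [e, e', NXq_vertex r s (-r) (-s) (Or.inr rfl) (Or.inr rfl)]
    have := Ev_mm r s hr0 hr1 hs0 hs1
    positivity
  exact NXq_stepA _ A _ B _ (-r ^ 3) (r ^ 3) hA1 hA2
    (NXq_stepB _ _ _ B _ (-s ^ 3) (s ^ 3) hB1 hB2 vmm vmp)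
    (NXq_stepB _ _ _ B _ (-s ^ 3) (s ^ 3) hB1 hB2 vpm vpp)

theorem NXq_nonneg (r s A B t : ℝ) (hr0 : 0 ≤ r) (hr1 : r ≤ 1) (hs0 : 0 ≤ s) (hs1 : s ≤ 5 / 7)
    (hA1 : -r ^ 3 ≤ A) (hA2 : A ≤ r ^ 3) (hB1 : -s ^ 3 ≤ B) (hB2 : B ≤ s ^ 3)
    (hP : 0 ≤ 1 - 3 * r ^ 2 + 2 * A) (hPw : 0 ≤ 1 - 3 * s ^ 2 + 2 * B)
    (ht0 : 0 ≤ t) (ht1 : t ≤ 1 - 3 * r ^ 2 * s ^ 2 + 2 * r ^ 3 * s ^ 3) :
    0 ≤ NXq (r ^ 2) A (s ^ 2) B t := by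
  have hr2 : r ^ 2 ≤ 1 := by nlinarith
  have hs2 : s ^ 2 ≤ 1 := by nlinarith
  have k0 := NXq_zero (r ^ 2) A (s ^ 2) B (sq_nonneg r) hr2 (sq_nonneg s) hs2 hP hPw
  have k1 := NXq_tmax r s A B hr0 hr1 hs0 hs1 hA1 hA2 hB1 hB2
  rw [NXq_afft] at k1 ⊢
  refine aff_nonneg _ _ t 0 _ ht0 ht1 ?_ k1
  simpa using k0

theorem up_key (r s A B U : ℝ) (hr0 : 0 ≤ r) (hr1 : r < 1) (hs0 : 0 ≤ s) (hs1 : s ≤ 5 / 7)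
    (hA1 : -r ^ 3 ≤ A) (hA2 : A ≤ r ^ 3) (hB1 : -s ^ 3 ≤ B) (hB2 : B ≤ s ^ 3)
    (hU : U ≤ r ^ 3 * s ^ 3)
    (hP : 0 ≤ 1 - 3 * r ^ 2 + 2 * A) (hPw : 0 ≤ 1 - 3 * s ^ 2 + 2 * B)
    (hD : 0 < DF (r ^ 2) (s ^ 2) U) :
    NumF (r ^ 2) (s ^ 2) A B U / DF (r ^ 2) (s ^ 2) U ≤
      -(1 / 10) * r ^ 2 * s ^ 2 - p03 (s ^ 2) * ((A - (r ^ 2) ^ 2) / (1 - r ^ 2))
        - p03 (r ^ 2) * ((B - (s ^ 2) ^ 2) / (1 - s ^ 2)) := by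
  have hr2 : r ^ 2 < 1 := by nlinarith
  have hs2 : s ^ 2 < 1 := by nlinarith
  have ht1 : DF (r ^ 2) (s ^ 2) U ≤ 1 - 3 * r ^ 2 * s ^ 2 + 2 * r ^ 3 * s ^ 3 := by
    unfold DF
    linarith
  have k := NXq_nonneg r s A B (DF (r ^ 2) (s ^ 2) U) hr0 hr1.le hs0 hs1 hA1 hA2 hB1 hB2 hP hPw
    hD.le ht1
  rw [NXq_eq (r ^ 2) A (s ^ 2) B U hr2.ne hs2.ne] at k
  have hQ : 0 < (1 - r ^ 2) * (1 - s ^ 2) := mul_pos (by linarith) (by linarith)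
  have k2 := nonneg_of_mul_nonneg_right k hQ
  rw [div_le_iff₀ hD]
  linarith

end Vale.Agent.P154
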